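import Vale.Agent.P162.Defs

/-! # Basic facts about the averaging operators `Qop`, the levels `lev` and `Pl` -/

namespace Vale.Agent.P162

open Finset Equiv
open scoped RealInnerProductSpace

noncomputable section

variable {A : Type*} [Fintype A] [DecidableEq A]
variable {H : Type*} [NormedAddCommGroup H] [InnerProductSpace ℝ H]
variable {ρ : Perm A →* (H →ₗ[ℝ] H)}

lemma mem_symF {Z : Finset A} {g : Perm A} : g ∈ symF Z ↔ ∀ x, x ∉ Z → g x = x := by
  simp [symF]

lemma one_mem_symF (Z : Finset A) : (1 : Perm A) ∈ symF Z := by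
  simp [symF]

lemma mul_mem_symF {Z : Finset A} {g h : Perm A} (hg : g ∈ symF Z) (hh : h ∈ symF Z) :
    g * h ∈ symF Z := by
  rw [mem_symF] at *
  intro x hx
  rw [Perm.mul_apply, hh x hx, hg x hx]

lemma inv_mem_symF {Z : Finset A} {g : Perm A} (hg : g ∈ symF Z) : g⁻¹ ∈ symF Z := by
  rw [mem_symF] at *
  intro x hx
  rw [Perm.inv_eq_iff_eq]
  exact (hg x hx).symm

lemma swap_mem_symF {Z : Finset A} {a b : A} (ha : a ∈ Z) (hb : b ∈ Z) : swap a b ∈ symF Z := by
  rw [mem_symF]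
  intro x hx
  apply swap_apply_of_ne_of_ne
  · rintro rfl; exact hx ha
  · rintro rfl; exact hx hb

lemma symF_mono {Z Z' : Finset A} (h : Z ⊆ Z') : symF Z ⊆ symF Z' := by
  intro g hg
  rw [mem_symF] at *
  intro x hx
  exact hg x (fun h' => hx (h h'))

lemma card_symF_pos (Z : Finset A) : 0 < ((symF Z).card : ℝ) := by
  exact_mod_cast Finset.card_pos.mpr ⟨1, one_mem_symF Z⟩

lemma rho_mul_apply (g h : Perm A) (v : H) : ρ (g * h) v = ρ g (ρ h v) := by
  rw [map_mul]; rfl

lemma rho_one_apply (v : H) : ρ 1 v = v := by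
  rw [map_one]; rfl

lemma rho_inv_apply (g : Perm A) (v : H) : ρ g⁻¹ (ρ g v) = v := by
  rw [← rho_mul_apply, inv_mul_cancel, rho_one_apply]

lemma rho_apply_inv (g : Perm A) (v : H) : ρ g (ρ g⁻¹ v) = v := by
  rw [← rho_mul_apply, mul_inv_cancel, rho_one_apply]

lemma inner_rho_rho (hρ : ∀ g v, ‖ρ g v‖ = ‖v‖) (g : Perm A) (v w : H) :
    ⟪ρ g v, ρ g w⟫ = ⟪v, w⟫ := by
  have h1 := norm_add_sq_real (ρ g v) (ρ g w)
  have h2 := norm_add_sq_real v w
  rw [← map_add, hρ, hρ, hρ] at h1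
  linarith

lemma inner_rho_left (hρ : ∀ g v, ‖ρ g v‖ = ‖v‖) (g : Perm A) (v w : H) :
    ⟪ρ g v, w⟫ = ⟪v, ρ g⁻¹ w⟫ := by
  rw [← inner_rho_rho hρ g v (ρ g⁻¹ w), rho_apply_inv]

lemma Qop_apply (Z : Finset A) (v : H) :
    Qop ρ Z v = ((symF Z).card : ℝ)⁻¹ • ∑ g ∈ symF Z, ρ g v := by
  simp [Qop]

/-- the averaging operator absorbs elements of the group on the right -/
lemma Qop_rho {Z : Finset A} {g : Perm A} (hg : g ∈ symF Z) (v : H) :
    Qop ρ Z (ρ g v) = Qop ρ Z v := by
  rw [Qop_apply, Qop_apply]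
  congr 1
  refine Finset.sum_bij' (fun k _ => k * g) (fun k _ => k * g⁻¹) ?_ ?_ ?_ ?_ ?_
  · intro k hk; exact mul_mem_symF hk hg
  · intro k hk; exact mul_mem_symF hk (inv_mem_symF hg)
  · intro k _; simp
  · intro k _; simp
  · intro k _; rw [rho_mul_apply]

lemma rho_Qop {Z : Finset A} {g : Perm A} (hg : g ∈ symF Z) (v : H) :
    ρ g (Qop ρ Z v) = Qop ρ Z v := by
  rw [Qop_apply, map_smul, map_sum]
  congr 1
  refine Finset.sum_bij' (fun k _ => g * k) (fun k _ => g⁻¹ * k) ?_ ?_ ?_ ?_ ?_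
  · intro k hk; exact mul_mem_symF hg hk
  · intro k hk; exact mul_mem_symF (inv_mem_symF hg) hk
  · intro k _; simp
  · intro k _; simp
  · intro k _; rw [rho_mul_apply]

lemma norm_Qop_le (hρ : ∀ g v, ‖ρ g v‖ = ‖v‖) (Z : Finset A) (v : H) :
    ‖Qop ρ Z v‖ ≤ ‖v‖ := by
  rw [Qop_apply, norm_smul, norm_inv, Real.norm_of_nonneg (card_symF_pos Z).le]
  have h1 : ‖∑ g ∈ symF Z, ρ g v‖ ≤ ((symF Z).card : ℝ) * ‖v‖ := by
    refine (norm_sum_le _ _).trans ?_
    rw [Finset.sum_congr rfl (fun g _ => hρ g v), Finset.sum_const, nsmul_eq_mul]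
  calc ((symF Z).card : ℝ)⁻¹ * ‖∑ g ∈ symF Z, ρ g v‖
      ≤ ((symF Z).card : ℝ)⁻¹ * (((symF Z).card : ℝ) * ‖v‖) := by
        apply mul_le_mul_of_nonneg_left h1 (inv_nonneg.mpr (card_symF_pos Z).le)
    _ = ‖v‖ := by rw [← mul_assoc, inv_mul_cancel₀ (card_symF_pos Z).ne', one_mul]

lemma Qop_symm (hρ : ∀ g v, ‖ρ g v‖ = ‖v‖) (Z : Finset A) (v w : H) :
    ⟪Qop ρ Z v, w⟫ = ⟪v, Qop ρ Z w⟫ := by
  rw [Qop_apply, Qop_apply, real_inner_smul_left, real_inner_smul_right, sum_inner, inner_sum]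
  congr 1
  refine Finset.sum_bij' (fun k _ => k⁻¹) (fun k _ => k⁻¹) ?_ ?_ ?_ ?_ ?_
  · intro k hk; exact inv_mem_symF hk
  · intro k hk; exact inv_mem_symF hk
  · intro k _; simp
  · intro k _; simp
  · intro k _; rw [inner_rho_left hρ]

/-- averages over a larger set absorb averages over a smaller set -/
lemma Qop_Qop {Z Z' : Finset A} (h : Z ⊆ Z') (v : H) :
    Qop ρ Z' (Qop ρ Z v) = Qop ρ Z' v := by
  rw [Qop_apply Z v, map_smul, map_sum,
    Finset.sum_congr rfl (fun g hg => Qop_rho (symF_mono h hg) v), Finset.sum_const,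
    ← Nat.cast_smul_eq_nsmul ℝ, smul_smul, inv_mul_cancel₀ (card_symF_pos Z).ne', one_smul]

lemma conj_mem_symF_image {Z : Finset A} {h : Perm A} (g : Perm A) (hh : h ∈ symF Z) :
    g * h * g⁻¹ ∈ symF (Z.image g) := by
  rw [mem_symF] at *
  intro x hx
  have h1 : g⁻¹ x ∉ Z := fun h2 => hx (by
    rw [Finset.mem_image]
    exact ⟨g⁻¹ x, h2, Equiv.apply_symm_apply g x⟩)
  rw [Perm.mul_apply, Perm.mul_apply, hh _ h1]
  exact Equiv.apply_symm_apply g x

lemma rho_Qop_image (g : Perm A) (Z : Finset A) (v : H) :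
    ρ g (Qop ρ Z v) = Qop ρ (Z.image g) (ρ g v) := by
  have himg : (Z.image g).image (g⁻¹ : Perm A) = Z := by
    rw [Finset.image_image]
    have : (⇑(g⁻¹ : Perm A) ∘ ⇑g) = id := by
      funext x
      exact Equiv.symm_apply_apply g x
    rw [this, Finset.image_id]
  have hmem : ∀ k ∈ symF (Z.image g), g⁻¹ * k * g ∈ symF Z := by
    intro k hk
    have := conj_mem_symF_image (g⁻¹ : Perm A) hk
    rwa [himg, inv_inv] at this
  have hcard : (symF (Z.image g)).card = (symF Z).card := by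
    refine Finset.card_bij' (fun k _ => g⁻¹ * k * g) (fun k _ => g * k * g⁻¹) ?_ ?_ ?_ ?_
    · intro k hk; exact hmem k hk
    · intro k hk; exact conj_mem_symF_image g hk
    · intro k _; group
    · intro k _; group
  rw [Qop_apply, Qop_apply, map_smul, map_sum, hcard]
  congr 1
  refine Finset.sum_bij' (fun k _ => g * k * g⁻¹) (fun k _ => g⁻¹ * k * g) ?_ ?_ ?_ ?_ ?_
  · intro k hk; exact conj_mem_symF_image g hk
  · intro k hk; exact hmem k hk
  · intro k _; group
  · intro k _; group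
  · intro k _
    rw [← rho_mul_apply, ← rho_mul_apply]
    congr 2
    group

/-- a set with at most one element carries only the trivial permutation -/
lemma Qop_of_card_le_one {Z : Finset A} (h : Z.card ≤ 1) (v : H) : Qop ρ Z v = v := by
  have h1 : symF Z = {1} := by
    ext g
    rw [Finset.mem_singleton]
    constructor
    · intro hg
      rw [mem_symF] at hg
      ext x
      rw [Perm.one_apply]
      by_cases hx : x ∈ Z
      · have hgx : g x ∈ Z := by
          by_contra hgx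
          have h2 := hg _ hgx
          have h3 := g.injective h2
          rw [h3] at hgx
          exact hgx hx
        exact (Finset.card_le_one.mp h) _ hgx _ hx
      · exact hg x hx
    · rintro rfl
      exact one_mem_symF Z
  rw [Qop_apply, h1, Finset.sum_singleton, Finset.card_singleton, rho_one_apply]
  simp

/-- coset decomposition -/
lemma Qop_insert {Z : Finset A} {x : A} (hx : x ∉ Z) (v : H) :
    ((Z.card : ℝ) + 1) • Qop ρ (insert x Z) v =
      Qop ρ Z v + ∑ z ∈ Z, ρ (swap x z) (Qop ρ Z v) := by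
  -- the map `(z, k) ↦ swap x z * k` is a bijection onto `symF (insert x Z)`
  have hfwd : ∀ p ∈ (insert x Z) ×ˢ symF Z, swap x p.1 * p.2 ∈ symF (insert x Z) := by
    intro p hp
    rw [Finset.mem_product] at hp
    exact mul_mem_symF (swap_mem_symF (Finset.mem_insert_self x Z) hp.1)
      (symF_mono (Finset.subset_insert x Z) hp.2)
  have hbwd1 : ∀ g ∈ symF (insert x Z), g x ∈ insert x Z := by
    intro g hg
    rw [mem_symF] at hg
    by_contra h
    have h2 := hg _ h
    have h3 := g.injective h2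
    rw [h3] at h
    exact h (Finset.mem_insert_self x Z)
  have hbwd : ∀ g ∈ symF (insert x Z), (g x, swap x (g x) * g) ∈ (insert x Z) ×ˢ symF Z := by
    intro g hg
    have h1 := hbwd1 g hg
    rw [Finset.mem_product]
    refine ⟨h1, ?_⟩
    rw [mem_symF] at hg ⊢
    intro y hy
    rw [Perm.mul_apply]
    by_cases hyx : y = x
    · rw [hyx, swap_apply_right]
    · have h2 : y ∉ insert x Z := by
        rw [Finset.mem_insert]
        rintro (h | h)
        · exact hyx h
        · exact hy h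
      rw [hg y h2]
      apply swap_apply_of_ne_of_ne hyx
      intro h3
      rw [h3] at h2
      exact h2 h1
  have hx_fix : ∀ k ∈ symF Z, k x = x := fun k hk => (mem_symF.mp hk) x hx
  have hsum : ∑ g ∈ symF (insert x Z), ρ g v =
      ∑ p ∈ (insert x Z) ×ˢ symF Z, ρ (swap x p.1) (ρ p.2 v) := by
    symm
    refine Finset.sum_bij' (fun p _ => swap x p.1 * p.2) (fun g _ => (g x, swap x (g x) * g))
      hfwd hbwd ?_ ?_ ?_
    · rintro ⟨z, k⟩ hp
      rw [Finset.mem_product] at hp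
      have hk := hx_fix k hp.2
      have h1 : (swap x z * k) x = z := by
        rw [Perm.mul_apply, hk, swap_apply_left]
      simp only [h1]
      rw [← mul_assoc, swap_mul_self, one_mul]
    · intro g _
      simp only
      rw [← mul_assoc, swap_mul_self, one_mul]
    · intro p _
      rw [rho_mul_apply]
  have hcard : ((symF (insert x Z)).card : ℝ) = ((Z.card : ℝ) + 1) * ((symF Z).card : ℝ) := by
    have h1 : (symF (insert x Z)).card = ((insert x Z) ×ˢ symF Z).card := by
      symm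
      refine Finset.card_bij' (fun p _ => swap x p.1 * p.2) (fun g _ => (g x, swap x (g x) * g))
        hfwd hbwd ?_ ?_
      · rintro ⟨z, k⟩ hp
        rw [Finset.mem_product] at hp
        have hk := hx_fix k hp.2
        have h1 : (swap x z * k) x = z := by
          rw [Perm.mul_apply, hk, swap_apply_left]
        simp only [h1]
        rw [← mul_assoc, swap_mul_self, one_mul]
      · intro g _
        simp only
        rw [← mul_assoc, swap_mul_self, one_mul]
    rw [h1, Finset.card_product, Finset.card_insert_of_notMem hx]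
    push_cast
    ring
  have hZ0 := (card_symF_pos Z).ne'
  have hpos : ((Z.card : ℝ) + 1) ≠ 0 := by positivity
  rw [Qop_apply, hsum, hcard, Finset.sum_product, Finset.sum_insert hx, smul_smul, mul_inv,
    ← mul_assoc, mul_inv_cancel₀ hpos, one_mul, smul_add]
  simp only [swap_self]
  have h1 : ∀ z, ρ (swap x z) (Qop ρ Z v) =
      ((symF Z).card : ℝ)⁻¹ • ∑ k ∈ symF Z, ρ (swap x z) (ρ k v) := by
    intro z
    rw [Qop_apply, map_smul, map_sum]
  simp only [h1]
  rw [← Finset.smul_sum, Qop_apply]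
  congr 2
  apply Finset.sum_congr rfl
  intro k _
  exact rho_one_apply _

/-- the key relation (★): a vector of level `q` averaged over a set with `q` elements -/
lemma star {W Z : Finset A} {q : ℕ} {F : H} (hF : F ∈ lev ρ W q) (hZ : Z ⊆ W)
    (hc : Z.card = q) {x : A} (hxW : x ∈ W) (hx : x ∉ Z) :
    ∑ z ∈ Z, ρ (swap x z) (Qop ρ Z F) = - Qop ρ Z F := by
  have h1 := Qop_insert (ρ := ρ) hx F
  have h2 : Qop ρ (insert x Z) F = 0 := by
    apply hF
    · exact Finset.insert_subset hxW hZ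
    · rw [Finset.card_insert_of_notMem hx, hc]
  rw [h2, smul_zero] at h1
  exact (neg_eq_of_add_eq_zero_right h1.symm).symm

lemma mem_lev {W : Finset A} {q : ℕ} {F : H} :
    F ∈ lev ρ W q ↔ ∀ Z, Z ⊆ W → Z.card = q + 1 → Qop ρ Z F = 0 := Iff.rfl

lemma lev_mono {W : Finset A} {q q' : ℕ} (h : q ≤ q') : lev ρ W q ≤ lev ρ W q' := by
  intro F hF Z hZ hc
  obtain ⟨Z', hZ', hc'⟩ := Finset.exists_subset_card_eq (show q + 1 ≤ Z.card by omega)
  rw [← Qop_Qop hZ', hF Z' (hZ'.trans hZ) hc', map_zero]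

lemma lev_anti {W W' : Finset A} (h : W' ⊆ W) (q : ℕ) : lev ρ W q ≤ lev ρ W' q := by
  intro F hF Z hZ hc
  exact hF Z (hZ.trans h) hc

lemma rho_mem_lev {q : ℕ} {F : H} (g : Perm A) (hF : F ∈ lev ρ univ q) :
    ρ g F ∈ lev ρ univ q := by
  intro Z _ hc
  have h1 : (Z.image (g⁻¹ : Perm A)).image g = Z := by
    rw [Finset.image_image]
    have : (⇑g ∘ ⇑(g⁻¹ : Perm A)) = id := by
      funext x
      exact Equiv.apply_symm_apply g x
    rw [this, Finset.image_id]
  have h2 := rho_Qop_image (ρ := ρ) g (Z.image (g⁻¹ : Perm A)) F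
  rw [h1] at h2
  rw [← h2, hF (Z.image (g⁻¹ : Perm A)) (Finset.subset_univ _)
    (by rw [Finset.card_image_of_injective _ (g⁻¹ : Perm A).injective, hc]), map_zero]

/-- on vectors of level `0` (nonempty `W`) everything vanishes -/
lemma lev_zero {W : Finset A} (hW : W.Nonempty) {F : H} (hF : F ∈ lev ρ W 0) : F = 0 := by
  obtain ⟨x, hx⟩ := hW
  rw [← Qop_of_card_le_one (ρ := ρ) (Z := {x}) (by simp) F]
  exact hF {x} (by simpa using hx) (by simp)

lemma half_apply (s : Perm A) (v : H) : half ρ s v = (2⁻¹ : ℝ) • (v + ρ s v) := by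
  simp [half]

lemma half_one (v : H) : half ρ 1 v = v := by
  rw [half_apply, rho_one_apply, ← two_smul ℝ v, smul_smul]
  norm_num

lemma Pl_eq_cases (l : List (Perm A)) (v : H) :
    Pl ρ l v = Pl ρ l v ∧ Pl ρ ([] : List (Perm A)) v = v := by
  constructor
  · unfold Pl
    split
    · rfl
    · rfl
  · simp only [Pl]
    rfl

lemma half_mem_lev {q : ℕ} {F : H} (s : Perm A) (hF : F ∈ lev ρ univ q) :
    half ρ s F ∈ lev ρ univ q := by
  rw [half_apply]
  exact Submodule.smul_mem _ _ (Submodule.add_mem _ hF (rho_mem_lev s hF))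

lemma Pl_mem_lev {q : ℕ} {F : H} (l : List (Perm A)) (hF : F ∈ lev ρ univ q) :
    Pl ρ l F ∈ lev ρ univ q := by
  induction l with
  | nil => exact hF
  | cons s l ih => exact half_mem_lev s ih

lemma norm_half_le (hρ : ∀ g v, ‖ρ g v‖ = ‖v‖) (s : Perm A) (v : H) : ‖half ρ s v‖ ≤ ‖v‖ := by
  rw [half_apply, norm_smul]
  have := norm_add_le v (ρ s v)
  rw [hρ] at this
  rw [norm_inv, Real.norm_ofNat]
  linarith

lemma norm_Pl_le (hρ : ∀ g v, ‖ρ g v‖ = ‖v‖) (l : List (Perm A)) (v : H) :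
    ‖Pl ρ l v‖ ≤ ‖v‖ := by
  induction l with
  | nil => exact le_refl _
  | cons s l ih => exact (norm_half_le hρ s _).trans ih

/-- for an involution `s`, `half ρ s` is a projection -/
lemma norm_half_sq (hρ : ∀ g v, ‖ρ g v‖ = ‖v‖) {s : Perm A} (v : H) :
    ‖half ρ s v‖ ^ 2 = ‖v‖ ^ 2 - (‖v‖ ^ 2 - ⟪v, ρ s v⟫) / 2 := by
  rw [half_apply, norm_smul, mul_pow, norm_add_sq_real, hρ, norm_inv, Real.norm_ofNat]
  ring

lemma half_half {s : Perm A} (hs : s * s = 1) (v : H) : half ρ s (half ρ s v) = half ρ s v := by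
  simp only [half_apply, map_smul, map_add, ← rho_mul_apply, hs, rho_one_apply]
  module

/-! ### `sw` -/

variable {X : Type*} [Fintype X] [DecidableEq X]

lemma sw_eq {e : A → X} (he : Function.Injective e) (a b : A) :
    sw e (e a) (e b) = swap a b := by
  have h : ∃ p : A × A, e p.1 = e a ∧ e p.2 = e b := ⟨(a, b), rfl, rfl⟩
  unfold sw
  rw [dif_pos h]
  rw [he h.choose_spec.1, he h.choose_spec.2]

lemma sw_eq_one {e : A → X} {x y : X} (h : ¬ ((∃ a, e a = x) ∧ ∃ b, e b = y)) :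
    sw e x y = 1 := by
  unfold sw
  rw [dif_neg]
  rintro ⟨p, h1, h2⟩
  exact h ⟨⟨p.1, h1⟩, ⟨p.2, h2⟩⟩

lemma sw_mul_self {e : A → X} (x y : X) : sw e x y * sw e x y = 1 := by
  unfold sw
  split_ifs with h
  · exact swap_mul_self _ _
  · simp

end

end Vale.Agent.P162
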