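import Mathlib

/-! # P162 (Thorp shuffle): common definitions

Sites are the points of the cube `Cube d = Fin d → ZMod 2`; a deck order is a permutation
`σ : Perm (Cube d)` (card ↦ site). One Thorp shuffle is, up to a fixed rotation of the
coordinates, a uniform element of the group `GF s` of all products of swaps of pairs
`{x, x + e_s}`, with `s` running cyclically through the directions. -/

namespace Vale.Agent.P162

open Finset Equiv

noncomputable section

/-- the sites -/
abbrev Cube (d : ℕ) : Type := Fin d → ZMod 2

/-- all products of swaps of pairs `{x, x + e_s}` (an elementary abelian 2-group) -/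
def GF {d : ℕ} (s : Fin d) : Finset (Perm (Cube d)) :=
  univ.filter fun g => ∀ x, g x = x ∨ g x = x + Pi.single s 1

/-- one random step in direction `s`, as an operator on functions of the state -/
def Kop {d : ℕ} {Y : Type*} [MulAction (Perm (Cube d)) Y] (s : Fin d) (φ : Y → ℝ) : Y → ℝ :=
  fun y => (∑ g ∈ GF s, φ (g • y)) / ((GF s).card : ℝ)

/-- a list of random steps; the first element of the list is the first step made -/
def Kl {d : ℕ} {Y : Type*} [MulAction (Perm (Cube d)) Y] : List (Fin d) → (Y → ℝ) → Y → ℝ
  | [], φ => φ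
  | s :: l, φ => Kop s (Kl l φ)

/-- the cyclic sequence of directions `0,1,…,d-1,0,1,…` of length `T` -/
def dirs (d T : ℕ) [NeZero d] : List (Fin d) := (List.range T).map (Fin.ofNat d)

/-- average over all permutations -/
def avgP {X : Type*} [Fintype X] [DecidableEq X] (f : Perm X → ℝ) : ℝ :=
  (∑ g : Perm X, f g) / (Fintype.card (Perm X) : ℝ)

/-! ### Orthogonal representations of `Perm A` -/

section rep

variable {A : Type*} [Fintype A] [DecidableEq A]
variable {H : Type*} [NormedAddCommGroup H] [InnerProductSpace ℝ H]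

/-- permutations moving only points of `Z` -/
def symF (Z : Finset A) : Finset (Perm A) := univ.filter fun g => ∀ x, x ∉ Z → g x = x

/-- averaging over the permutations moving only points of `Z` -/
def Qop (ρ : Perm A →* (H →ₗ[ℝ] H)) (Z : Finset A) : H →ₗ[ℝ] H :=
  ((symF Z).card : ℝ)⁻¹ • ∑ g ∈ symF Z, ρ g

/-- vectors killed by all averagings over subsets of `W` of size `q + 1` -/
def lev (ρ : Perm A →* (H →ₗ[ℝ] H)) (W : Finset A) (q : ℕ) : Submodule ℝ H where
  carrier := {F | ∀ Z, Z ⊆ W → Z.card = q + 1 → Qop ρ Z F = 0}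
  add_mem' := by
    intro a b ha hb Z hZ hc
    rw [map_add, ha Z hZ hc, hb Z hZ hc, add_zero]
  zero_mem' := by
    intro Z _ _
    exact map_zero _
  smul_mem' := by
    intro c x hx Z hZ hc
    rw [map_smul, hx Z hZ hc, smul_zero]

/-- half of `1 + ρ s` -/
def half (ρ : Perm A →* (H →ₗ[ℝ] H)) (s : Perm A) : H →ₗ[ℝ] H :=
  (2⁻¹ : ℝ) • (LinearMap.id + ρ s)

/-- product of the operators `half` over a list -/
def Pl (ρ : Perm A →* (H →ₗ[ℝ] H)) : List (Perm A) → (H →ₗ[ℝ] H)
  | [] => LinearMap.id
  | s :: l => half ρ s ∘ₗ Pl ρ l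

end rep

section slots

variable {A : Type*} [Fintype A] [DecidableEq A] {X : Type*} [Fintype X] [DecidableEq X]

/-- the swap of the two slots sitting at the sites `x` and `y`, if both sites are occupied
by slots, and the identity otherwise -/
def sw (e : A → X) (x y : X) : Perm A :=
  if h : ∃ p : A × A, e p.1 = x ∧ e p.2 = y then swap h.choose.1 h.choose.2 else 1

/-- the swaps attached to a list of pairs of sites -/
def swl (e : A → X) (l : List (X × X)) : List (Perm A) := l.map fun p => sw e p.1 p.2

/-- the list of all sites occurring in a list of pairs -/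
def flat (l : List (X × X)) : List X := l.flatMap fun p => [p.1, p.2]

/-- the averaged operator `𝒦` -/
def KK {H : Type*} [NormedAddCommGroup H] [InnerProductSpace ℝ H]
    (ρ : Perm A →* (H →ₗ[ℝ] H)) (j : A → X) (l : List (X × X)) : H →ₗ[ℝ] H :=
  ((Fintype.card (Perm X) : ℝ))⁻¹ • ∑ g : Perm X, Pl ρ (swl (g ∘ j) l)

end slots

/-- the left regular representation of `Perm A` -/
def regRep (A : Type*) [Fintype A] [DecidableEq A] :
    Perm A →* (EuclideanSpace ℝ (Perm A) →ₗ[ℝ] EuclideanSpace ℝ (Perm A)) where
  toFun g :=
    { toFun := fun u => WithLp.toLp 2 fun κ => u (g⁻¹ * κ)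
      map_add' := fun u v => by ext κ; simp
      map_smul' := fun c u => by ext κ; simp }
  map_one' := by
    ext u κ
    simp
  map_mul' := fun g h => by
    ext u κ
    simp [mul_assoc]

/-- `φ * u`, where the permutation `κ` of the slots acts on the deck through `j` -/
def cv {A X : Type*} [Fintype A] [DecidableEq A] [DecidableEq X] (j : A ↪ X)
    (φ : Perm X → ℝ) (u : Perm A → ℝ) (σ : Perm X) : ℝ :=
  ∑ κ : Perm A, u κ * φ (σ * κ.viaEmbedding j)

end

end Vale.Agent.P162
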