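import Vale.Agent.P162.Basic

/-! # The dimension bound for the regular representation -/

namespace Vale.Agent.P162

open Finset Equiv
open scoped RealInnerProductSpace

noncomputable section

variable {A : Type*} [Fintype A] [DecidableEq A]

lemma regRep_apply_coord (g κ : Perm A) (v : EuclideanSpace ℝ (Perm A)) :
    (regRep A g v) κ = v (g⁻¹ * κ) := rfl

theorem norm_regRep (g : Perm A) (v : EuclideanSpace ℝ (Perm A)) : ‖regRep A g v‖ = ‖v‖ := by
  rw [EuclideanSpace.norm_eq, EuclideanSpace.norm_eq]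
  congr 1
  exact Equiv.sum_comp (Equiv.mulLeft (g⁻¹ : Perm A)) fun κ => ‖v κ‖ ^ 2

/-- point mass -/
def dl (x : Perm A) : EuclideanSpace ℝ (Perm A) := EuclideanSpace.single x (1 : ℝ)

lemma regRep_dl (g x : Perm A) : regRep A g (dl x) = dl (g * x) := by
  ext κ
  rw [regRep_apply_coord]
  unfold dl
  rw [PiLp.single_apply, PiLp.single_apply]
  by_cases h : κ = g * x
  · rw [if_pos h, if_pos (by rw [h, inv_mul_cancel_left])]
  · rw [if_neg h, if_neg]
    intro h2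
    exact h (by rw [← h2, mul_inv_cancel_left])

lemma inner_dl (v : EuclideanSpace ℝ (Perm A)) (x : Perm A) : ⟪v, dl x⟫ = v x := by
  unfold dl
  rw [EuclideanSpace.inner_single_right, one_mul]
  rfl

section proj

variable (E : Submodule ℝ (EuclideanSpace ℝ (Perm A)))

/-- component of the point mass orthogonal to `E` -/
def pr (x : Perm A) : EuclideanSpace ℝ (Perm A) := dl x - E.starProjection (dl x)

lemma pr_inner (x : Perm A) {F : EuclideanSpace ℝ (Perm A)} (hF : F ∈ E) : ⟪F, pr E x⟫ = 0 :=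
  (E.sub_starProjection_mem_orthogonal (dl x)) F hF

lemma dl_sub_pr (x : Perm A) : dl x - pr E x ∈ E := by
  unfold pr
  rw [sub_sub_cancel]
  exact E.starProjection_apply_mem (dl x)

variable {E}

lemma decomp_unique {v w w' : EuclideanSpace ℝ (Perm A)} (h1 : ∀ F ∈ E, ⟪F, w⟫ = 0)
    (h2 : v - w ∈ E) (h1' : ∀ F ∈ E, ⟪F, w'⟫ = 0) (h2' : v - w' ∈ E) : w = w' := by
  have h3 : w - w' ∈ E := by
    have := E.sub_mem h2' h2
    have e : v - w' - (v - w) = w - w' := by abel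
    rwa [e] at this
  have h4 : ⟪w - w', w - w'⟫ = 0 := by
    rw [inner_sub_right, h1 _ h3, h1' _ h3, sub_zero]
  rw [inner_self_eq_zero, sub_eq_zero] at h4
  exact h4

lemma pr_mul (hE : ∀ g : Perm A, ∀ F ∈ E, regRep A g F ∈ E) (g x : Perm A) :
    pr E (g * x) = regRep A g (pr E x) := by
  refine decomp_unique (E := E) (v := dl (g * x)) (fun F hF => pr_inner E _ hF) (dl_sub_pr E _)
    (fun F hF => ?_) ?_
  · rw [real_inner_comm, inner_rho_left norm_regRep, real_inner_comm]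
    exact pr_inner E _ (hE _ F hF)
  · rw [← regRep_dl, ← map_sub]
    exact hE g _ (dl_sub_pr E x)

lemma norm_pr_eq (hE : ∀ g : Perm A, ∀ F ∈ E, regRep A g F ∈ E) (x : Perm A) :
    ‖pr E x‖ = ‖pr E 1‖ := by
  have := pr_mul hE x 1
  rw [mul_one] at this
  rw [this, norm_regRep]

lemma sum_norm_pr : ∑ x : Perm A, ‖pr E x‖ ^ 2 = Module.finrank ℝ Eᗮ := by
  have h1 : ∀ x, ‖pr E x‖ ^ 2 =
      ∑ i, ((stdOrthonormalBasis ℝ Eᗮ i : Eᗮ) : EuclideanSpace ℝ (Perm A)) x ^ 2 := by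
    intro x
    have hm : pr E x ∈ Eᗮ := fun F hF => pr_inner E x hF
    have h2 := (stdOrthonormalBasis ℝ Eᗮ).sum_sq_norm_inner_right (⟨pr E x, hm⟩ : Eᗮ)
    have h3 : ‖(⟨pr E x, hm⟩ : Eᗮ)‖ = ‖pr E x‖ := rfl
    rw [h3] at h2
    rw [← h2]
    refine Finset.sum_congr rfl fun i _ => ?_
    have h4 : ⟪(stdOrthonormalBasis ℝ Eᗮ i : Eᗮ), (⟨pr E x, hm⟩ : Eᗮ)⟫ =
        ((stdOrthonormalBasis ℝ Eᗮ i : Eᗮ) : EuclideanSpace ℝ (Perm A)) x := by
      rw [Submodule.coe_inner]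
      have h5 : ⟪((stdOrthonormalBasis ℝ Eᗮ i : Eᗮ) : EuclideanSpace ℝ (Perm A)),
          dl x - pr E x⟫ = 0 := by
        rw [real_inner_comm]
        exact (stdOrthonormalBasis ℝ Eᗮ i).2 _ (dl_sub_pr E x)
      rw [inner_sub_right, sub_eq_zero, inner_dl] at h5
      exact h5.symm
    rw [h4, Real.norm_eq_abs, sq_abs]
  simp_rw [h1]
  rw [Finset.sum_comm]
  have h6 : ∀ i, ∑ x : Perm A,
      ((stdOrthonormalBasis ℝ Eᗮ i : Eᗮ) : EuclideanSpace ℝ (Perm A)) x ^ 2 = 1 := by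
    intro i
    have h7 : ‖((stdOrthonormalBasis ℝ Eᗮ i : Eᗮ) : EuclideanSpace ℝ (Perm A))‖ = 1 :=
      (stdOrthonormalBasis ℝ Eᗮ).norm_eq_one i
    have h8 := EuclideanSpace.norm_sq_eq
      ((stdOrthonormalBasis ℝ Eᗮ i : Eᗮ) : EuclideanSpace ℝ (Perm A))
    rw [h7, one_pow] at h8
    rw [h8]
    exact Finset.sum_congr rfl fun x _ => by rw [Real.norm_eq_abs, sq_abs]
  rw [Finset.sum_congr rfl fun i _ => h6 i, Finset.sum_const, Finset.card_univ, Fintype.card_fin,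
    nsmul_eq_mul, mul_one]

end proj

/-- indicator of the permutations with prescribed values -/
def Psi {k : ℕ} (p : Fin k → A × A) : EuclideanSpace ℝ (Perm A) :=
  WithLp.toLp 2 fun y => if ∀ i, (y⁻¹ : Perm A) (p i).1 = (p i).2 then 1 else 0

lemma inner_Psi {k : ℕ} (p : Fin k → A × A) (F : EuclideanSpace ℝ (Perm A)) :
    ⟪Psi p, F⟫ = ∑ y : Perm A, if ∀ i, (y⁻¹ : Perm A) (p i).1 = (p i).2 then F y else 0 := by
  rw [PiLp.inner_apply]
  refine Finset.sum_congr rfl fun y _ => ?_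
  have h : ⟪(Psi p) y, F y⟫ = F y * (Psi p) y := rfl
  rw [h]
  unfold Psi
  simp only
  split_ifs
  · rw [mul_one]
  · rw [mul_zero]

lemma mem_lev_of_orth {m q : ℕ} (hm : Fintype.card A = m) (hq1 : 1 ≤ q)
    {F : EuclideanSpace ℝ (Perm A)}
    (hF : ∀ p : Fin (m - q) → A × A, ⟪Psi p, F⟫ = 0) : F ∈ lev (regRep A) univ (q - 1) := by
  intro Z _ hc
  have hc' : Z.card = q := by omega
  have hcc : (Zᶜ).card = m - q := by rw [Finset.card_compl, hm, hc']
  let C : Finset A := Zᶜ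
  have e : C ≃ Fin (m - q) := C.equivFinOfCardEq hcc
  ext x
  rw [Qop_apply]
  have h1 : ∑ g ∈ symF Z, (regRep A g F) x = 0 := by
    have h2 := hF fun i => ((e.symm i).1, (x⁻¹ : Perm A) (e.symm i).1)
    rw [inner_Psi, ← Finset.sum_filter] at h2
    rw [← h2]
    refine Finset.sum_bij' (fun g _ => g⁻¹ * x) (fun y _ => x * y⁻¹) ?_ ?_ ?_ ?_ ?_
    · intro g hg
      rw [Finset.mem_filter]
      refine ⟨Finset.mem_univ _, fun i => ?_⟩
      have h3 : (e.symm i).1 ∉ Z := Finset.mem_compl.mp (e.symm i).2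
      have h4 := (mem_symF.mp hg) _ h3
      simp only [mul_inv_rev, inv_inv, Perm.mul_apply]
      rw [h4]
    · intro y hy
      rw [Finset.mem_filter] at hy
      rw [mem_symF]
      intro a ha
      have h3 := hy.2 (e ⟨a, Finset.mem_compl.mpr ha⟩)
      rw [Equiv.symm_apply_apply] at h3
      simp only at h3
      rw [Perm.mul_apply, h3]
      exact Equiv.apply_symm_apply x a
    · intro g _
      simp only [mul_inv_rev, inv_inv, mul_inv_cancel_left]
    · intro y _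
      simp only [mul_inv_rev, inv_inv, inv_mul_cancel_right]
    · intro g _
      rfl
  have h5 : (((symF Z).card : ℝ)⁻¹ • ∑ g ∈ symF Z, regRep A g F) x =
      ((symF Z).card : ℝ)⁻¹ * ∑ g ∈ symF Z, (regRep A g F) x := by
    rw [PiLp.smul_apply, WithLp.ofLp_sum, Finset.sum_apply, smul_eq_mul]
  rw [h5, h1, mul_zero]
  rfl

lemma finrank_lev_orth {m q : ℕ} (hm : Fintype.card A = m) (hq1 : 1 ≤ q) :
    Module.finrank ℝ (lev (regRep A) univ (q - 1))ᗮ ≤ (m ^ 2) ^ (m - q) := by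
  set S : Submodule ℝ (EuclideanSpace ℝ (Perm A)) :=
    Submodule.span ℝ (Set.range fun p : Fin (m - q) → A × A => Psi p) with hS
  have h1 : Sᗮ ≤ lev (regRep A) univ (q - 1) := by
    intro F hF
    exact mem_lev_of_orth hm hq1 fun p => hF _ (Submodule.subset_span ⟨p, rfl⟩)
  have h2 : (lev (regRep A) univ (q - 1))ᗮ ≤ S := by
    have := Submodule.orthogonal_le h1
    rwa [Submodule.orthogonal_orthogonal] at this
  have h3 : Module.finrank ℝ S ≤ Fintype.card (Fin (m - q) → A × A) := finrank_range_le_card _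
  have h4 : Fintype.card (Fin (m - q) → A × A) = (m ^ 2) ^ (m - q) := by
    rw [Fintype.card_fun, Fintype.card_prod, Fintype.card_fin, hm, sq]
  rw [← h4]
  exact (Submodule.finrank_mono h2).trans h3

/-- the component of `δ_x - δ_y` orthogonal to level `q - 1` is small -/
theorem dim_bound (m q : ℕ) (hm : Fintype.card A = m) (hq1 : 1 ≤ q) (hq : q ≤ m)
    (x y : Perm A) (w : EuclideanSpace ℝ (Perm A))
    (hw : ∀ F ∈ lev (regRep A) univ (q - 1), ⟪F, w⟫ = 0)
    (hw2 : EuclideanSpace.single x (1 : ℝ) - EuclideanSpace.single y (1 : ℝ) - w ∈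
      lev (regRep A) univ (q - 1)) :
    ‖w‖ ^ 2 ≤ 4 * ((m : ℝ) ^ 2) ^ (m - q) / (Nat.factorial m : ℝ) := by
  set E := lev (regRep A) univ (q - 1) with hE
  have hinv : ∀ g : Perm A, ∀ F ∈ E, regRep A g F ∈ E := fun g F hF => rho_mem_lev g hF
  have hw3 : w = pr E x - pr E y := by
    refine decomp_unique (E := E) (v := dl x - dl y) hw hw2 (fun F hF => ?_) ?_
    · rw [inner_sub_right, pr_inner E x hF, pr_inner E y hF, sub_zero]
    · have := E.sub_mem (dl_sub_pr E x) (dl_sub_pr E y)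
      have e : dl x - dl y - (pr E x - pr E y) = dl x - pr E x - (dl y - pr E y) := by abel
      rwa [e]
  have h1 : ‖w‖ ≤ 2 * ‖pr E 1‖ := by
    rw [hw3]
    refine (norm_sub_le _ _).trans ?_
    rw [norm_pr_eq hinv x, norm_pr_eq hinv y]
    linarith
  have h2 : (Nat.factorial m : ℝ) * ‖pr E 1‖ ^ 2 ≤ ((m : ℝ) ^ 2) ^ (m - q) := by
    have h3 := sum_norm_pr (E := E)
    rw [Finset.sum_congr rfl fun x _ => by rw [norm_pr_eq hinv x], Finset.sum_const,
      Finset.card_univ, Fintype.card_perm, hm, nsmul_eq_mul] at h3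
    rw [h3]
    exact_mod_cast finrank_lev_orth hm hq1
  have h4 : (0 : ℝ) < (Nat.factorial m : ℝ) := by exact_mod_cast Nat.factorial_pos m
  rw [le_div_iff₀ h4]
  have h5 : ‖w‖ ^ 2 ≤ 4 * ‖pr E 1‖ ^ 2 := by
    have := pow_le_pow_left₀ (norm_nonneg w) h1 2
    rw [mul_pow] at this
    linarith
  calc ‖w‖ ^ 2 * (Nat.factorial m : ℝ) ≤ 4 * ‖pr E 1‖ ^ 2 * (Nat.factorial m : ℝ) :=
        mul_le_mul_of_nonneg_right h5 h4.le
    _ = 4 * ((Nat.factorial m : ℝ) * ‖pr E 1‖ ^ 2) := by ring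
    _ ≤ 4 * ((m : ℝ) ^ 2) ^ (m - q) := by linarith

end

end Vale.Agent.P162
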