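import Vale.Agent.P162.H1

/-! # High degree: sequential exposure of the site pairs -/

namespace Vale.Agent.P162

open Finset Equiv
open scoped RealInnerProductSpace

noncomputable section

variable {A : Type*} [Fintype A] [DecidableEq A]
variable {H : Type*} [NormedAddCommGroup H] [InnerProductSpace ℝ H] [FiniteDimensional ℝ H]
variable {ρ : Perm A →* (H →ₗ[ℝ] H)}
variable {X : Type*} [Fintype X] [DecidableEq X]

set_option linter.unusedSectionVars false

theorem hi_sw_comp {e : A → X} (he : Function.Injective e) (r : Perm X) (x y : X) :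
    sw (r ∘ e) (r x) (r y) = sw e x y := by
  by_cases h : (∃ a, e a = x) ∧ ∃ b, e b = y
  · obtain ⟨⟨a, rfl⟩, ⟨b, rfl⟩⟩ := h
    rw [sw_eq he]
    have h2 : Function.Injective (r ∘ e) := r.injective.comp he
    exact sw_eq h2 a b
  · rw [sw_eq_one h, sw_eq_one]
    rintro ⟨⟨a, ha⟩, ⟨b, hb⟩⟩
    exact h ⟨⟨a, r.injective ha⟩, ⟨b, r.injective hb⟩⟩

theorem hi_swl_comp {e : A → X} (he : Function.Injective e) (r : Perm X) (l : List (X × X))
    (hr : ∀ x ∈ flat l, r x = x) : swl (r ∘ e) l = swl e l := by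
  unfold swl
  refine List.map_congr_left ?_
  intro p hp
  have h1 : p.1 ∈ flat l := by
    unfold flat
    rw [List.mem_flatMap]
    exact ⟨p, hp, by simp⟩
  have h2 : p.2 ∈ flat l := by
    unfold flat
    rw [List.mem_flatMap]
    exact ⟨p, hp, by simp⟩
  have h3 := hi_sw_comp he r p.1 p.2
  rwa [hr _ h1, hr _ h2] at h3

/-- a permutation carrying an ordered pair to another one inside a set -/
theorem hi_exists_perm (S : Finset X) {a b z z' : X} (ha : a ∉ S) (hb : b ∉ S) (hz : z ∉ S)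
    (hz' : z' ∉ S) (hab : a ≠ b) (hzz : z ≠ z') :
    ∃ r : Perm X, r z = a ∧ r z' = b ∧ ∀ x ∈ S, r x = x := by
  refine ⟨swap (swap z a z') b * swap z a, ?_, ?_, ?_⟩
  · rw [Perm.mul_apply, swap_apply_left]
    refine swap_apply_of_ne_of_ne ?_ hab
    intro h
    have h2 : swap z a z = swap z a z' := by rw [swap_apply_left]; exact h
    exact hzz ((swap z a).injective h2)
  · rw [Perm.mul_apply, swap_apply_left]
  · intro x hx
    have hxz : x ≠ z := fun h => hz (h ▸ hx)
    have hxa : x ≠ a := fun h => ha (h ▸ hx)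
    have hxb : x ≠ b := fun h => hb (h ▸ hx)
    have hxz' : x ≠ z' := fun h => hz' (h ▸ hx)
    have h1 : swap z a x = x := swap_apply_of_ne_of_ne hxz hxa
    rw [Perm.mul_apply, h1]
    refine swap_apply_of_ne_of_ne ?_ hxb
    intro h
    have h2 : swap z a x = swap z a z' := by rw [h1]; exact h
    exact hxz' ((swap z a).injective h2)

theorem hi_defect_nonneg (hρ : ∀ g v, ‖ρ g v‖ = ‖v‖) (s : Perm A) (v : H) :
    0 ≤ ‖v‖ ^ 2 - ⟪v, ρ s v⟫ := by
  have h := real_inner_le_norm v (ρ s v)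
  rw [hρ] at h
  nlinarith

/-- the count of occupied slots -/
theorem hi_card_occ {e : A → X} (he : Function.Injective e) (S : Finset X) :
    Fintype.card A ≤ (univ.filter fun a => e a ∉ S).card + S.card := by
  have h1 : (univ.filter fun a => e a ∈ S).card + (univ.filter fun a => ¬ e a ∈ S).card =
      (univ : Finset A).card := Finset.card_filter_add_card_filter_not _
  have h2 : (univ.filter fun a => e a ∈ S).card ≤ S.card := by
    refine Finset.card_le_card_of_injOn e ?_ he.injOn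
    intro a ha
    simpa using ha
  rw [Finset.card_univ] at h1
  omega

/-- one step of the exposure, for one embedding -/
theorem hi_local (hρ : ∀ g v, ‖ρ g v‖ = ‖v‖) {e : A → X} (he : Function.Injective e)
    (q : ℕ) (hq : 4 * q ≤ Fintype.card A) (S : Finset X) (hS : 8 * S.card ≤ Fintype.card A)
    (G : H) (hG : G ∈ lev ρ univ q) :
    49 / 128 * (Fintype.card A : ℝ) ^ 2 * ‖G‖ ^ 2 ≤
      ∑ p ∈ Sᶜ.offDiag, (‖G‖ ^ 2 - ⟪G, ρ (sw e p.1 p.2) G⟫) := by
  set W : Finset A := univ.filter fun a => e a ∉ S with hW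
  have hWc := hi_card_occ he S
  rw [← hW] at hWc
  have hw : 7 * Fintype.card A ≤ 8 * W.card := by omega
  have h1 := H1 hρ W q (by omega) G (lev_anti (Finset.subset_univ W) q hG)
  have h2 : ∑ p ∈ W.offDiag, (‖G‖ ^ 2 - ⟪G, ρ (swap p.1 p.2) G⟫) ≤
      ∑ p ∈ Sᶜ.offDiag, (‖G‖ ^ 2 - ⟪G, ρ (sw e p.1 p.2) G⟫) := by
    have h3 : ∑ p ∈ W.offDiag, (‖G‖ ^ 2 - ⟪G, ρ (swap p.1 p.2) G⟫) =
        ∑ p ∈ W.offDiag.image (Prod.map e e), (‖G‖ ^ 2 - ⟪G, ρ (sw e p.1 p.2) G⟫) := by
      rw [Finset.sum_image]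
      · refine Finset.sum_congr rfl ?_
        rintro ⟨a, b⟩ _
        simp only [Prod.map_apply]
        rw [sw_eq he]
      · intro p _ p' _ hpp
        exact (Function.Injective.prodMap he he) hpp
    rw [h3]
    refine Finset.sum_le_sum_of_subset_of_nonneg ?_ ?_
    · intro p hp
      rw [Finset.mem_image] at hp
      obtain ⟨⟨a, b⟩, hab, rfl⟩ := hp
      rw [Finset.mem_offDiag] at hab ⊢
      simp only [hW, Finset.mem_filter, Finset.mem_univ, true_and] at hab
      simp only [Prod.map_apply, Finset.mem_compl]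
      exact ⟨hab.1, hab.2.1, fun h => hab.2.2 (he h)⟩
    · intro p _ _
      exact hi_defect_nonneg hρ _ _
  have h4 : 49 / 128 * (Fintype.card A : ℝ) ^ 2 ≤ (W.card : ℝ) ^ 2 / 2 := by
    have h5 : (7 : ℝ) * Fintype.card A ≤ 8 * W.card := by exact_mod_cast hw
    have h6 : (0 : ℝ) ≤ 7 * Fintype.card A := by positivity
    nlinarith [mul_self_le_mul_self h6 h5]
  have h7 : (0 : ℝ) ≤ ‖G‖ ^ 2 := by positivity
  calc 49 / 128 * (Fintype.card A : ℝ) ^ 2 * ‖G‖ ^ 2 ≤ (W.card : ℝ) ^ 2 / 2 * ‖G‖ ^ 2 :=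
        mul_le_mul_of_nonneg_right h4 h7
    _ ≤ _ := h1.trans h2

theorem high (hρ : ∀ g v, ‖ρ g v‖ = ‖v‖) {j : A → X} (hj : Function.Injective j)
    (hX : Fintype.card X = 4 * Fintype.card A) (q : ℕ) (hq : 4 * q ≤ Fintype.card A)
    (F : H) (hF : F ∈ lev ρ univ q) (l : List (X × X)) (hl : (flat l).Nodup)
    (hL : 16 * l.length ≤ Fintype.card A) :
    avgP (fun g : Perm X => ‖Pl ρ (swl (g ∘ j) l) F‖ ^ 2) ≤
      (1 - 49 / 4096) ^ l.length * ‖F‖ ^ 2 := by
  have hM : (0 : ℝ) < Fintype.card (Perm X) := by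
    exact_mod_cast Fintype.card_pos
  induction l with
  | nil =>
    unfold avgP
    simp [swl, Pl]
  | cons p l ih =>
    have hflat : flat (p :: l) = p.1 :: p.2 :: flat l := by simp [flat]
    rw [hflat, List.nodup_cons, List.nodup_cons] at hl
    obtain ⟨hp1, hp2, hnd⟩ := hl
    have hp12 : p.1 ≠ p.2 := by
      intro h
      exact hp1 (by rw [h]; simp)
    have hp1l : p.1 ∉ flat l := fun h => hp1 (by simp [h])
    have hlen : (flat l).length = 2 * l.length := by
      unfold flat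
      rw [List.length_flatMap]
      simp
      ring
    rw [List.length_cons] at hL
    have ih' := ih hnd (by omega)
    set G : Perm X → H := fun g => Pl ρ (swl (g ∘ j) l) F with hG
    set S : Finset X := (flat l).toFinset with hS
    have hScard : 8 * S.card ≤ Fintype.card A := by
      have h1 : S.card ≤ (flat l).length := List.toFinset_card_le (flat l)
      rw [hlen] at h1
      omega
    have hp1S : p.1 ∉ S := by rw [hS, List.mem_toFinset]; exact hp1l
    have hp2S : p.2 ∉ S := by rw [hS, List.mem_toFinset]; exact hp2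
    have hginj : ∀ g : Perm X, Function.Injective (g ∘ j) := fun g => g.injective.comp hj
    have hGinv : ∀ (r g : Perm X), (∀ x ∈ S, r x = x) → G (r * g) = G g := by
      intro r g hr
      simp only [hG]
      have : ⇑(r * g) ∘ j = r ∘ (g ∘ j) := rfl
      rw [this, hi_swl_comp (hginj g) r l]
      intro x hx
      exact hr x (by rw [hS, List.mem_toFinset]; exact hx)
    -- the defect
    set D : X × X → Perm X → ℝ := fun z g =>
      ‖G g‖ ^ 2 - ⟪G g, ρ (sw (g ∘ j) z.1 z.2) (G g)⟫ with hD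
    have hDeq : ∀ z ∈ Sᶜ.offDiag, ∑ g, D z g = ∑ g, D p g := by
      intro z hz
      rw [Finset.mem_offDiag, Finset.mem_compl, Finset.mem_compl] at hz
      obtain ⟨r, hr1, hr2, hr3⟩ := hi_exists_perm S hp1S hp2S hz.1 hz.2.1 hp12 hz.2.2
      refine Fintype.sum_equiv (Equiv.mulLeft r) _ _ ?_
      intro g
      simp only [Equiv.coe_mulLeft, hD]
      rw [hGinv r g hr3]
      have h1 : ⇑(r * g) ∘ j = r ∘ (g ∘ j) := rfl
      rw [h1, ← hr1, ← hr2, hi_sw_comp (hginj g)]
    have hlow : ∀ g, 49 / 128 * (Fintype.card A : ℝ) ^ 2 * ‖G g‖ ^ 2 ≤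
        ∑ z ∈ Sᶜ.offDiag, D z g := by
      intro g
      exact hi_local hρ (hginj g) q hq S hScard (G g) (Pl_mem_lev _ hF)
    have hsum : 49 / 128 * (Fintype.card A : ℝ) ^ 2 * ∑ g, ‖G g‖ ^ 2 ≤
        (Sᶜ.offDiag.card : ℝ) * ∑ g, D p g := by
      rw [← nsmul_eq_mul, ← Finset.sum_const, ← Finset.sum_congr rfl hDeq, Finset.sum_comm,
        Finset.mul_sum]
      exact Finset.sum_le_sum fun g _ => hlow g
    have hDnn : 0 ≤ ∑ g, D p g := Finset.sum_nonneg fun g _ => hi_defect_nonneg hρ _ _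
    have hcard : (Sᶜ.offDiag.card : ℝ) ≤ 16 * (Fintype.card A : ℝ) ^ 2 := by
      have h1 : Sᶜ.offDiag.card ≤ Fintype.card X * Fintype.card X := by
        rw [Finset.offDiag_card]
        have h2 : Sᶜ.card ≤ Fintype.card X := Finset.card_le_univ _
        calc Sᶜ.card * Sᶜ.card - Sᶜ.card ≤ Sᶜ.card * Sᶜ.card := Nat.sub_le _ _
          _ ≤ Fintype.card X * Fintype.card X := Nat.mul_le_mul h2 h2
      have h3 : (Sᶜ.offDiag.card : ℝ) ≤ (Fintype.card X : ℝ) * Fintype.card X := by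
        exact_mod_cast h1
      have h4 : (Fintype.card X : ℝ) = 4 * Fintype.card A := by exact_mod_cast hX
      rw [h4] at h3
      nlinarith
    have hApos : (0 : ℝ) < (Fintype.card A : ℝ) ^ 2 := by
      have : 0 < Fintype.card A := by omega
      positivity
    have hmain : 49 / 2048 * ∑ g, ‖G g‖ ^ 2 ≤ ∑ g, D p g := by
      have h1 : 49 / 128 * (Fintype.card A : ℝ) ^ 2 * ∑ g, ‖G g‖ ^ 2 ≤
          16 * (Fintype.card A : ℝ) ^ 2 * ∑ g, D p g :=
        hsum.trans (mul_le_mul_of_nonneg_right hcard hDnn)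
      have h2 : 16 * (Fintype.card A : ℝ) ^ 2 * (49 / 2048 * ∑ g, ‖G g‖ ^ 2) ≤
          16 * (Fintype.card A : ℝ) ^ 2 * ∑ g, D p g := by
        calc _ = 49 / 128 * (Fintype.card A : ℝ) ^ 2 * ∑ g, ‖G g‖ ^ 2 := by ring
          _ ≤ _ := h1
      exact le_of_mul_le_mul_left h2 (by positivity)
    have hhalf : ∑ g : Perm X, ‖Pl ρ (swl (g ∘ j) (p :: l)) F‖ ^ 2 =
        ∑ g, ‖G g‖ ^ 2 - (∑ g, D p g) / 2 := by
      rw [Finset.sum_div, ← Finset.sum_sub_distrib]
      refine Finset.sum_congr rfl ?_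
      intro g _
      have h1 : Pl ρ (swl (g ∘ j) (p :: l)) F = half ρ (sw (g ∘ j) p.1 p.2) (G g) := rfl
      rw [h1, norm_half_sq hρ]
    unfold avgP at ih' ⊢
    rw [div_le_iff₀ hM] at ih' ⊢
    have hc0 : (0 : ℝ) ≤ 1 - 49 / 4096 := by norm_num
    calc ∑ g : Perm X, ‖Pl ρ (swl (g ∘ j) (p :: l)) F‖ ^ 2
        = ∑ g, ‖G g‖ ^ 2 - (∑ g, D p g) / 2 := hhalf
      _ ≤ (1 - 49 / 4096) * ∑ g, ‖G g‖ ^ 2 := by linarith
      _ ≤ (1 - 49 / 4096) * ((1 - 49 / 4096) ^ l.length * ‖F‖ ^ 2 *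
          (Fintype.card (Perm X) : ℝ)) := mul_le_mul_of_nonneg_left ih' hc0
      _ = (1 - 49 / 4096) ^ (p :: l).length * ‖F‖ ^ 2 * (Fintype.card (Perm X) : ℝ) := by
          rw [List.length_cons, pow_succ]
          ring

end

end Vale.Agent.P162
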