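import Vale.Agent.P162.Basic

/-! # Lemma L: displacement costs a binomial coefficient -/

namespace Vale.Agent.P162

open Finset Equiv
open scoped RealInnerProductSpace

noncomputable section

variable {A : Type*} [Fintype A] [DecidableEq A]
variable {H : Type*} [NormedAddCommGroup H] [InnerProductSpace ℝ H]
variable {ρ : Perm A →* (H →ₗ[ℝ] H)}

/-- the points brought into `Z` from outside -/
private def inc (Z : Finset A) (π : Perm A) : Finset A := univ.filter fun x => x ∉ Z ∧ π x ∈ Z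

private lemma mem_inc {Z : Finset A} {π : Perm A} {x : A} :
    x ∈ inc Z π ↔ x ∉ Z ∧ π x ∈ Z := by simp [inc]

private lemma card_inc_add (Z : Finset A) (π : Perm A) :
    (Z.filter fun y => π y ∈ Z).card + (inc Z π).card = Z.card := by
  have h1 : Disjoint (Z.filter fun y => π y ∈ Z) (inc Z π) := by
    rw [Finset.disjoint_left]
    intro x hx hx'
    exact (mem_inc.mp hx').1 (Finset.mem_filter.mp hx).1
  rw [← Finset.card_union_of_disjoint h1]
  have h2 : (Z.filter fun y => π y ∈ Z) ∪ inc Z π = Z.map (π⁻¹).toEmbedding := by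
    ext x
    rw [Finset.mem_union, Finset.mem_filter, mem_inc, Finset.mem_map]
    constructor
    · intro h
      have hx : π x ∈ Z := by
        rcases h with h | h
        · exact h.2
        · exact h.2
      exact ⟨π x, hx, by simp⟩
    · rintro ⟨z, hz, rfl⟩
      by_cases h : (π⁻¹) z ∈ Z
      · left
        exact ⟨h, by simpa using hz⟩
      · right
        exact ⟨h, by simpa using hz⟩
  rw [h2, Finset.card_map]

private lemma card_out (Z : Finset A) (π : Perm A) :
    (Z.filter fun y => ¬ π y ∈ Z).card = (inc Z π).card := by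
  have h1 := card_inc_add Z π
  have h2 := Finset.card_filter_add_card_filter_not (s := Z) (fun y => π y ∈ Z)
  omega

private lemma inc_step {Z : Finset A} {π : Perm A} {x y : A} (hx : x ∈ inc Z π) (hy : y ∈ Z)
    (hy' : π y ∉ Z) : inc Z (π * swap x y) = (inc Z π).erase x := by
  have hxm := mem_inc.mp hx
  ext z
  rw [Finset.mem_erase, mem_inc, mem_inc, Perm.mul_apply]
  by_cases hzx : z = x
  · subst hzx
    rw [swap_apply_left]
    simp [hy']
  · by_cases hzy : z = y
    · subst hzy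
      simp [hy]
    · rw [swap_apply_of_ne_of_ne hzx hzy]
      simp [hzx]

private lemma lemmaL_aux (hρ : ∀ g v, ‖ρ g v‖ = ‖v‖) (Z : Finset A) (v : H)
    (hv : ∀ x, x ∉ Z → ∑ z ∈ Z, ρ (swap x z) v = -v) :
    ∀ (r : ℕ) (π : Perm A), (inc Z π).card = r →
    ((Z.card.choose r : ℕ) : ℝ) * ‖Qop ρ Z (ρ π v)‖ ≤ ‖v‖ := by
  intro r
  induction r with
  | zero =>
    intro π _
    rw [Nat.choose_zero_right, Nat.cast_one, one_mul]
    exact (norm_Qop_le hρ Z _).trans (hρ π v).le
  | succ r ih =>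
    intro π hπ
    have hne : (inc Z π).Nonempty := by rw [← Finset.card_pos]; omega
    obtain ⟨x, hx⟩ := hne
    have hxm := mem_inc.mp hx
    set w := Qop ρ Z (ρ π v) with hw
    set q := Z.card with hq
    have hle : r + 1 ≤ q := by
      have := card_inc_add Z π
      omega
    -- expand
    have h1 : w = - ∑ y ∈ Z, Qop ρ Z (ρ (π * swap x y) v) := by
      have h2 : v = - ∑ z ∈ Z, ρ (swap x z) v := by rw [hv x hxm.1, neg_neg]
      have h3 : ρ π v = - ∑ z ∈ Z, ρ (π * swap x z) v := by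
        conv_lhs => rw [h2]
        rw [map_neg, map_sum]
        congr 1
        apply Finset.sum_congr rfl
        intro z _
        rw [rho_mul_apply]
      rw [hw, h3, map_neg, map_sum]
    have h4 : ∀ y ∈ Z.filter (fun y => π y ∈ Z), Qop ρ Z (ρ (π * swap x y) v) = w := by
      intro y hy
      have hy' := (Finset.mem_filter.mp hy).2
      have e : π * swap x y = swap (π x) (π y) * π := by
        rw [Equiv.mul_swap_eq_swap_mul]
      rw [e, rho_mul_apply, Qop_rho (swap_mem_symF hxm.2 hy')]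
    have h5 : (((q - (r + 1) : ℕ) : ℝ) + 1) • w
        = - ∑ y ∈ Z.filter (fun y => ¬ π y ∈ Z), Qop ρ Z (ρ (π * swap x y) v) := by
      have h6 := Finset.sum_filter_add_sum_filter_not Z (fun y => π y ∈ Z)
        (fun y => Qop ρ Z (ρ (π * swap x y) v))
      rw [Finset.sum_congr rfl h4, Finset.sum_const] at h6
      have h7 : (Z.filter (fun y => π y ∈ Z)).card = q - (r + 1) := by
        have := card_inc_add Z π
        omega
      rw [h7, ← Nat.cast_smul_eq_nsmul ℝ] at h6
      rw [← h6] at h1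
      rw [add_smul, one_smul]
      nth_rewrite 2 [h1]
      abel
    have h8 : ∀ y ∈ Z.filter (fun y => ¬ π y ∈ Z),
        ((q.choose r : ℕ) : ℝ) * ‖Qop ρ Z (ρ (π * swap x y) v)‖ ≤ ‖v‖ := by
      intro y hy
      rw [Finset.mem_filter] at hy
      apply ih
      rw [inc_step hx hy.1 hy.2, Finset.card_erase_of_mem hx, hπ]
      rfl
    have h9 : ((q.choose r : ℕ) : ℝ) * ((((q - (r + 1) : ℕ) : ℝ) + 1) * ‖w‖)
        ≤ ((r : ℝ) + 1) * ‖v‖ := by
      have h10 : (((q - (r + 1) : ℕ) : ℝ) + 1) * ‖w‖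
          = ‖∑ y ∈ Z.filter (fun y => ¬ π y ∈ Z), Qop ρ Z (ρ (π * swap x y) v)‖ := by
        rw [← norm_neg (∑ y ∈ Z.filter (fun y => ¬ π y ∈ Z), Qop ρ Z (ρ (π * swap x y) v)), ← h5,
          norm_smul, Real.norm_of_nonneg (by positivity)]
      rw [h10]
      calc ((q.choose r : ℕ) : ℝ) *
            ‖∑ y ∈ Z.filter (fun y => ¬ π y ∈ Z), Qop ρ Z (ρ (π * swap x y) v)‖
          ≤ ((q.choose r : ℕ) : ℝ) *
            ∑ y ∈ Z.filter (fun y => ¬ π y ∈ Z), ‖Qop ρ Z (ρ (π * swap x y) v)‖ :=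
            mul_le_mul_of_nonneg_left (norm_sum_le _ _) (by positivity)
        _ = ∑ y ∈ Z.filter (fun y => ¬ π y ∈ Z),
            ((q.choose r : ℕ) : ℝ) * ‖Qop ρ Z (ρ (π * swap x y) v)‖ := by
            rw [Finset.mul_sum]
        _ ≤ ∑ _y ∈ Z.filter (fun y => ¬ π y ∈ Z), ‖v‖ := Finset.sum_le_sum h8
        _ = ((r : ℝ) + 1) * ‖v‖ := by
            rw [Finset.sum_const, card_out, hπ, nsmul_eq_mul]
            push_cast
            ring
    have h11 : ((q.choose (r + 1) : ℕ) : ℝ) * ((r : ℝ) + 1)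
        = ((q.choose r : ℕ) : ℝ) * (((q - (r + 1) : ℕ) : ℝ) + 1) := by
      have h12 := Nat.choose_succ_right_eq q r
      have h13 : q - r = q - (r + 1) + 1 := by omega
      rw [h13] at h12
      exact_mod_cast h12
    have hr : (0 : ℝ) < (r : ℝ) + 1 := by positivity
    have h14 : ((r : ℝ) + 1) * (((q.choose (r + 1) : ℕ) : ℝ) * ‖w‖) ≤ ((r : ℝ) + 1) * ‖v‖ := by
      calc ((r : ℝ) + 1) * (((q.choose (r + 1) : ℕ) : ℝ) * ‖w‖)
          = (((q.choose (r + 1) : ℕ) : ℝ) * ((r : ℝ) + 1)) * ‖w‖ := by ring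
        _ = ((q.choose r : ℕ) : ℝ) * ((((q - (r + 1) : ℕ) : ℝ) + 1) * ‖w‖) := by
            rw [h11]; ring
        _ ≤ _ := h9
    exact le_of_mul_le_mul_left h14 hr

theorem lemmaL (hρ : ∀ g v, ‖ρ g v‖ = ‖v‖) (Z : Finset A) (v : H)
    (hv : ∀ x, x ∉ Z → ∑ z ∈ Z, ρ (swap x z) v = -v) (π : Perm A) :
    ((Z.card.choose (univ.filter fun x => x ∉ Z ∧ π x ∈ Z).card : ℕ) : ℝ) *
      ‖Qop ρ Z (ρ π v)‖ ≤ ‖v‖ :=
  lemmaL_aux hρ Z v hv _ π rfl

private lemma two_pow_le_choose {q r : ℕ} (h : 2 * r ≤ q) : 2 ^ r ≤ q.choose r := by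
  have h1 : (2 * r).choose r ≤ q.choose r := Nat.choose_le_choose r h
  refine le_trans ?_ h1
  have h2 : ∀ n : ℕ, 2 ^ n ≤ Nat.centralBinom n := by
    intro n
    induction n with
    | zero => simp
    | succ n ih =>
      have h3 := Nat.succ_mul_centralBinom_succ n
      have h4 : (n + 1) * 2 ^ (n + 1) ≤ (n + 1) * Nat.centralBinom (n + 1) := by
        rw [h3, pow_succ]
        calc (n + 1) * (2 ^ n * 2) = 2 * ((n + 1) * 2 ^ n) := by ring
          _ ≤ 2 * ((2 * n + 1) * Nat.centralBinom n) := by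
            apply Nat.mul_le_mul_left
            exact Nat.mul_le_mul (by omega) ih
          _ = 2 * (2 * n + 1) * Nat.centralBinom n := by ring
      exact Nat.le_of_mul_le_mul_left h4 (by omega)
  exact h2 r

variable {X : Type*} [Fintype X] [DecidableEq X]

private lemma flat_cons (p : X × X) (l : List (X × X)) :
    flat (p :: l) = p.1 :: p.2 :: flat l := by
  simp [flat]

private lemma inc_swap {Z : Finset A} {π : Perm A} {a b : A} (ha : π a = a) (hb : π b = b) :
    (inc Z π ⊆ inc Z (π * swap a b)) ∧ (inc Z (π * swap a b)).card ≤ (inc Z π).card + 1 := by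
  have hmem : ∀ z, z ≠ a → z ≠ b → (z ∈ inc Z (π * swap a b) ↔ z ∈ inc Z π) := by
    intro z hza hzb
    rw [mem_inc, mem_inc, Perm.mul_apply, swap_apply_of_ne_of_ne hza hzb]
  have hna : a ∉ inc Z π := by
    rw [mem_inc, ha]; tauto
  have hnb : b ∉ inc Z π := by
    rw [mem_inc, hb]; tauto
  have hA : a ∈ inc Z (π * swap a b) ↔ a ∉ Z ∧ b ∈ Z := by
    rw [mem_inc, Perm.mul_apply, swap_apply_left, hb]
  have hB : b ∈ inc Z (π * swap a b) ↔ b ∉ Z ∧ a ∈ Z := by
    rw [mem_inc, Perm.mul_apply, swap_apply_right, ha]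
  constructor
  · intro z hz
    have hza : z ≠ a := by rintro rfl; exact hna hz
    have hzb : z ≠ b := by rintro rfl; exact hnb hz
    exact (hmem z hza hzb).mpr hz
  · by_cases haZ : a ∈ Z
    · have : inc Z (π * swap a b) ⊆ insert b (inc Z π) := by
        intro z hz
        rw [Finset.mem_insert]
        by_cases hzb : z = b
        · exact Or.inl hzb
        · by_cases hza : z = a
          · subst hza
            exact absurd haZ (hA.mp hz).1
          · exact Or.inr ((hmem z hza hzb).mp hz)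
      exact (Finset.card_le_card this).trans (Finset.card_insert_le _ _)
    · have : inc Z (π * swap a b) ⊆ insert a (inc Z π) := by
        intro z hz
        rw [Finset.mem_insert]
        by_cases hza : z = a
        · exact Or.inl hza
        · by_cases hzb : z = b
          · subst hzb
            exact absurd (hB.mp hz).2 haZ
          · exact Or.inr ((hmem z hza hzb).mp hz)
      exact (Finset.card_le_card this).trans (Finset.card_insert_le _ _)

private lemma inc_swap_lt {Z : Finset A} {π : Perm A} {a b : A} (ha : π a = a) (hb : π b = b)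
    (haZ : a ∉ Z) (hbZ : b ∈ Z) : (inc Z (π * swap a b)).card = (inc Z π).card + 1 := by
  have h := inc_swap (Z := Z) ha hb
  have hA : a ∈ inc Z (π * swap a b) := by
    rw [mem_inc, Perm.mul_apply, swap_apply_left, hb]
    exact ⟨haZ, hbZ⟩
  have hna : a ∉ inc Z π := by
    rw [mem_inc, ha]; tauto
  have h2 : insert a (inc Z π) ⊆ inc Z (π * swap a b) := by
    intro z hz
    rw [Finset.mem_insert] at hz
    rcases hz with rfl | hz
    · exact hA
    · exact h.1 hz
  have h3 := Finset.card_le_card h2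
  rw [Finset.card_insert_of_notMem hna] at h3
  exact le_antisymm h.2 h3

open Classical in
private lemma prod_nonneg_aux (e : A → X) (Z : Finset A) (l : List (X × X)) :
    0 ≤ (l.map fun p => if (∃ a, a ∉ Z ∧ e a = p.1) ∧ (∃ b, b ∈ Z ∧ e b = p.2)
        then (3 / 4 : ℝ) else 1).prod := by
  apply List.prod_nonneg
  intro x hx
  rw [List.mem_map] at hx
  obtain ⟨p, _, rfl⟩ := hx
  split_ifs <;> norm_num

open Classical in
private lemma lemmaL_list_aux (hρ : ∀ g v, ‖ρ g v‖ = ‖v‖) {e : A → X}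
    (he : Function.Injective e)
    (Z : Finset A) (v : H) (hv : ∀ x, x ∉ Z → ∑ z ∈ Z, ρ (swap x z) v = -v)
    (l : List (X × X)) : (flat l).Nodup → ∀ π : Perm A, (∀ a, e a ∈ flat l → π a = a) →
    2 * ((inc Z π).card + l.length) ≤ Z.card →
    ‖Qop ρ Z (ρ π (Pl ρ (swl e l) v))‖ ≤ (1 / 2 : ℝ) ^ (inc Z π).card *
      ((l.map fun p => if (∃ a, a ∉ Z ∧ e a = p.1) ∧ (∃ b, b ∈ Z ∧ e b = p.2)
        then (3 / 4 : ℝ) else 1).prod * ‖v‖) := by
  induction l with
  | nil =>
    intro _ π _ hlen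
    simp only [List.length_nil, add_zero] at hlen
    have h1 := lemmaL_aux hρ Z v hv _ π rfl
    have h2 : (2 : ℝ) ^ (inc Z π).card ≤ ((Z.card.choose (inc Z π).card : ℕ) : ℝ) := by
      exact_mod_cast two_pow_le_choose hlen
    have h3 : (2 : ℝ) ^ (inc Z π).card * ‖Qop ρ Z (ρ π v)‖ ≤ ‖v‖ :=
      (mul_le_mul_of_nonneg_right h2 (norm_nonneg _)).trans h1
    simp only [List.map_nil, List.prod_nil, one_mul, swl, Pl, LinearMap.id_coe, id_eq]
    calc ‖Qop ρ Z (ρ π v)‖
        = (1 / 2 : ℝ) ^ (inc Z π).card * ((2 : ℝ) ^ (inc Z π).card * ‖Qop ρ Z (ρ π v)‖) := by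
          rw [← mul_assoc, ← mul_pow]
          norm_num
      _ ≤ (1 / 2 : ℝ) ^ (inc Z π).card * ‖v‖ :=
          mul_le_mul_of_nonneg_left h3 (by positivity)
  | cons p l ih =>
    intro hnd π hfix hlen
    rw [flat_cons] at hnd hfix
    have hnd' : (flat l).Nodup := (List.nodup_cons.mp (List.nodup_cons.mp hnd).2).2
    have hp2 : p.2 ∉ flat l := (List.nodup_cons.mp (List.nodup_cons.mp hnd).2).1
    have hp1 : p.1 ∉ flat l := fun h =>
      (List.nodup_cons.mp hnd).1 (List.mem_cons_of_mem _ h)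
    rw [List.length_cons] at hlen
    have hfix' : ∀ a, e a ∈ flat l → π a = a := fun a ha =>
      hfix a (List.mem_cons_of_mem _ (List.mem_cons_of_mem _ ha))
    set u := Pl ρ (swl e l) v with hu
    have hPl : Pl ρ (swl e (p :: l)) v = half ρ (sw e p.1 p.2) u := rfl
    rw [hPl, List.map_cons, List.prod_cons]
    set P : ℝ := (l.map fun p => if (∃ a, a ∉ Z ∧ e a = p.1) ∧ (∃ b, b ∈ Z ∧ e b = p.2)
        then (3 / 4 : ℝ) else 1).prod with hP
    have hP0 : 0 ≤ P := prod_nonneg_aux e Z l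
    have hPv : 0 ≤ P * ‖v‖ := mul_nonneg hP0 (norm_nonneg _)
    have hterm1 := ih hnd' π hfix' (by omega)
    by_cases hex : (∃ a, e a = p.1) ∧ ∃ b, e b = p.2
    · obtain ⟨⟨a, ha⟩, ⟨b, hb⟩⟩ := hex
      have hs : sw e p.1 p.2 = swap a b := by rw [← ha, ← hb]; exact sw_eq he a b
      have hπa : π a = a := hfix a (by rw [ha]; exact List.mem_cons_self)
      have hπb : π b = b := hfix b (by
        rw [hb]; exact List.mem_cons_of_mem _ List.mem_cons_self)
      have hsplit : ‖Qop ρ Z (ρ π (half ρ (sw e p.1 p.2) u))‖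
          ≤ (1 / 2 : ℝ) * (‖Qop ρ Z (ρ π u)‖ + ‖Qop ρ Z (ρ (π * swap a b) u)‖) := by
        rw [hs, half_apply, map_smul, map_smul, map_add, map_add, norm_smul, ← rho_mul_apply]
        have h1 : ‖(2⁻¹ : ℝ)‖ = 1 / 2 := by norm_num
        rw [h1]
        exact mul_le_mul_of_nonneg_left (norm_add_le _ _) (by norm_num)
      have hfix2 : ∀ a', e a' ∈ flat l → (π * swap a b) a' = a' := by
        intro a' ha'
        have h1 : a' ≠ a := by
          rintro rfl
          rw [ha] at ha'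
          exact hp1 ha'
        have h2 : a' ≠ b := by
          rintro rfl
          rw [hb] at ha'
          exact hp2 ha'
        rw [Perm.mul_apply, swap_apply_of_ne_of_ne h1 h2]
        exact hfix' a' ha'
      have hinc := inc_swap (Z := Z) hπa hπb
      have hterm2 := ih hnd' (π * swap a b) hfix2 (by omega)
      by_cases hc : a ∉ Z ∧ b ∈ Z
      · have hif : (∃ a, a ∉ Z ∧ e a = p.1) ∧ (∃ b, b ∈ Z ∧ e b = p.2) :=
          ⟨⟨a, hc.1, ha⟩, ⟨b, hc.2, hb⟩⟩
        rw [if_pos hif]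
        rw [inc_swap_lt hπa hπb hc.1 hc.2] at hterm2
        calc ‖Qop ρ Z (ρ π (half ρ (sw e p.1 p.2) u))‖
            ≤ (1 / 2 : ℝ) * (‖Qop ρ Z (ρ π u)‖ + ‖Qop ρ Z (ρ (π * swap a b) u)‖) := hsplit
          _ ≤ (1 / 2 : ℝ) * ((1 / 2 : ℝ) ^ (inc Z π).card * (P * ‖v‖)
              + (1 / 2 : ℝ) ^ ((inc Z π).card + 1) * (P * ‖v‖)) :=
              mul_le_mul_of_nonneg_left (add_le_add hterm1 hterm2) (by norm_num)
          _ = (1 / 2 : ℝ) ^ (inc Z π).card * (3 / 4 * P * ‖v‖) := by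
              rw [pow_succ]; ring
      · have hif : ¬ ((∃ a, a ∉ Z ∧ e a = p.1) ∧ (∃ b, b ∈ Z ∧ e b = p.2)) := by
          rintro ⟨⟨a', ha'Z, ha'⟩, ⟨b', hb'Z, hb'⟩⟩
          apply hc
          have h1 : a' = a := he (ha'.trans ha.symm)
          have h2 : b' = b := he (hb'.trans hb.symm)
          rw [← h1, ← h2]
          exact ⟨ha'Z, hb'Z⟩
        rw [if_neg hif, one_mul]
        have h5 : (1 / 2 : ℝ) ^ (inc Z (π * swap a b)).card ≤ (1 / 2 : ℝ) ^ (inc Z π).card :=
          pow_le_pow_of_le_one (by norm_num) (by norm_num) (Finset.card_le_card hinc.1)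
        have hterm2' := hterm2.trans (mul_le_mul_of_nonneg_right h5 hPv)
        calc ‖Qop ρ Z (ρ π (half ρ (sw e p.1 p.2) u))‖
            ≤ (1 / 2 : ℝ) * (‖Qop ρ Z (ρ π u)‖ + ‖Qop ρ Z (ρ (π * swap a b) u)‖) := hsplit
          _ ≤ (1 / 2 : ℝ) * ((1 / 2 : ℝ) ^ (inc Z π).card * (P * ‖v‖)
              + (1 / 2 : ℝ) ^ (inc Z π).card * (P * ‖v‖)) :=
              mul_le_mul_of_nonneg_left (add_le_add hterm1 hterm2') (by norm_num)
          _ = (1 / 2 : ℝ) ^ (inc Z π).card * (P * ‖v‖) := by ring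
    · rw [sw_eq_one hex, half_one]
      have hif : ¬ ((∃ a, a ∉ Z ∧ e a = p.1) ∧ (∃ b, b ∈ Z ∧ e b = p.2)) := by
        rintro ⟨⟨a', _, ha'⟩, ⟨b', _, hb'⟩⟩
        exact hex ⟨⟨a', ha'⟩, ⟨b', hb'⟩⟩
      rw [if_neg hif, one_mul]
      exact hterm1

open Classical in
theorem lemmaL_list (hρ : ∀ g v, ‖ρ g v‖ = ‖v‖) {e : A → X} (he : Function.Injective e)
    (Z : Finset A) (v : H) (hv : ∀ x, x ∉ Z → ∑ z ∈ Z, ρ (swap x z) v = -v)
    (l : List (X × X)) (hl : (flat l).Nodup) (hlen : 2 * l.length ≤ Z.card) :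
    ‖Qop ρ Z (Pl ρ (swl e l) v)‖ ≤
      (l.map fun p => if (∃ a, a ∉ Z ∧ e a = p.1) ∧ (∃ b, b ∈ Z ∧ e b = p.2)
        then (3 / 4 : ℝ) else 1).prod * ‖v‖ := by
  have h0 : (inc Z (1 : Perm A)).card = 0 := by
    rw [Finset.card_eq_zero, Finset.eq_empty_iff_forall_notMem]
    intro x hx
    have := mem_inc.mp hx
    exact this.1 (by simpa using this.2)
  have h := lemmaL_list_aux hρ he Z v hv l hl 1 (fun a _ => rfl) (by rw [h0]; omega)
  rw [h0, pow_zero, one_mul, rho_one_apply] at h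
  exact h

end

end Vale.Agent.P162
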