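import Vale.Agent.P162.Defs

/-! # A purely combinatorial average over a uniform permutation -/

namespace Vale.Agent.P162

open Finset Equiv

noncomputable section

variable {X : Type*} [Fintype X] [DecidableEq X]

set_option linter.unusedSectionVars false

/-- indicator that some site of `l` is mapped to `v` -/
def laI (l : List X) (v : X) (h : Perm X) : ℝ := if h⁻¹ v ∈ l then 1 else 0

/-- number of sites of `l` mapped into `U` -/
def laN (U : Finset X) (l : List X) (h : Perm X) : ℕ := (U.filter fun v => h⁻¹ v ∈ l).card

theorem laN_insert (U : Finset X) (u : X) (hu : u ∉ U) (l : List X) (h : Perm X) :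
    laN (insert u U) l h = laN U l h + if h⁻¹ u ∈ l then 1 else 0 := by
  unfold laN
  rw [Finset.filter_insert]
  split_ifs with h1
  · rw [Finset.card_insert_of_notMem]
    simp [hu]
  · simp

theorem laN_eq_filter (U : Finset X) (l : List X) (h : Perm X) :
    laN U l h = (l.toFinset.filter fun x => h x ∈ U).card := by
  unfold laN
  refine Finset.card_bij (fun v _ => h⁻¹ v) ?_ ?_ ?_
  · intro v hv
    simp only [Finset.mem_filter, List.mem_toFinset] at hv ⊢
    refine ⟨hv.2, ?_⟩
    simpa using hv.1
  · intro a _ b _ hab
    exact (h⁻¹).injective hab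
  · intro x hx
    simp only [Finset.mem_filter, List.mem_toFinset] at hx
    refine ⟨h x, ?_, ?_⟩
    · simp only [Finset.mem_filter]
      refine ⟨hx.2, ?_⟩
      simpa using hx.1
    · simp

theorem laprod (U : Finset X) (l : List X) (hl : l.Nodup) (c : ℝ) (h : Perm X) :
    (l.map fun x => if h x ∈ U then 1 - c else 1).prod = (1 - c) ^ laN U l h := by
  rw [laN_eq_filter, ← List.prod_toFinset _ hl, Finset.prod_ite]
  simp

theorem laN_univ (l : List X) (hl : l.Nodup) (h : Perm X) :
    laN univ l h = l.length := by
  rw [laN_eq_filter]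
  simp [List.toFinset_card_of_nodup hl]

theorem laN_swap (U : Finset X) (l : List X) (u v : X) (hu : u ∉ U) (hv : v ∉ U) (h : Perm X) :
    laN U l (swap u v * h) = laN U l h := by
  unfold laN
  congr 1
  refine Finset.filter_congr ?_
  intro x hx
  have h1 : x ≠ u := fun h2 => hu (h2 ▸ hx)
  have h2 : x ≠ v := fun h2 => hv (h2 ▸ hx)
  have : (swap u v * h)⁻¹ x = h⁻¹ x := by
    rw [mul_inv_rev, Perm.mul_apply, swap_inv, swap_apply_of_ne_of_ne h1 h2]
  rw [this]

theorem laI_swap (l : List X) (u v : X) (h : Perm X) :
    laI l u (swap u v * h) = laI l v h := by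
  unfold laI
  have : (swap u v * h)⁻¹ u = h⁻¹ v := by
    rw [mul_inv_rev, Perm.mul_apply, swap_inv, swap_apply_left]
  rw [this]

theorem sum_laI (U : Finset X) (l : List X) (h : Perm X) :
    ∑ v ∈ U, laI l v h = laN U l h := by
  unfold laI laN
  rw [Finset.sum_boole]

/-- symmetrisation: moving the tested target -/
theorem la_sym (φ : ℕ → ℝ) (U : Finset X) (l : List X) (hl : l.Nodup) (u : X) (hu : u ∉ U) :
    ((Fintype.card X : ℝ) - U.card) * ∑ h : Perm X, φ (laN U l h) * laI l u h =
      ∑ h : Perm X, φ (laN U l h) * (l.length - laN U l h) := by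
  have h1 : ∀ v ∈ Uᶜ, ∑ h : Perm X, φ (laN U l h) * laI l v h =
      ∑ h : Perm X, φ (laN U l h) * laI l u h := by
    intro v hv
    rw [Finset.mem_compl] at hv
    refine Fintype.sum_equiv (Equiv.mulLeft (swap u v)) _ _ ?_
    intro h
    simp only [Equiv.coe_mulLeft]
    rw [laN_swap U l u v hu hv, laI_swap]
  have h2 : ∑ v ∈ Uᶜ, ∑ h : Perm X, φ (laN U l h) * laI l v h =
      ((Fintype.card X : ℝ) - U.card) * ∑ h : Perm X, φ (laN U l h) * laI l u h := by
    rw [Finset.sum_congr rfl h1, Finset.sum_const, Finset.card_compl, nsmul_eq_mul,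
      Nat.cast_sub (Finset.card_le_univ U)]
  rw [← h2, Finset.sum_comm]
  refine Finset.sum_congr rfl ?_
  intro h _
  rw [← Finset.mul_sum]
  congr 1
  have h3 := Finset.sum_add_sum_compl U (fun v => laI l v h)
  have h4 : ∑ v : X, laI l v h = l.length := by rw [sum_laI, laN_univ l hl]
  rw [sum_laI U, h4] at h3
  linarith

theorem la_mean (l : List X) (hl : l.Nodup) (u : X) :
    (Fintype.card X : ℝ) * ∑ h : Perm X, laI l u h =
      l.length * (Fintype.card (Perm X) : ℝ) := by
  have h := la_sym (fun _ => 1) ∅ l hl u (by simp)
  simp only [one_mul, Finset.card_empty, Nat.cast_zero, sub_zero] at h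
  rw [h]
  have : ∀ g : Perm X, laN ∅ l g = 0 := by
    intro g
    simp [laN]
  simp only [this, Nat.cast_zero, sub_zero, Finset.sum_const, Finset.card_univ, nsmul_eq_mul]
  ring

/-- Stage 1 (no pairs, one list of sites). -/
theorem lowAvg1 (U : Finset X) (l : List X) (hl : l.Nodup) (c : ℝ) (hc0 : 0 ≤ c) (hc1 : c ≤ 1) :
    avgP (fun h : Perm X => (l.map fun x => if h x ∈ U then 1 - c else 1).prod) ≤
      (1 - c * l.length / Fintype.card X) ^ U.card := by
  have hM : (0 : ℝ) < Fintype.card (Perm X) := by
    exact_mod_cast Fintype.card_pos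
  have key : ∀ U : Finset X, (∑ h : Perm X, (1 - c) ^ laN U l h) ≤
      (1 - c * l.length / Fintype.card X) ^ U.card * (Fintype.card (Perm X) : ℝ) := by
    intro U
    induction U using Finset.induction_on with
    | empty =>
      have : ∀ g : Perm X, laN ∅ l g = 0 := by
        intro g
        simp [laN]
      simp [this]
    | insert u U hu ih =>
      have hn0 : (U.card : ℝ) + 1 ≤ Fintype.card X := by
        have := Finset.card_le_univ (insert u U)
        rw [Finset.card_insert_of_notMem hu] at this
        exact_mod_cast this
      have hnn : (0 : ℝ) < Fintype.card X := by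
        have : (0 : ℝ) ≤ U.card := by positivity
        linarith
      have hll : (l.length : ℝ) ≤ Fintype.card X := by
        exact_mod_cast hl.length_le_card
      set n : ℝ := (Fintype.card X : ℝ) with hn
      set w : ℝ := n - U.card with hw
      have hwpos : 0 < w := by rw [hw]; linarith
      -- expand
      have e1 : ∑ h : Perm X, (1 - c) ^ laN (insert u U) l h =
          ∑ h : Perm X, (1 - c) ^ laN U l h -
            c * ∑ h : Perm X, (1 - c) ^ laN U l h * laI l u h := by
        rw [Finset.mul_sum, ← Finset.sum_sub_distrib]
        refine Finset.sum_congr rfl ?_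
        intro h _
        rw [laN_insert U u hu]
        unfold laI
        split_ifs with h1
        · rw [pow_succ]; ring
        · simp
      have e2 := la_sym (fun k => (1 - c) ^ k) U l hl u hu
      have e3 := la_mean l hl u
      have e4 : w * ∑ h : Perm X, laI l u h = ∑ h : Perm X, ((l.length : ℝ) - laN U l h) := by
        have h := la_sym (fun _ => 1) U l hl u hu
        simpa using h
      -- Chebyshev
      have hanti : Antivary (fun h : Perm X => (1 - c) ^ laN U l h)
          (fun h : Perm X => w - c * ((l.length : ℝ) - laN U l h)) := by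
        intro g h hgh
        have h1 : laN U l g ≤ laN U l h := by
          by_contra hcon
          push Not at hcon
          have : (laN U l h : ℝ) ≤ laN U l g := by exact_mod_cast hcon.le
          have := mul_le_mul_of_nonneg_left this hc0
          simp only at hgh
          linarith
        exact pow_le_pow_of_le_one (by linarith) (by linarith) h1
      have cheb := hanti.card_mul_sum_le_sum_mul_sum
      -- assemble
      set M : ℝ := (Fintype.card (Perm X) : ℝ) with hMdef
      set A : ℝ := ∑ h : Perm X, (1 - c) ^ laN U l h with hA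
      set B : ℝ := ∑ h : Perm X, laI l u h with hB
      set D : ℝ := ∑ h : Perm X, (1 - c) ^ laN U l h * laI l u h with hD
      have c1 : ∑ h : Perm X, (1 - c) ^ laN U l h * (w - c * ((l.length : ℝ) - laN U l h)) =
          w * A - c * (w * D) := by
        rw [e2, hA, Finset.mul_sum, Finset.mul_sum, ← Finset.sum_sub_distrib]
        refine Finset.sum_congr rfl ?_
        intro h _
        ring
      have c2 : ∑ h : Perm X, (w - c * ((l.length : ℝ) - laN U l h)) = w * M - c * (w * B) := by
        rw [Finset.sum_sub_distrib, ← Finset.mul_sum, ← e4]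
        simp only [Finset.sum_const, Finset.card_univ, nsmul_eq_mul]
        rw [← hMdef]; ring
      rw [c1, c2] at cheb
      have c3 : M * (A - c * D) ≤ A * (M - c * B) := by
        have : w * (M * (A - c * D)) ≤ w * (A * (M - c * B)) := by
          calc w * (M * (A - c * D)) = M * (w * A - c * (w * D)) := by ring
            _ ≤ A * (w * M - c * (w * B)) := by simpa using cheb
            _ = w * (A * (M - c * B)) := by ring
        exact le_of_mul_le_mul_left this hwpos
      have c4 : B = l.length * M / n := by
        field_simp
        linarith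
      have c5 : M - c * B = (1 - c * l.length / n) * M := by
        rw [c4]; ring
      rw [c5] at c3
      have hr : 0 ≤ 1 - c * l.length / n := by
        have h1 : c * l.length / n ≤ 1 := by
          rw [div_le_one hnn]
          calc c * l.length ≤ 1 * l.length := by
                exact mul_le_mul_of_nonneg_right hc1 (by positivity)
            _ ≤ n := by linarith
        linarith
      rw [e1, Finset.card_insert_of_notMem hu, pow_succ]
      have c6 : M * (A - c * D) ≤ M * ((1 - c * l.length / n) * A) := by
        calc M * (A - c * D) ≤ A * ((1 - c * l.length / n) * M) := c3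
          _ = M * ((1 - c * l.length / n) * A) := by ring
      have c7 : A - c * D ≤ (1 - c * l.length / n) * A := le_of_mul_le_mul_left c6 hM
      calc A - c * D ≤ (1 - c * l.length / n) * A := c7
        _ ≤ (1 - c * l.length / n) * ((1 - c * l.length / n) ^ U.card * M) :=
            mul_le_mul_of_nonneg_left ih hr
        _ = (1 - c * l.length / n) ^ U.card * (1 - c * l.length / n) * M := by ring
  have e0 : (fun h : Perm X => (l.map fun x => if h x ∈ U then 1 - c else 1).prod) =
      fun h : Perm X => (1 - c) ^ laN U l h := by
    funext h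
    exact laprod U l hl c h
  rw [e0]
  unfold avgP
  rw [div_le_iff₀ hM]
  exact key U

/-- replacing the pair factors one after the other -/
theorem la_replace (U V : Finset X) (L : ℕ) (hL : 64 * L = Fintype.card X)
    (hV : Fintype.card X ≤ 16 * V.card) (l : List (X × X)) :
    ∀ (S : Finset X) (Φ : Perm X → ℝ), (∀ x ∈ flat l, x ∉ S) → (flat l).Nodup →
      S.card + 2 * l.length ≤ 2 * L → (∀ h, 0 ≤ Φ h) →
      (∀ y z, y ∉ S → z ∉ S → ∀ h, Φ (h * swap y z) = Φ h) →
      ∑ h : Perm X, Φ h * (l.map fun p =>
        if h p.1 ∈ U ∧ h p.2 ∈ V then (3 / 4 : ℝ) else 1).prod ≤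
      ∑ h : Perm X, Φ h * (l.map fun p => if h p.1 ∈ U then (1 - 1 / 128 : ℝ) else 1).prod := by
  induction l with
  | nil => intro S Φ _ _ _ _ _; simp
  | cons p l ih =>
    intro S Φ hS hnd hcard hpos hinv
    have hflat : flat (p :: l) = p.1 :: p.2 :: flat l := by simp [flat]
    rw [hflat] at hS hnd
    have hp1S : p.1 ∉ S := hS p.1 (by simp)
    have hp2S : p.2 ∉ S := hS p.2 (by simp)
    rw [List.nodup_cons, List.nodup_cons] at hnd
    obtain ⟨hp1, hp2, hnd'⟩ := hnd
    have hp12 : p.2 ≠ p.1 := by
      intro h
      exact hp1 (by rw [h]; simp)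
    have hp1l : p.1 ∉ flat l := fun h => hp1 (by simp [h])
    have hlen : (flat l).length = 2 * l.length := by
      unfold flat
      rw [List.length_flatMap]
      simp
      ring
    -- the unreplaced rest
    set R : Perm X → ℝ := fun h => (l.map fun p =>
        if h p.1 ∈ U ∧ h p.2 ∈ V then (3 / 4 : ℝ) else 1).prod with hR
    have hRpos : ∀ h, 0 ≤ R h := by
      intro h
      rw [hR]
      refine List.prod_nonneg ?_
      intro a ha
      simp only [List.mem_map] at ha
      obtain ⟨q, _, rfl⟩ := ha
      split_ifs <;> norm_num
    set S' : Finset X := insert p.1 (S ∪ (flat l).toFinset) with hS'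
    have hp2S' : p.2 ∉ S' := by
      simp only [hS', Finset.mem_insert, Finset.mem_union, List.mem_toFinset, not_or]
      exact ⟨hp12, hp2S, hp2⟩
    have hS'card : S'.card ≤ 2 * L := by
      have h1 : S'.card ≤ (S ∪ (flat l).toFinset).card + 1 := Finset.card_insert_le _ _
      have h2 : (S ∪ (flat l).toFinset).card ≤ S.card + (flat l).toFinset.card :=
        Finset.card_union_le _ _
      have h3 : (flat l).toFinset.card ≤ (flat l).length := List.toFinset_card_le _
      rw [hlen] at h3
      simp only [List.length_cons] at hcard
      omega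
    have hRinv : ∀ z, z ∉ S' → ∀ h, R (h * swap p.2 z) = R h := by
      intro z hz h
      rw [hR]
      simp only
      congr 1
      refine List.map_congr_left ?_
      intro q hq
      have hq1 : q.1 ∈ flat l := by
        unfold flat
        rw [List.mem_flatMap]
        exact ⟨q, hq, by simp⟩
      have hq2 : q.2 ∈ flat l := by
        unfold flat
        rw [List.mem_flatMap]
        exact ⟨q, hq, by simp⟩
      have hne : ∀ x ∈ flat l, swap p.2 z x = x := by
        intro x hx
        refine swap_apply_of_ne_of_ne ?_ ?_
        · intro h3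
          exact hp2 (h3 ▸ hx)
        · intro h3
          refine hz ?_
          rw [hS', Finset.mem_insert, Finset.mem_union, List.mem_toFinset]
          right; right
          exact h3 ▸ hx
      rw [Perm.mul_apply, Perm.mul_apply, hne _ hq1, hne _ hq2]
    -- first replacement
    have step1 : ∑ h : Perm X, Φ h * R h *
          (if h p.1 ∈ U ∧ h p.2 ∈ V then (3 / 4 : ℝ) else 1) ≤
        ∑ h : Perm X, Φ h * R h * (if h p.1 ∈ U then (1 - 1 / 128 : ℝ) else 1) := by
      have h1 : ∀ z ∈ S'ᶜ, ∑ h : Perm X, Φ h * R h *
            (if h p.1 ∈ U ∧ h z ∈ V then (3 / 4 : ℝ) else 1) =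
          ∑ h : Perm X, Φ h * R h *
            (if h p.1 ∈ U ∧ h p.2 ∈ V then (3 / 4 : ℝ) else 1) := by
        intro z hz
        rw [Finset.mem_compl] at hz
        refine Fintype.sum_equiv (Equiv.mulRight (swap p.2 z)) _ _ ?_
        intro h
        simp only [Equiv.coe_mulRight]
        have hzS : z ∉ S := by
          intro h3
          apply hz
          rw [hS', Finset.mem_insert, Finset.mem_union]
          right; left; exact h3
        have hz1 : z ≠ p.1 := by
          intro h3
          apply hz
          rw [hS', Finset.mem_insert]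
          left; exact h3
        rw [hRinv z hz h, hinv p.2 z hp2S hzS h]
        simp only [Perm.mul_apply, swap_apply_of_ne_of_ne hp12.symm hz1.symm, swap_apply_left]
      have h2 : (S'ᶜ.card : ℝ) * ∑ h : Perm X, Φ h * R h *
            (if h p.1 ∈ U ∧ h p.2 ∈ V then (3 / 4 : ℝ) else 1) ≤
          (S'ᶜ.card : ℝ) * ∑ h : Perm X, Φ h * R h *
            (if h p.1 ∈ U then (1 - 1 / 128 : ℝ) else 1) := by
        rw [← nsmul_eq_mul, ← Finset.sum_const, ← Finset.sum_congr rfl h1, Finset.sum_comm,
          Finset.mul_sum]
        refine Finset.sum_le_sum ?_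
        intro h _
        rw [← Finset.mul_sum]
        rw [show (S'ᶜ.card : ℝ) * (Φ h * R h * (if h p.1 ∈ U then (1 - 1 / 128 : ℝ) else 1)) =
          Φ h * R h * ((S'ᶜ.card : ℝ) * (if h p.1 ∈ U then (1 - 1 / 128 : ℝ) else 1)) by ring]
        refine mul_le_mul_of_nonneg_left ?_ (mul_nonneg (hpos h) (hRpos h))
        by_cases hU : h p.1 ∈ U
        · simp only [hU, true_and, if_true]
          rw [Finset.sum_ite]
          simp only [Finset.sum_const, nsmul_eq_mul, mul_one]
          -- counts
          have hsplit : (S'ᶜ.filter fun z => h z ∈ V).card +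
              (S'ᶜ.filter fun z => ¬ h z ∈ V).card = S'ᶜ.card :=
            Finset.card_filter_add_card_filter_not _
          have hVcount : V.card ≤ (S'ᶜ.filter fun z => h z ∈ V).card + S'.card := by
            have h3 : V.card = (univ.filter fun z => h z ∈ V).card := by
              refine Finset.card_bij (fun v _ => h⁻¹ v) ?_ ?_ ?_
              · intro v hv
                simpa using hv
              · intro a _ b _ hab
                exact (h⁻¹).injective hab
              · intro x hx
                exact ⟨h x, by simpa using hx, by simp⟩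
            rw [h3]
            have h4 : (univ.filter fun z => h z ∈ V) ⊆
                (S'ᶜ.filter fun z => h z ∈ V) ∪ S' := by
              intro z hz
              rw [Finset.mem_filter] at hz
              rw [Finset.mem_union, Finset.mem_filter, Finset.mem_compl]
              by_cases hzs : z ∈ S'
              · right; exact hzs
              · left; exact ⟨hzs, hz.2⟩
            exact (Finset.card_le_card h4).trans (Finset.card_union_le _ _)
          have hcompl : S'ᶜ.card ≤ Fintype.card X := Finset.card_le_univ _
          have hfin : S'ᶜ.card ≤ 32 * (S'ᶜ.filter fun z => h z ∈ V).card := by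
            omega
          have hfinR : (S'ᶜ.card : ℝ) ≤ 32 * ((S'ᶜ.filter fun z => h z ∈ V).card : ℝ) := by
            exact_mod_cast hfin
          have hsplitR : ((S'ᶜ.filter fun z => h z ∈ V).card : ℝ) +
              ((S'ᶜ.filter fun z => ¬ h z ∈ V).card : ℝ) = (S'ᶜ.card : ℝ) := by
            exact_mod_cast hsplit
          linarith
        · simp [hU]
      have hcpos : (0 : ℝ) < S'ᶜ.card := by
        have : 0 < S'ᶜ.card := Finset.card_pos.mpr ⟨p.2, Finset.mem_compl.mpr hp2S'⟩
        exact_mod_cast this
      exact le_of_mul_le_mul_left h2 hcpos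
    -- induction hypothesis
    have step2 := ih (insert p.1 S)
      (fun h => Φ h * (if h p.1 ∈ U then (1 - 1 / 128 : ℝ) else 1))
      (by
        intro x hx hx'
        rw [Finset.mem_insert] at hx'
        rcases hx' with h3 | h3
        · exact hp1l (h3 ▸ hx)
        · exact hS x (by simp [hx]) h3)
      hnd'
      (by
        have := Finset.card_insert_le p.1 S
        simp only [List.length_cons] at hcard
        omega)
      (by
        intro h
        refine mul_nonneg (hpos h) ?_
        split_ifs <;> norm_num)
      (by
        intro y z hy hz h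
        rw [Finset.mem_insert, not_or] at hy hz
        rw [hinv y z hy.2 hz.2 h, Perm.mul_apply,
          swap_apply_of_ne_of_ne (Ne.symm hy.1) (Ne.symm hz.1)])
    calc ∑ h : Perm X, Φ h * ((p :: l).map fun p =>
          if h p.1 ∈ U ∧ h p.2 ∈ V then (3 / 4 : ℝ) else 1).prod
        = ∑ h : Perm X, Φ h * R h *
          (if h p.1 ∈ U ∧ h p.2 ∈ V then (3 / 4 : ℝ) else 1) := by
          refine Finset.sum_congr rfl ?_
          intro h _
          rw [List.map_cons, List.prod_cons, hR]
          ring
      _ ≤ ∑ h : Perm X, Φ h * R h * (if h p.1 ∈ U then (1 - 1 / 128 : ℝ) else 1) := step1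
      _ = ∑ h : Perm X, Φ h * (if h p.1 ∈ U then (1 - 1 / 128 : ℝ) else 1) * R h := by
          refine Finset.sum_congr rfl ?_
          intro h _
          ring
      _ ≤ ∑ h : Perm X, Φ h * (if h p.1 ∈ U then (1 - 1 / 128 : ℝ) else 1) *
          (l.map fun p => if h p.1 ∈ U then (1 - 1 / 128 : ℝ) else 1).prod := step2
      _ = ∑ h : Perm X, Φ h * ((p :: l).map fun p =>
          if h p.1 ∈ U then (1 - 1 / 128 : ℝ) else 1).prod := by
          refine Finset.sum_congr rfl ?_
          intro h _
          rw [List.map_cons, List.prod_cons]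
          ring

theorem la_nodup_fst : ∀ l : List (X × X), (flat l).Nodup → (l.map Prod.fst).Nodup
  | [], _ => by simp
  | p :: l, h => by
    have hflat : flat (p :: l) = p.1 :: p.2 :: flat l := by simp [flat]
    rw [hflat, List.nodup_cons, List.nodup_cons] at h
    rw [List.map_cons, List.nodup_cons]
    refine ⟨?_, la_nodup_fst l h.2.2⟩
    intro h1
    rw [List.mem_map] at h1
    obtain ⟨q, hq, hq1⟩ := h1
    apply h.1
    rw [List.mem_cons]
    right
    unfold flat
    rw [List.mem_flatMap]
    exact ⟨q, hq, by simp [hq1]⟩

/-- Stages 1 and 2 together. -/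
theorem lowAvg (U V : Finset X) (l : List (X × X)) (hl : (flat l).Nodup)
    (hL : 64 * l.length = Fintype.card X) (hV : Fintype.card X ≤ 16 * V.card) :
    avgP (fun h : Perm X => (l.map fun p =>
      if h p.1 ∈ U ∧ h p.2 ∈ V then (3 / 4 : ℝ) else 1).prod) ≤
      (1 - 1 / 8192) ^ U.card := by
  have hM : (0 : ℝ) < Fintype.card (Perm X) := by
    exact_mod_cast Fintype.card_pos
  have h1 := la_replace U V l.length hL hV l ∅ (fun _ => 1) (by simp) hl (by simp)
    (by intro h; norm_num) (by intro y z _ _ h; rfl)
  simp only [one_mul] at h1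
  have h2 := lowAvg1 U (l.map Prod.fst) (la_nodup_fst l hl) (1 / 128) (by norm_num) (by norm_num)
  calc avgP (fun h : Perm X => (l.map fun p =>
      if h p.1 ∈ U ∧ h p.2 ∈ V then (3 / 4 : ℝ) else 1).prod)
      ≤ avgP (fun h : Perm X => ((l.map Prod.fst).map fun x =>
        if h x ∈ U then (1 - 1 / 128 : ℝ) else 1).prod) := by
        unfold avgP
        rw [div_le_div_iff_of_pos_right hM]
        refine h1.trans (le_of_eq ?_)
        refine Finset.sum_congr rfl ?_
        intro h _
        simp only [List.map_map]
        rfl
    _ ≤ (1 - 1 / 128 * (l.map Prod.fst).length / Fintype.card X) ^ U.card := h2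
    _ = (1 - 1 / 8192) ^ U.card := by
        rw [List.length_map, ← hL]
        rcases Nat.eq_zero_or_pos l.length with h0 | h0
        · have hcard : Fintype.card X = 0 := by rw [← hL, h0]
          have hU : U.card = 0 := by
            have := Finset.card_le_univ U
            omega
          rw [hU, pow_zero, pow_zero]
        · have hne : (l.length : ℝ) ≠ 0 := by
            have : l.length ≠ 0 := by omega
            exact_mod_cast this
          congr 1
          push_cast
          field_simp
          norm_num

end

end Vale.Agent.P162
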