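import Vale.Agent.P162.KKprops
import Vale.Agent.P162.High
import Vale.Agent.P162.LemmaL
import Vale.Agent.P162.LowAvg

/-! # Eigenvalues of `KK` on the levels -/

namespace Vale.Agent.P162

open Finset Equiv
open scoped RealInnerProductSpace

noncomputable section

variable {A : Type*} [Fintype A] [DecidableEq A]
variable {H : Type*} [NormedAddCommGroup H] [InnerProductSpace ℝ H] [FiniteDimensional ℝ H]
variable {ρ : Perm A →* (H →ₗ[ℝ] H)}
variable {X : Type*} [Fintype X] [DecidableEq X]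

omit [FiniteDimensional ℝ H] in
lemma KK_Qop {j : A → X} (hj : Function.Injective j) (l : List (X × X)) (hl : (flat l).Nodup)
    (Z : Finset A) (F : H) : KK ρ j l (Qop ρ Z F) = Qop ρ Z (KK ρ j l F) := by
  rw [Qop_apply, Qop_apply, map_smul, map_sum]
  congr 1
  apply Finset.sum_congr rfl
  intro g _
  exact KK_rho hj l hl g F

omit [FiniteDimensional ℝ H] in
/-- high degree -/
lemma eig_high [FiniteDimensional ℝ H]
    (hρ : ∀ g v, ‖ρ g v‖ = ‖v‖) {j : A → X} (hj : Function.Injective j)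
    (hX : Fintype.card X = 4 * Fintype.card A) (l : List (X × X)) (hl : (flat l).Nodup)
    (hL : 64 * l.length = Fintype.card X) (q : ℕ) (hq : 4 * q ≤ Fintype.card A)
    (F : H) (hF : F ∈ lev ρ univ q) (hF0 : F ≠ 0) (μ : ℝ) (hμ : KK ρ j l F = μ • F) :
    |μ| ≤ (1 - 1 / 8192) ^ (Fintype.card A - q) := by
  have h1 := high hρ hj hX q hq F hF l hl (by omega)
  rw [← KK_inner hρ hj l hl F, hμ, real_inner_smul_right, real_inner_self_eq_norm_sq] at h1
  have h2 := KK_pow_nonneg hρ hj l hl F 1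
  rw [pow_one, hμ, real_inner_smul_right, real_inner_self_eq_norm_sq] at h2
  have hpos : 0 < ‖F‖ ^ 2 := by positivity
  have h3 : 0 ≤ μ := by
    by_contra h
    have := mul_neg_of_neg_of_pos (not_le.mp h) hpos
    linarith
  have h4 : μ ≤ (1 - 49 / 4096) ^ l.length := le_of_mul_le_mul_right h1 hpos
  rw [abs_of_nonneg h3]
  refine h4.trans ?_
  have h5 : (1 - 49 / 4096 : ℝ) ≤ (1 - 1 / 8192) ^ 16 := by norm_num
  have h6 : (1 - 49 / 4096 : ℝ) ^ l.length ≤ ((1 - 1 / 8192) ^ 16) ^ l.length :=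
    pow_le_pow_left₀ (by norm_num) h5 _
  refine h6.trans ?_
  rw [← pow_mul]
  apply pow_le_pow_of_le_one (by norm_num) (by norm_num)
  omega

omit [FiniteDimensional ℝ H] in
/-- low degree -/
lemma eig_low
    (hρ : ∀ g v, ‖ρ g v‖ = ‖v‖) {j : A → X} (hj : Function.Injective j)
    (hX : Fintype.card X = 4 * Fintype.card A) (l : List (X × X)) (hl : (flat l).Nodup)
    (hL : 64 * l.length = Fintype.card X) (q : ℕ) (hq : Fintype.card A ≤ 4 * q)
    (F : H) (hF : F ∈ lev ρ univ q) (Z : Finset A) (hZc : Z.card = q) (hZ : Qop ρ Z F ≠ 0)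
    (μ : ℝ) (hμ : KK ρ j l F = μ • F) :
    |μ| ≤ (1 - 1 / 8192) ^ (Fintype.card A - q) := by
  classical
  set v := Qop ρ Z F with hv
  have hKv : KK ρ j l v = μ • v := by
    rw [hv, KK_Qop hj l hl, hμ, map_smul]
  have hQv : Qop ρ Z v = v := by rw [hv, Qop_Qop (Finset.Subset.refl Z)]
  have hstar : ∀ x, x ∉ Z → ∑ z ∈ Z, ρ (swap x z) v = -v := fun x hx =>
    star hF (Finset.subset_univ Z) hZc (Finset.mem_univ x) hx
  have hnorm : |μ| * ‖v‖ = ‖Qop ρ Z (KK ρ j l v)‖ := by
    rw [hKv, map_smul, hQv, norm_smul, Real.norm_eq_abs]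
  have hcardpos : (0 : ℝ) < (Fintype.card (Perm X) : ℝ) := by
    exact_mod_cast Fintype.card_pos
  -- triangle inequality
  have h1 : ‖Qop ρ Z (KK ρ j l v)‖ ≤
      avgP (fun g : Perm X => ‖Qop ρ Z (Pl ρ (swl (g ∘ j) l) v)‖) := by
    unfold KK avgP
    rw [LinearMap.smul_apply, LinearMap.sum_apply, map_smul, map_sum, norm_smul, norm_inv,
      Real.norm_of_nonneg hcardpos.le, inv_mul_eq_div]
    exact div_le_div_of_nonneg_right (norm_sum_le _ _) hcardpos.le
  have h2 : avgP (fun g : Perm X => ‖Qop ρ Z (Pl ρ (swl (g ∘ j) l) v)‖) ≤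
      avgP (fun g : Perm X => (l.map fun p =>
        if (∃ a, a ∉ Z ∧ (g ∘ j) a = p.1) ∧ (∃ b, b ∈ Z ∧ (g ∘ j) b = p.2)
        then (3 / 4 : ℝ) else 1).prod * ‖v‖) := by
    unfold avgP
    apply div_le_div_of_nonneg_right _ hcardpos.le
    apply Finset.sum_le_sum
    intro g _
    exact lemmaL_list hρ (g.injective.comp hj) Z v hstar l hl (by omega)
  have h3 : avgP (fun g : Perm X => (l.map fun p =>
        if (∃ a, a ∉ Z ∧ (g ∘ j) a = p.1) ∧ (∃ b, b ∈ Z ∧ (g ∘ j) b = p.2)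
        then (3 / 4 : ℝ) else 1).prod * ‖v‖) =
      avgP (fun h : Perm X => (l.map fun p =>
        if h p.1 ∈ (univ \ Z).image j ∧ h p.2 ∈ Z.image j then (3 / 4 : ℝ) else 1).prod) * ‖v‖ := by
    unfold avgP
    rw [← Finset.sum_mul, mul_div_right_comm]
    congr 2
    refine Fintype.sum_equiv (Equiv.inv (Perm X)) _ _ ?_
    intro g
    congr 1
    apply List.map_congr_left
    intro p _
    have e1 : (∃ a, a ∉ Z ∧ (g ∘ j) a = p.1) ↔ (Equiv.inv (Perm X)) g p.1 ∈ (univ \ Z).image j := by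
      rw [Finset.mem_image]
      constructor
      · rintro ⟨a, ha, hga⟩
        refine ⟨a, by simp [ha], ?_⟩
        rw [← hga]
        exact (Equiv.symm_apply_apply g (j a)).symm
      · rintro ⟨a, ha, hga⟩
        refine ⟨a, by simpa using ha, ?_⟩
        rw [Function.comp_apply, hga]
        exact Equiv.apply_symm_apply g _
    have e2 : (∃ b, b ∈ Z ∧ (g ∘ j) b = p.2) ↔ (Equiv.inv (Perm X)) g p.2 ∈ Z.image j := by
      rw [Finset.mem_image]
      constructor
      · rintro ⟨a, ha, hga⟩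
        refine ⟨a, ha, ?_⟩
        rw [← hga]
        exact (Equiv.symm_apply_apply g (j a)).symm
      · rintro ⟨a, ha, hga⟩
        refine ⟨a, ha, ?_⟩
        rw [Function.comp_apply, hga]
        exact Equiv.apply_symm_apply g _
    simp only [e1, e2]
  have h4 := lowAvg ((univ \ Z).image j) (Z.image j) l hl hL (by
    rw [Finset.card_image_of_injective _ hj]
    omega)
  have h5 : ((univ \ Z).image j).card = Fintype.card A - q := by
    rw [Finset.card_image_of_injective _ hj, Finset.card_sdiff_of_subset (Finset.subset_univ Z),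
      Finset.card_univ, hZc]
  rw [h5] at h4
  have hvpos : 0 < ‖v‖ := norm_pos_iff.mpr hZ
  have h6 : |μ| * ‖v‖ ≤ (1 - 1 / 8192) ^ (Fintype.card A - q) * ‖v‖ := by
    rw [hnorm]
    refine h1.trans (h2.trans ?_)
    rw [h3]
    exact mul_le_mul_of_nonneg_right h4 hvpos.le
  exact le_of_mul_le_mul_right h6 hvpos

theorem eig_bound (hρ : ∀ g v, ‖ρ g v‖ = ‖v‖) {j : A → X} (hj : Function.Injective j)
    (hX : Fintype.card X = 4 * Fintype.card A) (l : List (X × X)) (hl : (flat l).Nodup)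
    (hL : 64 * l.length = Fintype.card X) (q : ℕ) (F : H) (hF : F ∈ lev ρ univ q)
    (hZ : ∃ Z : Finset A, Z.card = q ∧ Qop ρ Z F ≠ 0) (μ : ℝ) (hμ : KK ρ j l F = μ • F) :
    |μ| ≤ (1 - 1 / 8192) ^ (Fintype.card A - q) := by
  obtain ⟨Z, hZc, hZ⟩ := hZ
  rcases le_total (4 * q) (Fintype.card A) with hq | hq
  · refine eig_high hρ hj hX l hl hL q hq F hF ?_ μ hμ
    rintro rfl
    exact hZ (map_zero _)
  · exact eig_low hρ hj hX l hl hL q hq F hF Z hZc hZ μ hμ

end

end Vale.Agent.P162
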