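import Vale.Agent.P162.FBasic
import Vale.Agent.P162.Dim

/-! # The abstract properties of the averaged kernel -/

namespace Vale.Agent.P162

open Finset Equiv
open scoped RealInnerProductSpace

noncomputable section

variable {A : Type*} [Fintype A] [DecidableEq A]

/-- a symmetric sub-probability class function with small cycle moments -/
structure PK (ν : ℕ) (p : Perm A → ℝ) : Prop where
  nonneg : ∀ π, 0 ≤ p π
  conj : ∀ h π, p (h * π * h⁻¹) = p π
  inv : ∀ π, p π⁻¹ = p π
  mom : ∀ K : Finset A, ∑ π, p π * FK ν K π ≤ 3 ^ K.card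

lemma PK.sum_le_one {ν : ℕ} {p : Perm A → ℝ} (hp : PK ν p) : ∑ π, p π ≤ 1 := by
  have h := hp.mom ∅
  rw [Finset.card_empty, pow_zero] at h
  refine le_trans (Finset.sum_le_sum fun π _ => ?_) h
  exact le_mul_of_one_le_right (hp.nonneg π) (FK_ge_one ν ∅ π)

/-- a class function is invariant under exchanging the factors -/
lemma PK.mul_comm' {ν : ℕ} {p : Perm A → ℝ} (hp : PK ν p) (g h : Perm A) :
    p (g * h) = p (h * g) := by
  have := hp.conj h⁻¹ (h * g)
  rw [← this]
  congr 1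
  group

section rep

variable {H : Type*} [NormedAddCommGroup H] [InnerProductSpace ℝ H]
variable {ρ : Perm A →* (H →ₗ[ℝ] H)}

lemma Pop_rho {ν : ℕ} {p : Perm A → ℝ} (hp : PK ν p) (g : Perm A) (v : H) :
    Pop ρ p (ρ g v) = ρ g (Pop ρ p v) := by
  rw [Pop_apply, Pop_apply, map_sum]
  refine Fintype.sum_equiv (MulAut.conj g⁻¹).toEquiv _ _ (fun π => ?_)
  have e1 : (MulAut.conj g⁻¹).toEquiv π = g⁻¹ * π * g := by
    show g⁻¹ * π * (g⁻¹)⁻¹ = _
    rw [inv_inv]
  rw [e1, map_smul, ← rho_mul_apply, ← rho_mul_apply]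
  have e2 : p (g⁻¹ * π * g) = p π := by
    have := hp.conj g⁻¹ π
    rwa [inv_inv] at this
  rw [e2]
  congr 2
  group

lemma Pop_symm {ν : ℕ} {p : Perm A → ℝ} (hp : PK ν p) (hρ : ∀ g v, ‖ρ g v‖ = ‖v‖) :
    (Pop ρ p).IsSymmetric := by
  intro v w
  rw [Pop_apply, Pop_apply, sum_inner, inner_sum]
  refine Fintype.sum_equiv (Equiv.inv (Perm A)) _ _ (fun π => ?_)
  show ⟪p π • ρ π v, w⟫ = ⟪v, p π⁻¹ • ρ π⁻¹ w⟫
  rw [real_inner_smul_left, real_inner_smul_right, hp.inv, inner_rho_left hρ]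

lemma norm_Pop_le {ν : ℕ} {p : Perm A → ℝ} (hp : PK ν p) (hρ : ∀ g v, ‖ρ g v‖ = ‖v‖) (v : H) :
    ‖Pop ρ p v‖ ≤ ‖v‖ := by
  rw [Pop_apply]
  refine (norm_sum_le _ _).trans ?_
  have h1 : ∀ π, ‖p π • ρ π v‖ = p π * ‖v‖ := by
    intro π
    rw [norm_smul, hρ, Real.norm_of_nonneg (hp.nonneg π)]
  rw [Finset.sum_congr rfl (fun π _ => h1 π), ← Finset.sum_mul]
  exact mul_le_of_le_one_left (norm_nonneg _) hp.sum_le_one

end rep

/-- multiplication by permutations of the complement does not change `FK` -/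
lemma FK_mul_symF (ν : ℕ) (K : Finset A) (g z : Perm A) (hz : z ∈ symF Kᶜ) :
    FK ν K (g * z) = FK ν K g := by
  unfold FK
  congr 2
  ext χ
  rw [Finset.mem_filter, Finset.mem_filter]
  refine and_congr_right fun hχ => ?_
  rw [Col, Finset.mem_filter] at hχ
  have hz' : ∀ a ∈ K, z a = a := by
    intro a ha
    exact mem_symF.mp hz a (by simpa using ha)
  have hχz : ∀ a, χ (z⁻¹ a) = χ a := by
    intro a
    by_cases ha : a ∈ K
    · have h1 : z⁻¹ a = a := by
        rw [Perm.inv_eq_iff_eq]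
        exact (hz' a ha).symm
      rw [h1]
    · rw [hχ.2 a ha]
      apply hχ.2
      intro h
      have h1 := hz' _ h
      rw [show z (z⁻¹ a) = a from Equiv.apply_symm_apply z a] at h1
      rw [h1] at ha
      exact ha h
  constructor
  · intro h b
    have h1 := h (z⁻¹ b)
    rw [Perm.mul_apply, show z (z⁻¹ b) = b from Equiv.apply_symm_apply z b, hχz] at h1
    exact h1
  · intro h a
    rw [Perm.mul_apply, h (z a)]
    have h1 := hχz (z a)
    rw [show z⁻¹ (z a) = a from Equiv.symm_apply_apply z a] at h1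
    exact h1.symm

/-- conjugation -/
lemma FK_conj (ν : ℕ) (K : Finset A) (h π : Perm A) :
    FK ν (K.image h) (h * π * h⁻¹) = FK ν K π := by
  unfold FK
  congr 1
  refine Finset.card_bij' (fun χ _ => χ ∘ h) (fun χ _ => χ ∘ (h⁻¹ : Perm A)) ?_ ?_ ?_ ?_
  · intro χ hχ
    rw [Finset.mem_filter, Col, Finset.mem_filter] at hχ ⊢
    refine ⟨⟨Finset.mem_univ _, ?_⟩, ?_⟩
    · intro a ha
      apply hχ.1.2
      rw [Finset.mem_image]
      rintro ⟨b, hb, hbe⟩
      rw [h.injective hbe] at hb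
      exact ha hb
    · intro a
      have := hχ.2 (h a)
      rw [Perm.mul_apply, Perm.mul_apply,
        show h⁻¹ (h a) = a from Equiv.symm_apply_apply h a] at this
      exact this
  · intro χ hχ
    rw [Finset.mem_filter, Col, Finset.mem_filter] at hχ ⊢
    refine ⟨⟨Finset.mem_univ _, ?_⟩, ?_⟩
    · intro a ha
      apply hχ.1.2
      intro hb
      apply ha
      rw [Finset.mem_image]
      exact ⟨h⁻¹ a, hb, Equiv.apply_symm_apply h a⟩
    · intro a
      show χ (h⁻¹ ((h * π * h⁻¹) a)) = χ (h⁻¹ a)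
      rw [← hχ.2 (h⁻¹ a), Perm.mul_apply, Perm.mul_apply,
        show h⁻¹ (h (π (h⁻¹ a))) = π (h⁻¹ a) from Equiv.symm_apply_apply h _]
  · intro χ _
    funext a
    show χ (h (h⁻¹ a)) = χ a
    rw [show h (h⁻¹ a) = a from Equiv.apply_symm_apply h a]
  · intro χ _
    funext a
    show χ (h⁻¹ (h a)) = χ a
    rw [show h⁻¹ (h a) = a from Equiv.symm_apply_apply h a]

/-- the number of permutations moving only points of `Z` -/
lemma card_symF (Z : Finset A) : (symF Z).card = Z.card.factorial := by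
  have h1 : Fintype.card (Perm {x // x ∈ Z}) = (symF Z).card := by
    rw [← Fintype.card_coe]
    refine Fintype.card_congr (Equiv.trans (Perm.subtypeEquivSubtypePerm (fun a => a ∈ Z)) ?_)
    refine Equiv.subtypeEquivRight fun g => ?_
    rw [mem_symF]
  rw [← h1, Fintype.card_perm, Fintype.card_coe]

end

end Vale.Agent.P162
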