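import Vale.Agent.P162.FSW

/-! # Bad windows are rare -/

namespace Vale.Agent.P162

open Finset Equiv

noncomputable section

variable {d : ℕ} {A : Type*} [Fintype A] [DecidableEq A]

/-! ### The process of the potentials -/

/-- the process of the potentials -/
def fbadSB : List (Fin d) → ((A → ℝ) → ℝ) → (A → Cube d) → (A → ℝ) → ℝ
  | [], Φ, _, β => Φ β
  | s :: l, Φ, e, β =>
    (∑ g ∈ GF s, fbadSB l Φ (g • e) (upd (tau s e) β)) / ((GF s).card : ℝ)

lemma fbad_SW_eq (ν : ℕ) (Φ : (A → ℝ) → ℝ) (l : List (Fin d)) (e : A → Cube d)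
    (ts : List (Perm A)) :
    SW (Y := A → Cube d) id l (fun _ ts => Φ (pot ν ts)) e ts = fbadSB l Φ e (pot ν ts) := by
  induction l generalizing e ts with
  | nil => rfl
  | cons s l ih =>
    rw [SW_cons]
    show _ = (∑ g ∈ GF s, fbadSB l Φ (g • e) (upd (tau s e) (pot ν ts))) / ((GF s).card : ℝ)
    congr 1
    apply Finset.sum_congr rfl
    intro g _
    rw [ih]
    rfl

/-- the fixed point of the update -/
def fbadc : ℝ := (1 + Real.sqrt 2) / 2

/-- the 24th moment -/
def fbadM (β : A → ℝ) : ℝ := ∑ a, (β a - fbadc) ^ 24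

lemma fbad_even (x : ℝ) : 0 ≤ x ^ 24 := Even.pow_nonneg (by decide) x

omit [Fintype A] in
lemma fbad_layer_pt (τ : Perm A) (β : A → ℝ) (a : A) :
    (upd τ β a - fbadc) ^ 24 ≤
      1 / 2 ^ 12 * (((β a - fbadc) ^ 24 + (β (τ a) - fbadc) ^ 24) / 2) +
        (if τ a = a then (β a - fbadc) ^ 24 else 0) := by
  unfold upd
  by_cases h : τ a = a
  · rw [if_pos h, if_pos h]
    have h1 := fbad_even (β a - fbadc)
    have h2 := fbad_even (β (τ a) - fbadc)
    have h3 : 0 ≤ (1 : ℝ) / 2 ^ 12 * (((β a - fbadc) ^ 24 + (β (τ a) - fbadc) ^ 24) / 2) := by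
      positivity
    linarith
  · rw [if_neg h, if_neg h, add_zero]
    have hr : Real.sqrt 2 * Real.sqrt 2 = 2 := Real.mul_self_sqrt (by norm_num)
    have hr0 : 0 < Real.sqrt 2 := Real.sqrt_pos.mpr (by norm_num)
    have h1 : ((β a + β (τ a)) / 2 + 1 / 2) / Real.sqrt 2 - fbadc =
        ((β a - fbadc) + (β (τ a) - fbadc)) / (2 * Real.sqrt 2) := by
      unfold fbadc
      rw [div_sub' hr0.ne', div_eq_div_iff hr0.ne' (by positivity)]
      ring_nf
      nlinarith [hr]
    rw [h1, div_pow, mul_pow]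
    have h2 : Real.sqrt 2 ^ 24 = 2 ^ 12 := by
      have : Real.sqrt 2 ^ 2 = 2 := Real.sq_sqrt (by norm_num)
      calc Real.sqrt 2 ^ 24 = (Real.sqrt 2 ^ 2) ^ 12 := by rw [← pow_mul]
        _ = 2 ^ 12 := by rw [this]
    rw [h2]
    have h3 : ((β a - fbadc) + (β (τ a) - fbadc)) ^ 24 ≤
        2 ^ (24 - 1) * ((β a - fbadc) ^ 24 + (β (τ a) - fbadc) ^ 24) :=
      Even.add_pow_le (by decide)
    rw [div_le_iff₀ (by positivity)]
    calc _ ≤ _ := h3
      _ = _ := by norm_num; ring

lemma fbad_layer (τ : Perm A) (β : A → ℝ) :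
    fbadM (upd τ β) ≤
      1 / 2 ^ 12 * fbadM β + ∑ a, (if τ a = a then (β a - fbadc) ^ 24 else 0) := by
  have h1 : fbadM (upd τ β) ≤ ∑ a, (1 / 2 ^ 12 *
      (((β a - fbadc) ^ 24 + (β (τ a) - fbadc) ^ 24) / 2) +
        (if τ a = a then (β a - fbadc) ^ 24 else 0)) :=
    Finset.sum_le_sum fun a _ => fbad_layer_pt τ β a
  refine h1.trans (le_of_eq ?_)
  rw [Finset.sum_add_distrib, ← Finset.mul_sum, ← Finset.sum_div, Finset.sum_add_distrib,
    Equiv.sum_comp τ (fun a => (β a - fbadc) ^ 24)]
  unfold fbadM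
  ring

/-! ### Locality -/

/-- `B e a` only depends on the slots in the `T`-subcube of `e a` -/
def fbadLoc (T : Finset (Fin d)) (B : (A → Cube d) → A → ℝ) : Prop :=
  ∀ e e' : A → Cube d, Function.Injective e → Function.Injective e' → ∀ a,
    (∀ b, (∀ i, i ∉ T → e b i = e a i) → e' b = e b) →
    (∀ b, (∀ i, i ∉ T → e' b i = e' a i) → e' b = e b) → B e' a = B e a

omit [DecidableEq A] in
lemma fbad_loc_step [DecidableEq A] (T : Finset (Fin d)) (s : Fin d)
    (B : (A → Cube d) → A → ℝ) (hB : fbadLoc T B) (h : Perm (Cube d)) (hh : h ∈ GF s) :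
    fbadLoc (insert s T) (fun e : A → Cube d => upd (tau s (h • e)) (B (h • e))) := by
  intro e e' he he' a H1 H2
  have hf := smul_inj he h
  have hf' := smul_inj he' h
  have hcoord : ∀ (x : Cube d) (i : Fin d), i ∉ insert s T → h x i = x i := by
    intro x i hi
    exact GF_coord hh x (fun h' => hi (h' ▸ Finset.mem_insert_self s T))
  -- transfer to `h • e`
  have K1 : ∀ b, (∀ i, i ∉ insert s T → (h • e) b i = (h • e) a i) → (h • e') b = (h • e) b := by
    intro b hb
    show h (e' b) = h (e b)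
    rw [H1 b ?_]
    intro i hi
    have := hb i hi
    change h (e b) i = h (e a) i at this
    rwa [hcoord _ i hi, hcoord _ i hi] at this
  have K2 : ∀ b, (∀ i, i ∉ insert s T → (h • e') b i = (h • e') a i) →
      (h • e') b = (h • e) b := by
    intro b hb
    show h (e' b) = h (e b)
    rw [H2 b ?_]
    intro i hi
    have := hb i hi
    change h (e' b) i = h (e' a) i at this
    rwa [hcoord _ i hi, hcoord _ i hi] at this
  show upd (tau s (h • e')) (B (h • e')) a = upd (tau s (h • e)) (B (h • e)) a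
  generalize h • e = f at *
  generalize h • e' = f' at *
  have haa : f' a = f a := K1 a (fun i _ => rfl)
  have hsing : ∀ (x : Cube d) (i : Fin d), i ∉ insert s T →
      (x + Pi.single s 1 : Cube d) i = x i := by
    intro x i hi
    have his : i ≠ s := fun h' => hi (by rw [h']; exact Finset.mem_insert_self s T)
    rw [Pi.add_apply, Pi.single_eq_of_ne his, add_zero]
  have htau : tau s f' a = tau s f a := by
    rcases tau_spec (s := s) hf a with h1 | h1
    · apply tau_eq_of hf'
      rw [K1 (tau s f a) ?_, h1, haa]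
      intro i hi
      rw [h1, hsing _ i hi]
    · rcases tau_spec (s := s) hf' a with h2 | h2
      · exfalso
        have h3 := K2 (tau s f' a) (by
          intro i hi
          rw [h2, hsing _ i hi])
        apply h1.2 (tau s f' a)
        rw [← h3, h2, haa]
      · rw [h1.1, h2.1]
  -- the points of the `T`-subcube of a point `c` of the `insert s T`-subcube of `a`
  have hsub : ∀ c, (∀ i, i ∉ insert s T → f c i = f a i) → B f' c = B f c := by
    intro c hc
    have hcc : f' c = f c := K1 c hc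
    apply hB f f' hf hf' c
    · intro b hb
      apply K1 b
      intro i hi
      rw [hb i (fun h' => hi (Finset.mem_insert_of_mem h')), hc i hi]
    · intro b hb
      apply K2 b
      intro i hi
      rw [hb i (fun h' => hi (Finset.mem_insert_of_mem h')), hcc, haa, hc i hi]
  have hBa : B f' a = B f a := hsub a (fun i _ => rfl)
  have hBt : B f' (tau s f a) = B f (tau s f a) := by
    apply hsub
    intro i hi
    rcases tau_spec (s := s) hf a with h1 | h1
    · rw [h1, hsing _ i hi]
    · rw [h1.1]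
  unfold upd
  rw [htau, hBa, hBt]

/-! ### Resampling -/

lemma fbad_card_W (T : Finset (Fin d)) (s : Fin d) (hs : s ∉ T) (x : Cube d) :
    2 ^ d ≤ 2 * (univ.filter fun z : Cube d => ¬ ∀ i, i ∉ T → z i = x i).card := by
  have h1 : (univ.filter fun z : Cube d => ∀ i, i ∉ T → z i = x i).card ≤
      (univ.filter fun z : Cube d => ¬ ∀ i, i ∉ T → z i = x i).card := by
    apply Finset.card_le_card_of_injOn (fun z => z + Pi.single s 1)
    · intro z hz
      rw [Finset.mem_coe, Finset.mem_filter] at hz ⊢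
      refine ⟨Finset.mem_univ _, fun h => ?_⟩
      have h2 : (z + Pi.single s 1 : Cube d) s = x s := h s hs
      rw [Pi.add_apply, Pi.single_eq_same, hz.2 s hs] at h2
      have h3 : ∀ y : ZMod 2, y + 1 ≠ y := by decide
      exact h3 _ h2
    · intro z _ z' _ h
      exact add_right_cancel h
  have h2 := Finset.card_filter_add_card_filter_not
    (s := (univ : Finset (Cube d))) (fun z : Cube d => ∀ i, i ∉ T → z i = x i)
  have h3 : (univ : Finset (Cube d)).card = 2 ^ d := by
    rw [Finset.card_univ]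
    simp [Cube, ZMod.card]
  omega

lemma fbad_resample (T : Finset (Fin d)) (s : Fin d) (hs : s ∉ T) (j : A → Cube d)
    (hj : Function.Injective j) (hA : 8192 * 2 ^ d ≤ 8192 * Fintype.card A + 2 ^ d)
    (B : (A → Cube d) → A → ℝ) (hB : fbadLoc T B) (a : A) :
    ∑ g : Perm (Cube d), (if tau s (g ∘ j) a = a then (B (g ∘ j) a - fbadc) ^ 24 else 0) ≤
      1 / 2 ^ 12 * ∑ g : Perm (Cube d), (B (g ∘ j) a - fbadc) ^ 24 := by
  classical
  set X : Perm (Cube d) → ℝ := fun g => (B (g ∘ j) a - fbadc) ^ 24 with hX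
  have hX0 : ∀ g, 0 ≤ X g := fun g => fbad_even _
  set p : Perm (Cube d) → Cube d := fun g => g (j a) + Pi.single s 1 with hp
  set E : Perm (Cube d) → Cube d → Prop := fun g z => ∀ b, g (j b) ≠ z with hE
  set W : Perm (Cube d) → Cube d → Prop := fun g z => ¬ ∀ i, i ∉ T → z i = g (j a) i with hW
  have hinj : ∀ g : Perm (Cube d), Function.Injective (g ∘ j) := fun g => g.injective.comp hj
  have hE1 : ∀ g : Perm (Cube d), tau s (g ∘ j) a = a ↔ E g (p g) := by
    intro g
    rcases tau_spec (s := s) (hinj g) a with h1 | h1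
    · constructor
      · intro h2
        exfalso
        rw [h2] at h1
        have h3 := congrFun h1 s
        rw [Pi.add_apply, Pi.single_eq_same] at h3
        have h4 : ∀ y : ZMod 2, y ≠ y + 1 := by decide
        exact h4 _ h3
      · intro h2
        exact absurd h1 (h2 _)
    · exact ⟨fun _ => h1.2, fun _ => h1.1⟩
  -- the partner site is in `W`
  have hpW : ∀ g, W g (p g) := by
    intro g h
    have h2 := h s hs
    change (g (j a) + Pi.single s 1 : Cube d) s = g (j a) s at h2
    rw [Pi.add_apply, Pi.single_eq_same] at h2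
    have h3 : ∀ y : ZMod 2, y + 1 ≠ y := by decide
    exact h3 _ h2
  -- the involution
  have key : ∀ z : Cube d,
      ∑ g ∈ univ.filter (fun g => W g z), (if E g (p g) then X g else 0) =
      ∑ g ∈ univ.filter (fun g => W g z), (if E g z then X g else 0) := by
    intro z
    -- facts on `φ g = swap (p g) z * g`
    have hfix : ∀ (g : Perm (Cube d)), W g z → ∀ y : Cube d, (∀ i, i ∉ T → y i = g (j a) i) →
        swap (p g) z y = y := by
      intro g hg y hy
      apply swap_apply_of_ne_of_ne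
      · rintro rfl
        exact hpW g hy
      · rintro rfl
        exact hg hy
    have hja : ∀ g, W g z → (swap (p g) z * g) (j a) = g (j a) := by
      intro g hg
      exact hfix g hg _ (fun i _ => rfl)
    have hpp : ∀ g, W g z → p (swap (p g) z * g) = p g := by
      intro g hg
      show (swap (p g) z * g) (j a) + Pi.single s 1 = g (j a) + Pi.single s 1
      rw [hja g hg]
    have hWW : ∀ g, W g z → W (swap (p g) z * g) z := by
      intro g hg
      show ¬ ∀ i, i ∉ T → z i = (swap (p g) z * g) (j a) i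
      rw [hja g hg]
      exact hg
    have hinv : ∀ g, W g z →
        swap (p (swap (p g) z * g)) z * (swap (p g) z * g) = g := by
      intro g hg
      rw [hpp g hg, ← mul_assoc, swap_mul_self, one_mul]
    have hXX : ∀ g, W g z → X (swap (p g) z * g) = X g := by
      intro g hg
      show (B ((swap (p g) z * g) ∘ j) a - fbadc) ^ 24 = (B (g ∘ j) a - fbadc) ^ 24
      rw [hB (g ∘ j) ((swap (p g) z * g) ∘ j) (hinj _) (hinj _) a ?_ ?_]
      · intro b hb
        exact hfix g hg (g (j b)) hb
      · intro b hb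
        show swap (p g) z (g (j b)) = g (j b)
        have h1 : swap (p g) z (swap (p g) z (g (j b))) = swap (p g) z (g (j b)) := by
          apply hfix g hg
          intro i hi
          have h2 := hb i hi
          change swap (p g) z (g (j b)) i = (swap (p g) z * g) (j a) i at h2
          rw [h2, hja g hg]
        rw [swap_apply_self] at h1
        exact h1.symm
    have hEE : ∀ g, W g z → (E (swap (p g) z * g) (p (swap (p g) z * g)) ↔ E g z) := by
      intro g hg
      rw [hpp g hg]
      constructor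
      · intro h b hb
        apply h b
        show swap (p g) z (g (j b)) = p g
        rw [hb, swap_apply_right]
      · intro h b hb
        apply h b
        change swap (p g) z (g (j b)) = p g at hb
        have := congrArg (swap (p g) z) hb
        rwa [swap_apply_self, swap_apply_left] at this
    refine Finset.sum_bij' (fun g _ => swap (p g) z * g) (fun g _ => swap (p g) z * g)
      ?_ ?_ ?_ ?_ ?_
    · intro g hg
      rw [Finset.mem_filter] at hg ⊢
      exact ⟨Finset.mem_univ _, hWW g hg.2⟩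
    · intro g hg
      rw [Finset.mem_filter] at hg ⊢
      exact ⟨Finset.mem_univ _, hWW g hg.2⟩
    · intro g hg
      rw [Finset.mem_filter] at hg
      exact hinv g hg.2
    · intro g hg
      rw [Finset.mem_filter] at hg
      exact hinv g hg.2
    · intro g hg
      rw [Finset.mem_filter] at hg
      have h1 := hEE (swap (p g) z * g) (hWW g hg.2)
      rw [hinv g hg.2] at h1
      rw [hXX g hg.2]
      by_cases h : E g (p g)
      · rw [if_pos h, if_pos (h1.mp h)]
      · rw [if_neg h, if_neg (fun h' => h (h1.mpr h'))]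
  -- double counting
  have hL : ∑ z : Cube d, ∑ g ∈ univ.filter (fun g => W g z), (if E g (p g) then X g else 0) =
      ∑ g : Perm (Cube d), ((univ.filter fun z => W g z).card : ℝ) *
        (if E g (p g) then X g else 0) := by
    simp only [Finset.sum_filter]
    rw [Finset.sum_comm]
    apply Finset.sum_congr rfl
    intro g _
    rw [← Finset.sum_filter, Finset.sum_const, nsmul_eq_mul]
  have hR : ∑ z : Cube d, ∑ g ∈ univ.filter (fun g => W g z), (if E g z then X g else 0) ≤
      ∑ g : Perm (Cube d), ((univ.filter fun z => E g z).card : ℝ) * X g := by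
    calc _ ≤ ∑ z : Cube d, ∑ g : Perm (Cube d), (if E g z then X g else 0) := by
          apply Finset.sum_le_sum
          intro z _
          apply Finset.sum_le_sum_of_subset_of_nonneg (Finset.filter_subset _ _)
          intro g _ _
          split_ifs
          · exact hX0 g
          · exact le_refl _
      _ = _ := by
          rw [Finset.sum_comm]
          apply Finset.sum_congr rfl
          intro g _
          rw [← Finset.sum_filter, Finset.sum_const, nsmul_eq_mul]
  have hcube : Fintype.card (Cube d) = 2 ^ d := by simp [Cube, ZMod.card]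
  have hEcard : ∀ g : Perm (Cube d),
      ((univ.filter fun z => E g z).card : ℝ) ≤ 2 ^ d / 8192 := by
    intro g
    have h1 : univ.filter (fun z => E g z) = univ \ univ.image (g ∘ j) := by
      ext z
      rw [Finset.mem_filter, Finset.mem_sdiff, Finset.mem_image]
      constructor
      · rintro ⟨_, h⟩
        refine ⟨Finset.mem_univ _, ?_⟩
        rintro ⟨b, _, hb⟩
        exact h b hb
      · rintro ⟨_, h⟩
        exact ⟨Finset.mem_univ _, fun b hb => h ⟨b, Finset.mem_univ _, hb⟩⟩
    have h2 : (univ.filter fun z => E g z).card + Fintype.card A = 2 ^ d := by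
      rw [h1, ← hcube, ← Finset.card_univ (α := Cube d),
        ← Finset.card_sdiff_add_card_eq_card (Finset.subset_univ (univ.image (g ∘ j))),
        Finset.card_image_of_injective _ (hinj g), Finset.card_univ (α := A)]
    have h3 : 8192 * (univ.filter fun z => E g z).card ≤ 2 ^ d := by omega
    have h4 : (8192 : ℝ) * ((univ.filter fun z => E g z).card : ℝ) ≤ 2 ^ d := by
      exact_mod_cast h3
    linarith
  have hWcard : ∀ g : Perm (Cube d),
      (2 : ℝ) ^ d / 2 ≤ ((univ.filter fun z => W g z).card : ℝ) := by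
    intro g
    have h1 := fbad_card_W T s hs (g (j a))
    have h2 : (2 : ℝ) ^ d ≤ 2 * ((univ.filter fun z => W g z).card : ℝ) := by
      exact_mod_cast h1
    linarith
  have h1 : (2 : ℝ) ^ d / 2 * ∑ g : Perm (Cube d), (if E g (p g) then X g else 0) ≤
      2 ^ d / 8192 * ∑ g : Perm (Cube d), X g := by
    calc _ ≤ ∑ g : Perm (Cube d), ((univ.filter fun z => W g z).card : ℝ) *
        (if E g (p g) then X g else 0) := by
          rw [Finset.mul_sum]
          apply Finset.sum_le_sum
          intro g _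
          apply mul_le_mul_of_nonneg_right (hWcard g)
          split_ifs
          · exact hX0 g
          · exact le_refl _
      _ = ∑ z : Cube d, ∑ g ∈ univ.filter (fun g => W g z), (if E g z then X g else 0) := by
          rw [← hL]
          exact Finset.sum_congr rfl fun z _ => key z
      _ ≤ _ := hR
      _ ≤ _ := by
          rw [Finset.mul_sum]
          apply Finset.sum_le_sum
          intro g _
          exact mul_le_mul_of_nonneg_right (hEcard g) (hX0 g)
  have h2 : ∑ g : Perm (Cube d), (if tau s (g ∘ j) a = a then X g else 0) =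
      ∑ g : Perm (Cube d), (if E g (p g) then X g else 0) := by
    apply Finset.sum_congr rfl
    intro g _
    by_cases h : tau s (g ∘ j) a = a
    · rw [if_pos h, if_pos ((hE1 g).mp h)]
    · rw [if_neg h, if_neg (fun h' => h ((hE1 g).mpr h'))]
  have h3 : (0 : ℝ) < 2 ^ d := by positivity
  show ∑ g : Perm (Cube d), (if tau s (g ∘ j) a = a then X g else 0) ≤ _
  rw [h2]
  have h4 : (2 : ℝ) ^ d * (∑ g : Perm (Cube d), (if E g (p g) then X g else 0)) ≤
      2 ^ d * (1 / 2 ^ 12 * ∑ g : Perm (Cube d), X g) := by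
    calc (2 : ℝ) ^ d * (∑ g : Perm (Cube d), (if E g (p g) then X g else 0))
        = 2 * (2 ^ d / 2 * ∑ g : Perm (Cube d), (if E g (p g) then X g else 0)) := by ring
      _ ≤ 2 * (2 ^ d / 8192 * ∑ g : Perm (Cube d), X g) :=
          mul_le_mul_of_nonneg_left h1 (by norm_num)
      _ = _ := by ring
  exact le_of_mul_le_mul_left h4 h3

/-! ### The main induction -/

lemma fbad_avgP_mul (h : Perm (Cube d)) (F : Perm (Cube d) → ℝ) :
    avgP (fun g => F (h * g)) = avgP F := by
  unfold avgP
  congr 1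
  exact Equiv.sum_comp (Equiv.mulLeft h) F

lemma fbad_avgP_sum {ι : Type*} (t : Finset ι) (F : ι → Perm (Cube d) → ℝ) :
    avgP (fun g => ∑ i ∈ t, F i g) = ∑ i ∈ t, avgP (F i) := by
  unfold avgP
  rw [Finset.sum_comm, Finset.sum_div]

lemma fbad_avgP_div (c : ℝ) (F : Perm (Cube d) → ℝ) :
    avgP (fun g => F g / c) = avgP F / c := by
  unfold avgP
  rw [← Finset.sum_div, div_right_comm]

lemma fbad_avgP_mono {F G : Perm (Cube d) → ℝ} (h : ∀ g, F g ≤ G g) : avgP F ≤ avgP G := by
  unfold avgP
  exact div_le_div_of_nonneg_right (Finset.sum_le_sum fun g _ => h g) (Nat.cast_nonneg _)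

lemma fbad_one_layer (T : Finset (Fin d)) (s : Fin d) (hs : s ∉ T) (j : A → Cube d)
    (hj : Function.Injective j) (hA : 8192 * 2 ^ d ≤ 8192 * Fintype.card A + 2 ^ d)
    (B : (A → Cube d) → A → ℝ) (hB : fbadLoc T B) :
    avgP (fun g : Perm (Cube d) => fbadM (upd (tau s (g ∘ j)) (B (g ∘ j)))) ≤
      1 / 2 ^ 11 * avgP (fun g : Perm (Cube d) => fbadM (B (g ∘ j))) := by
  have h1 : avgP (fun g : Perm (Cube d) => fbadM (upd (tau s (g ∘ j)) (B (g ∘ j)))) ≤
      avgP (fun g : Perm (Cube d) => 1 / 2 ^ 12 * fbadM (B (g ∘ j)) +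
        ∑ a, (if tau s (g ∘ j) a = a then (B (g ∘ j) a - fbadc) ^ 24 else 0)) :=
    fbad_avgP_mono fun g => fbad_layer _ _
  refine h1.trans ?_
  unfold avgP
  rw [Finset.sum_add_distrib, ← Finset.mul_sum, Finset.sum_comm, mul_div_assoc']
  apply div_le_div_of_nonneg_right _ (Nat.cast_nonneg _)
  have h2 : ∑ a : A, ∑ g : Perm (Cube d),
      (if tau s (g ∘ j) a = a then (B (g ∘ j) a - fbadc) ^ 24 else 0) ≤
      ∑ a : A, 1 / 2 ^ 12 * ∑ g : Perm (Cube d), (B (g ∘ j) a - fbadc) ^ 24 :=
    Finset.sum_le_sum fun a _ => fbad_resample T s hs j hj hA B hB a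
  have h3 : ∑ a : A, 1 / 2 ^ 12 * ∑ g : Perm (Cube d), (B (g ∘ j) a - fbadc) ^ 24 =
      1 / 2 ^ 12 * ∑ g : Perm (Cube d), fbadM (B (g ∘ j)) := by
    rw [← Finset.mul_sum, Finset.sum_comm]
    rfl
  rw [h3] at h2
  calc _ ≤ 1 / 2 ^ 12 * ∑ g : Perm (Cube d), fbadM (B (g ∘ j)) +
        1 / 2 ^ 12 * ∑ g : Perm (Cube d), fbadM (B (g ∘ j)) := by
          exact add_le_add_right h2 _
    _ = _ := by ring

lemma fbad_main (j : A → Cube d) (hj : Function.Injective j)
    (hA : 8192 * 2 ^ d ≤ 8192 * Fintype.card A + 2 ^ d) (l : List (Fin d)) (hl : l.Nodup)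
    (T : Finset (Fin d)) (hT : ∀ s ∈ l, s ∉ T) (B : (A → Cube d) → A → ℝ)
    (hB : fbadLoc T B) :
    avgP (fun g : Perm (Cube d) => fbadSB l fbadM (g ∘ j) (B (g ∘ j))) ≤
      (1 / 2 ^ 11) ^ l.length * avgP (fun g : Perm (Cube d) => fbadM (B (g ∘ j))) := by
  induction l generalizing T B with
  | nil =>
    rw [List.length_nil, pow_zero, one_mul]
    exact le_refl _
  | cons s l ih =>
    rw [List.nodup_cons] at hl
    have hs : s ∉ T := hT s List.mem_cons_self
    have e1 : avgP (fun g : Perm (Cube d) => fbadSB (s :: l) fbadM (g ∘ j) (B (g ∘ j))) =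
        (∑ g₁ ∈ GF s, avgP (fun g : Perm (Cube d) =>
          fbadSB l fbadM (g₁ • (g ∘ j)) (upd (tau s (g ∘ j)) (B (g ∘ j))))) /
            ((GF s).card : ℝ) := by
      rw [← fbad_avgP_sum, ← fbad_avgP_div]
      rfl
    have h1 : ∀ g₁ ∈ GF s, avgP (fun g : Perm (Cube d) =>
          fbadSB l fbadM (g₁ • (g ∘ j)) (upd (tau s (g ∘ j)) (B (g ∘ j)))) ≤
        (1 / 2 ^ 11) ^ l.length * avgP (fun g : Perm (Cube d) =>
          fbadM (upd (tau s (g ∘ j)) (B (g ∘ j)))) := by
      intro g₁ hg₁
      have h2 := ih hl.2 (insert s T) (by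
        intro s' hs' h
        rcases Finset.mem_insert.mp h with h | h
        · rw [h] at hs'
          exact hl.1 hs'
        · exact hT s' (List.mem_cons_of_mem _ hs') h)
        (fun e : A → Cube d => upd (tau s (g₁⁻¹ • e)) (B (g₁⁻¹ • e)))
        (fbad_loc_step T s B hB g₁⁻¹ (inv_mem_GF hg₁))
      have e2 : avgP (fun g : Perm (Cube d) =>
          fbadSB l fbadM (g₁ • (g ∘ j)) (upd (tau s (g ∘ j)) (B (g ∘ j)))) =
          avgP (fun g : Perm (Cube d) => fbadSB l fbadM (g ∘ j)
            (upd (tau s (g₁⁻¹ • (g ∘ j))) (B (g₁⁻¹ • (g ∘ j))))) := by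
        rw [← fbad_avgP_mul g₁ (fun g : Perm (Cube d) => fbadSB l fbadM (g ∘ j)
            (upd (tau s (g₁⁻¹ • (g ∘ j))) (B (g₁⁻¹ • (g ∘ j)))))]
        congr 1
        funext g
        have h3 : (g₁⁻¹ • ((g₁ * g : Perm (Cube d)) ∘ j) : A → Cube d) = g ∘ j := by
          funext b
          show g₁⁻¹ (g₁ (g (j b))) = g (j b)
          exact Equiv.symm_apply_apply g₁ _
        rw [h3]
        rfl
      have e3 : avgP (fun g : Perm (Cube d) => fbadM
            (upd (tau s (g₁⁻¹ • (g ∘ j))) (B (g₁⁻¹ • (g ∘ j))))) =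
          avgP (fun g : Perm (Cube d) => fbadM (upd (tau s (g ∘ j)) (B (g ∘ j)))) := by
        rw [← fbad_avgP_mul g₁⁻¹ (fun g : Perm (Cube d) =>
          fbadM (upd (tau s (g ∘ j)) (B (g ∘ j))))]
        rfl
      rw [e2, ← e3]
      exact h2
    rw [e1]
    have h4 : (∑ g₁ ∈ GF s, avgP (fun g : Perm (Cube d) =>
          fbadSB l fbadM (g₁ • (g ∘ j)) (upd (tau s (g ∘ j)) (B (g ∘ j))))) ≤
        ((GF s).card : ℝ) * ((1 / 2 ^ 11) ^ l.length * avgP (fun g : Perm (Cube d) =>
          fbadM (upd (tau s (g ∘ j)) (B (g ∘ j))))) := by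
      refine (Finset.sum_le_sum h1).trans (le_of_eq ?_)
      rw [Finset.sum_const, nsmul_eq_mul]
    rw [div_le_iff₀ (GF_card_pos s)]
    refine h4.trans ?_
    rw [mul_comm]
    apply mul_le_mul_of_nonneg_right _ (GF_card_pos s).le
    have h5 := fbad_one_layer T s hs j hj hA B hB
    calc (1 / 2 ^ 11 : ℝ) ^ l.length * avgP (fun g : Perm (Cube d) =>
          fbadM (upd (tau s (g ∘ j)) (B (g ∘ j))))
        ≤ (1 / 2 ^ 11 : ℝ) ^ l.length * (1 / 2 ^ 11 *
            avgP (fun g : Perm (Cube d) => fbadM (B (g ∘ j)))) :=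
          mul_le_mul_of_nonneg_left h5 (by positivity)
      _ = _ := by
          rw [List.length_cons, ← mul_assoc, ← pow_succ (1 / 2 ^ 11 : ℝ)]

open Classical in
theorem pbad (ν : ℕ) (hν : 1 ≤ ν) (hν4 : 4 * ν ≤ d + 3) (j : A → Cube d)
    (hj : Function.Injective j) (hA : 8192 * 2 ^ d ≤ 8192 * Fintype.card A + 2 ^ d) :
    avgP (fun g : Perm (Cube d) => SW (Y := A → Cube d) id (List.finRange d)
      (fun _ ts => if Good (pot ν ts) then (0 : ℝ) else 1) (g ∘ j) []) ≤
    2 ^ 18 / 2 ^ (4 * d) := by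
  have hr0 : 0 ≤ Real.sqrt 2 := Real.sqrt_nonneg 2
  have hr1 : Real.sqrt 2 ≤ 3 / 2 := by
    rw [Real.sqrt_le_left (by norm_num)]
    norm_num
  -- the indicator is at most the moment
  have h1 : ∀ β : A → ℝ, (if Good β then (0 : ℝ) else 1) ≤ fbadM β := by
    intro β
    split_ifs with h
    · exact Finset.sum_nonneg fun a _ => fbad_even _
    · unfold Good at h
      push Not at h
      obtain ⟨a, ha⟩ := h
      have h2 : (1 : ℝ) ≤ (β a - fbadc) ^ 24 := by
        apply one_le_pow₀
        unfold fbadc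
        linarith
      refine h2.trans ?_
      exact Finset.single_le_sum (f := fun a => (β a - fbadc) ^ 24)
        (fun a _ => fbad_even _) (Finset.mem_univ a)
  have h2 : avgP (fun g : Perm (Cube d) => SW (Y := A → Cube d) id (List.finRange d)
      (fun _ ts => if Good (pot ν ts) then (0 : ℝ) else 1) (g ∘ j) []) ≤
      avgP (fun g : Perm (Cube d) => fbadSB (List.finRange d) fbadM (g ∘ j)
        (pot (A := A) ν [])) := by
    apply fbad_avgP_mono
    intro g
    rw [← fbad_SW_eq]
    exact SW_mono (fun _ ts => h1 _) _ _ _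
  have h3 := fbad_main j hj hA (List.finRange d) (List.nodup_finRange d) ∅
    (fun s _ => Finset.notMem_empty s) (fun _ => pot (A := A) ν []) (fun _ _ _ _ _ _ _ => rfl)
  refine (h2.trans h3).trans ?_
  rw [List.length_finRange]
  -- the initial moment
  have h4 : avgP (fun _ : Perm (Cube d) => fbadM (pot (A := A) ν [])) ≤ 2 ^ (7 * d + 18) := by
    have e : avgP (fun _ : Perm (Cube d) => fbadM (pot (A := A) ν [])) =
        fbadM (pot (A := A) ν []) := by
      unfold avgP
      rw [Finset.sum_const, nsmul_eq_mul, Finset.card_univ, mul_div_right_comm,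
        div_self (by exact_mod_cast Fintype.card_pos.ne'), one_mul]
    rw [e]
    have h5 : ∀ a : A, (pot (A := A) ν [] a - fbadc) ^ 24 ≤ 2 ^ (6 * d + 18) := by
      intro a
      show ((2 : ℝ) ^ ν - fbadc) ^ 24 ≤ 2 ^ (6 * d + 18)
      have h6 : (2 : ℝ) ≤ 2 ^ ν := by
        calc (2 : ℝ) = 2 ^ 1 := (pow_one _).symm
          _ ≤ 2 ^ ν := pow_le_pow_right₀ (by norm_num) hν
      have h7 : (0 : ℝ) ≤ 2 ^ ν - fbadc := by unfold fbadc; linarith
      have h8 : (2 : ℝ) ^ ν - fbadc ≤ 2 ^ ν := by unfold fbadc; linarith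
      calc ((2 : ℝ) ^ ν - fbadc) ^ 24 ≤ (2 ^ ν) ^ 24 := pow_le_pow_left₀ h7 h8 24
        _ = 2 ^ (ν * 24) := by rw [← pow_mul]
        _ ≤ 2 ^ (6 * d + 18) := pow_le_pow_right₀ (by norm_num) (by omega)
    have hcard : (Fintype.card A : ℝ) ≤ 2 ^ d := by
      have h9 : Fintype.card A ≤ Fintype.card (Cube d) := Fintype.card_le_of_injective j hj
      have h10 : Fintype.card (Cube d) = 2 ^ d := by simp [Cube, ZMod.card]
      rw [h10] at h9
      exact_mod_cast h9
    calc fbadM (pot (A := A) ν []) ≤ ∑ _a : A, (2 : ℝ) ^ (6 * d + 18) :=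
          Finset.sum_le_sum fun a _ => h5 a
      _ = (Fintype.card A : ℝ) * 2 ^ (6 * d + 18) := by
          rw [Finset.sum_const, nsmul_eq_mul, Finset.card_univ]
      _ ≤ 2 ^ d * 2 ^ (6 * d + 18) := mul_le_mul_of_nonneg_right hcard (by positivity)
      _ = 2 ^ (7 * d + 18) := by rw [← pow_add]; congr 1; ring
  calc (1 / 2 ^ 11 : ℝ) ^ d * avgP (fun _ : Perm (Cube d) => fbadM (pot (A := A) ν []))
      ≤ (1 / 2 ^ 11 : ℝ) ^ d * 2 ^ (7 * d + 18) := mul_le_mul_of_nonneg_left h4 (by positivity)
    _ = 2 ^ 18 / 2 ^ (4 * d) := by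
        rw [div_pow, one_pow, ← pow_mul, div_mul_eq_mul_div, one_mul,
          div_eq_div_iff (by positivity) (by positivity), ← pow_add, ← pow_add]
        congr 1
        ring

end

end Vale.Agent.P162
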