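import Vale.Agent.P162.FDefs

/-! # Basic facts about `GT`, `PT`, `Pw`, `wl` -/

namespace Vale.Agent.P162

open Finset Equiv
open scoped RealInnerProductSpace

noncomputable section

section GTfacts

variable {A : Type*} [Fintype A] [DecidableEq A]

lemma mem_GT {τ g : Perm A} : g ∈ GT τ ↔ ∀ a, g a = a ∨ g a = τ a := by simp [GT]

lemma one_mem_GT (τ : Perm A) : (1 : Perm A) ∈ GT τ := by simp [GT]

lemma GT_card_pos (τ : Perm A) : (0 : ℝ) < ((GT τ).card : ℝ) := by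
  exact_mod_cast Finset.card_pos.mpr ⟨1, one_mem_GT τ⟩

omit [Fintype A] [DecidableEq A] in
lemma tau_tau {τ : Perm A} (hτ : τ * τ = 1) (a : A) : τ (τ a) = a := by
  rw [← Perm.mul_apply, hτ, Perm.one_apply]

/-- elements of `GT τ` are involutions -/
lemma GT_apply_apply {τ g : Perm A} (hτ : τ * τ = 1) (hg : g ∈ GT τ) (a : A) : g (g a) = a := by
  rw [mem_GT] at hg
  rcases hg a with h | h
  · rw [h, h]
  · rcases hg (g a) with h2 | h2
    · rw [h2]; exact g.injective h2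
    · rw [h2, h, tau_tau hτ]

lemma GT_mul_self {τ g : Perm A} (hτ : τ * τ = 1) (hg : g ∈ GT τ) : g * g = 1 := by
  ext a
  rw [Perm.mul_apply, GT_apply_apply hτ hg, Perm.one_apply]

lemma GT_inv {τ g : Perm A} (hτ : τ * τ = 1) (hg : g ∈ GT τ) : g⁻¹ = g :=
  inv_eq_of_mul_eq_one_left (GT_mul_self hτ hg)

lemma inv_mem_GT {τ g : Perm A} (hτ : τ * τ = 1) (hg : g ∈ GT τ) : g⁻¹ ∈ GT τ := by
  rw [GT_inv hτ hg]; exact hg

lemma mul_mem_GT {τ g h : Perm A} (hτ : τ * τ = 1) (hg : g ∈ GT τ) (hh : h ∈ GT τ) :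
    g * h ∈ GT τ := by
  have hg' := hg
  rw [mem_GT] at *
  intro a
  rw [Perm.mul_apply]
  rcases hh a with h1 | h1
  · rw [h1]; exact hg a
  · rw [h1]
    rcases hg (τ a) with h2 | h2
    · right; exact h2
    · left; rw [h2, tau_tau hτ]

/-- `g ∈ GT τ` either fixes both points of a 2-cycle or exchanges them -/
lemma GT_tau_iff {τ g : Perm A} (hτ : τ * τ = 1) (hg : g ∈ GT τ) (a : A) :
    g (τ a) = τ a ↔ g a = a := by
  have key : ∀ b, g b = b → g (τ b) = τ b := by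
    intro b hb
    rcases (mem_GT.mp hg) (τ b) with h | h
    · exact h
    · rw [tau_tau hτ] at h
      have h2 : g (τ b) = g b := by rw [h, hb]
      have h3 := g.injective h2
      rw [h3]; exact hb
  constructor
  · intro h
    have := key (τ a) h
    rwa [tau_tau hτ] at this
  · exact key a

lemma GT_conj {τ g : Perm A} (h : Perm A) (hg : g ∈ GT τ) : h⁻¹ * g * h ∈ GT (h⁻¹ * τ * h) := by
  rw [mem_GT] at *
  intro a
  rcases hg (h a) with h1 | h1
  · left
    show h⁻¹ (g (h a)) = a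
    rw [h1]
    exact Equiv.symm_apply_apply h a
  · right
    show h⁻¹ (g (h a)) = h⁻¹ (τ (h a))
    rw [h1]

end GTfacts

section PTfacts

variable {A : Type*} [Fintype A] [DecidableEq A]
variable {H : Type*} [NormedAddCommGroup H] [InnerProductSpace ℝ H]
variable {ρ : Perm A →* (H →ₗ[ℝ] H)}

lemma PT_apply (τ : Perm A) (v : H) :
    PT ρ τ v = ((GT τ).card : ℝ)⁻¹ • ∑ g ∈ GT τ, ρ g v := by
  simp [PT]

lemma PT_rho {τ g : Perm A} (hτ : τ * τ = 1) (hg : g ∈ GT τ) (v : H) :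
    PT ρ τ (ρ g v) = PT ρ τ v := by
  rw [PT_apply, PT_apply]
  congr 1
  refine Finset.sum_bij' (fun k _ => k * g) (fun k _ => k * g⁻¹) ?_ ?_ ?_ ?_ ?_
  · intro k hk; exact mul_mem_GT hτ hk hg
  · intro k hk; exact mul_mem_GT hτ hk (inv_mem_GT hτ hg)
  · intro k _; simp
  · intro k _; simp
  · intro k _; rw [rho_mul_apply]

lemma norm_PT_le (hρ : ∀ g v, ‖ρ g v‖ = ‖v‖) (τ : Perm A) (v : H) : ‖PT ρ τ v‖ ≤ ‖v‖ := by
  rw [PT_apply, norm_smul, norm_inv, Real.norm_of_nonneg (GT_card_pos τ).le]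
  have h1 : ‖∑ g ∈ GT τ, ρ g v‖ ≤ ((GT τ).card : ℝ) * ‖v‖ := by
    refine (norm_sum_le _ _).trans ?_
    rw [Finset.sum_congr rfl (fun g _ => hρ g v), Finset.sum_const, nsmul_eq_mul]
  calc ((GT τ).card : ℝ)⁻¹ * ‖∑ g ∈ GT τ, ρ g v‖
      ≤ ((GT τ).card : ℝ)⁻¹ * (((GT τ).card : ℝ) * ‖v‖) := by
        apply mul_le_mul_of_nonneg_left h1 (inv_nonneg.mpr (GT_card_pos τ).le)
    _ = ‖v‖ := by rw [← mul_assoc, inv_mul_cancel₀ (GT_card_pos τ).ne', one_mul]

lemma norm_Pw_le (hρ : ∀ g v, ‖ρ g v‖ = ‖v‖) (l : List (Perm A)) (v : H) :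
    ‖Pw ρ l v‖ ≤ ‖v‖ := by
  induction l with
  | nil => exact le_refl _
  | cons τ l ih => exact (norm_PT_le hρ τ _).trans ih

lemma Pop_apply (p : Perm A → ℝ) (v : H) : Pop ρ p v = ∑ π : Perm A, p π • ρ π v := by
  simp [Pop]

lemma wl_nonneg (l : List (Perm A)) (G : Perm A) : 0 ≤ wl l G := by
  induction l generalizing G with
  | nil => unfold wl; split_ifs <;> norm_num
  | cons τ l ih =>
    show 0 ≤ (∑ g ∈ GT τ, wl l (g⁻¹ * G)) / ((GT τ).card : ℝ)
    exact div_nonneg (Finset.sum_nonneg fun g _ => ih _) (Nat.cast_nonneg _)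

lemma wl_cons (τ : Perm A) (l : List (Perm A)) (G : Perm A) :
    wl (τ :: l) G = (∑ g ∈ GT τ, wl l (g⁻¹ * G)) / ((GT τ).card : ℝ) := rfl

/-- summation against `wl (τ :: l)` -/
lemma sum_wl_cons (τ : Perm A) (l : List (Perm A)) (f : Perm A → ℝ) :
    ∑ G, wl (τ :: l) G * f G = (∑ g ∈ GT τ, ∑ G, wl l G * f (g * G)) / ((GT τ).card : ℝ) := by
  have h1 : ∀ G, wl (τ :: l) G * f G = (∑ g ∈ GT τ, wl l (g⁻¹ * G) * f G) / ((GT τ).card : ℝ) := by
    intro G
    rw [wl_cons, div_mul_eq_mul_div, Finset.sum_mul]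
  simp only [h1]
  rw [← Finset.sum_div, Finset.sum_comm]
  congr 1
  apply Finset.sum_congr rfl
  intro g _
  refine Fintype.sum_equiv (Equiv.mulLeft g⁻¹) _ _ (fun G => ?_)
  show wl l (g⁻¹ * G) * f G = wl l (g⁻¹ * G) * f (g * (g⁻¹ * G))
  rw [mul_inv_cancel_left]

lemma sum_wl (l : List (Perm A)) : ∑ G, wl l G = 1 := by
  induction l with
  | nil => simp [wl]
  | cons τ l ih =>
    have h := sum_wl_cons τ l (fun _ => 1)
    simp only [mul_one] at h
    rw [h, ih, Finset.sum_const, nsmul_eq_mul, mul_one, div_self (GT_card_pos τ).ne']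

/-- the window operator is the average of `ρ` with respect to the law `wl` -/
lemma Pw_eq (l : List (Perm A)) (v : H) : Pw ρ l v = ∑ G, wl l G • ρ G v := by
  induction l with
  | nil =>
    simp only [wl, Pw, LinearMap.id_coe, id_eq, ite_smul, one_smul, zero_smul,
      Finset.sum_ite_eq', Finset.mem_univ, if_true]
    exact (rho_one_apply v).symm
  | cons τ l ih =>
    show PT ρ τ (Pw ρ l v) = _
    rw [PT_apply, ih]
    have h1 : ∀ G, wl (τ :: l) G • ρ G v =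
        ∑ g ∈ GT τ, (((GT τ).card : ℝ)⁻¹ * wl l (g⁻¹ * G)) • ρ G v := by
      intro G
      rw [wl_cons, div_eq_inv_mul, Finset.mul_sum, Finset.sum_smul]
    simp only [h1]
    rw [Finset.sum_comm, Finset.smul_sum]
    apply Finset.sum_congr rfl
    intro g _
    rw [map_sum, Finset.smul_sum]
    symm
    refine Fintype.sum_equiv (Equiv.mulLeft g⁻¹) _ _ (fun G => ?_)
    show (((GT τ).card : ℝ)⁻¹ * wl l (g⁻¹ * G)) • ρ G v = ((GT τ).card : ℝ)⁻¹ • ρ g (wl l (g⁻¹ * G) • ρ (g⁻¹ * G) v)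
    rw [map_smul, ← rho_mul_apply, mul_inv_cancel_left, mul_smul]

lemma kern_nonneg (l : List (Perm A)) (π : Perm A) : 0 ≤ kern l π :=
  Finset.sum_nonneg fun G _ => mul_nonneg (wl_nonneg l G) (wl_nonneg l _)

lemma kern_inv (l : List (Perm A)) (π : Perm A) : kern l π⁻¹ = kern l π := by
  unfold kern
  refine Fintype.sum_equiv (Equiv.mulRight π⁻¹) _ _ (fun G => ?_)
  show wl l G * wl l (G * π⁻¹) = wl l (G * π⁻¹) * wl l (G * π⁻¹ * π)
  rw [inv_mul_cancel_right, mul_comm]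

/-- summation against `kern` -/
lemma sum_kern (l : List (Perm A)) (f : Perm A → ℝ) :
    ∑ π, kern l π * f π = ∑ G, ∑ G', wl l G * wl l G' * f (G⁻¹ * G') := by
  unfold kern
  simp only [Finset.sum_mul]
  rw [Finset.sum_comm]
  apply Finset.sum_congr rfl
  intro G _
  refine Fintype.sum_equiv (Equiv.mulLeft G) _ _ (fun π => ?_)
  show wl l G * wl l (G * π) * f π = wl l G * wl l (G * π) * f (G⁻¹ * (G * π))
  rw [inv_mul_cancel_left]

/-- the quadratic form of `kern` -/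
lemma sum_kern_inner (hρ : ∀ g v, ‖ρ g v‖ = ‖v‖) (l : List (Perm A)) (v : H) :
    ∑ π, kern l π * ⟪v, ρ π v⟫ = ‖Pw ρ l v‖ ^ 2 := by
  rw [sum_kern, ← real_inner_self_eq_norm_sq, Pw_eq, sum_inner]
  apply Finset.sum_congr rfl
  intro G _
  rw [inner_sum]
  apply Finset.sum_congr rfl
  intro G' _
  rw [real_inner_smul_left, real_inner_smul_right, inner_rho_left hρ, rho_mul_apply]
  ring

lemma FK_ge_one (ν : ℕ) (K : Finset A) (π : Perm A) : 1 ≤ FK ν K π := by
  unfold FK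
  have : 0 < ((Col ν K).filter fun χ => ∀ a, χ (π a) = χ a).card := by
    apply Finset.card_pos.mpr
    refine ⟨fun _ => 0, ?_⟩
    rw [Finset.mem_filter, Col, Finset.mem_filter]
    exact ⟨⟨Finset.mem_univ _, fun _ _ => rfl⟩, fun _ => rfl⟩
  exact_mod_cast this

omit [Fintype A] in
lemma upd_nonneg {τ : Perm A} {β : A → ℝ} (hβ : ∀ a, 0 ≤ β a) (a : A) : 0 ≤ upd τ β a := by
  unfold upd
  split_ifs
  · exact hβ a
  · have := hβ a
    have := hβ (τ a)
    positivity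

lemma pot_nonneg (ν : ℕ) (l : List (Perm A)) (a : A) : 0 ≤ pot ν l a := by
  induction l generalizing a with
  | nil => show (0 : ℝ) ≤ 2 ^ ν; positivity
  | cons τ l ih => exact upd_nonneg ih a

end PTfacts

end

end Vale.Agent.P162
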