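import Vale.Agent.P162.Basic

/-! # The operator `KK` is symmetric, central, and an average of projections -/

namespace Vale.Agent.P162

open Finset Equiv
open scoped RealInnerProductSpace

noncomputable section

variable {A : Type*} [Fintype A] [DecidableEq A]
variable {H : Type*} [NormedAddCommGroup H] [InnerProductSpace ℝ H]
variable {ρ : Perm A →* (H →ₗ[ℝ] H)}
variable {X : Type*} [Fintype X] [DecidableEq X]

lemma kk_sw_cases {e : A → X} (he : Function.Injective e) (x y : X) :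
    (∃ a b, e a = x ∧ e b = y ∧ sw e x y = swap a b) ∨ sw e x y = 1 := by
  by_cases h : (∃ a, e a = x) ∧ ∃ b, e b = y
  · obtain ⟨⟨a, rfl⟩, b, rfl⟩ := h
    exact Or.inl ⟨a, b, rfl, rfl, sw_eq he a b⟩
  · exact Or.inr (sw_eq_one h)

lemma kk_sw_comm {e : A → X} (he : Function.Injective e) {x y x' y' : X} (h1 : x ≠ x') (h2 : x ≠ y')
    (h3 : y ≠ x') (h4 : y ≠ y') : sw e x y * sw e x' y' = sw e x' y' * sw e x y := by
  rcases kk_sw_cases he x y with ⟨a, b, ha, hb, hs⟩ | hs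
  · rcases kk_sw_cases he x' y' with ⟨a', b', ha', hb', hs'⟩ | hs'
    · rw [hs, hs']
      have d1 : a ≠ a' := fun h => h1 (by rw [← ha, ← ha', h])
      have d2 : a ≠ b' := fun h => h2 (by rw [← ha, ← hb', h])
      have d3 : b ≠ a' := fun h => h3 (by rw [← hb, ← ha', h])
      have d4 : b ≠ b' := fun h => h4 (by rw [← hb, ← hb', h])
      apply Perm.Disjoint.commute
      intro z
      by_cases hz : z = a ∨ z = b
      · right
        rcases hz with rfl | rfl
        · exact swap_apply_of_ne_of_ne d1 d2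
        · exact swap_apply_of_ne_of_ne d3 d4
      · left
        push Not at hz
        exact swap_apply_of_ne_of_ne hz.1 hz.2
    · rw [hs', mul_one, one_mul]
  · rw [hs, mul_one, one_mul]

lemma kk_half_comm {s s' : Perm A} (h : s * s' = s' * s) (v : H) :
    half ρ s (half ρ s' v) = half ρ s' (half ρ s v) := by
  have e : ρ s (ρ s' v) = ρ s' (ρ s v) := by
    rw [← Module.End.mul_apply, ← Module.End.mul_apply, ← map_mul, ← map_mul, h]
  unfold half
  simp only [LinearMap.smul_apply, LinearMap.add_apply, LinearMap.id_apply, map_smul, map_add, e]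
  module

lemma kk_half_Pl {e : A → X} (he : Function.Injective e) {x y : X} (l : List (X × X))
    (hx : x ∉ flat l) (hy : y ∉ flat l) (v : H) :
    half ρ (sw e x y) (Pl ρ (swl e l) v) = Pl ρ (swl e l) (half ρ (sw e x y) v) := by
  induction l generalizing v with
  | nil => rfl
  | cons p l ih =>
    have hf : flat (p :: l) = p.1 :: p.2 :: flat l := by simp [flat]
    rw [hf] at hx hy
    simp only [List.mem_cons, not_or] at hx hy
    change half ρ (sw e x y) (half ρ (sw e p.1 p.2) (Pl ρ (swl e l) v)) =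
      half ρ (sw e p.1 p.2) (Pl ρ (swl e l) (half ρ (sw e x y) v))
    rw [kk_half_comm (kk_sw_comm he hx.1 hx.2.1 hy.1 hy.2.1), ih hx.2.2 hy.2.2]

lemma kk_half_symm (hρ : ∀ g v, ‖ρ g v‖ = ‖v‖) {s : Perm A} (hs : s * s = 1) (v w : H) :
    ⟪half ρ s v, w⟫ = ⟪v, half ρ s w⟫ := by
  have hi : s⁻¹ = s := inv_eq_of_mul_eq_one_left hs
  have h1 : ⟪ρ s v, w⟫ = ⟪v, ρ s w⟫ := by
    rw [inner_rho_left hρ s v w, hi]
  rw [half_apply (ρ := ρ) s v, half_apply (ρ := ρ) s w, real_inner_smul_left,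
    real_inner_smul_right, inner_add_left, inner_add_right, h1]

lemma kk_flat_cons (p : X × X) (l : List (X × X)) : flat (p :: l) = p.1 :: p.2 :: flat l := by
  simp [flat]

/-- for disjoint pairs the operators `Pl` are orthogonal projections -/
theorem Pl_symm (hρ : ∀ g v, ‖ρ g v‖ = ‖v‖) {e : A → X} (he : Function.Injective e)
    (l : List (X × X)) (hl : (flat l).Nodup) (v w : H) :
    ⟪Pl ρ (swl e l) v, w⟫ = ⟪v, Pl ρ (swl e l) w⟫ := by
  induction l generalizing v w with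
  | nil => rfl
  | cons p l ih =>
    rw [kk_flat_cons, List.nodup_cons, List.nodup_cons] at hl
    have h1 : p.1 ∉ flat l := fun h => hl.1 (List.mem_cons_of_mem _ h)
    change ⟪half ρ (sw e p.1 p.2) (Pl ρ (swl e l) v), w⟫ =
      ⟪v, half ρ (sw e p.1 p.2) (Pl ρ (swl e l) w)⟫
    rw [kk_half_symm hρ (sw_mul_self p.1 p.2), ih hl.2.2, kk_half_Pl he l h1 hl.2.1]

theorem Pl_idem {e : A → X} (he : Function.Injective e)
    (l : List (X × X)) (hl : (flat l).Nodup) (v : H) :
    Pl ρ (swl e l) (Pl ρ (swl e l) v) = Pl ρ (swl e l) v := by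
  induction l generalizing v with
  | nil => rfl
  | cons p l ih =>
    rw [kk_flat_cons, List.nodup_cons, List.nodup_cons] at hl
    have h1 : p.1 ∉ flat l := fun h => hl.1 (List.mem_cons_of_mem _ h)
    change half ρ (sw e p.1 p.2) (Pl ρ (swl e l) (half ρ (sw e p.1 p.2) (Pl ρ (swl e l) v))) =
      half ρ (sw e p.1 p.2) (Pl ρ (swl e l) v)
    rw [← kk_half_Pl he l h1 hl.2.1, half_half (sw_mul_self p.1 p.2), ih hl.2.2]

lemma kk_KK_apply (j : A → X) (l : List (X × X)) (v : H) :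
    KK ρ j l v = ((Fintype.card (Perm X) : ℝ))⁻¹ • ∑ g : Perm X, Pl ρ (swl (g ∘ j) l) v := by
  unfold KK
  rw [LinearMap.smul_apply, LinearMap.sum_apply]

theorem KK_symm (hρ : ∀ g v, ‖ρ g v‖ = ‖v‖) {j : A → X} (hj : Function.Injective j)
    (l : List (X × X)) (hl : (flat l).Nodup) : (KK ρ j l).IsSymmetric := by
  intro v w
  rw [kk_KK_apply, kk_KK_apply, real_inner_smul_left, real_inner_smul_right, sum_inner, inner_sum]
  congr 1
  exact Finset.sum_congr rfl (fun g _ => Pl_symm hρ (g.injective.comp hj) l hl v w)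

lemma kk_sw_conj {e : A → X} (he : Function.Injective e) (π : Perm A) (x y : X) :
    π * sw (e ∘ π) x y = sw e x y * π := by
  have he' : Function.Injective (e ∘ π) := he.comp π.injective
  by_cases h : (∃ a, e a = x) ∧ ∃ b, e b = y
  · obtain ⟨⟨a, rfl⟩, b, rfl⟩ := h
    have h1 := sw_eq he' (π⁻¹ a) (π⁻¹ b)
    have ha : (e ∘ π) (π⁻¹ a) = e a := by simp
    have hb : (e ∘ π) (π⁻¹ b) = e b := by simp
    rw [ha, hb] at h1
    rw [h1, sw_eq he, Equiv.mul_swap_eq_swap_mul]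
    simp
  · rw [sw_eq_one h, sw_eq_one (e := e ∘ π) (x := x) (y := y), mul_one, one_mul]
    rintro ⟨⟨a, ha⟩, b, hb⟩
    exact h ⟨⟨π a, ha⟩, ⟨π b, hb⟩⟩

lemma kk_rho_Pl {e : A → X} (he : Function.Injective e) (π : Perm A) (l : List (X × X)) (v : H) :
    Pl ρ (swl e l) (ρ π v) = ρ π (Pl ρ (swl (e ∘ π) l) v) := by
  induction l generalizing v with
  | nil => rfl
  | cons p l ih =>
    change half ρ (sw e p.1 p.2) (Pl ρ (swl e l) (ρ π v)) =
      ρ π (half ρ (sw (e ∘ π) p.1 p.2) (Pl ρ (swl (e ∘ π) l) v))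
    rw [ih, half_apply, half_apply, map_smul, map_add, ← rho_mul_apply, ← rho_mul_apply,
      kk_sw_conj he]

theorem KK_rho {j : A → X} (hj : Function.Injective j) (l : List (X × X)) (hl : (flat l).Nodup)
    (g : Perm A) (v : H) : KK ρ j l (ρ g v) = ρ g (KK ρ j l v) := by
  rw [kk_KK_apply, kk_KK_apply, map_smul, map_sum]
  congr 1
  have h1 : ∀ k : Perm X, Pl ρ (swl (k ∘ j) l) (ρ g v) =
      ρ g (Pl ρ (swl ((k * g.viaEmbedding ⟨j, hj⟩ : Perm X) ∘ j) l) v) := by
    intro k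
    have e : (k ∘ j) ∘ g = (k * g.viaEmbedding ⟨j, hj⟩ : Perm X) ∘ j := by
      funext a
      change k (j (g a)) = k (g.viaEmbedding ⟨j, hj⟩ (j a))
      have := Equiv.Perm.viaEmbedding_apply g ⟨j, hj⟩ a
      exact congrArg k this.symm
    rw [kk_rho_Pl (k.injective.comp hj), e]
  rw [Finset.sum_congr rfl (fun k _ => h1 k)]
  exact Equiv.sum_comp (Equiv.mulRight (g.viaEmbedding ⟨j, hj⟩))
    (fun k : Perm X => ρ g (Pl ρ (swl (k ∘ j) l) v))

/-- `KK` commutes with all operators `Pl` -/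
theorem KK_Pl {j : A → X} (hj : Function.Injective j) (l : List (X × X)) (hl : (flat l).Nodup)
    (s : List (Perm A)) (v : H) : KK ρ j l (Pl ρ s v) = Pl ρ s (KK ρ j l v) := by
  induction s with
  | nil => rfl
  | cons t s ih =>
    change KK ρ j l (half ρ t (Pl ρ s v)) = half ρ t (Pl ρ s (KK ρ j l v))
    rw [half_apply, half_apply, map_smul, map_add, KK_rho hj l hl, ih]

lemma kk_inner_Pl (hρ : ∀ g v, ‖ρ g v‖ = ‖v‖) {e : A → X} (he : Function.Injective e)
    (l : List (X × X)) (hl : (flat l).Nodup) (v w : H) :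
    ⟪v, Pl ρ (swl e l) w⟫ = ⟪Pl ρ (swl e l) v, Pl ρ (swl e l) w⟫ := by
  rw [Pl_symm hρ he l hl v, Pl_idem he l hl]

lemma kk_inner_KK (j : A → X) (l : List (X × X)) (v w : H) :
    ⟪v, KK ρ j l w⟫ = avgP (fun g : Perm X => ⟪v, Pl ρ (swl (g ∘ j) l) w⟫) := by
  rw [kk_KK_apply, real_inner_smul_right, inner_sum, avgP, div_eq_inv_mul]

theorem KK_inner (hρ : ∀ g v, ‖ρ g v‖ = ‖v‖) {j : A → X} (hj : Function.Injective j)
    (l : List (X × X)) (hl : (flat l).Nodup) (v : H) :
    ⟪v, KK ρ j l v⟫ = avgP (fun g : Perm X => ‖Pl ρ (swl (g ∘ j) l) v‖ ^ 2) := by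
  rw [kk_inner_KK]
  congr 1
  funext g
  rw [kk_inner_Pl hρ (g.injective.comp hj) l hl, real_inner_self_eq_norm_sq]

lemma kk_KK_pow_Pl {j : A → X} (hj : Function.Injective j) (l : List (X × X)) (hl : (flat l).Nodup)
    (s : List (Perm A)) (v : H) (R : ℕ) :
    (KK ρ j l ^ R) (Pl ρ s v) = Pl ρ s ((KK ρ j l ^ R) v) := by
  induction R with
  | zero => rfl
  | succ R ih =>
    rw [pow_succ', Module.End.mul_apply, Module.End.mul_apply, ih, KK_Pl hj l hl]

/-- the powers of `KK` satisfy the averaging recursion -/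
theorem KK_pow_succ (hρ : ∀ g v, ‖ρ g v‖ = ‖v‖) {j : A → X} (hj : Function.Injective j)
    (l : List (X × X)) (hl : (flat l).Nodup) (v : H) (R : ℕ) :
    ⟪v, (KK ρ j l ^ (R + 1)) v⟫ =
      avgP (fun g : Perm X => ⟪Pl ρ (swl (g ∘ j) l) v, (KK ρ j l ^ R) (Pl ρ (swl (g ∘ j) l) v)⟫) := by
  rw [pow_succ', Module.End.mul_apply, kk_inner_KK]
  congr 1
  funext g
  rw [kk_inner_Pl hρ (g.injective.comp hj) l hl, kk_KK_pow_Pl hj l hl]

theorem KK_pow_nonneg (hρ : ∀ g v, ‖ρ g v‖ = ‖v‖) {j : A → X} (hj : Function.Injective j)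
    (l : List (X × X)) (hl : (flat l).Nodup) (v : H) (R : ℕ) :
    0 ≤ ⟪v, (KK ρ j l ^ R) v⟫ := by
  induction R generalizing v with
  | zero => exact real_inner_self_nonneg
  | succ R ih =>
    rw [KK_pow_succ hρ hj l hl]
    unfold avgP
    exact div_nonneg (Finset.sum_nonneg (fun g _ => ih _)) (Nat.cast_nonneg _)

end

end Vale.Agent.P162
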