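import Vale.Agent.P162.FConj
import Vale.Agent.P162.KKprops

/-! # Comparison of the window operator with the one-layer operator -/

namespace Vale.Agent.P162

open Finset Equiv
open scoped RealInnerProductSpace

noncomputable section

variable {d : ℕ} {A : Type*} [Fintype A] [DecidableEq A]

theorem FComp.avgP_mono {X : Type*} [Fintype X] [DecidableEq X] {f g : Perm X → ℝ}
    (h : ∀ x, f x ≤ g x) : avgP f ≤ avgP g :=
  div_le_div_of_nonneg_right (Finset.sum_le_sum fun x _ => h x) (Nat.cast_nonneg _)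

/-- the exchange of two matched slots belongs to the group of the layer -/
theorem FComp.sw_mem_GT {s : Fin d} {e : A → Cube d} (he : Function.Injective e)
    {x y : Cube d} (hxy : y = x + Pi.single s 1) : sw e x y ∈ GT (tau s e) := by
  rcases kk_sw_cases he x y with ⟨a, b, ha, hb, hs⟩ | hs
  · rw [hs, mem_GT]
    have h1 : tau s e a = b := tau_eq_of he (by rw [ha, hb, hxy])
    have h2 : tau s e b = a := by
      rw [← h1]
      exact tau_tau (tau_mul_self s e) a
    intro z
    by_cases hz : z = a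
    · right
      rw [hz, swap_apply_left, h1]
    · by_cases hz2 : z = b
      · right
        rw [hz2, swap_apply_right, h2]
      · left
        exact swap_apply_of_ne_of_ne hz hz2
  · rw [hs]
    exact one_mem_GT _

theorem FComp.PT_Pl {H : Type*} [NormedAddCommGroup H] [InnerProductSpace ℝ H]
    {ρ : Perm A →* (H →ₗ[ℝ] H)} {s : Fin d} {e : A → Cube d} (he : Function.Injective e)
    (pairs : List (Cube d × Cube d)) (hp : ∀ p ∈ pairs, p.2 = p.1 + Pi.single s 1) (v : H) :
    PT ρ (tau s e) (Pl ρ (swl e pairs) v) = PT ρ (tau s e) v := by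
  induction pairs with
  | nil => rfl
  | cons p l ih =>
    change PT ρ (tau s e) (half ρ (sw e p.1 p.2) (Pl ρ (swl e l) v)) = PT ρ (tau s e) v
    have h1 := FComp.sw_mem_GT he (hp p List.mem_cons_self)
    rw [half_apply, map_smul, map_add, PT_rho (tau_mul_self s e) h1,
      ih (fun q hq => hp q (List.mem_cons_of_mem _ hq)), ← two_smul ℝ, smul_smul]
    norm_num

theorem comp_KK {H : Type*} [NormedAddCommGroup H] [InnerProductSpace ℝ H]
    {ρ : Perm A →* (H →ₗ[ℝ] H)} (hρ : ∀ g v, ‖ρ g v‖ = ‖v‖) (ν : ℕ) (j : A → Cube d)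
    (hj : Function.Injective j) (s0 : Fin d) (l' : List (Fin d))
    (pairs : List (Cube d × Cube d)) (hp : ∀ p ∈ pairs, p.2 = p.1 + Pi.single s0 1)
    (hnd : (flat pairs).Nodup) (v : H) :
    ⟪v, Pop ρ (pk ν j (s0 :: l')) v⟫ ≤ ⟪v, KK ρ j pairs v⟫ := by
  classical
  rw [pk_inner hρ, KK_inner hρ hj pairs hnd]
  apply FComp.avgP_mono
  intro g
  have he : Function.Injective (g ∘ j) := g.injective.comp hj
  have hle : ‖PT ρ (tau s0 (g ∘ j)) v‖ ≤ ‖Pl ρ (swl (g ∘ j) pairs) v‖ := by
    rw [← FComp.PT_Pl he pairs hp v]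
    exact norm_PT_le hρ _ _
  rw [SW_cons]
  have hb : ∀ k : Perm (Cube d), SW (Y := A → Cube d) id l'
      (fun _ ts => if Good (pot ν ts) then ‖Pw ρ ts v‖ ^ 2 else 0)
        (k • (g ∘ j)) (tau s0 (id (g ∘ j)) :: []) ≤ ‖Pl ρ (swl (g ∘ j) pairs) v‖ ^ 2 := by
    intro k
    have h1 := SW_mono_on (Y := A → Cube d) (em := id)
      (fun (_ : List (Fin d)) (_ : A → Cube d) (ts : List (Perm A)) =>
        ‖Pw ρ ts v‖ ≤ ‖Pl ρ (swl (g ∘ j) pairs) v‖)
      (fun s l y ts hI k' _ => (norm_PT_le hρ _ _).trans hI)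
      (Φ := fun _ ts => if Good (pot ν ts) then ‖Pw ρ ts v‖ ^ 2 else 0)
      (Ψ := fun _ _ => ‖Pl ρ (swl (g ∘ j) pairs) v‖ ^ 2)
      (fun y ts hI => by
        split_ifs
        · exact pow_le_pow_left₀ (norm_nonneg _) hI 2
        · exact sq_nonneg _)
      l' (k • (g ∘ j)) (tau s0 (id (g ∘ j)) :: []) hle
    rwa [SW_const] at h1
  calc _ ≤ (∑ k ∈ GF s0, ‖Pl ρ (swl (g ∘ j) pairs) v‖ ^ 2) / ((GF s0).card : ℝ) := by
        apply div_le_div_of_nonneg_right _ (GF_card_pos s0).le
        exact Finset.sum_le_sum fun k _ => hb k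
    _ = ‖Pl ρ (swl (g ∘ j) pairs) v‖ ^ 2 := by
        rw [Finset.sum_const, nsmul_eq_mul, mul_div_right_comm, div_self (GF_card_pos s0).ne',
          one_mul]

end

end Vale.Agent.P162
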