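import Vale.Agent.P162.FSW

/-! # Symmetries of the averaged kernel `pk` -/

namespace Vale.Agent.P162

open Finset Equiv
open scoped RealInnerProductSpace

noncomputable section

section conj

variable {A : Type*} [Fintype A] [DecidableEq A]

theorem FConj_mem (τ g h : Perm A) :
    h⁻¹ * g * h ∈ GT (h⁻¹ * τ * h) ↔ g ∈ GT τ := by
  constructor
  · intro hg
    have := GT_conj h⁻¹ hg
    simpa [mul_assoc] using this
  · exact GT_conj h

theorem FConj_sum {M : Type*} [AddCommMonoid M] (τ h : Perm A) (f : Perm A → M) :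
    ∑ g ∈ GT (h⁻¹ * τ * h), f g = ∑ g ∈ GT τ, f (h⁻¹ * g * h) := by
  symm
  refine Finset.sum_bij (fun g _ => h⁻¹ * g * h) ?_ ?_ ?_ ?_
  · intro g hg
    exact (FConj_mem τ g h).2 hg
  · intro g _ g' _ hgg
    exact mul_left_cancel (mul_right_cancel hgg)
  · intro g hg
    refine ⟨h * g * h⁻¹, ?_, ?_⟩
    · rw [← FConj_mem τ _ h]
      simpa [mul_assoc] using hg
    · simp [mul_assoc]
  · intro g _
    rfl

theorem FConj_card (τ h : Perm A) : (GT (h⁻¹ * τ * h)).card = (GT τ).card := by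
  have := FConj_sum τ h (fun _ => (1 : ℕ))
  simpa using this

/-- relabelling a window -/
theorem wl_conj (l : List (Perm A)) (h G : Perm A) :
    wl (l.map fun τ => h⁻¹ * τ * h) (h⁻¹ * G * h) = wl l G := by
  induction l generalizing G with
  | nil =>
    rw [List.map_nil]
    unfold wl
    have : h⁻¹ * G * h = 1 ↔ G = 1 := by
      constructor
      · intro h1
        have h2 : h * (h⁻¹ * G * h) * h⁻¹ = h * 1 * h⁻¹ := by rw [h1]
        simpa [mul_assoc] using h2
      · intro h1
        rw [h1]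
        simp
    simp only [this]
  | cons τ l ih =>
    rw [List.map_cons, wl_cons, wl_cons, FConj_card, FConj_sum]
    congr 1
    refine Finset.sum_congr rfl fun g _ => ?_
    rw [← ih (g⁻¹ * G)]
    congr 1
    simp [mul_assoc]

theorem kern_conj (l : List (Perm A)) (h π : Perm A) :
    kern (l.map fun τ => h⁻¹ * τ * h) (h⁻¹ * π * h) = kern l π := by
  unfold kern
  symm
  refine Fintype.sum_equiv (MulAut.conj h⁻¹).toEquiv _ _ (fun G => ?_)
  have e1 : (MulAut.conj h⁻¹).toEquiv G = h⁻¹ * G * h := by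
    simp
  rw [e1]
  have e2 : h⁻¹ * G * h * (h⁻¹ * π * h) = h⁻¹ * (G * π) * h := by
    simp [mul_assoc]
  rw [e2, wl_conj, wl_conj]

theorem pot_conj (ν : ℕ) (l : List (Perm A)) (h : Perm A) (a : A) :
    pot ν (l.map fun τ => h⁻¹ * τ * h) a = pot ν l (h a) := by
  induction l generalizing a with
  | nil => rfl
  | cons τ l ih =>
    rw [List.map_cons]
    change upd (h⁻¹ * τ * h) (pot ν (l.map fun τ => h⁻¹ * τ * h)) a = upd τ (pot ν l) (h a)
    unfold upd
    have e1 : (h⁻¹ * τ * h) a = h⁻¹ (τ (h a)) := rfl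
    have e2 : h (h⁻¹ (τ (h a))) = τ (h a) := Equiv.apply_symm_apply h _
    have e3 : h⁻¹ (τ (h a)) = a ↔ τ (h a) = h a := by
      constructor
      · intro h1
        rw [← e2, h1]
      · intro h1
        rw [h1]
        exact Equiv.symm_apply_apply h a
    rw [e1, ih, ih, e2]
    by_cases h1 : τ (h a) = h a
    · rw [if_pos h1, if_pos (e3.2 h1)]
    · rw [if_neg h1, if_neg (fun h2 => h1 (e3.1 h2))]

theorem Good_conj (ν : ℕ) (l : List (Perm A)) (h : Perm A) :
    Good (pot ν (l.map fun τ => h⁻¹ * τ * h)) ↔ Good (pot ν l) := by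
  unfold Good
  constructor
  · intro h1 a
    have h2 := h1 (h⁻¹ a)
    rw [pot_conj] at h2
    rwa [show h (h⁻¹ a) = a from Equiv.apply_symm_apply h a] at h2
  · intro h1 a
    rw [pot_conj]
    exact h1 _

end conj

section pkfacts

variable {d : ℕ} {A : Type*} [Fintype A] [DecidableEq A]

theorem SW_relabel (l : List (Fin d)) (Φ : List (Perm A) → ℝ) (h : Perm A) (e : A → Cube d)
    (he : Function.Injective e) (ts : List (Perm A)) :
    SW (Y := A → Cube d) id l (fun _ ts => Φ ts) (e ∘ h) (ts.map fun τ => h⁻¹ * τ * h) =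
      SW (Y := A → Cube d) id l (fun _ ts => Φ (ts.map fun τ => h⁻¹ * τ * h)) e ts := by
  induction l generalizing e ts with
  | nil => rfl
  | cons s l ih =>
    rw [SW_cons, SW_cons]
    congr 1
    refine Finset.sum_congr rfl fun g _ => ?_
    have h1 := ih (g • e) (smul_inj he g) (tau s e :: ts)
    rw [List.map_cons, ← tau_relabel he h] at h1
    exact h1

theorem FConj_avgP_nonneg {X : Type*} [Fintype X] [DecidableEq X] {f : Perm X → ℝ}
    (h : ∀ x, 0 ≤ f x) : 0 ≤ avgP f :=
  div_nonneg (Finset.sum_nonneg fun x _ => h x) (Nat.cast_nonneg _)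

theorem pk_nonneg (ν : ℕ) (j : A → Cube d) (l : List (Fin d)) (π : Perm A) :
    0 ≤ pk ν j l π := by
  unfold pk
  apply FConj_avgP_nonneg
  intro g
  apply SW_nonneg
  intro y ts
  split_ifs
  · exact kern_nonneg ts π
  · exact le_refl _

theorem pk_inv (ν : ℕ) (j : A → Cube d) (l : List (Fin d)) (π : Perm A) :
    pk ν j l π⁻¹ = pk ν j l π := by
  unfold pk
  simp only [kern_inv]

/-- `pk` is a class function -/
theorem pk_conj (ν : ℕ) (j : A → Cube d) (hj : Function.Injective j) (l : List (Fin d))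
    (h π : Perm A) : pk ν j l (h * π * h⁻¹) = pk ν j l π := by
  classical
  unfold pk avgP
  congr 1
  -- the extension of `h` to the cube
  let j' : A ↪ Cube d := ⟨j, hj⟩
  let κ : Perm (Cube d) := h.viaEmbedding j'
  have hκ : ∀ a, κ (j a) = j (h a) := fun a => Equiv.Perm.viaEmbedding_apply h j' a
  refine Fintype.sum_equiv (Equiv.mulRight κ) _ _ (fun g => ?_)
  have e1 : (((Equiv.mulRight κ) g : Perm (Cube d)) : Cube d → Cube d) ∘ j = (g ∘ j) ∘ h := by
    funext a
    change g (κ (j a)) = g (j (h a))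
    rw [hκ]
  rw [e1]
  have h1 := SW_relabel l (fun ts => if Good (pot ν ts) then kern ts π else 0) h (g ∘ j)
    (g.injective.comp hj) []
  rw [List.map_nil] at h1
  rw [h1]
  congr 1
  funext _ ts
  have e2 : kern ts (h * π * h⁻¹) = kern (ts.map fun τ => h⁻¹ * τ * h) π := by
    rw [← kern_conj ts h (h * π * h⁻¹)]
    congr 1
    simp [mul_assoc]
  by_cases hg : Good (pot ν ts)
  · rw [if_pos hg, if_pos ((Good_conj ν ts h).2 hg), e2]
  · rw [if_neg hg, if_neg (fun h' => hg ((Good_conj ν ts h).1 h'))]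

open Classical in
/-- the quadratic form of `Pop ρ (pk ..)` -/
theorem pk_inner {H : Type*} [NormedAddCommGroup H] [InnerProductSpace ℝ H]
    {ρ : Perm A →* (H →ₗ[ℝ] H)} (hρ : ∀ g v, ‖ρ g v‖ = ‖v‖) (ν : ℕ) (j : A → Cube d)
    (l : List (Fin d)) (v : H) :
    ⟪v, Pop ρ (pk ν j l) v⟫ = avgP fun g : Perm (Cube d) =>
      SW (Y := A → Cube d) id l (fun _ ts => if Good (pot ν ts) then ‖Pw ρ ts v‖ ^ 2 else 0)
        (g ∘ j) [] := by
  rw [Pop_apply, inner_sum]
  have e1 : ∀ ts : List (Perm A), (if Good (pot ν ts) then ‖Pw ρ ts v‖ ^ 2 else 0) =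
      ∑ π : Perm A, ⟪v, ρ π v⟫ * (if Good (pot ν ts) then kern ts π else 0) := by
    intro ts
    split_ifs with h
    · rw [← sum_kern_inner hρ ts v]
      exact Finset.sum_congr rfl fun π _ => mul_comm _ _
    · simp
  simp only [e1]
  have e2 : ∀ g : Perm (Cube d), SW (Y := A → Cube d) id l (fun _ ts =>
      ∑ π : Perm A, ⟪v, ρ π v⟫ * (if Good (pot ν ts) then kern ts π else 0)) (g ∘ j) [] =
      ∑ π : Perm A, ⟪v, ρ π v⟫ * SW (Y := A → Cube d) id l (fun _ ts =>
        if Good (pot ν ts) then kern ts π else 0) (g ∘ j) [] := by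
    intro g
    rw [SW_sum Finset.univ l (fun π _ ts => ⟪v, ρ π v⟫ *
      (if Good (pot ν ts) then kern ts π else 0))]
    refine Finset.sum_congr rfl fun π _ => ?_
    rw [SW_const_mul]
  simp only [e2]
  unfold avgP pk avgP
  rw [Finset.sum_comm, Finset.sum_div]
  refine Finset.sum_congr rfl fun π _ => ?_
  rw [real_inner_smul_right, ← Finset.mul_sum]
  ring

end pkfacts

end

end Vale.Agent.P162
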