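import Vale.Agent.P162.Defs

/-! # Basic facts about the averaging operators `Kop`, `Kl` -/

namespace Vale.Agent.P162

open Finset Equiv

noncomputable section

variable {d : ℕ}

lemma mem_GF {s : Fin d} {g : Perm (Cube d)} :
    g ∈ GF s ↔ ∀ x, g x = x ∨ g x = x + Pi.single s 1 := by
  simp [GF]

lemma one_mem_GF (s : Fin d) : (1 : Perm (Cube d)) ∈ GF s := by
  simp [GF]

lemma single_add_single (s : Fin d) (x : Cube d) :
    x + Pi.single s 1 + Pi.single s 1 = x := by
  rw [add_assoc]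
  have : (Pi.single s 1 : Cube d) + Pi.single s 1 = 0 := by
    rw [← Pi.single_add]
    have : (1 : ZMod 2) + 1 = 0 := by decide
    rw [this, Pi.single_zero]
  rw [this, add_zero]

lemma mul_mem_GF {s : Fin d} {g h : Perm (Cube d)} (hg : g ∈ GF s) (hh : h ∈ GF s) :
    g * h ∈ GF s := by
  rw [mem_GF] at *
  intro x
  rw [Perm.mul_apply]
  rcases hh x with h1 | h1 <;> rw [h1]
  · exact hg x
  · rcases hg (x + Pi.single s 1) with h2 | h2 <;> rw [h2]
    · right; rfl
    · left; exact single_add_single s x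

lemma inv_mem_GF {s : Fin d} {g : Perm (Cube d)} (hg : g ∈ GF s) : g⁻¹ ∈ GF s := by
  rw [mem_GF] at *
  intro x
  rcases hg (g⁻¹ x) with h1 | h1
  · left
    rw [show g (g⁻¹ x) = x from Equiv.apply_symm_apply g x] at h1
    exact h1.symm
  · right
    rw [show g (g⁻¹ x) = x from Equiv.apply_symm_apply g x] at h1
    nth_rewrite 2 [h1]
    rw [single_add_single]

lemma swap_mem_GF (s : Fin d) (x : Cube d) : swap x (x + Pi.single s 1) ∈ GF s := by
  rw [mem_GF]
  intro y
  by_cases h1 : y = x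
  · right; rw [h1, swap_apply_left]
  · by_cases h2 : y = x + Pi.single s 1
    · right
      rw [h2, swap_apply_right, single_add_single]
    · left; exact swap_apply_of_ne_of_ne h1 h2

lemma GF_card_pos (s : Fin d) : (0 : ℝ) < ((GF s).card : ℝ) := by
  exact_mod_cast Finset.card_pos.mpr ⟨1, one_mem_GF s⟩

variable {Y : Type*} [MulAction (Perm (Cube d)) Y]

lemma Kop_apply (s : Fin d) (φ : Y → ℝ) (y : Y) :
    Kop s φ y = (∑ g ∈ GF s, φ (g • y)) / ((GF s).card : ℝ) := rfl

lemma Kop_const (s : Fin d) (c : ℝ) (y : Y) : Kop s (fun _ => c) y = c := by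
  rw [Kop_apply, Finset.sum_const, nsmul_eq_mul, mul_comm, mul_div_assoc,
    div_self (GF_card_pos s).ne', mul_one]

lemma Kop_add (s : Fin d) (φ ψ : Y → ℝ) (y : Y) :
    Kop s (fun y => φ y + ψ y) y = Kop s φ y + Kop s ψ y := by
  simp only [Kop_apply, Finset.sum_add_distrib, add_div]

lemma Kop_const_mul (s : Fin d) (c : ℝ) (φ : Y → ℝ) (y : Y) :
    Kop s (fun y => c * φ y) y = c * Kop s φ y := by
  simp only [Kop_apply, ← Finset.mul_sum, mul_div_assoc]

lemma Kop_sum {ι : Type*} (t : Finset ι) (s : Fin d) (φ : ι → Y → ℝ) (y : Y) :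
    Kop s (fun y => ∑ i ∈ t, φ i y) y = ∑ i ∈ t, Kop s (φ i) y := by
  simp only [Kop_apply]
  rw [Finset.sum_comm, Finset.sum_div]

/-- monotonicity on an invariant set -/
lemma Kop_mono_on (P : Y → Prop) (hP : ∀ (g : Perm (Cube d)) y, P y → P (g • y)) (s : Fin d)
    {φ ψ : Y → ℝ} (h : ∀ y, P y → φ y ≤ ψ y) (y : Y) (hy : P y) : Kop s φ y ≤ Kop s ψ y := by
  rw [Kop_apply, Kop_apply]
  apply div_le_div_of_nonneg_right _ (GF_card_pos s).le
  exact Finset.sum_le_sum fun g _ => h _ (hP g y hy)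

lemma Kop_mono (s : Fin d) {φ ψ : Y → ℝ} (h : ∀ y, φ y ≤ ψ y) (y : Y) :
    Kop s φ y ≤ Kop s ψ y :=
  Kop_mono_on (fun _ => True) (fun _ _ _ => trivial) s (fun y _ => h y) y trivial

/-- invariance under the group of the direction -/
lemma Kop_smul_mem {s : Fin d} {h : Perm (Cube d)} (hh : h ∈ GF s) (φ : Y → ℝ) (y : Y) :
    Kop s φ (h • y) = Kop s φ y := by
  rw [Kop_apply, Kop_apply]
  congr 1
  refine Finset.sum_bij' (fun k _ => k * h) (fun k _ => k * h⁻¹) ?_ ?_ ?_ ?_ ?_
  · intro k hk; exact mul_mem_GF hk hh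
  · intro k hk; exact mul_mem_GF hk (inv_mem_GF hh)
  · intro k _; simp
  · intro k _; simp
  · intro k _; rw [mul_smul]

lemma Kl_nil (φ : Y → ℝ) (y : Y) : Kl ([] : List (Fin d)) φ y = φ y := rfl

lemma Kl_cons (s : Fin d) (l : List (Fin d)) (φ : Y → ℝ) : Kl (s :: l) φ = Kop s (Kl l φ) := rfl

lemma Kl_append (l l' : List (Fin d)) (φ : Y → ℝ) : Kl (l ++ l') φ = Kl l (Kl l' φ) := by
  induction l with
  | nil => rfl
  | cons s l ih => rw [List.cons_append, Kl_cons, Kl_cons, ih]

lemma Kl_const (l : List (Fin d)) (c : ℝ) (y : Y) : Kl l (fun _ => c) y = c := by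
  induction l generalizing y with
  | nil => rfl
  | cons s l ih =>
    have : Kl l (fun _ : Y => c) = fun _ => c := funext fun y => ih y
    rw [Kl_cons, this, Kop_const]

lemma Kl_add (l : List (Fin d)) (φ ψ : Y → ℝ) (y : Y) :
    Kl l (fun y => φ y + ψ y) y = Kl l φ y + Kl l ψ y := by
  induction l generalizing y with
  | nil => rfl
  | cons s l ih =>
    have : Kl l (fun y => φ y + ψ y) = fun y => Kl l φ y + Kl l ψ y := funext fun y => ih y
    rw [Kl_cons, Kl_cons, Kl_cons, this, Kop_add]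

lemma Kl_const_mul (l : List (Fin d)) (c : ℝ) (φ : Y → ℝ) (y : Y) :
    Kl l (fun y => c * φ y) y = c * Kl l φ y := by
  induction l generalizing y with
  | nil => rfl
  | cons s l ih =>
    have : Kl l (fun y => c * φ y) = fun y => c * Kl l φ y := funext fun y => ih y
    rw [Kl_cons, Kl_cons, this, Kop_const_mul]

lemma Kl_sub (l : List (Fin d)) (φ ψ : Y → ℝ) (y : Y) :
    Kl l (fun y => φ y - ψ y) y = Kl l φ y - Kl l ψ y := by
  have h : (fun y => φ y - ψ y) = fun y => φ y + (-1) * ψ y := by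
    funext y; ring
  rw [h, Kl_add, Kl_const_mul]
  ring

lemma Kl_sum {ι : Type*} (t : Finset ι) (l : List (Fin d)) (φ : ι → Y → ℝ) (y : Y) :
    Kl l (fun y => ∑ i ∈ t, φ i y) y = ∑ i ∈ t, Kl l (φ i) y := by
  induction l generalizing y with
  | nil => rfl
  | cons s l ih =>
    have : Kl l (fun y => ∑ i ∈ t, φ i y) = fun y => ∑ i ∈ t, Kl l (φ i) y := funext fun y => ih y
    rw [Kl_cons, this, Kop_sum]
    rfl

lemma Kl_mono_on (P : Y → Prop) (hP : ∀ (g : Perm (Cube d)) y, P y → P (g • y))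
    (l : List (Fin d)) {φ ψ : Y → ℝ} (h : ∀ y, P y → φ y ≤ ψ y) (y : Y) (hy : P y) :
    Kl l φ y ≤ Kl l ψ y := by
  induction l generalizing y with
  | nil => exact h y hy
  | cons s l ih => exact Kop_mono_on P hP s ih y hy

lemma Kl_mono (l : List (Fin d)) {φ ψ : Y → ℝ} (h : ∀ y, φ y ≤ ψ y) (y : Y) :
    Kl l φ y ≤ Kl l ψ y :=
  Kl_mono_on (fun _ => True) (fun _ _ _ => trivial) l (fun y _ => h y) y trivial

lemma Kl_congr_on (P : Y → Prop) (hP : ∀ (g : Perm (Cube d)) y, P y → P (g • y))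
    (l : List (Fin d)) {φ ψ : Y → ℝ} (h : ∀ y, P y → φ y = ψ y) (y : Y) (hy : P y) :
    Kl l φ y = Kl l ψ y :=
  le_antisymm (Kl_mono_on P hP l (fun y hy => (h y hy).le) y hy)
    (Kl_mono_on P hP l (fun y hy => (h y hy).ge) y hy)

lemma abs_Kl_le (l : List (Fin d)) (φ : Y → ℝ) (y : Y) :
    |Kl l φ y| ≤ Kl l (fun y => |φ y|) y := by
  rw [abs_le]
  constructor
  · have h := Kl_mono l (φ := fun y => (-1) * |φ y|) (ψ := φ)
      (fun y => by have := neg_abs_le (φ y); linarith) y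
    rw [Kl_const_mul] at h
    linarith
  · exact Kl_mono l (fun y => le_abs_self (φ y)) y

lemma abs_Kl_le_of_le (l : List (Fin d)) {φ : Y → ℝ} {c : ℝ} (h : ∀ y, |φ y| ≤ c) (y : Y) :
    |Kl l φ y| ≤ c := by
  refine (abs_Kl_le l φ y).trans ?_
  have := Kl_mono l (φ := fun y => |φ y|) (ψ := fun _ => c) h y
  rwa [Kl_const] at this

/-- equivariance -/
lemma Kl_comp {Y' : Type*} [MulAction (Perm (Cube d)) Y'] (p : Y → Y')
    (hp : ∀ (g : Perm (Cube d)) y, p (g • y) = g • p y) (l : List (Fin d)) (φ : Y' → ℝ) (y : Y) :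
    Kl l (fun y => φ (p y)) y = Kl l φ (p y) := by
  induction l generalizing y with
  | nil => rfl
  | cons s l ih =>
    have : Kl l (fun y => φ (p y)) = fun y => Kl l φ (p y) := funext fun y => ih y
    rw [Kl_cons, Kl_cons, this, Kop_apply, Kop_apply]
    simp only [hp]

/-- conjugating a step by a permutation `r` which carries direction `s` to direction `s'` -/
lemma Kl_iterate_succ (l : List (Fin d)) (R : ℕ) (φ : Y → ℝ) :
    (Kl l)^[R + 1] φ = Kl l ((Kl l)^[R] φ) := Function.iterate_succ_apply' _ _ _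

/-! ### the direction lists -/

variable [NeZero d]

lemma dirs_succ (T : ℕ) : dirs d (T + 1) = dirs d T ++ [Fin.ofNat d T] := by
  simp [dirs, List.range_succ]

lemma dirs_length (T : ℕ) : (dirs d T).length = T := by simp [dirs]

/-- the direction list is periodic -/
lemma dirs_add (a T : ℕ) : dirs d (a * d + T) = dirs d (a * d) ++ dirs d T := by
  induction T with
  | zero => simp [dirs]
  | succ T ih =>
    rw [← add_assoc, dirs_succ, dirs_succ, ih, List.append_assoc]
    congr 3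
    apply Fin.ext
    simp [Fin.ofNat]

lemma dirs_iterate (a R : ℕ) (φ : Y → ℝ) :
    Kl (dirs d (R * (a * d))) φ = (Kl (dirs d (a * d)))^[R] φ := by
  induction R with
  | zero => simp [dirs, Kl]
  | succ R ih =>
    rw [Kl_iterate_succ, ← ih, ← Kl_append, ← dirs_add]
    congr 2
    ring

lemma dirs_cons (T : ℕ) : ∃ l, dirs d (T + 1) = (0 : Fin d) :: l := by
  refine ⟨(List.range T).map (fun i => Fin.ofNat d (i + 1)), ?_⟩
  rw [dirs, List.range_succ_eq_map, List.map_cons, List.map_map]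
  congr 1

end

end Vale.Agent.P162
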