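import Vale.Agent.P162.Basic
import Vale.Agent.P162.KlBasic

/-! # Definitions for the linear bound `t_mix(2^d) ≤ C d`

A *window* is one sweep through all the directions. Its environment is the list of the
involutions `τ` of the slots (the head of the list is the LAST layer). -/

namespace Vale.Agent.P162

open Finset Equiv

noncomputable section

section layers

variable {A : Type*} [Fintype A] [DecidableEq A]

/-- the products of some of the 2-cycles of the involution `τ` -/
def GT (τ : Perm A) : Finset (Perm A) := univ.filter fun g => ∀ a, g a = a ∨ g a = τ a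

/-- the averaging operator over `GT τ` -/
def PT {H : Type*} [NormedAddCommGroup H] [InnerProductSpace ℝ H]
    (ρ : Perm A →* (H →ₗ[ℝ] H)) (τ : Perm A) : H →ₗ[ℝ] H :=
  ((GT τ).card : ℝ)⁻¹ • ∑ g ∈ GT τ, ρ g

/-- the operator of a window (the head of the list is the last layer) -/
def Pw {H : Type*} [NormedAddCommGroup H] [InnerProductSpace ℝ H]
    (ρ : Perm A →* (H →ₗ[ℝ] H)) : List (Perm A) → (H →ₗ[ℝ] H)
  | [] => LinearMap.id
  | τ :: l => PT ρ τ ∘ₗ Pw ρ l

/-- the operator attached to a function on the group -/
def Pop {H : Type*} [NormedAddCommGroup H] [InnerProductSpace ℝ H]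
    (ρ : Perm A →* (H →ₗ[ℝ] H)) (p : Perm A → ℝ) : H →ₗ[ℝ] H :=
  ∑ π : Perm A, p π • ρ π

/-- the law of the product of independent uniform elements of the groups `GT τ`, `τ ∈ l`
(the head of the list is the leftmost factor) -/
def wl : List (Perm A) → Perm A → ℝ
  | [], G => if G = 1 then 1 else 0
  | τ :: l, G => (∑ g ∈ GT τ, wl l (g⁻¹ * G)) / ((GT τ).card : ℝ)

/-- the law of `G⁻¹ * G'` for independent `G, G'` with law `wl l` -/
def kern (l : List (Perm A)) (π : Perm A) : ℝ := ∑ G : Perm A, wl l G * wl l (G * π)

/-- the colourings with colours in `Cube ν` vanishing off `K` -/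
def Col (ν : ℕ) (K : Finset A) : Finset (A → Cube ν) :=
  univ.filter fun χ => ∀ a, a ∉ K → χ a = 0

/-- the number of invariant colourings vanishing off `K`, that is `(2 ^ ν) ^ c`, where `c` is
the number of cycles of `π` contained in `K` -/
def FK (ν : ℕ) (K : Finset A) (π : Perm A) : ℝ :=
  (((Col ν K).filter fun χ => ∀ a, χ (π a) = χ a).card : ℝ)

/-- one step of the potentials -/
def upd (τ : Perm A) (β : A → ℝ) : A → ℝ := fun a =>
  if τ a = a then β a else ((β a + β (τ a)) / 2 + 1 / 2) / Real.sqrt 2

/-- the potentials -/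
def pot (ν : ℕ) : List (Perm A) → A → ℝ
  | [] => fun _ => 2 ^ ν
  | τ :: l => upd τ (pot ν l)

/-- good potentials -/
def Good (β : A → ℝ) : Prop := ∀ a, β a ≤ 3

/-- the structure of the windows: each layer is an involution crossing the sides of some
partition of the slots which is respected by the previous layers -/
def Str : List (Perm A) → Prop
  | [] => True
  | τ :: l => Str l ∧ τ * τ = 1 ∧ ∃ S : Finset A,
      (∀ τ' ∈ l, ∀ a, τ' a ∈ S ↔ a ∈ S) ∧ ∀ a, τ a = a ∨ (τ a ∈ S ↔ a ∉ S)

/-- restriction of a permutation preserving `S` to `S` (identity elsewhere) -/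
def resS (S : Finset A) (τ : Perm A) : Perm A :=
  if h : ∀ a, a ∈ S ↔ τ a ∈ S then Perm.ofSubtype (τ.subtypePerm (fun a => (h a).symm)) else 1

end layers

section env

variable {d : ℕ} {A : Type*} [Fintype A] [DecidableEq A]

open Classical in
/-- the partner of the slot `a` in direction `s` (or `a` itself if there is none) -/
def tauf (s : Fin d) (e : A → Cube d) (a : A) : A :=
  if h : ∃ b, e b = e a + Pi.single s 1 then h.choose else a

open Classical in
/-- the involution of the slots in direction `s` when the slots are at the sites `e` -/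
def tau (s : Fin d) (e : A → Cube d) : Perm A :=
  if h : Function.Involutive (tauf s e) then h.toPerm else 1

/-- expectation of a functional `Φ` of the final state and of the list of involutions -/
def SW {Y : Type*} [MulAction (Perm (Cube d)) Y] (em : Y → A → Cube d) :
    List (Fin d) → (Y → List (Perm A) → ℝ) → Y → List (Perm A) → ℝ
  | [], Φ, y, ts => Φ y ts
  | s :: l, Φ, y, ts =>
    (∑ g ∈ GF s, SW em l Φ (g • y) (tau s (em y) :: ts)) / ((GF s).card : ℝ)

open Classical in
/-- the averaged (sub-probability) kernel of good windows -/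
def pk (ν : ℕ) (j : A → Cube d) (l : List (Fin d)) (π : Perm A) : ℝ :=
  avgP fun g : Perm (Cube d) =>
    SW (Y := A → Cube d) id l (fun _ ts => if Good (pot ν ts) then kern ts π else 0) (g ∘ j) []

end env

section iteration

variable {d m : ℕ}

/-- the recursion along the chain, with windows -/
def BjF (l0 lw : List (Fin d)) :
    ℕ → (Fin m → Cube d) → EuclideanSpace ℝ (Perm (Fin m)) → ℝ
  | 0, _, u => ∑ κ, |u κ|
  | r + 1, e, u =>
    Kl l0 (fun e' => SW (Y := Fin m → Cube d) id lw
      (fun e'' ts => BjF l0 lw r e'' (Pw (regRep (Fin m)) ts u)) e' []) e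

open Classical in
/-- the recursion with a uniform permutation in each block, good windows only -/
def VF (ν : ℕ) (j : Fin m → Cube d) (lw : List (Fin d)) :
    ℕ → EuclideanSpace ℝ (Perm (Fin m)) → ℝ
  | 0, u => ∑ κ, |u κ|
  | r + 1, u => avgP fun g : Perm (Cube d) =>
      SW (Y := Fin m → Cube d) id lw
        (fun _ ts => if Good (pot ν ts) then VF ν j lw r (Pw (regRep (Fin m)) ts u) else 0)
        (g ∘ j) []

end iteration

end

end Vale.Agent.P162
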