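import Vale.Agent.P162.FAbs

/-! # The fourfold convolution -/

namespace Vale.Agent.P162

open Finset Equiv
open scoped RealInnerProductSpace

noncomputable section

variable {A : Type*} [Fintype A] [DecidableEq A]

lemma ffour_Pop_coord (p : Perm A → ℝ) (v : EuclideanSpace ℝ (Perm A)) (κ : Perm A) :
    (Pop (regRep A) p v) κ = ∑ π, p π * v (π⁻¹ * κ) := by
  rw [← inner_dl, Pop_apply, sum_inner]
  refine Finset.sum_congr rfl fun π _ => ?_
  rw [real_inner_smul_left, inner_dl, regRep_apply_coord]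

lemma ffour_Qop_coord (Z : Finset A) (v : EuclideanSpace ℝ (Perm A)) (κ : Perm A) :
    (Qop (regRep A) Z v) κ = ((symF Z).card : ℝ)⁻¹ * ∑ z ∈ symF Z, v (z⁻¹ * κ) := by
  rw [← inner_dl, Qop_apply, real_inner_smul_left, sum_inner]
  congr 1
  refine Finset.sum_congr rfl fun π _ => ?_
  rw [inner_dl, regRep_apply_coord]

lemma ffour_dl (x κ : Perm A) : (dl x) κ = if κ = x then 1 else 0 := by
  unfold dl
  rw [PiLp.single_apply]

lemma ffour_Pop_dl (p : Perm A → ℝ) (x κ : Perm A) :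
    (Pop (regRep A) p (dl x)) κ = p (κ * x⁻¹) := by
  rw [ffour_Pop_coord, Finset.sum_eq_single (κ * x⁻¹)]
  · rw [ffour_dl, if_pos, mul_one]
    group
  · intro π _ hπ
    rw [ffour_dl, if_neg, mul_zero]
    intro h
    apply hπ
    rw [← h]
    group
  · intro h
    exact absurd (Finset.mem_univ _) h

/-- the marginal -/
def ffour_f (p : Perm A → ℝ) (Z : Finset A) (g : Perm A) : ℝ :=
  (∑ z ∈ symF Z, p (g * z)) / ((symF Z).card : ℝ)

lemma ffour_conv {ν : ℕ} {p : Perm A → ℝ} (hp : PK ν p) (Z : Finset A) (x κ : Perm A) :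
    (Qop (regRep A) Z (Pop (regRep A) p (Pop (regRep A) p (dl x)))) κ =
      ∑ h, ffour_f p Z h * ffour_f p Z (h⁻¹ * (κ * x⁻¹)) := by
  set g := κ * x⁻¹ with hg
  set n := ((symF Z).card : ℝ) with hn
  have hn0 : n ≠ 0 := (card_symF_pos Z).ne'
  -- the left side
  have hL : (Qop (regRep A) Z (Pop (regRep A) p (Pop (regRep A) p (dl x)))) κ =
      n⁻¹ * ∑ w ∈ symF Z, ∑ π, p π * p (w * (π⁻¹ * g)) := by
    rw [ffour_Qop_coord]
    congr 1
    have h1 : ∀ z ∈ symF Z, (Pop (regRep A) p (Pop (regRep A) p (dl x))) (z⁻¹ * κ) =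
        ∑ π, p π * p (z⁻¹ * (π⁻¹ * g)) := by
      intro z _
      rw [ffour_Pop_coord]
      refine Fintype.sum_equiv (MulAut.conj z).toEquiv _ _ (fun π => ?_)
      have e1 : (MulAut.conj z).toEquiv π = z * π * z⁻¹ := rfl
      rw [e1, hp.conj, ffour_Pop_dl]
      congr 2
      rw [hg]
      group
    rw [Finset.sum_congr rfl h1]
    refine Finset.sum_bij' (fun z _ => z⁻¹) (fun z _ => z⁻¹) ?_ ?_ ?_ ?_ ?_
    · intro z hz; exact inv_mem_symF hz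
    · intro z hz; exact inv_mem_symF hz
    · intro z _; simp
    · intro z _; simp
    · intro z _; rfl
  rw [hL]
  -- the right side
  have hR : ∀ h, ffour_f p Z h * ffour_f p Z (h⁻¹ * g) =
      n⁻¹ * n⁻¹ * ∑ z ∈ symF Z, ∑ z' ∈ symF Z, p (h * z) * p (h⁻¹ * g * z') := by
    intro h
    unfold ffour_f
    rw [← Finset.sum_mul_sum, ← hn]
    field_simp
  rw [Finset.sum_congr rfl (fun h _ => hR h), ← Finset.mul_sum]
  have hswap : ∑ h, ∑ z ∈ symF Z, ∑ z' ∈ symF Z, p (h * z) * p (h⁻¹ * g * z') =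
      ∑ z ∈ symF Z, ∑ z' ∈ symF Z, ∑ h, p (h * z) * p (h⁻¹ * g * z') := by
    rw [Finset.sum_comm]
    refine Finset.sum_congr rfl fun z _ => ?_
    rw [Finset.sum_comm]
  rw [hswap]
  have h2 : ∀ z ∈ symF Z, ∑ z' ∈ symF Z, ∑ h, p (h * z) * p (h⁻¹ * g * z') =
      ∑ w ∈ symF Z, ∑ π, p π * p (w * (π⁻¹ * g)) := by
    intro z hz
    refine Finset.sum_bij' (fun z' _ => z' * z) (fun w _ => w * z⁻¹) ?_ ?_ ?_ ?_ ?_
    · intro z' hz'; exact mul_mem_symF hz' hz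
    · intro w hw; exact mul_mem_symF hw (inv_mem_symF hz)
    · intro z' _; simp
    · intro w _; simp
    · intro z' _
      refine Fintype.sum_equiv (Equiv.mulRight z) _ _ (fun h => ?_)
      show p (h * z) * p (h⁻¹ * g * z') = p (h * z) * p (z' * z * ((h * z)⁻¹ * g))
      rw [hp.mul_comm' (h⁻¹ * g) z']
      congr 2
      group
  rw [Finset.sum_congr rfl h2, Finset.sum_const, nsmul_eq_mul, ← hn]
  field_simp

lemma ffour_pt1 {c f1 f2 f3 f4 F1 F2 F3 F4 : ℝ} (hc : 0 ≤ c) (h2 : 0 ≤ f2)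
    (h3 : 0 ≤ f3) (h4 : 0 ≤ f4) (g1 : 1 ≤ F1) (e1 : f1 ≤ c * F1 ^ 3) (l2 : F1 ≤ F2)
    (l3 : F1 ≤ F3) (l4 : F1 ≤ F4) :
    f1 * f2 * f3 * f4 ≤ c * ((f2 * F2) * (f3 * F3) * (f4 * F4)) := by
  have k1 : F1 * F1 ≤ F2 * F3 := mul_le_mul l2 l3 (by linarith) (by linarith)
  have k2 : F1 * F1 * F1 ≤ F2 * F3 * F4 :=
    mul_le_mul k1 l4 (by linarith) (mul_nonneg (by linarith) (by linarith))
  have k3 : f1 ≤ c * (F2 * F3 * F4) := by
    refine e1.trans (mul_le_mul_of_nonneg_left ?_ hc)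
    calc F1 ^ 3 = F1 * F1 * F1 := by ring
      _ ≤ F2 * F3 * F4 := k2
  have k4 := mul_le_mul_of_nonneg_right k3 (mul_nonneg (mul_nonneg h2 h3) h4)
  calc f1 * f2 * f3 * f4 = f1 * (f2 * f3 * f4) := by ring
    _ ≤ c * (F2 * F3 * F4) * (f2 * f3 * f4) := k4
    _ = c * ((f2 * F2) * (f3 * F3) * (f4 * F4)) := by ring

lemma ffour_pt {c f1 f2 f3 f4 F1 F2 F3 F4 : ℝ} (hc : 0 ≤ c) (h1 : 0 ≤ f1) (h2 : 0 ≤ f2)
    (h3 : 0 ≤ f3) (h4 : 0 ≤ f4) (g1 : 1 ≤ F1) (g2 : 1 ≤ F2) (g3 : 1 ≤ F3) (g4 : 1 ≤ F4)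
    (e1 : f1 ≤ c * F1 ^ 3) (e2 : f2 ≤ c * F2 ^ 3) (e3 : f3 ≤ c * F3 ^ 3)
    (e4 : f4 ≤ c * F4 ^ 3) :
    f1 * f2 * f3 * f4 ≤ c * ((f2 * F2) * (f3 * F3) * (f4 * F4)) +
      c * ((f1 * F1) * (f3 * F3) * (f4 * F4)) + c * ((f1 * F1) * (f2 * F2) * (f4 * F4)) +
      c * ((f1 * F1) * (f2 * F2) * (f3 * F3)) := by
  have p1 : 0 ≤ f1 * F1 := mul_nonneg h1 (by linarith)
  have p2 : 0 ≤ f2 * F2 := mul_nonneg h2 (by linarith)
  have p3 : 0 ≤ f3 * F3 := mul_nonneg h3 (by linarith)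
  have p4 : 0 ≤ f4 * F4 := mul_nonneg h4 (by linarith)
  have q1 : 0 ≤ c * ((f2 * F2) * (f3 * F3) * (f4 * F4)) := by positivity
  have q2 : 0 ≤ c * ((f1 * F1) * (f3 * F3) * (f4 * F4)) := by positivity
  have q3 : 0 ≤ c * ((f1 * F1) * (f2 * F2) * (f4 * F4)) := by positivity
  have q4 : 0 ≤ c * ((f1 * F1) * (f2 * F2) * (f3 * F3)) := by positivity
  rcases le_total F1 F2 with a | a <;> rcases le_total F3 F4 with b | b
  · rcases le_total F1 F3 with d | d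
    · have := ffour_pt1 hc h2 h3 h4 g1 e1 a d (d.trans b)
      linarith
    · have := ffour_pt1 hc h1 h2 h4 g3 e3 d (d.trans a) b
      linarith
  · rcases le_total F1 F4 with d | d
    · have := ffour_pt1 hc h2 h3 h4 g1 e1 a (d.trans b) d
      linarith
    · have := ffour_pt1 hc h1 h2 h3 g4 e4 d (d.trans a) b
      linarith
  · rcases le_total F2 F3 with d | d
    · have := ffour_pt1 hc h1 h3 h4 g2 e2 a d (d.trans b)
      linarith
    · have := ffour_pt1 hc h1 h2 h4 g3 e3 (d.trans a) d b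
      linarith
  · rcases le_total F2 F4 with d | d
    · have := ffour_pt1 hc h1 h3 h4 g2 e2 a (d.trans b) d
      linarith
    · have := ffour_pt1 hc h1 h2 h3 g4 e4 (d.trans a) d b
      linarith

lemma ffour_left (G : Perm A → ℝ) (k : Perm A) : ∑ g, G (k⁻¹ * g) = ∑ g, G g :=
  Equiv.sum_comp (Equiv.mulLeft k⁻¹) G

lemma ffour_right (G : Perm A → ℝ) (g : Perm A) : ∑ h, G (h⁻¹ * g) = ∑ h, G h := by
  refine Fintype.sum_equiv ((Equiv.inv (Perm A)).trans (Equiv.mulRight g)) _ _ (fun h => ?_)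
  rfl

theorem fourfold {ν : ℕ} {p : Perm A → ℝ} (hp : PK ν p) (Z : Finset A) (F : Perm A → ℝ)
    (hF : ∀ g, 1 ≤ F g) (c M : ℝ) (hc : 0 ≤ c)
    (hf : ∀ g, (∑ z ∈ symF Z, p (g * z)) / ((symF Z).card : ℝ) ≤ c * F g ^ 3)
    (hM : ∑ g, (∑ z ∈ symF Z, p (g * z)) / ((symF Z).card : ℝ) * F g ≤ M) (x : Perm A) :
    ‖Qop (regRep A) Z (Pop (regRep A) p (Pop (regRep A) p (dl x)))‖ ^ 2 ≤ 4 * c * M ^ 3 := by
  set f := ffour_f p Z with hfdef
  have hf0 : ∀ g, 0 ≤ f g := fun g =>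
    div_nonneg (Finset.sum_nonneg fun z _ => hp.nonneg _) (card_symF_pos Z).le
  have hf' : ∀ g, f g ≤ c * F g ^ 3 := hf
  set G : Perm A → ℝ := fun g => f g * F g with hG
  have hG0 : ∀ g, 0 ≤ G g := fun g => mul_nonneg (hf0 g) (by linarith [hF g])
  set S := ∑ g, G g with hS
  have hS0 : 0 ≤ S := Finset.sum_nonneg fun g _ => hG0 g
  have hSM : S ≤ M := hM
  have hnorm : ‖Qop (regRep A) Z (Pop (regRep A) p (Pop (regRep A) p (dl x)))‖ ^ 2 =
      ∑ g, (∑ h, f h * f (h⁻¹ * g)) ^ 2 := by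
    rw [EuclideanSpace.norm_sq_eq]
    rw [← Equiv.sum_comp (Equiv.mulRight x⁻¹) (fun g => (∑ h, f h * f (h⁻¹ * g)) ^ 2)]
    refine Finset.sum_congr rfl fun κ _ => ?_
    rw [Real.norm_eq_abs, sq_abs, ffour_conv hp Z x κ]
    rfl
  rw [hnorm]
  have hexp : ∀ g, (∑ h, f h * f (h⁻¹ * g)) ^ 2 =
      ∑ h, ∑ k, f h * f (h⁻¹ * g) * f k * f (k⁻¹ * g) := by
    intro g
    rw [sq, Finset.sum_mul_sum]
    refine Finset.sum_congr rfl fun h _ => Finset.sum_congr rfl fun k _ => ?_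
    ring
  rw [Finset.sum_congr rfl (fun g _ => hexp g)]
  have hpt : ∀ g h k, f h * f (h⁻¹ * g) * f k * f (k⁻¹ * g) ≤
      c * (G (h⁻¹ * g) * G k * G (k⁻¹ * g)) + c * (G h * G k * G (k⁻¹ * g)) +
      c * (G h * G (h⁻¹ * g) * G (k⁻¹ * g)) + c * (G h * G (h⁻¹ * g) * G k) := by
    intro g h k
    exact ffour_pt hc (hf0 _) (hf0 _) (hf0 _) (hf0 _) (hF _) (hF _) (hF _) (hF _)
      (hf' _) (hf' _) (hf' _) (hf' _)
  have hsum : ∑ g, ∑ h, ∑ k, f h * f (h⁻¹ * g) * f k * f (k⁻¹ * g) ≤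
      ∑ g, ∑ h, ∑ k, (c * (G (h⁻¹ * g) * G k * G (k⁻¹ * g)) + c * (G h * G k * G (k⁻¹ * g)) +
      c * (G h * G (h⁻¹ * g) * G (k⁻¹ * g)) + c * (G h * G (h⁻¹ * g) * G k)) :=
    Finset.sum_le_sum fun g _ => Finset.sum_le_sum fun h _ => Finset.sum_le_sum fun k _ =>
      hpt g h k
  refine hsum.trans ?_
  simp only [Finset.sum_add_distrib]
  -- double sums
  have hD : ∑ g, ∑ k, G k * G (k⁻¹ * g) = S * S := by
    rw [Finset.sum_comm]
    have : ∀ k, ∑ g, G k * G (k⁻¹ * g) = G k * S := by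
      intro k
      rw [← Finset.mul_sum, ffour_left G k]
    rw [Finset.sum_congr rfl (fun k _ => this k), ← Finset.sum_mul]
  have t1 : ∑ g, ∑ h, ∑ k, c * (G (h⁻¹ * g) * G k * G (k⁻¹ * g)) = c * S ^ 3 := by
    have : ∀ g, ∑ h, ∑ k, c * (G (h⁻¹ * g) * G k * G (k⁻¹ * g)) =
        c * S * ∑ k, G k * G (k⁻¹ * g) := by
      intro g
      have h1 : ∀ h, ∑ k, c * (G (h⁻¹ * g) * G k * G (k⁻¹ * g)) =
          G (h⁻¹ * g) * (c * ∑ k, G k * G (k⁻¹ * g)) := by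
        intro h
        rw [Finset.mul_sum, Finset.mul_sum]
        exact Finset.sum_congr rfl fun k _ => by ring
      rw [Finset.sum_congr rfl (fun h _ => h1 h), ← Finset.sum_mul, ffour_right G g]
      ring
    rw [Finset.sum_congr rfl (fun g _ => this g), ← Finset.mul_sum, hD]
    ring
  have t2 : ∑ g, ∑ h, ∑ k, c * (G h * G k * G (k⁻¹ * g)) = c * S ^ 3 := by
    have : ∀ g, ∑ h, ∑ k, c * (G h * G k * G (k⁻¹ * g)) =
        c * S * ∑ k, G k * G (k⁻¹ * g) := by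
      intro g
      have h1 : ∀ h, ∑ k, c * (G h * G k * G (k⁻¹ * g)) =
          G h * (c * ∑ k, G k * G (k⁻¹ * g)) := by
        intro h
        rw [Finset.mul_sum, Finset.mul_sum]
        exact Finset.sum_congr rfl fun k _ => by ring
      rw [Finset.sum_congr rfl (fun h _ => h1 h), ← Finset.sum_mul]
      ring
    rw [Finset.sum_congr rfl (fun g _ => this g), ← Finset.mul_sum, hD]
    ring
  have t3 : ∑ g, ∑ h, ∑ k, c * (G h * G (h⁻¹ * g) * G (k⁻¹ * g)) = c * S ^ 3 := by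
    have : ∀ g, ∑ h, ∑ k, c * (G h * G (h⁻¹ * g) * G (k⁻¹ * g)) =
        c * S * ∑ k, G k * G (k⁻¹ * g) := by
      intro g
      have h1 : ∀ h, ∑ k, c * (G h * G (h⁻¹ * g) * G (k⁻¹ * g)) =
          c * S * (G h * G (h⁻¹ * g)) := by
        intro h
        have h2 : ∀ k, c * (G h * G (h⁻¹ * g) * G (k⁻¹ * g)) =
          c * (G h * G (h⁻¹ * g)) * G (k⁻¹ * g) := fun k => by ring
        rw [Finset.sum_congr rfl (fun k _ => h2 k), ← Finset.mul_sum, ffour_right G g]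
        ring
      rw [Finset.sum_congr rfl (fun h _ => h1 h), ← Finset.mul_sum]
    rw [Finset.sum_congr rfl (fun g _ => this g), ← Finset.mul_sum, hD]
    ring
  have t4 : ∑ g, ∑ h, ∑ k, c * (G h * G (h⁻¹ * g) * G k) = c * S ^ 3 := by
    have : ∀ g, ∑ h, ∑ k, c * (G h * G (h⁻¹ * g) * G k) =
        c * S * ∑ k, G k * G (k⁻¹ * g) := by
      intro g
      have h1 : ∀ h, ∑ k, c * (G h * G (h⁻¹ * g) * G k) =
          c * S * (G h * G (h⁻¹ * g)) := by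
        intro h
        have h2 : ∀ k, c * (G h * G (h⁻¹ * g) * G k) =
          c * (G h * G (h⁻¹ * g)) * G k := fun k => by ring
        rw [Finset.sum_congr rfl (fun k _ => h2 k), ← Finset.mul_sum]
        ring
      rw [Finset.sum_congr rfl (fun h _ => h1 h), ← Finset.mul_sum]
    rw [Finset.sum_congr rfl (fun g _ => this g), ← Finset.mul_sum, hD]
    ring
  rw [t1, t2, t3, t4]
  have hS3 : S ^ 3 ≤ M ^ 3 := pow_le_pow_left₀ hS0 hSM 3
  nlinarith [mul_le_mul_of_nonneg_left hS3 hc]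

end

end Vale.Agent.P162
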