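import Mathlib

/-! # Restricting a symmetric operator to an invariant subspace: two eigenvalue tests -/

namespace Vale.Agent.P162

open scoped RealInnerProductSpace

noncomputable section

variable {H : Type*} [NormedAddCommGroup H] [InnerProductSpace ℝ H] [FiniteDimensional ℝ H]

/-- expansion of a vector of the invariant subspace in eigenvectors -/
private lemma eig_expand (T : H →ₗ[ℝ] H) (hT : T.IsSymmetric) (E : Submodule ℝ H)
    (hE : ∀ v ∈ E, T v ∈ E) (v : H) (hv : v ∈ E) :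
    ∃ (n : ℕ) (b : Fin n → H) (μ : Fin n → ℝ) (x : Fin n → ℝ),
      (∀ i, b i ∈ E) ∧ (∀ i, b i ≠ 0) ∧ (∀ i, T (b i) = μ i • b i) ∧
      ‖v‖ ^ 2 = ∑ i, x i ^ 2 ∧ ⟪v, T v⟫ = ∑ i, μ i * x i ^ 2 ∧
      ‖T v‖ ^ 2 = ∑ i, μ i ^ 2 * x i ^ 2 := by
  have hT' : (T.restrict hE).IsSymmetric := hT.restrict_invariant hE
  set b := hT'.eigenvectorBasis rfl with hb
  set v' : E := ⟨v, hv⟩ with hv'
  have hbT : ∀ i, T.restrict hE (b i) = hT'.eigenvalues rfl i • b i := by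
    intro i
    have := hT'.apply_eigenvectorBasis rfl i
    exact this
  have h2 : ∀ i, ⟪b i, T.restrict hE v'⟫ = hT'.eigenvalues rfl i * ⟪b i, v'⟫ := by
    intro i
    rw [← hT' (b i) v', hbT, real_inner_smul_left]
  refine ⟨_, fun i => (b i : H), hT'.eigenvalues rfl, fun i => ⟪b i, v'⟫, fun i => (b i).2,
    ?_, ?_, ?_, ?_, ?_⟩
  · intro i h
    have h1 : b i = 0 := by
      apply Subtype.ext
      exact h
    have h2 := b.orthonormal.ne_zero i
    exact h2 h1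
  · intro i
    have := congrArg (Subtype.val) (hbT i)
    exact this
  · have h1 : ‖v‖ ^ 2 = ⟪v', v'⟫ := by
      rw [real_inner_self_eq_norm_sq]
      rfl
    rw [h1, ← b.sum_inner_mul_inner v' v']
    apply Finset.sum_congr rfl
    intro i _
    rw [real_inner_comm (b i) v', sq]
  · have h1 : ⟪v, T v⟫ = ⟪v', T.restrict hE v'⟫ := rfl
    rw [h1, ← b.sum_inner_mul_inner]
    apply Finset.sum_congr rfl
    intro i _
    rw [h2, real_inner_comm (b i) v']
    ring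
  · have h1 : ‖T v‖ ^ 2 = ⟪T.restrict hE v', T.restrict hE v'⟫ := by
      rw [real_inner_self_eq_norm_sq]
      rfl
    rw [h1, ← b.sum_inner_mul_inner]
    apply Finset.sum_congr rfl
    intro i _
    rw [real_inner_comm (b i) (T.restrict hE v'), h2]
    ring

/-- if all eigenvalues of `T` on the invariant subspace `E` are at least `c`, then
`⟪F, T F⟫ ≥ c ‖F‖²` on `E` -/
theorem inner_ge_of_eigen (T : H →ₗ[ℝ] H) (hT : T.IsSymmetric) (E : Submodule ℝ H)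
    (hE : ∀ v ∈ E, T v ∈ E) (c : ℝ)
    (h : ∀ v ∈ E, v ≠ 0 → ∀ μ : ℝ, T v = μ • v → c ≤ μ) :
    ∀ v ∈ E, c * ‖v‖ ^ 2 ≤ ⟪v, T v⟫ := by
  intro v hv
  obtain ⟨n, b, μ, x, h1, h2, h3, h4, h5, _⟩ := eig_expand T hT E hE v hv
  rw [h4, h5, Finset.mul_sum]
  apply Finset.sum_le_sum
  intro i _
  exact mul_le_mul_of_nonneg_right (h (b i) (h1 i) (h2 i) (μ i) (h3 i)) (sq_nonneg _)

/-- if all eigenvalues of `T` on the invariant subspace `E` are at most `c` in absolute value,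
then `‖T v‖ ≤ c ‖v‖` on `E` -/
theorem norm_le_of_eigen (T : H →ₗ[ℝ] H) (hT : T.IsSymmetric) (E : Submodule ℝ H)
    (hE : ∀ v ∈ E, T v ∈ E) (c : ℝ) (hc : 0 ≤ c)
    (h : ∀ v ∈ E, v ≠ 0 → ∀ μ : ℝ, T v = μ • v → |μ| ≤ c) :
    ∀ v ∈ E, ‖T v‖ ≤ c * ‖v‖ := by
  intro v hv
  obtain ⟨n, b, μ, x, h1, h2, h3, h4, _, h6⟩ := eig_expand T hT E hE v hv
  have h7 : ‖T v‖ ^ 2 ≤ (c * ‖v‖) ^ 2 := by
    rw [mul_pow, h4, h6, Finset.mul_sum]
    apply Finset.sum_le_sum
    intro i _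
    apply mul_le_mul_of_nonneg_right _ (sq_nonneg _)
    have := h (b i) (h1 i) (h2 i) (μ i) (h3 i)
    rw [← sq_abs]
    exact pow_le_pow_left₀ (abs_nonneg _) this 2
  exact le_of_sq_le_sq h7 (by positivity)

end

end Vale.Agent.P162
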