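import Vale.Agent.P162.FAbs
import Vale.Agent.P162.SymEig

/-! # The level inequality -/

namespace Vale.Agent.P162

open Finset Equiv
open scoped RealInnerProductSpace

noncomputable section

variable {A : Type*} [Fintype A] [DecidableEq A]
variable {H : Type*} [NormedAddCommGroup H] [InnerProductSpace ℝ H] [FiniteDimensional ℝ H]
variable {ρ : Perm A →* (H →ₗ[ℝ] H)}

/-- the sum of the averages over the sets of size `q + 1` -/
def levM (ρ : Perm A →* (H →ₗ[ℝ] H)) (q : ℕ) : H →ₗ[ℝ] H :=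
  ∑ Z ∈ powersetCard (q + 1) (univ : Finset A), Qop ρ Z

omit [FiniteDimensional ℝ H] in
lemma levM_apply (q : ℕ) (v : H) :
    levM ρ q v = ∑ Z ∈ powersetCard (q + 1) (univ : Finset A), Qop ρ Z v := by
  simp [levM]

omit [FiniteDimensional ℝ H] in
lemma levM_symm (hρ : ∀ g v, ‖ρ g v‖ = ‖v‖) (q : ℕ) : (levM ρ q).IsSymmetric := by
  intro v w
  rw [levM_apply, levM_apply, sum_inner, inner_sum]
  exact Finset.sum_congr rfl fun Z _ => Qop_symm hρ Z v w

omit [FiniteDimensional ℝ H] in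
lemma inner_Qop_self (hρ : ∀ g v, ‖ρ g v‖ = ‖v‖) (Z : Finset A) (v : H) :
    ⟪v, Qop ρ Z v⟫ = ‖Qop ρ Z v‖ ^ 2 := by
  rw [← real_inner_self_eq_norm_sq, Qop_symm hρ, Qop_Qop (Finset.Subset.refl Z)]

omit [FiniteDimensional ℝ H] in
lemma inner_levM_self (hρ : ∀ g v, ‖ρ g v‖ = ‖v‖) (q : ℕ) (v : H) :
    ⟪v, levM ρ q v⟫ =
      ∑ Z ∈ powersetCard (q + 1) (univ : Finset A), ‖Qop ρ Z v‖ ^ 2 := by
  rw [levM_apply, inner_sum]
  exact Finset.sum_congr rfl fun Z _ => inner_Qop_self hρ Z v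

omit [FiniteDimensional ℝ H] in
lemma levM_rho (q : ℕ) (g : Perm A) (v : H) : levM ρ q (ρ g v) = ρ g (levM ρ q v) := by
  rw [levM_apply, levM_apply, map_sum]
  symm
  refine Finset.sum_bij' (fun Z _ => Z.image g) (fun Z _ => Z.image (g⁻¹ : Perm A)) ?_ ?_ ?_ ?_ ?_
  · intro Z hZ
    rw [Finset.mem_powersetCard] at hZ ⊢
    exact ⟨Finset.subset_univ _, by rw [Finset.card_image_of_injective _ g.injective, hZ.2]⟩
  · intro Z hZ
    rw [Finset.mem_powersetCard] at hZ ⊢
    exact ⟨Finset.subset_univ _,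
      by rw [Finset.card_image_of_injective _ (g⁻¹ : Perm A).injective, hZ.2]⟩
  · intro Z _
    rw [Finset.image_image]
    have : (⇑(g⁻¹ : Perm A) ∘ ⇑g) = id := by
      funext x
      exact Equiv.symm_apply_apply g x
    rw [this, Finset.image_id]
  · intro Z _
    rw [Finset.image_image]
    have : (⇑g ∘ ⇑(g⁻¹ : Perm A)) = id := by
      funext x
      exact Equiv.apply_symm_apply g x
    rw [this, Finset.image_id]
  · intro Z _
    exact rho_Qop_image g Z v

omit [FiniteDimensional ℝ H] in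
/-- the vanishing of `levM` characterizes the level -/
lemma levM_eq_zero (hρ : ∀ g v, ‖ρ g v‖ = ‖v‖) (q : ℕ) {v : H} (h : levM ρ q v = 0) :
    v ∈ lev ρ univ q := by
  have h1 := inner_levM_self hρ q v
  rw [h, inner_zero_right] at h1
  have h2 := (Finset.sum_eq_zero_iff_of_nonneg (fun Z _ => sq_nonneg ‖Qop ρ Z v‖)).mp h1.symm
  intro Z _ hc
  have h3 := h2 Z (Finset.mem_powersetCard.mpr ⟨Finset.subset_univ _, hc⟩)
  rw [sq_eq_zero_iff, norm_eq_zero] at h3
  exact h3

omit [FiniteDimensional ℝ H] in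
lemma levM_of_mem {q : ℕ} {v : H} (h : v ∈ lev ρ univ q) : levM ρ q v = 0 := by
  rw [levM_apply]
  refine Finset.sum_eq_zero fun Z hZ => ?_
  exact h Z (Finset.subset_univ _) (Finset.mem_powersetCard.mp hZ).2

/-- a nonzero eigenvalue of `levM` is at least `1` -/
lemma levM_eig (q : ℕ) {v : H} (hv : v ≠ 0) {μ : ℝ} (hμ : μ ≠ 0) (h : levM ρ q v = μ • v) :
    1 ≤ μ := by
  classical
  set E : Submodule ℝ H := Module.End.eigenspace (levM ρ q) μ with hE
  have hmem : ∀ w, w ∈ E ↔ levM ρ q w = μ • w := fun w => Module.End.mem_eigenspace_iff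
  have hrho : ∀ g, ∀ w ∈ E, ρ g w ∈ E := by
    intro g w hw
    rw [hmem] at hw ⊢
    rw [levM_rho, hw, map_smul]
  have hQ : ∀ Z : Finset A, ∀ w ∈ E, Qop ρ Z w ∈ E := by
    intro Z w hw
    rw [Qop_apply]
    exact E.smul_mem _ (E.sum_mem fun g _ => hrho g w hw)
  let f : Finset A → (E →ₗ[ℝ] E) := fun Z => (Qop ρ Z).restrict (hQ Z)
  have hf : ∀ Z (w : E), ((f Z w : E) : H) = Qop ρ Z (w : H) := fun Z w => rfl
  set S := powersetCard (q + 1) (univ : Finset A) with hS
  have hsum : ∑ Z ∈ S, f Z = μ • (LinearMap.id : E →ₗ[ℝ] E) := by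
    apply LinearMap.ext
    intro w
    apply Subtype.ext
    rw [LinearMap.sum_apply, LinearMap.smul_apply, LinearMap.id_apply]
    rw [Submodule.coe_sum, Submodule.coe_smul]
    have h1 := (hmem w).mp w.2
    rw [levM_apply] at h1
    rw [← h1]
    exact Finset.sum_congr rfl fun Z _ => hf Z w
  have hproj : ∀ Z, LinearMap.IsProj (LinearMap.range (f Z)) (f Z) := by
    intro Z
    rw [LinearMap.isProj_range_iff_isIdempotentElem]
    apply LinearMap.ext
    intro w
    apply Subtype.ext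
    rw [Module.End.mul_apply, hf, hf]
    exact Qop_Qop (Finset.Subset.refl Z) _
  have htr : ∀ Z, LinearMap.trace ℝ E (f Z) = (Module.finrank ℝ (LinearMap.range (f Z)) : ℝ) :=
    fun Z => (hproj Z).trace
  have h1 : (∑ Z ∈ S, (Module.finrank ℝ (LinearMap.range (f Z)) : ℝ)) =
      μ * Module.finrank ℝ E := by
    rw [← Finset.sum_congr rfl fun Z _ => htr Z, ← map_sum, hsum, map_smul, LinearMap.trace_id,
      smul_eq_mul]
  have h2 : Module.finrank ℝ E ≤ ∑ Z ∈ S, Module.finrank ℝ (LinearMap.range (f Z)) := by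
    have h3 := LinearMap.rank_finsetSum_le S f
    have h4 : LinearMap.rank (∑ Z ∈ S, f Z) = Module.finrank ℝ E := by
      rw [hsum, LinearMap.rank]
      have h5 : LinearMap.range (μ • (LinearMap.id : E →ₗ[ℝ] E)) = ⊤ := by
        rw [LinearMap.range_smul _ _ hμ, LinearMap.range_id]
      rw [h5, rank_top, Module.finrank_eq_rank]
    rw [h4] at h3
    have h6 : ∀ Z, LinearMap.rank (f Z) = (Module.finrank ℝ (LinearMap.range (f Z)) : Cardinal) := by
      intro Z
      rw [LinearMap.rank, Module.finrank_eq_rank]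
    rw [Finset.sum_congr rfl fun Z _ => h6 Z] at h3
    exact_mod_cast h3
  have h3 : 0 < Module.finrank ℝ E := by
    have hvE : v ∈ E := (hmem v).mpr h
    have : Nontrivial E := ⟨⟨⟨v, hvE⟩, 0, fun h0 => hv (congrArg Subtype.val h0)⟩⟩
    exact Module.finrank_pos
  have h4 : (Module.finrank ℝ E : ℝ) ≤ μ * Module.finrank ℝ E := by
    rw [← h1]
    exact_mod_cast h2
  have h5 : (0 : ℝ) < Module.finrank ℝ E := by exact_mod_cast h3
  by_contra hlt
  push Not at hlt
  nlinarith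

/-- a vector orthogonal to the level `q` is controlled by its averages over the sets of size
`q + 1` -/
theorem level_ineq (hρ : ∀ g v, ‖ρ g v‖ = ‖v‖) (q : ℕ) (w : H)
    (hw : ∀ F ∈ lev ρ univ q, ⟪F, w⟫ = 0) :
    ‖w‖ ^ 2 ≤ ∑ Z ∈ powersetCard (q + 1) (univ : Finset A), ‖Qop ρ Z w‖ ^ 2 := by
  set E : Submodule ℝ H := (lev ρ univ q)ᗮ with hE
  have hinv : ∀ v ∈ E, levM ρ q v ∈ E := by
    intro v _ F hF
    rw [← levM_symm hρ q F v, levM_of_mem hF, inner_zero_left]
  have h1 := inner_ge_of_eigen (levM ρ q) (levM_symm hρ q) E hinv 1 (by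
    intro v hv hv0 μ hμ
    by_cases h0 : μ = 0
    · exfalso
      rw [h0, zero_smul] at hμ
      have h2 := levM_eq_zero hρ q hμ
      have h3 := hv v h2
      exact hv0 (inner_self_eq_zero.mp h3)
    · exact levM_eig q hv0 h0 hμ) w hw
  rw [one_mul, inner_levM_self hρ] at h1
  exact h1

end

end Vale.Agent.P162
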