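import Vale.Agent.P162.FInter
import Vale.Agent.P162.FFour
import Vale.Agent.P162.FLevel

/-! # The mass of `𝒦² u` outside the levels -/

namespace Vale.Agent.P162

open Finset Equiv
open scoped RealInnerProductSpace

noncomputable section

variable {A : Type*} [Fintype A] [DecidableEq A]

lemma FDk_hM {ν : ℕ} {p : Perm A → ℝ} (hp : PK ν p) (Z : Finset A) :
    ∑ g, (∑ z ∈ symF Z, p (g * z)) / ((symF Z).card : ℝ) * FK ν Zᶜ g ≤ 3 ^ Zᶜ.card := by
  have hc := card_symF_pos Z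
  have h1 : ∑ g, (∑ z ∈ symF Z, p (g * z)) / ((symF Z).card : ℝ) * FK ν Zᶜ g =
      (∑ z ∈ symF Z, ∑ g, p (g * z) * FK ν Zᶜ g) / ((symF Z).card : ℝ) := by
    rw [Finset.sum_comm, Finset.sum_div]
    refine Finset.sum_congr rfl fun g _ => ?_
    rw [div_mul_eq_mul_div, Finset.sum_mul]
  have h2 : ∀ z ∈ symF Z, ∑ g, p (g * z) * FK ν Zᶜ g = ∑ g, p g * FK ν Zᶜ g := by
    intro z hz
    refine Fintype.sum_equiv (Equiv.mulRight z) _ _ (fun g => ?_)
    show _ = p (g * z) * FK ν Zᶜ (g * z)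
    rw [FK_mul_symF ν Zᶜ g z (by rwa [compl_compl])]
  rw [h1, Finset.sum_congr rfl h2, Finset.sum_const, nsmul_eq_mul,
    mul_div_cancel_left₀ _ hc.ne']
  exact hp.mom _

theorem Dk_bound {ν m q : ℕ} {p : Perm A → ℝ} (hp : PK ν p) (hm : Fintype.card A = m)
    (hmν : m ≤ 2 ^ (4 * ν)) (hq1 : 1 ≤ q) (hq : q < m) (x y : Perm A)
    (w : EuclideanSpace ℝ (Perm A))
    (hw : ∀ F ∈ lev (regRep A) univ (q - 1), ⟪F, w⟫ = 0)
    (hw2 : Pop (regRep A) p (Pop (regRep A) p (dl x - dl y)) - w ∈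
      lev (regRep A) univ (q - 1)) :
    ‖w‖ ^ 2 ≤ 16 * ((m.choose q : ℕ) : ℝ) ^ 2 * 81 ^ (m - q) / (m.factorial : ℝ) := by
  have hlev := level_ineq (ρ := regRep A) norm_regRep (q - 1) w hw
  rw [Nat.sub_add_cancel hq1] at hlev
  refine hlev.trans ?_
  have hZ : ∀ Z ∈ powersetCard q (univ : Finset A), ‖Qop (regRep A) Z w‖ ^ 2 ≤
      16 * (3 ^ (m - q) / (((m - q).factorial : ℝ) * (q.factorial : ℝ))) * (3 ^ (m - q)) ^ 3 := by
    intro Z hZ
    rw [Finset.mem_powersetCard] at hZ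
    have hZc : Zᶜ.card = m - q := by rw [Finset.card_compl, hm, hZ.2]
    have hqf : (0 : ℝ) < q.factorial := by exact_mod_cast Nat.factorial_pos _
    have hkf : (0 : ℝ) < (m - q).factorial := by exact_mod_cast Nat.factorial_pos _
    have hf : ∀ g, (∑ z ∈ symF Z, p (g * z)) / ((symF Z).card : ℝ) ≤
        3 ^ (m - q) / (((m - q).factorial : ℝ) * (q.factorial : ℝ)) * FK ν Zᶜ g ^ 3 := by
      intro g
      have h1 := pointwise hp Zᶜ (by rw [hZc]; omega) g
      rw [compl_compl, hZc] at h1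
      rw [card_symF, hZ.2, div_le_iff₀ hqf]
      refine h1.trans (le_of_eq ?_)
      field_simp
    have hM := FDk_hM hp Z
    rw [hZc] at hM
    have hfour := fun x => fourfold hp Z (FK ν Zᶜ) (FK_ge_one ν Zᶜ)
      (3 ^ (m - q) / (((m - q).factorial : ℝ) * (q.factorial : ℝ))) (3 ^ (m - q))
      (by positivity) hf hM x
    have hQw : Qop (regRep A) Z w =
        Qop (regRep A) Z (Pop (regRep A) p (Pop (regRep A) p (dl x))) -
          Qop (regRep A) Z (Pop (regRep A) p (Pop (regRep A) p (dl y))) := by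
      have h1 := (mem_lev.1 hw2) Z (Finset.subset_univ _) (by rw [hZ.2]; omega)
      rw [map_sub, sub_eq_zero] at h1
      rw [← h1, map_sub, map_sub, map_sub]
    rw [hQw]
    have hx := hfour x
    have hy := hfour y
    have hpar : ∀ a b : EuclideanSpace ℝ (Perm A), ‖a - b‖ ^ 2 ≤ 2 * ‖a‖ ^ 2 + 2 * ‖b‖ ^ 2 := by
      intro a b
      have h1 := norm_sub_le a b
      have h2 := norm_nonneg (a - b)
      nlinarith [sq_nonneg (‖a‖ - ‖b‖), norm_nonneg a, norm_nonneg b]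
    refine (hpar _ _).trans ?_
    linarith
  refine (Finset.sum_le_sum hZ).trans ?_
  rw [Finset.sum_const, Finset.card_powersetCard, Finset.card_univ, hm, nsmul_eq_mul]
  have hfac : ((m.choose q : ℕ) : ℝ) * (q.factorial : ℝ) * ((m - q).factorial : ℝ) =
      (m.factorial : ℝ) := by
    exact_mod_cast Nat.choose_mul_factorial_mul_factorial hq.le
  have hqf : (0 : ℝ) < q.factorial := by exact_mod_cast Nat.factorial_pos _
  have hkf : (0 : ℝ) < (m - q).factorial := by exact_mod_cast Nat.factorial_pos _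
  have hC : (0 : ℝ) < ((m.choose q : ℕ) : ℝ) := by exact_mod_cast Nat.choose_pos hq.le
  rw [← hfac]
  apply le_of_eq
  have h81 : (81 : ℝ) ^ (m - q) = (3 ^ (m - q)) ^ 4 := by
    rw [← pow_mul, mul_comm, pow_mul]
    norm_num
  rw [h81]
  field_simp

end

end Vale.Agent.P162
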