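import Vale.Agent.P162.FAbs

/-! # Many edges inside a set of slots -/

namespace Vale.Agent.P162

open Finset Equiv

noncomputable section

variable {A : Type*} [Fintype A] [DecidableEq A]

omit [Fintype A] in
/-- greedy choice of disjoint edges -/
lemma fedge_greedy (π : Perm A) (E : Finset A) (hE : ∀ a ∈ E, π a ≠ a) (s : ℕ)
    (hs : 3 * s ≤ E.card + 2) : ∃ S ⊆ E, S.card = s ∧ ∀ a ∈ S, π a ∉ S := by
  have hne : (E.powerset.filter fun S => ∀ a ∈ S, π a ∉ S).Nonempty :=
    ⟨∅, by simp⟩
  obtain ⟨S, hS, hmax⟩ := Finset.exists_max_image _ Finset.card hne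
  rw [Finset.mem_filter, Finset.mem_powerset] at hS
  have hcov : E ⊆ S ∪ (S.image π ∪ S.image (π⁻¹ : Perm A)) := by
    intro b hb
    by_contra hcon
    rw [Finset.mem_union, Finset.mem_union, Finset.mem_image, Finset.mem_image] at hcon
    push Not at hcon
    obtain ⟨h1, h2, h3⟩ := hcon
    have h4 : insert b S ∈ E.powerset.filter fun S => ∀ a ∈ S, π a ∉ S := by
      rw [Finset.mem_filter, Finset.mem_powerset]
      refine ⟨Finset.insert_subset hb hS.1, ?_⟩
      intro a ha hpa
      rcases Finset.mem_insert.mp ha with ha | ha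
      · rw [ha] at hpa
        rcases Finset.mem_insert.mp hpa with h5 | h5
        · exact hE b hb h5
        · exact h3 (π b) h5 (Equiv.symm_apply_apply π b)
      · rcases Finset.mem_insert.mp hpa with h5 | h5
        · exact h2 a ha h5
        · exact hS.2 a ha h5
    have h5 := hmax _ h4
    rw [Finset.card_insert_of_notMem h1] at h5
    omega
  have h1 := Finset.card_le_card hcov
  have h2 := Finset.card_union_le S (S.image π ∪ S.image (π⁻¹ : Perm A))
  have h3 := Finset.card_union_le (S.image π) (S.image (π⁻¹ : Perm A))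
  have h4 := Finset.card_image_le (s := S) (f := π)
  have h5 := Finset.card_image_le (s := S) (f := (π⁻¹ : Perm A))
  have h6 : s ≤ S.card := by omega
  obtain ⟨S', hS', hc⟩ := Finset.exists_subset_card_eq h6
  refine ⟨S', hS'.trans hS.1, hc, ?_⟩
  intro a ha hpa
  exact hS.2 a (hS' ha) (hS' hpa)

/-- the number of permutations mapping `U` into `K` -/
def fedgec (K U : Finset A) : ℝ :=
  ((univ.filter fun h : Perm A => ∀ b ∈ U, h b ∈ K).card : ℝ)

lemma fedge_step (K U : Finset A) (x : A) (hx : x ∉ U) :
    (Fintype.card A : ℝ) * fedgec K (insert x U) ≤ (K.card : ℝ) * fedgec K U := by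
  classical
  have h1 : ∀ y ∈ Uᶜ, ((univ.filter fun h : Perm A => (∀ b ∈ U, h b ∈ K) ∧ h y ∈ K).card : ℝ) =
      fedgec K (insert x U) := by
    intro y hy
    rw [Finset.mem_compl] at hy
    unfold fedgec
    congr 1
    refine Finset.card_bij' (fun h _ => h * swap x y) (fun h _ => h * swap x y) ?_ ?_ ?_ ?_
    · intro h hh
      rw [Finset.mem_filter] at hh ⊢
      refine ⟨Finset.mem_univ _, ?_⟩
      intro b hb
      rcases Finset.mem_insert.mp hb with hb | hb
      · rw [hb, Perm.mul_apply, swap_apply_left]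
        exact hh.2.2
      · rw [Perm.mul_apply, swap_apply_of_ne_of_ne (ne_of_mem_of_not_mem hb hx)
          (ne_of_mem_of_not_mem hb hy)]
        exact hh.2.1 b hb
    · intro h hh
      rw [Finset.mem_filter] at hh ⊢
      refine ⟨Finset.mem_univ _, ?_, ?_⟩
      · intro b hb
        rw [Perm.mul_apply, swap_apply_of_ne_of_ne (ne_of_mem_of_not_mem hb hx)
          (ne_of_mem_of_not_mem hb hy)]
        exact hh.2 b (Finset.mem_insert_of_mem hb)
      · rw [Perm.mul_apply, swap_apply_right]
        exact hh.2 x (Finset.mem_insert_self x U)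
    · intro h _
      rw [mul_assoc, swap_mul_self, mul_one]
    · intro h _
      rw [mul_assoc, swap_mul_self, mul_one]
  have h2 : ∀ h ∈ univ.filter (fun h : Perm A => ∀ b ∈ U, h b ∈ K),
      ((Uᶜ.filter fun y => h y ∈ K).card : ℝ) = (K.card : ℝ) - U.card := by
    intro h hh
    rw [Finset.mem_filter] at hh
    have e1 : (K.image (h⁻¹ : Perm A)).card = K.card :=
      Finset.card_image_of_injective _ (Equiv.injective _)
    have e2 : K.image (h⁻¹ : Perm A) = U ∪ Uᶜ.filter fun y => h y ∈ K := by
      ext y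
      rw [Finset.mem_image, Finset.mem_union, Finset.mem_filter, Finset.mem_compl]
      constructor
      · rintro ⟨z, hz, rfl⟩
        by_cases hU : (h⁻¹ : Perm A) z ∈ U
        · left; exact hU
        · right
          refine ⟨hU, ?_⟩
          rw [show h (h⁻¹ z) = z from Equiv.apply_symm_apply h z]
          exact hz
      · rintro (hy | ⟨_, hy⟩)
        · exact ⟨h y, hh.2 y hy, Equiv.symm_apply_apply h y⟩
        · exact ⟨h y, hy, Equiv.symm_apply_apply h y⟩
    have e3 : Disjoint U (Uᶜ.filter fun y => h y ∈ K) := by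
      rw [Finset.disjoint_left]
      intro y hy hy'
      rw [Finset.mem_filter, Finset.mem_compl] at hy'
      exact hy'.1 hy
    rw [← e1, e2, Finset.card_union_of_disjoint e3]
    push_cast
    ring
  have h3 : ((Fintype.card A : ℝ) - U.card) * fedgec K (insert x U) =
      ((K.card : ℝ) - U.card) * fedgec K U := by
    have e1 : ∑ y ∈ Uᶜ,
        ((univ.filter fun h : Perm A => (∀ b ∈ U, h b ∈ K) ∧ h y ∈ K).card : ℝ) =
        ((Fintype.card A : ℝ) - U.card) * fedgec K (insert x U) := by
      rw [Finset.sum_congr rfl h1, Finset.sum_const, nsmul_eq_mul, Finset.card_compl,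
        Nat.cast_sub (Finset.card_le_univ U)]
    have e2 : ∑ h ∈ univ.filter (fun h : Perm A => ∀ b ∈ U, h b ∈ K),
        ((Uᶜ.filter fun y => h y ∈ K).card : ℝ) = ((K.card : ℝ) - U.card) * fedgec K U := by
      rw [Finset.sum_congr rfl h2, Finset.sum_const, nsmul_eq_mul, mul_comm]
      rfl
    rw [← e1, ← e2]
    have e3 : ∀ y, ((univ.filter fun h : Perm A => (∀ b ∈ U, h b ∈ K) ∧ h y ∈ K).card : ℝ) =
        ∑ h ∈ univ.filter (fun h : Perm A => ∀ b ∈ U, h b ∈ K),
          (if h y ∈ K then (1 : ℝ) else 0) := by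
      intro y
      rw [Finset.sum_ite, Finset.sum_const_zero, add_zero, Finset.sum_const, nsmul_eq_mul,
        mul_one, Finset.filter_filter]
    have e4 : ∀ h : Perm A, ((Uᶜ.filter fun y => h y ∈ K).card : ℝ) =
        ∑ y ∈ Uᶜ, (if h y ∈ K then (1 : ℝ) else 0) := by
      intro h
      rw [Finset.sum_ite, Finset.sum_const_zero, add_zero, Finset.sum_const, nsmul_eq_mul,
        mul_one]
    rw [Finset.sum_congr rfl (fun y _ => e3 y), Finset.sum_comm]
    exact Finset.sum_congr rfl fun h _ => (e4 h).symm
  have hu : U.card + 1 ≤ Fintype.card A := by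
    have := Finset.card_le_univ (insert x U)
    rwa [Finset.card_insert_of_notMem hx] at this
  have hk : K.card ≤ Fintype.card A := Finset.card_le_univ K
  have hu' : (0 : ℝ) < (Fintype.card A : ℝ) - U.card := by
    have : ((U.card + 1 : ℕ) : ℝ) ≤ Fintype.card A := by exact_mod_cast hu
    push_cast at this
    linarith
  have hk' : (K.card : ℝ) ≤ Fintype.card A := by exact_mod_cast hk
  have hc : 0 ≤ fedgec K U := Nat.cast_nonneg _
  have h4 : ((Fintype.card A : ℝ) - U.card) * ((Fintype.card A : ℝ) * fedgec K (insert x U)) ≤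
      ((Fintype.card A : ℝ) - U.card) * ((K.card : ℝ) * fedgec K U) := by
    calc ((Fintype.card A : ℝ) - U.card) * ((Fintype.card A : ℝ) * fedgec K (insert x U))
        = (Fintype.card A : ℝ) *
          (((Fintype.card A : ℝ) - U.card) * fedgec K (insert x U)) := by ring
      _ = (Fintype.card A : ℝ) * (((K.card : ℝ) - U.card) * fedgec K U) := by rw [h3]
      _ ≤ _ := by
        have hu0 : (0 : ℝ) ≤ U.card := Nat.cast_nonneg _
        nlinarith [mul_nonneg (mul_nonneg hu0 (sub_nonneg.mpr hk')) hc]
  exact le_of_mul_le_mul_left h4 hu'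

lemma fedge_count (K U : Finset A) :
    (Fintype.card A : ℝ) ^ U.card * fedgec K U ≤
      (K.card : ℝ) ^ U.card * ((Fintype.card A).factorial : ℝ) := by
  classical
  induction U using Finset.induction_on with
  | empty =>
    rw [Finset.card_empty, pow_zero, pow_zero, one_mul, one_mul]
    unfold fedgec
    have : (univ.filter fun h : Perm A => ∀ b ∈ (∅ : Finset A), h b ∈ K).card ≤
        (Fintype.card A).factorial := by
      rw [← Fintype.card_perm (α := A)]
      exact Finset.card_le_univ _
    exact_mod_cast this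
  | insert x U hx ih =>
    rw [Finset.card_insert_of_notMem hx, pow_succ, pow_succ]
    have h1 := fedge_step K U x hx
    calc (Fintype.card A : ℝ) ^ U.card * (Fintype.card A : ℝ) * fedgec K (insert x U)
        = (Fintype.card A : ℝ) ^ U.card * ((Fintype.card A : ℝ) * fedgec K (insert x U)) := by
          ring
      _ ≤ (Fintype.card A : ℝ) ^ U.card * ((K.card : ℝ) * fedgec K U) :=
          mul_le_mul_of_nonneg_left h1 (by positivity)
      _ = (K.card : ℝ) * ((Fintype.card A : ℝ) ^ U.card * fedgec K U) := by ring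
      _ ≤ (K.card : ℝ) * ((K.card : ℝ) ^ U.card * ((Fintype.card A).factorial : ℝ)) :=
          mul_le_mul_of_nonneg_left ih (Nat.cast_nonneg _)
      _ = _ := by ring

/-- the event, for the conjugate by `h` -/
lemma fedge_N (K : Finset A) (s : ℕ) (π : Perm A) (hm : 0 < Fintype.card A) :
    ((univ.filter fun h : Perm A =>
      3 * s ≤ (K.filter fun a => (h * π * h⁻¹) a ∈ K ∧ (h * π * h⁻¹) a ≠ a).card + 2).card : ℝ) ≤
      ((Fintype.card A).factorial : ℝ) *
        (((K.card : ℝ) ^ 2 / Fintype.card A) ^ s / (s.factorial : ℝ)) := by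
  classical
  set 𝒮 : Finset (Finset A) := (powersetCard s univ).filter fun S => ∀ a ∈ S, π a ∉ S with h𝒮
  have hsub : (univ.filter fun h : Perm A =>
      3 * s ≤ (K.filter fun a => (h * π * h⁻¹) a ∈ K ∧ (h * π * h⁻¹) a ≠ a).card + 2) ⊆
      𝒮.biUnion fun S => univ.filter fun h : Perm A => ∀ b ∈ S ∪ S.image π, h b ∈ K := by
    intro h hh
    rw [Finset.mem_filter] at hh
    set E : Finset A := univ.filter fun b => h b ∈ K ∧ h (π b) ∈ K ∧ π b ≠ b with hE
    have hcard : (K.filter fun a => (h * π * h⁻¹) a ∈ K ∧ (h * π * h⁻¹) a ≠ a).card =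
        E.card := by
      refine Finset.card_bij' (fun a _ => h⁻¹ a) (fun b _ => h b) ?_ ?_ ?_ ?_
      · intro a ha
        rw [Finset.mem_filter, Perm.mul_apply, Perm.mul_apply] at ha
        rw [hE, Finset.mem_filter]
        refine ⟨Finset.mem_univ _, ?_, ha.2.1, ?_⟩
        · rw [show h (h⁻¹ a) = a from Equiv.apply_symm_apply h a]
          exact ha.1
        · intro h'
          apply ha.2.2
          rw [h']
          exact Equiv.apply_symm_apply h a
      · intro b hb
        rw [hE, Finset.mem_filter] at hb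
        rw [Finset.mem_filter, Perm.mul_apply, Perm.mul_apply,
          show h⁻¹ (h b) = b from Equiv.symm_apply_apply h b]
        refine ⟨hb.2.1, hb.2.2.1, ?_⟩
        intro h'
        exact hb.2.2.2 (h.injective h')
      · intro a _
        exact Equiv.apply_symm_apply h a
      · intro b _
        exact Equiv.symm_apply_apply h b
    obtain ⟨S, hSE, hSc, hS⟩ := fedge_greedy π E (fun a ha => by
      rw [hE, Finset.mem_filter] at ha
      exact ha.2.2.2) s (by rw [← hcard]; exact hh.2)
    rw [Finset.mem_biUnion]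
    refine ⟨S, ?_, ?_⟩
    · rw [h𝒮, Finset.mem_filter, Finset.mem_powersetCard]
      exact ⟨⟨Finset.subset_univ _, hSc⟩, hS⟩
    · rw [Finset.mem_filter]
      refine ⟨Finset.mem_univ _, ?_⟩
      intro b hb
      rcases Finset.mem_union.mp hb with hb | hb
      · have := hSE hb
        rw [hE, Finset.mem_filter] at this
        exact this.2.1
      · obtain ⟨c, hc, rfl⟩ := Finset.mem_image.mp hb
        have := hSE hc
        rw [hE, Finset.mem_filter] at this
        exact this.2.2.1
  have h1 : ((univ.filter fun h : Perm A =>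
      3 * s ≤ (K.filter fun a => (h * π * h⁻¹) a ∈ K ∧ (h * π * h⁻¹) a ≠ a).card + 2).card : ℝ) ≤
      ∑ S ∈ 𝒮, fedgec K (S ∪ S.image π) := by
    have := (Finset.card_le_card hsub).trans Finset.card_biUnion_le
    calc _ ≤ ((∑ S ∈ 𝒮, (univ.filter fun h : Perm A =>
          ∀ b ∈ S ∪ S.image π, h b ∈ K).card : ℕ) : ℝ) := by exact_mod_cast this
      _ = _ := by rw [Nat.cast_sum]; rfl
  have hm' : (0 : ℝ) < Fintype.card A := by exact_mod_cast hm
  have h2 : ∀ S ∈ 𝒮, fedgec K (S ∪ S.image π) ≤
      (K.card : ℝ) ^ (2 * s) * ((Fintype.card A).factorial : ℝ) /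
        (Fintype.card A : ℝ) ^ (2 * s) := by
    intro S hS
    rw [h𝒮, Finset.mem_filter, Finset.mem_powersetCard] at hS
    have hd : Disjoint S (S.image π) := by
      rw [Finset.disjoint_left]
      intro a ha ha'
      obtain ⟨c, hc, rfl⟩ := Finset.mem_image.mp ha'
      exact hS.2 c hc ha
    have hc : (S ∪ S.image π).card = 2 * s := by
      rw [Finset.card_union_of_disjoint hd, Finset.card_image_of_injective _ π.injective,
        hS.1.2]
      ring
    have h3 := fedge_count K (S ∪ S.image π)
    rw [hc] at h3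
    rw [le_div_iff₀ (by positivity)]
    linarith
  have h3 : (𝒮.card : ℝ) ≤ (Fintype.card A : ℝ) ^ s / (s.factorial : ℝ) := by
    have e1 : 𝒮.card ≤ (Fintype.card A).choose s := by
      refine (Finset.card_filter_le _ _).trans (le_of_eq ?_)
      rw [Finset.card_powersetCard, Finset.card_univ]
    calc (𝒮.card : ℝ) ≤ ((Fintype.card A).choose s : ℝ) := by exact_mod_cast e1
      _ ≤ _ := Nat.choose_le_pow_div s _
  calc _ ≤ ∑ S ∈ 𝒮, fedgec K (S ∪ S.image π) := h1
    _ ≤ ∑ _S ∈ 𝒮, (K.card : ℝ) ^ (2 * s) * ((Fintype.card A).factorial : ℝ) /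
        (Fintype.card A : ℝ) ^ (2 * s) := Finset.sum_le_sum h2
    _ = (𝒮.card : ℝ) * ((K.card : ℝ) ^ (2 * s) * ((Fintype.card A).factorial : ℝ) /
        (Fintype.card A : ℝ) ^ (2 * s)) := by rw [Finset.sum_const, nsmul_eq_mul]
    _ ≤ (Fintype.card A : ℝ) ^ s / (s.factorial : ℝ) *
        ((K.card : ℝ) ^ (2 * s) * ((Fintype.card A).factorial : ℝ) /
        (Fintype.card A : ℝ) ^ (2 * s)) := mul_le_mul_of_nonneg_right h3 (by positivity)
    _ = _ := by
      rw [div_pow, ← pow_mul, two_mul s, pow_add (Fintype.card A : ℝ)]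
      have hs : (s.factorial : ℝ) ≠ 0 := by exact_mod_cast s.factorial_ne_zero
      field_simp

theorem edge_term {ν : ℕ} {p : Perm A → ℝ} (hp : PK ν p) (K : Finset A) (s : ℕ) :
    ∑ π ∈ univ.filter (fun π : Perm A =>
      3 * s ≤ (K.filter fun a => π a ∈ K ∧ π a ≠ a).card + 2), p π ≤
      ((K.card : ℝ) ^ 2 / Fintype.card A) ^ s / (s.factorial : ℝ) := by
  classical
  rcases Nat.eq_zero_or_pos (Fintype.card A) with hm | hm
  · -- trivial case
    have hK : K.card = 0 := by
      have := Finset.card_le_univ K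
      omega
    rcases Nat.eq_zero_or_pos s with hs | hs
    · rw [hs]
      simp only [pow_zero, Nat.factorial_zero, Nat.cast_one, div_one]
      refine le_trans (Finset.sum_le_sum_of_subset_of_nonneg (Finset.subset_univ _)
        (fun π _ _ => hp.nonneg π)) hp.sum_le_one
    · have h1 : univ.filter (fun π : Perm A =>
          3 * s ≤ (K.filter fun a => π a ∈ K ∧ π a ≠ a).card + 2) = ∅ := by
        apply Finset.filter_eq_empty_iff.mpr
        intro π _ h
        have := Finset.card_filter_le K (fun a => π a ∈ K ∧ π a ≠ a)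
        omega
      rw [h1, Finset.sum_empty]
      positivity
  · set C : ℝ := ((K.card : ℝ) ^ 2 / Fintype.card A) ^ s / (s.factorial : ℝ) with hC
    have hC0 : 0 ≤ C := by positivity
    have hf : (0 : ℝ) < ((Fintype.card A).factorial : ℝ) := by
      exact_mod_cast (Fintype.card A).factorial_pos
    rw [Finset.sum_filter]
    set Ev : Perm A → Prop := fun π =>
      3 * s ≤ (K.filter fun a => π a ∈ K ∧ π a ≠ a).card + 2 with hEv
    have h1 : ∀ h : Perm A, ∑ π : Perm A, (if Ev π then p π else 0) =
        ∑ π : Perm A, p π * (if Ev (h * π * h⁻¹) then 1 else 0) := by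
      intro h
      symm
      refine Fintype.sum_equiv (MulAut.conj h).toEquiv _ _ (fun π => ?_)
      have e1 : (MulAut.conj h).toEquiv π = h * π * h⁻¹ := rfl
      rw [e1, hp.conj]
      split_ifs <;> simp
    have h2 : ((Fintype.card A).factorial : ℝ) * ∑ π : Perm A, (if Ev π then p π else 0) =
        ∑ π : Perm A, p π * ((univ.filter fun h : Perm A => Ev (h * π * h⁻¹)).card : ℝ) := by
      calc ((Fintype.card A).factorial : ℝ) * ∑ π : Perm A, (if Ev π then p π else 0)
          = ∑ _h : Perm A, ∑ π : Perm A, (if Ev π then p π else 0) := by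
            rw [Finset.sum_const, nsmul_eq_mul, Finset.card_univ, Fintype.card_perm]
        _ = ∑ h : Perm A, ∑ π : Perm A, p π * (if Ev (h * π * h⁻¹) then 1 else 0) :=
            Finset.sum_congr rfl fun h _ => h1 h
        _ = _ := by
            rw [Finset.sum_comm]
            apply Finset.sum_congr rfl
            intro π _
            rw [← Finset.mul_sum, Finset.sum_ite, Finset.sum_const_zero, add_zero,
              Finset.sum_const, nsmul_eq_mul, mul_one]
    have h3 : ((Fintype.card A).factorial : ℝ) * ∑ π : Perm A, (if Ev π then p π else 0) ≤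
        ((Fintype.card A).factorial : ℝ) * C := by
      rw [h2]
      calc ∑ π : Perm A, p π * ((univ.filter fun h : Perm A => Ev (h * π * h⁻¹)).card : ℝ)
          ≤ ∑ π : Perm A, p π * (((Fintype.card A).factorial : ℝ) * C) :=
            Finset.sum_le_sum fun π _ =>
              mul_le_mul_of_nonneg_left (fedge_N K s π hm) (hp.nonneg π)
        _ = (∑ π : Perm A, p π) * (((Fintype.card A).factorial : ℝ) * C) := by
            rw [Finset.sum_mul]
        _ ≤ 1 * (((Fintype.card A).factorial : ℝ) * C) :=
            mul_le_mul_of_nonneg_right hp.sum_le_one (by positivity)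
        _ = _ := one_mul _
    exact le_of_mul_le_mul_left h3 hf

end

end Vale.Agent.P162
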