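import Vale.Agent.P162.FAbs
import Vale.Agent.P162.LemmaL

/-! # Three estimates for the eigenvalues of `Pop ρ p` of small degree -/

namespace Vale.Agent.P162

open Finset Equiv
open scoped RealInnerProductSpace

noncomputable section

variable {A : Type*} [Fintype A] [DecidableEq A]

lemma feig_Pop_Qop {H : Type*} [NormedAddCommGroup H] [InnerProductSpace ℝ H]
    {ρ : Perm A →* (H →ₗ[ℝ] H)} {ν : ℕ} {p : Perm A → ℝ} (hp : PK ν p) (Z : Finset A) (v : H) :
    Pop ρ p (Qop ρ Z v) = Qop ρ Z (Pop ρ p v) := by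
  rw [Qop_apply, Qop_apply, map_smul, map_sum]
  congr 1
  exact Finset.sum_congr rfl fun g _ => Pop_rho hp g v

lemma feig_choose_pos (Z : Finset A) (π : Perm A) :
    (0 : ℝ) < ((Z.card.choose (univ.filter fun x => x ∉ Z ∧ π x ∈ Z).card : ℕ) : ℝ) := by
  have h1 : (univ.filter fun x => x ∉ Z ∧ π x ∈ Z).card ≤ Z.card := by
    apply Finset.card_le_card_of_injOn (fun x => π x)
    · intro x hx
      exact (Finset.mem_filter.mp hx).2.2
    · intro a _ b _ hab
      exact π.injective hab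
  exact_mod_cast Nat.choose_pos h1

theorem eig_le {H : Type*} [NormedAddCommGroup H] [InnerProductSpace ℝ H]
    {ρ : Perm A →* (H →ₗ[ℝ] H)} (hρ : ∀ g v, ‖ρ g v‖ = ‖v‖)
    {ν : ℕ} {p : Perm A → ℝ} (hp : PK ν p) {q : ℕ} {F : H}
    (hF : F ∈ lev ρ univ q) (Z : Finset A) (hZc : Z.card = q) (hZ : Qop ρ Z F ≠ 0)
    (μ : ℝ) (hμ : Pop ρ p F = μ • F) :
    |μ| ≤ ∑ π, p π / ((q.choose (univ.filter fun x => x ∉ Z ∧ π x ∈ Z).card : ℕ) : ℝ) := by
  set v := Qop ρ Z F with hv
  have hvpos : 0 < ‖v‖ := norm_pos_iff.mpr hZ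
  have hPv : Pop ρ p v = μ • v := by
    rw [hv, feig_Pop_Qop hp, hμ, map_smul]
  have hQv : Qop ρ Z v = v := by
    rw [hv, Qop_Qop (Finset.Subset.refl Z)]
  have hst : ∀ x, x ∉ Z → ∑ z ∈ Z, ρ (swap x z) v = -v := fun x hx =>
    star hF (Finset.subset_univ Z) hZc (Finset.mem_univ x) hx
  have h1 : |μ| * ‖v‖ = ‖Qop ρ Z (Pop ρ p v)‖ := by
    rw [hPv, map_smul, hQv, norm_smul, Real.norm_eq_abs]
  have h2 : ‖Qop ρ Z (Pop ρ p v)‖ ≤ ∑ π, p π * ‖Qop ρ Z (ρ π v)‖ := by
    rw [Pop_apply, map_sum]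
    refine (norm_sum_le _ _).trans (le_of_eq ?_)
    apply Finset.sum_congr rfl
    intro π _
    rw [map_smul, norm_smul, Real.norm_of_nonneg (hp.nonneg π)]
  have h3 : ∑ π, p π * ‖Qop ρ Z (ρ π v)‖ ≤
      (∑ π, p π / ((q.choose (univ.filter fun x => x ∉ Z ∧ π x ∈ Z).card : ℕ) : ℝ)) * ‖v‖ := by
    rw [Finset.sum_mul]
    apply Finset.sum_le_sum
    intro π _
    have h4 := lemmaL hρ Z v hst π
    have h5 := feig_choose_pos Z π
    rw [hZc] at h4 h5
    rw [div_mul_eq_mul_div, le_div_iff₀ h5, mul_assoc]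
    apply mul_le_mul_of_nonneg_left _ (hp.nonneg π)
    rw [mul_comm]
    exact h4
  have h4 := (h1.le.trans h2).trans h3
  exact le_of_mul_le_mul_right h4 hvpos

lemma feig_card_Col (ν : ℕ) (K : Finset A) : ((Col ν K).card : ℝ) = ((2 : ℝ) ^ ν) ^ K.card := by
  have h : Col ν K = Fintype.piFinset (fun a => if a ∈ K then (univ : Finset (Cube ν)) else {0}) := by
    ext χ
    simp only [Col, mem_filter, mem_univ, true_and, Fintype.mem_piFinset]
    constructor
    · intro h a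
      by_cases ha : a ∈ K
      · rw [if_pos ha]; exact mem_univ _
      · rw [if_neg ha, mem_singleton]; exact h a ha
    · intro h a ha
      have := h a
      rwa [if_neg ha, mem_singleton] at this
  rw [h, Fintype.card_piFinset]
  push_cast
  have h2 : ∀ a : A, (((if a ∈ K then (univ : Finset (Cube ν)) else {0}).card : ℕ) : ℝ) =
      if a ∈ K then (2 : ℝ) ^ ν else 1 := by
    intro a
    split_ifs
    · rw [card_univ]
      have : Fintype.card (Cube ν) = 2 ^ ν := by simp [Cube]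
      rw [this]; push_cast; rfl
    · simp
  simp only [h2]
  rw [← Finset.prod_filter, Finset.prod_const]
  congr 2
  ext a
  simp

lemma feig_FK_fixed (ν : ℕ) (K : Finset A) (π : Perm A) (h : ∀ a ∈ K, π a = a) :
    FK ν K π = ((2 : ℝ) ^ ν) ^ K.card := by
  rw [← feig_card_Col]
  unfold FK
  congr 2
  apply Finset.filter_true_of_mem
  intro χ hχ a
  rw [Col, Finset.mem_filter] at hχ
  by_cases ha : a ∈ K
  · rw [h a ha]
  · rw [hχ.2 a ha]
    apply hχ.2
    intro h1
    have h2 := h _ h1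
    have h3 := π.injective h2
    rw [h3] at h1
    exact ha h1

theorem fix_term {ν : ℕ} {p : Perm A → ℝ} (hp : PK ν p) (K : Finset A) (s : ℕ) :
    ∑ π ∈ univ.filter (fun π : Perm A => s ≤ (K.filter fun a => π a = a).card), p π ≤
      2 ^ K.card * (3 / 2 ^ ν) ^ s := by
  have hpos : (0 : ℝ) < ((2 : ℝ) ^ ν) ^ s := by positivity
  have h1 : ∀ π ∈ univ.filter (fun π : Perm A => s ≤ (K.filter fun a => π a = a).card),
      p π ≤ ∑ K' ∈ powersetCard s K, p π * FK ν K' π / ((2 : ℝ) ^ ν) ^ s := by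
    intro π hπ
    obtain ⟨K', hK', hc⟩ := Finset.exists_subset_card_eq (Finset.mem_filter.mp hπ).2
    have hmem : K' ∈ powersetCard s K :=
      Finset.mem_powersetCard.mpr ⟨hK'.trans (Finset.filter_subset _ _), hc⟩
    have hfix : FK ν K' π = ((2 : ℝ) ^ ν) ^ s := by
      rw [feig_FK_fixed ν K' π (fun a ha => (Finset.mem_filter.mp (hK' ha)).2), hc]
    have h2 : p π = p π * FK ν K' π / ((2 : ℝ) ^ ν) ^ s := by
      rw [hfix, mul_div_assoc, div_self hpos.ne', mul_one]
    nth_rewrite 1 [h2]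
    exact Finset.single_le_sum (f := fun K' => p π * FK ν K' π / ((2 : ℝ) ^ ν) ^ s)
      (fun K'' _ => div_nonneg (mul_nonneg (hp.nonneg π)
        (zero_le_one.trans (FK_ge_one ν K'' π))) hpos.le) hmem
  have h2 : ∑ π ∈ univ.filter (fun π : Perm A => s ≤ (K.filter fun a => π a = a).card), p π ≤
      ∑ π : Perm A, ∑ K' ∈ powersetCard s K, p π * FK ν K' π / ((2 : ℝ) ^ ν) ^ s := by
    refine (Finset.sum_le_sum h1).trans ?_
    apply Finset.sum_le_sum_of_subset_of_nonneg (Finset.filter_subset _ _)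
    intro π _ _
    exact Finset.sum_nonneg fun K'' _ => div_nonneg (mul_nonneg (hp.nonneg π)
        (zero_le_one.trans (FK_ge_one ν K'' π))) hpos.le
  have h3 : ∑ π : Perm A, ∑ K' ∈ powersetCard s K, p π * FK ν K' π / ((2 : ℝ) ^ ν) ^ s ≤
      ∑ _K' ∈ powersetCard s K, (3 / 2 ^ ν : ℝ) ^ s := by
    rw [Finset.sum_comm]
    apply Finset.sum_le_sum
    intro K' hK'
    rw [← Finset.sum_div, div_pow]
    apply div_le_div_of_nonneg_right _ hpos.le
    have := hp.mom K'
    rw [(Finset.mem_powersetCard.mp hK').2] at this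
    exact this
  refine (h2.trans h3).trans ?_
  rw [Finset.sum_const, nsmul_eq_mul, Finset.card_powersetCard]
  apply mul_le_mul_of_nonneg_right _ (by positivity)
  exact_mod_cast Nat.choose_le_two_pow _ _

end

end Vale.Agent.P162
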