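import Vale.Agent.P162.FKey2a

/-! # The bound for a fixed crossing involution (analytic part of the key lemma) -/

namespace Vale.Agent.P162

open Finset Equiv

noncomputable section

variable {A : Type*} [Fintype A] [DecidableEq A]

/-- the kernel of one side -/
def FKey2.Zf (ν : ℕ) (w : Perm A → ℝ) (R : Finset A) (ω ω' : A → Cube ν) : ℝ :=
  ∑ G, ∑ G', w G * w G' *
    ∑ ψ ∈ Col ν R, (if ∀ a, (ψ + ω) (G a) = (ψ + ω') (G' a) then (1 : ℝ) else 0)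

theorem FKey2.mem_Col {ν : ℕ} {K : Finset A} {χ : A → Cube ν} :
    χ ∈ Col ν K ↔ ∀ a, a ∉ K → χ a = 0 := by
  simp [Col]

theorem FKey2.Col_mono {ν : ℕ} {K L : Finset A} (h : K ⊆ L) : Col ν K ⊆ Col ν L := by
  intro χ hχ
  rw [FKey2.mem_Col] at *
  intro a ha
  exact hχ a (fun h' => ha (h h'))

/-- a feature map for the kernel -/
def FKey2.Mf (ν : ℕ) (w : Perm A → ℝ) (ψ φ ω : A → Cube ν) : ℝ :=
  ∑ G, w G * (if φ = (fun a => (ψ + ω) (G a)) then (1 : ℝ) else 0)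

theorem FKey2.Zf_eq (ν : ℕ) (w : Perm A → ℝ) (R : Finset A) (ω ω' : A → Cube ν) :
    ∑ ψ ∈ Col ν R, ∑ φ : A → Cube ν, FKey2.Mf ν w ψ φ ω * FKey2.Mf ν w ψ φ ω' =
      FKey2.Zf ν w R ω ω' := by
  have h1 : ∀ ψ : A → Cube ν, ∑ φ : A → Cube ν, FKey2.Mf ν w ψ φ ω * FKey2.Mf ν w ψ φ ω' =
      ∑ G, ∑ G', w G * w G' *
        (if ∀ a, (ψ + ω) (G a) = (ψ + ω') (G' a) then (1 : ℝ) else 0) := by
    intro ψ
    unfold FKey2.Mf
    simp only [Finset.sum_mul_sum]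
    rw [Finset.sum_comm]
    refine Finset.sum_congr rfl fun G _ => ?_
    rw [Finset.sum_comm]
    refine Finset.sum_congr rfl fun G' _ => ?_
    have h2 : ∀ φ : A → Cube ν,
        w G * (if φ = (fun a => (ψ + ω) (G a)) then (1 : ℝ) else 0) *
          (w G' * (if φ = (fun a => (ψ + ω') (G' a)) then (1 : ℝ) else 0)) =
        if φ = (fun a => (ψ + ω) (G a)) then w G * w G' *
          (if ∀ a, (ψ + ω) (G a) = (ψ + ω') (G' a) then (1 : ℝ) else 0) else 0 := by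
      intro φ
      by_cases hφ : φ = (fun a => (ψ + ω) (G a))
      · rw [if_pos hφ, if_pos hφ]
        have h3 : (φ = (fun a => (ψ + ω') (G' a))) ↔
            ∀ a, (ψ + ω) (G a) = (ψ + ω') (G' a) := by
          rw [hφ]
          exact funext_iff
        by_cases h4 : ∀ a, (ψ + ω) (G a) = (ψ + ω') (G' a)
        · rw [if_pos h4, if_pos (h3.2 h4)]; ring
        · rw [if_neg h4, if_neg (fun h => h4 (h3.1 h))]; ring
      · rw [if_neg hφ, if_neg hφ]; ring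
    simp only [h2]
    rw [Finset.sum_ite_eq' Finset.univ (fun a => (ψ + ω) (G a))]
    simp
  simp only [h1]
  unfold FKey2.Zf
  rw [Finset.sum_comm]
  refine Finset.sum_congr rfl fun G _ => ?_
  rw [Finset.sum_comm]
  refine Finset.sum_congr rfl fun G' _ => ?_
  rw [Finset.mul_sum]

theorem FKey2.Zf_nonneg (ν : ℕ) (w : Perm A → ℝ) (hw : ∀ G, 0 ≤ w G) (R : Finset A)
    (ω ω' : A → Cube ν) : 0 ≤ FKey2.Zf ν w R ω ω' := by
  unfold FKey2.Zf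
  refine Finset.sum_nonneg fun G _ => Finset.sum_nonneg fun G' _ =>
    mul_nonneg (mul_nonneg (hw G) (hw G')) (Finset.sum_nonneg fun ψ _ => ?_)
  split_ifs <;> norm_num

theorem FKey2.row (ν : ℕ) (S : Finset A) (w : Perm A → ℝ) (hw : ∀ G, 0 ≤ w G)
    (β : A → ℝ)
    (hT : ∀ K, K ⊆ S → ∑ G, ∑ G', w G * w G' * FK ν K (G' * G⁻¹) ≤ ∏ a ∈ K, β a)
    (R Q : Finset A) (hR : R ⊆ S) (hRQ : Disjoint R Q) (ω : A → Cube ν) :
    ∑ ω' ∈ Col ν Q, FKey2.Zf ν w R ω ω' ≤ ∏ a ∈ R, β a := by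
  have h1 : ∑ ω' ∈ Col ν Q, FKey2.Zf ν w R ω ω' = ∑ G, ∑ G', w G * w G' *
      (((Col ν R ×ˢ Col ν Q).filter fun x => ∀ a, (x.1 + ω) (G a) = (x.1 + x.2) (G' a)).card
        : ℝ) := by
    unfold FKey2.Zf
    rw [Finset.sum_comm]
    refine Finset.sum_congr rfl fun G _ => ?_
    rw [Finset.sum_comm]
    refine Finset.sum_congr rfl fun G' _ => ?_
    rw [← Finset.mul_sum, ← Finset.sum_boole, Finset.sum_product, Finset.sum_comm]
  rw [h1]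
  refine le_trans ?_ (hT R hR)
  refine Finset.sum_le_sum fun G _ => Finset.sum_le_sum fun G' _ => ?_
  exact mul_le_mul_of_nonneg_left (row_count ν R Q hRQ G G' ω) (mul_nonneg (hw G) (hw G'))

theorem FKey2.diag (ν : ℕ) (S : Finset A) (w : Perm A → ℝ)
    (β : A → ℝ)
    (hT : ∀ K, K ⊆ S → ∑ G, ∑ G', w G * w G' * FK ν K (G' * G⁻¹) ≤ ∏ a ∈ K, β a)
    (R P : Finset A) (hR : R ⊆ S) (hP : P ⊆ S) (hRP : Disjoint R P) :
    ∑ ω ∈ Col ν P, FKey2.Zf ν w R ω ω ≤ ∏ a ∈ R ∪ P, β a := by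
  refine le_trans (le_of_eq ?_) (hT (R ∪ P) (Finset.union_subset hR hP))
  unfold FKey2.Zf
  rw [Finset.sum_comm]
  refine Finset.sum_congr rfl fun G _ => ?_
  rw [Finset.sum_comm]
  refine Finset.sum_congr rfl fun G' _ => ?_
  rw [← Finset.mul_sum]
  congr 1
  unfold FK
  rw [← Finset.sum_boole, sum_Col_union ν R P hRP, Finset.sum_comm]
  refine Finset.sum_congr rfl fun ψ _ => Finset.sum_congr rfl fun ω _ => ?_
  have h1 : (∀ a, (ψ + ω) (G a) = (ψ + ω) (G' a)) ↔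
      ∀ a, (ψ + ω) ((G' * G⁻¹) a) = (ψ + ω) a := by
    constructor
    · intro h a
      have h3 := h (G⁻¹ a)
      have h4 : G (G⁻¹ a) = a := Equiv.apply_symm_apply G a
      rw [Perm.mul_apply, ← h3, h4]
    · intro h a
      have h3 := h (G a)
      have h4 : G⁻¹ (G a) = a := Equiv.symm_apply_apply G a
      rw [Perm.mul_apply, h4] at h3
      exact h3.symm
  by_cases h2 : ∀ a, (ψ + ω) (G a) = (ψ + ω) (G' a)
  · rw [if_pos h2, if_pos (h1.1 h2)]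
  · rw [if_neg h2, if_neg (fun h => h2 (h1.2 h))]

theorem FKey2.side (ν : ℕ) (S : Finset A) (w : Perm A → ℝ) (hw : ∀ G, 0 ≤ w G)
    (β : A → ℝ) (hβ : ∀ a, 0 ≤ β a)
    (hT : ∀ K, K ⊆ S → ∑ G, ∑ G', w G * w G' * FK ν K (G' * G⁻¹) ≤ ∏ a ∈ K, β a)
    (R P Q : Finset A) (hR : R ⊆ S) (hP : P ⊆ Q) (hQ : Q ⊆ S) (hRQ : Disjoint R Q) :
    ∑ ω ∈ Col ν P, ∑ ω' ∈ Col ν Q, (FKey2.Zf ν w R ω ω') ^ 2 ≤
      (∏ a ∈ R, β a) * ∏ a ∈ R ∪ P, β a := by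
  have hkey : ∀ ω ∈ Col ν P, ∑ ω' ∈ Col ν Q, (FKey2.Zf ν w R ω ω') ^ 2 ≤
      (∏ a ∈ R, β a) * FKey2.Zf ν w R ω ω := by
    intro ω hω
    have hωQ : ω ∈ Col ν Q := FKey2.Col_mono hP hω
    have hZ : ∀ ω ω' : A → Cube ν,
        ∑ ξ : (Col ν R) × (A → Cube ν), FKey2.Mf ν w ξ.1 ξ.2 ω * FKey2.Mf ν w ξ.1 ξ.2 ω' =
          FKey2.Zf ν w R ω ω' := by
      intro ω ω'
      rw [Fintype.sum_prod_type, ← FKey2.Zf_eq]
      exact Finset.sum_coe_sort (Col ν R)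
        (fun ψ => ∑ φ : A → Cube ν, FKey2.Mf ν w ψ φ ω * FKey2.Mf ν w ψ φ ω')
    have hrow : ∀ ω₁ : Col ν Q, ∑ ω' : Col ν Q, ∑ ξ : (Col ν R) × (A → Cube ν),
        FKey2.Mf ν w ξ.1 ξ.2 ω₁ * FKey2.Mf ν w ξ.1 ξ.2 ω' ≤ ∏ a ∈ R, β a := by
      intro ω₁
      simp only [hZ]
      rw [Finset.sum_coe_sort (Col ν Q) (fun ω' => FKey2.Zf ν w R ω₁ ω')]
      exact FKey2.row ν S w hw β hT R Q hR hRQ ω₁
    have h1 := psd_row (Ω := Col ν Q) (Ξ := (Col ν R) × (A → Cube ν))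
      (fun ξ ω => FKey2.Mf ν w ξ.1 ξ.2 ω) (fun ξ ω => by
        unfold FKey2.Mf
        refine Finset.sum_nonneg fun G _ => mul_nonneg (hw G) ?_
        split_ifs <;> norm_num) (∏ a ∈ R, β a) hrow ⟨ω, hωQ⟩
    simp only [hZ, pow_two] at h1
    rw [Finset.sum_coe_sort (Col ν Q)
      (fun ω' => FKey2.Zf ν w R ω ω' * FKey2.Zf ν w R ω ω')] at h1
    simp only [pow_two]
    exact h1
  refine (Finset.sum_le_sum hkey).trans ?_
  rw [← Finset.mul_sum]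
  refine mul_le_mul_of_nonneg_left ?_ (Finset.prod_nonneg fun a _ => hβ a)
  exact FKey2.diag ν S w β hT R P hR (hP.trans hQ) (hRQ.mono_right hP)

/-- the side bound for an injective relabelling -/
theorem FKey2.side' (ν : ℕ) (S : Finset A) (w : Perm A → ℝ) (hw : ∀ G, 0 ≤ w G)
    (β : A → ℝ) (hβ : ∀ a, 0 ≤ β a)
    (hT : ∀ K, K ⊆ S → ∑ G, ∑ G', w G * w G' * FK ν K (G' * G⁻¹) ≤ ∏ a ∈ K, β a)
    (R P Q P' : Finset A) (hR : R ⊆ S) (hP : P ⊆ Q) (hQ : Q ⊆ S) (hRQ : Disjoint R Q)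
    (h : Perm A) (hP' : ∀ a, h a ∈ P' → a ∈ Q) :
    ∑ ω ∈ Col ν P, ∑ ω' ∈ Col ν P', (FKey2.Zf ν w R ω (ω' ∘ h)) ^ 2 ≤
      (∏ a ∈ R, β a) * ∏ a ∈ R ∪ P, β a := by
  refine le_trans ?_ (FKey2.side ν S w hw β hβ hT R P Q hR hP hQ hRQ)
  refine Finset.sum_le_sum fun ω _ => ?_
  have h1 : ∑ ω' ∈ Col ν P', (FKey2.Zf ν w R ω (ω' ∘ h)) ^ 2 =
      ∑ ω' ∈ (Col ν P').image (fun ω' => ω' ∘ h), (FKey2.Zf ν w R ω ω') ^ 2 := by
    rw [Finset.sum_image]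
    intro x _ y _ hxy
    funext a
    have := congrFun hxy (h.symm a)
    simpa using this
  rw [h1]
  refine Finset.sum_le_sum_of_subset_of_nonneg ?_ (fun _ _ _ => sq_nonneg _)
  intro ω' hω'
  obtain ⟨x, hx, rfl⟩ := Finset.mem_image.1 hω'
  rw [FKey2.mem_Col] at *
  intro a ha
  exact hx (h a) (fun h' => ha (hP' a h'))

theorem FKey2.sqrt_aux (β : A → ℝ) (hβ : ∀ a, 0 ≤ β a) (R P : Finset A) (hRP : Disjoint R P) :
    Real.sqrt ((∏ a ∈ R, β a) * ∏ a ∈ R ∪ P, β a) =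
      (∏ a ∈ R, β a) * ∏ a ∈ P, Real.sqrt (β a) := by
  rw [Finset.prod_union hRP]
  have h1 : (∏ a ∈ R, β a) * ((∏ a ∈ R, β a) * ∏ a ∈ P, β a) =
      ((∏ a ∈ R, β a) * ∏ a ∈ P, Real.sqrt (β a)) ^ 2 := by
    have h2 : (∏ a ∈ P, Real.sqrt (β a)) ^ 2 = ∏ a ∈ P, β a := by
      rw [← Finset.prod_pow]
      exact Finset.prod_congr rfl fun a _ => Real.sq_sqrt (hβ a)
    rw [mul_pow, h2]
    ring
  rw [h1, Real.sqrt_sq]
  exact mul_nonneg (Finset.prod_nonneg fun a _ => hβ a)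
    (Finset.prod_nonneg fun a _ => Real.sqrt_nonneg _)

/-- the equation for the whole colouring splits into the two sides -/
theorem FKey2.point (ν : ℕ) (S : Finset A) (h : Perm A) (hh : h * h = 1)
    (hc : ∀ a, h a = a ∨ (h a ∈ S ↔ a ∉ S)) (G0 G0' G1 G1' : Perm A)
    (h0 : ∀ a, a ∉ S → G0 a = a) (h0' : ∀ a, a ∉ S → G0' a = a)
    (h1 : ∀ a, a ∈ S → G1 a = a) (h1' : ∀ a, a ∈ S → G1' a = a)
    (ω0 ω1 ψ0 ψ1 : A → Cube ν)
    (hω0 : ∀ a, ¬ (a ∈ S ∧ h a ≠ a) → ω0 a = 0)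
    (hω1 : ∀ a, ¬ (a ∉ S ∧ h a ≠ a) → ω1 a = 0)
    (hψ0 : ∀ a, ¬ (a ∈ S ∧ h a = a) → ψ0 a = 0)
    (hψ1 : ∀ a, ¬ (a ∉ S ∧ h a = a) → ψ1 a = 0) :
    (∀ a, ((ω0 + ω1) + (ψ0 + ψ1)) (G0 (G1 a)) =
      ((ω0 + ω1) + (ψ0 + ψ1)) (h (G0' (G1' a)))) ↔
    ((∀ a, (ψ0 + ω0) (G0 a) = (ψ0 + (ω1 ∘ h)) (G0' a)) ∧
      (∀ a, (ψ1 + ω1) (G1 a) = (ψ1 + (ω0 ∘ h)) (G1' a))) := by
  have hhh : ∀ x, h (h x) = x := fun x => by
    rw [← Perm.mul_apply, hh, Perm.one_apply]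
  -- the values on the two sides
  have F1 : ∀ x, x ∈ S → ((ω0 + ω1) + (ψ0 + ψ1)) x = (ψ0 + ω0) x := by
    intro x hx
    have e1 : ω1 x = 0 := hω1 x (fun h' => h'.1 hx)
    have e2 : ψ1 x = 0 := hψ1 x (fun h' => h'.1 hx)
    simp only [Pi.add_apply, e1, e2, add_zero]
    exact add_comm _ _
  have F3 : ∀ x, x ∉ S → ((ω0 + ω1) + (ψ0 + ψ1)) x = (ψ1 + ω1) x := by
    intro x hx
    have e1 : ω0 x = 0 := hω0 x (fun h' => hx h'.1)
    have e2 : ψ0 x = 0 := hψ0 x (fun h' => hx h'.1)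
    simp only [Pi.add_apply, e1, e2, zero_add]
    exact add_comm _ _
  have F2 : ∀ x, x ∈ S → ((ω0 + ω1) + (ψ0 + ψ1)) (h x) = (ψ0 + (ω1 ∘ h)) x := by
    intro x hx
    by_cases hx2 : h x = x
    · have e1 : ω0 x = 0 := hω0 x (fun h' => h'.2 hx2)
      have e2 : ω1 x = 0 := hω1 x (fun h' => h'.1 hx)
      rw [hx2, F1 x hx]
      simp only [Pi.add_apply, Function.comp_apply, hx2, e1, e2]
    · have hx3 : h x ∉ S := by
        rcases hc x with h' | h'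
        · exact absurd h' hx2
        · exact fun h'' => (h'.1 h'') hx
      have e1 : ψ1 (h x) = 0 := hψ1 (h x) (fun h' => hx2 (by
        have := h'.2
        rw [hhh] at this
        exact this.symm))
      have e2 : ψ0 x = 0 := hψ0 x (fun h' => hx2 h'.2)
      rw [F3 _ hx3]
      simp only [Pi.add_apply, Function.comp_apply, e1, e2]
  have F4 : ∀ x, x ∉ S → ((ω0 + ω1) + (ψ0 + ψ1)) (h x) = (ψ1 + (ω0 ∘ h)) x := by
    intro x hx
    by_cases hx2 : h x = x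
    · have e1 : ω1 x = 0 := hω1 x (fun h' => h'.2 hx2)
      have e2 : ω0 x = 0 := hω0 x (fun h' => hx h'.1)
      rw [hx2, F3 x hx]
      simp only [Pi.add_apply, Function.comp_apply, hx2, e1, e2]
    · have hx3 : h x ∈ S := by
        rcases hc x with h' | h'
        · exact absurd h' hx2
        · exact h'.2 hx
      have e1 : ψ0 (h x) = 0 := hψ0 (h x) (fun h' => hx2 (by
        have := h'.2
        rw [hhh] at this
        exact this.symm))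
      have e2 : ψ1 x = 0 := hψ1 x (fun h' => hx2 h'.2)
      rw [F1 _ hx3]
      simp only [Pi.add_apply, Function.comp_apply, e1, e2]
  have F5 : ∀ x, x ∉ S → (ψ0 + ω0) x = 0 := by
    intro x hx
    have e1 : ω0 x = 0 := hω0 x (fun h' => hx h'.1)
    have e2 : ψ0 x = 0 := hψ0 x (fun h' => hx h'.1)
    simp only [Pi.add_apply, e1, e2, add_zero]
  have F5' : ∀ x, x ∉ S → (ψ0 + (ω1 ∘ h)) x = 0 := by
    intro x hx
    have e2 : ψ0 x = 0 := hψ0 x (fun h' => hx h'.1)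
    have e1 : ω1 (h x) = 0 := by
      rcases hc x with h' | h'
      · rw [h']
        exact hω1 x (fun h'' => h''.2 h')
      · exact hω1 (h x) (fun h'' => h''.1 (h'.2 hx))
    simp only [Pi.add_apply, Function.comp_apply, e1, e2, add_zero]
  have F6 : ∀ x, x ∈ S → (ψ1 + ω1) x = 0 := by
    intro x hx
    have e1 : ω1 x = 0 := hω1 x (fun h' => h'.1 hx)
    have e2 : ψ1 x = 0 := hψ1 x (fun h' => h'.1 hx)
    simp only [Pi.add_apply, e1, e2, add_zero]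
  have F6' : ∀ x, x ∈ S → (ψ1 + (ω0 ∘ h)) x = 0 := by
    intro x hx
    have e2 : ψ1 x = 0 := hψ1 x (fun h' => h'.1 hx)
    have e1 : ω0 (h x) = 0 := by
      rcases hc x with h' | h'
      · rw [h']
        exact hω0 x (fun h'' => h''.2 h')
      · exact hω0 (h x) (fun h'' => (h'.1 h''.1) hx)
    simp only [Pi.add_apply, Function.comp_apply, e1, e2, add_zero]
  -- preservation
  have pres : ∀ G : Perm A, (∀ a, a ∉ S → G a = a) → ∀ x, x ∈ S → G x ∈ S := by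
    intro G hG x hx
    by_contra hx2
    have := hG (G x) hx2
    have h3 := G.injective this
    rw [h3] at hx2
    exact hx2 hx
  have pres' : ∀ G : Perm A, (∀ a, a ∈ S → G a = a) → ∀ x, x ∉ S → G x ∉ S := by
    intro G hG x hx hx2
    have := hG (G x) hx2
    have h3 := G.injective this
    rw [h3] at hx2
    exact hx hx2
  constructor
  · intro H
    constructor
    · intro a
      by_cases ha : a ∈ S
      · have h3 := H a
        rw [h1 a ha, h1' a ha, F1 _ (pres G0 h0 a ha), F2 _ (pres G0' h0' a ha)] at h3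
        exact h3
      · rw [h0 a ha, h0' a ha, F5 a ha, F5' a ha]
    · intro a
      by_cases ha : a ∈ S
      · rw [h1 a ha, h1' a ha, F6 a ha, F6' a ha]
      · have h3 := H a
        have ha1 := pres' G1 h1 a ha
        have ha2 := pres' G1' h1' a ha
        rw [h0 _ ha1, h0' _ ha2, F3 _ ha1, F4 _ ha2] at h3
        exact h3
  · rintro ⟨H1, H2⟩ a
    by_cases ha : a ∈ S
    · rw [h1 a ha, h1' a ha, F1 _ (pres G0 h0 a ha), F2 _ (pres G0' h0' a ha)]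
      exact H1 a
    · have ha1 := pres' G1 h1 a ha
      have ha2 := pres' G1' h1' a ha
      rw [h0 _ ha1, h0' _ ha2, F3 _ ha1, F4 _ ha2]
      exact H2 a

theorem FKey2.swap4 {ι : Type*} (s : Finset ι)
    (f : Perm A → Perm A → Perm A → Perm A → ι → ℝ) :
    ∑ a, ∑ b, ∑ c, ∑ d, ∑ x ∈ s, f a b c d x = ∑ x ∈ s, ∑ a, ∑ b, ∑ c, ∑ d, f a b c d x := by
  have h1 : ∀ a b c, ∑ d, ∑ x ∈ s, f a b c d x = ∑ x ∈ s, ∑ d, f a b c d x :=
    fun a b c => Finset.sum_comm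
  have h2 : ∀ a b, ∑ c, ∑ d, ∑ x ∈ s, f a b c d x = ∑ x ∈ s, ∑ c, ∑ d, f a b c d x := by
    intro a b
    simp only [h1]
    exact Finset.sum_comm
  have h3 : ∀ a, ∑ b, ∑ c, ∑ d, ∑ x ∈ s, f a b c d x =
      ∑ x ∈ s, ∑ b, ∑ c, ∑ d, f a b c d x := by
    intro a
    simp only [h2]
    exact Finset.sum_comm
  simp only [h3]
  exact Finset.sum_comm

theorem FKey2.prod4 (F H : Perm A → Perm A → ℝ) :
    ∑ a, ∑ b, ∑ c, ∑ d, F a c * H b d = (∑ a, ∑ c, F a c) * (∑ b, ∑ d, H b d) := by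
  simp only [← Finset.mul_sum, ← Finset.sum_mul]

theorem FKey2.card_split (ν : ℕ) (S : Finset A) (h : Perm A) (hh : h * h = 1)
    (hc : ∀ a, h a = a ∨ (h a ∈ S ↔ a ∉ S)) (K : Finset A) (G0 G0' G1 G1' : Perm A)
    (h0 : ∀ a, a ∉ S → G0 a = a) (h0' : ∀ a, a ∉ S → G0' a = a)
    (h1 : ∀ a, a ∈ S → G1 a = a) (h1' : ∀ a, a ∈ S → G1' a = a) :
    (((Col ν K).filter fun χ => ∀ a, χ (G0 (G1 a)) = χ (h (G0' (G1' a)))).card : ℝ) =
      ∑ x ∈ Col ν (K.filter fun a => a ∈ S ∧ h a ≠ a) ×ˢ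
          Col ν (K.filter fun a => a ∉ S ∧ h a ≠ a),
        (∑ ψ ∈ Col ν (K.filter fun a => a ∈ S ∧ h a = a),
          (if ∀ a, (ψ + x.1) (G0 a) = (ψ + (x.2 ∘ h)) (G0' a) then (1 : ℝ) else 0)) *
        (∑ ψ ∈ Col ν (K.filter fun a => a ∉ S ∧ h a = a),
          (if ∀ a, (ψ + x.2) (G1 a) = (ψ + (x.1 ∘ h)) (G1' a) then (1 : ℝ) else 0)) := by
  have hK : K = ((K.filter fun a => a ∈ S ∧ h a ≠ a) ∪ (K.filter fun a => a ∉ S ∧ h a ≠ a)) ∪
      ((K.filter fun a => a ∈ S ∧ h a = a) ∪ (K.filter fun a => a ∉ S ∧ h a = a)) := by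
    ext a
    simp only [Finset.mem_union, Finset.mem_filter]
    by_cases ha : a ∈ S <;> by_cases ha2 : h a = a <;> simp [ha, ha2]
  have hd1 : Disjoint ((K.filter fun a => a ∈ S ∧ h a ≠ a) ∪
      (K.filter fun a => a ∉ S ∧ h a ≠ a))
      ((K.filter fun a => a ∈ S ∧ h a = a) ∪ (K.filter fun a => a ∉ S ∧ h a = a)) := by
    rw [Finset.disjoint_left]
    intro a ha hb
    simp only [Finset.mem_union, Finset.mem_filter] at ha hb
    rcases ha with ha | ha <;> rcases hb with hb | hb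
    · exact ha.2.2 hb.2.2
    · exact ha.2.2 hb.2.2
    · exact ha.2.2 hb.2.2
    · exact ha.2.2 hb.2.2
  have hd2 : Disjoint (K.filter fun a => a ∈ S ∧ h a ≠ a)
      (K.filter fun a => a ∉ S ∧ h a ≠ a) := by
    rw [Finset.disjoint_left]
    intro a ha hb
    exact (Finset.mem_filter.1 hb).2.1 (Finset.mem_filter.1 ha).2.1
  have hd3 : Disjoint (K.filter fun a => a ∈ S ∧ h a = a)
      (K.filter fun a => a ∉ S ∧ h a = a) := by
    rw [Finset.disjoint_left]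
    intro a ha hb
    exact (Finset.mem_filter.1 hb).2.1 (Finset.mem_filter.1 ha).2.1
  rw [← Finset.sum_boole]
  have e1 : ∑ χ ∈ Col ν K, (if ∀ a, χ (G0 (G1 a)) = χ (h (G0' (G1' a))) then (1 : ℝ) else 0) =
      ∑ ω0 ∈ Col ν (K.filter fun a => a ∈ S ∧ h a ≠ a),
      ∑ ω1 ∈ Col ν (K.filter fun a => a ∉ S ∧ h a ≠ a),
      ∑ ψ0 ∈ Col ν (K.filter fun a => a ∈ S ∧ h a = a),
      ∑ ψ1 ∈ Col ν (K.filter fun a => a ∉ S ∧ h a = a),
        (if ∀ a, ((ω0 + ω1) + (ψ0 + ψ1)) (G0 (G1 a)) =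
          ((ω0 + ω1) + (ψ0 + ψ1)) (h (G0' (G1' a))) then (1 : ℝ) else 0) := by
    conv_lhs => rw [hK]
    rw [sum_Col_union ν _ _ hd1, sum_Col_union ν _ _ hd2]
    refine Finset.sum_congr rfl fun ω0 _ => Finset.sum_congr rfl fun ω1 _ => ?_
    rw [sum_Col_union ν _ _ hd3]
  rw [e1, Finset.sum_product]
  refine Finset.sum_congr rfl fun ω0 hω0 => Finset.sum_congr rfl fun ω1 hω1 => ?_
  rw [Finset.sum_mul_sum]
  refine Finset.sum_congr rfl fun ψ0 hψ0 => Finset.sum_congr rfl fun ψ1 hψ1 => ?_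
  rw [FKey2.mem_Col] at hω0 hω1 hψ0 hψ1
  have hpt := FKey2.point ν S h hh hc G0 G0' G1 G1' h0 h0' h1 h1' ω0 ω1 ψ0 ψ1
    (fun a ha => hω0 a (fun h' => ha (Finset.mem_filter.1 h').2))
    (fun a ha => hω1 a (fun h' => ha (Finset.mem_filter.1 h').2))
    (fun a ha => hψ0 a (fun h' => ha (Finset.mem_filter.1 h').2))
    (fun a ha => hψ1 a (fun h' => ha (Finset.mem_filter.1 h').2))
  by_cases hA : ∀ a, (ψ0 + ω0) (G0 a) = (ψ0 + (ω1 ∘ h)) (G0' a)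
  · by_cases hB : ∀ a, (ψ1 + ω1) (G1 a) = (ψ1 + (ω0 ∘ h)) (G1' a)
    · rw [if_pos (hpt.2 ⟨hA, hB⟩), if_pos hA, if_pos hB, mul_one]
    · rw [if_neg (fun h' => hB (hpt.1 h').2), if_pos hA, if_neg hB, mul_zero]
  · rw [if_neg (fun h' => hA (hpt.1 h').1), if_neg hA, zero_mul]

theorem vbound (ν : ℕ) (S : Finset A) (w0 w1 : Perm A → ℝ)
    (hw0 : ∀ G, 0 ≤ w0 G) (hw1 : ∀ G, 0 ≤ w1 G)
    (hs0 : ∀ G, w0 G ≠ 0 → ∀ a, a ∉ S → G a = a)
    (hs1 : ∀ G, w1 G ≠ 0 → ∀ a, a ∈ S → G a = a)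
    (β : A → ℝ) (hβ : ∀ a, 0 ≤ β a)
    (hT0 : ∀ K, K ⊆ S → ∑ G, ∑ G', w0 G * w0 G' * FK ν K (G' * G⁻¹) ≤ ∏ a ∈ K, β a)
    (hT1 : ∀ K, K ⊆ Sᶜ → ∑ G, ∑ G', w1 G * w1 G' * FK ν K (G' * G⁻¹) ≤ ∏ a ∈ K, β a)
    (h : Perm A) (hh : h * h = 1) (hc : ∀ a, h a = a ∨ (h a ∈ S ↔ a ∉ S)) (K : Finset A) :
    ∑ G0, ∑ G1, ∑ G0', ∑ G1', w0 G0 * w1 G1 * (w0 G0' * w1 G1') *
      (((Col ν K).filter fun χ => ∀ a, χ (G0 (G1 a)) = χ (h (G0' (G1' a)))).card : ℝ) ≤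
    ∏ a ∈ K, (if h a = a then β a else Real.sqrt (β a)) := by
  have hhh : ∀ x, h (h x) = x := fun x => by
    rw [← Perm.mul_apply, hh, Perm.one_apply]
  set P0 : Finset A := K.filter fun a => a ∈ S ∧ h a ≠ a with hP0
  set P1 : Finset A := K.filter fun a => a ∉ S ∧ h a ≠ a with hP1
  set R0 : Finset A := K.filter fun a => a ∈ S ∧ h a = a with hR0
  set R1 : Finset A := K.filter fun a => a ∉ S ∧ h a = a with hR1
  have e1 : ∀ G0 G1 G0' G1' : Perm A, w0 G0 * w1 G1 * (w0 G0' * w1 G1') *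
      (((Col ν K).filter fun χ => ∀ a, χ (G0 (G1 a)) = χ (h (G0' (G1' a)))).card : ℝ) =
      ∑ x ∈ Col ν P0 ×ˢ Col ν P1,
        (w0 G0 * w0 G0' * ∑ ψ ∈ Col ν R0,
          (if ∀ a, (ψ + x.1) (G0 a) = (ψ + (x.2 ∘ h)) (G0' a) then (1 : ℝ) else 0)) *
        (w1 G1 * w1 G1' * ∑ ψ ∈ Col ν R1,
          (if ∀ a, (ψ + x.2) (G1 a) = (ψ + (x.1 ∘ h)) (G1' a) then (1 : ℝ) else 0)) := by
    intro G0 G1 G0' G1'
    by_cases z0 : w0 G0 = 0
    · simp [z0]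
    by_cases z0' : w0 G0' = 0
    · simp [z0']
    by_cases z1 : w1 G1 = 0
    · simp [z1]
    by_cases z1' : w1 G1' = 0
    · simp [z1']
    rw [FKey2.card_split ν S h hh hc K G0 G0' G1 G1' (hs0 G0 z0) (hs0 G0' z0') (hs1 G1 z1)
      (hs1 G1' z1'), Finset.mul_sum]
    refine Finset.sum_congr rfl fun x _ => ?_
    ring
  simp only [e1]
  rw [FKey2.swap4]
  have e2 : ∀ x : (A → Cube ν) × (A → Cube ν),
      ∑ G0, ∑ G1, ∑ G0', ∑ G1',
        (w0 G0 * w0 G0' * ∑ ψ ∈ Col ν R0,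
          (if ∀ a, (ψ + x.1) (G0 a) = (ψ + (x.2 ∘ h)) (G0' a) then (1 : ℝ) else 0)) *
        (w1 G1 * w1 G1' * ∑ ψ ∈ Col ν R1,
          (if ∀ a, (ψ + x.2) (G1 a) = (ψ + (x.1 ∘ h)) (G1' a) then (1 : ℝ) else 0)) =
      FKey2.Zf ν w0 R0 x.1 (x.2 ∘ h) * FKey2.Zf ν w1 R1 x.2 (x.1 ∘ h) := by
    intro x
    exact FKey2.prod4
      (fun G0 G0' => w0 G0 * w0 G0' * ∑ ψ ∈ Col ν R0,
          (if ∀ a, (ψ + x.1) (G0 a) = (ψ + (x.2 ∘ h)) (G0' a) then (1 : ℝ) else 0))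
      (fun G1 G1' => w1 G1 * w1 G1' * ∑ ψ ∈ Col ν R1,
          (if ∀ a, (ψ + x.2) (G1 a) = (ψ + (x.1 ∘ h)) (G1' a) then (1 : ℝ) else 0))
  simp only [e2]
  refine (Real.sum_mul_le_sqrt_mul_sqrt _ _ _).trans ?_
  have b0 : ∑ x ∈ Col ν P0 ×ˢ Col ν P1, FKey2.Zf ν w0 R0 x.1 (x.2 ∘ h) ^ 2 ≤
      (∏ a ∈ R0, β a) * ∏ a ∈ R0 ∪ P0, β a := by
    rw [Finset.sum_product]
    refine FKey2.side' ν S w0 hw0 β hβ hT0 R0 P0 (S.filter fun a => h a ≠ a) P1 ?_ ?_ ?_ ?_ h ?_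
    · intro a ha
      exact (Finset.mem_filter.1 ha).2.1
    · intro a ha
      exact Finset.mem_filter.2 (Finset.mem_filter.1 ha).2
    · exact Finset.filter_subset _ _
    · rw [Finset.disjoint_left]
      intro a ha hb
      exact (Finset.mem_filter.1 hb).2 (Finset.mem_filter.1 ha).2.2
    · intro a ha
      have h2 := (Finset.mem_filter.1 ha).2
      rw [hhh] at h2
      refine Finset.mem_filter.2 ⟨?_, fun h' => h2.2 h'.symm⟩
      rcases hc a with h' | h'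
      · exact absurd h'.symm h2.2
      · by_contra h3
        exact h2.1 (h'.2 h3)
  have b1 : ∑ x ∈ Col ν P0 ×ˢ Col ν P1, FKey2.Zf ν w1 R1 x.2 (x.1 ∘ h) ^ 2 ≤
      (∏ a ∈ R1, β a) * ∏ a ∈ R1 ∪ P1, β a := by
    rw [Finset.sum_product, Finset.sum_comm]
    refine FKey2.side' ν Sᶜ w1 hw1 β hβ hT1 R1 P1 (Sᶜ.filter fun a => h a ≠ a) P0 ?_ ?_ ?_ ?_ h ?_
    · intro a ha
      exact Finset.mem_compl.2 (Finset.mem_filter.1 ha).2.1
    · intro a ha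
      exact Finset.mem_filter.2 ⟨Finset.mem_compl.2 (Finset.mem_filter.1 ha).2.1,
        (Finset.mem_filter.1 ha).2.2⟩
    · exact Finset.filter_subset _ _
    · rw [Finset.disjoint_left]
      intro a ha hb
      exact (Finset.mem_filter.1 hb).2 (Finset.mem_filter.1 ha).2.2
    · intro a ha
      have h2 := (Finset.mem_filter.1 ha).2
      rw [hhh] at h2
      refine Finset.mem_filter.2 ⟨?_, fun h' => h2.2 h'.symm⟩
      rcases hc a with h' | h'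
      · exact absurd h'.symm h2.2
      · exact Finset.mem_compl.2 (h'.1 h2.1)
  have d0 : Disjoint R0 P0 := by
    rw [Finset.disjoint_left]
    intro a ha hb
    exact (Finset.mem_filter.1 hb).2.2 (Finset.mem_filter.1 ha).2.2
  have d1 : Disjoint R1 P1 := by
    rw [Finset.disjoint_left]
    intro a ha hb
    exact (Finset.mem_filter.1 hb).2.2 (Finset.mem_filter.1 ha).2.2
  refine (mul_le_mul (Real.sqrt_le_sqrt b0) (Real.sqrt_le_sqrt b1) (Real.sqrt_nonneg _)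
    (Real.sqrt_nonneg _)).trans (le_of_eq ?_)
  rw [FKey2.sqrt_aux β hβ R0 P0 d0, FKey2.sqrt_aux β hβ R1 P1 d1]
  -- the product over `K`
  have hK : K = (R0 ∪ P0) ∪ (R1 ∪ P1) := by
    ext a
    simp only [hP0, hP1, hR0, hR1, Finset.mem_union, Finset.mem_filter]
    by_cases ha : a ∈ S <;> by_cases ha2 : h a = a <;> simp [ha, ha2]
  have dd : Disjoint (R0 ∪ P0) (R1 ∪ P1) := by
    rw [Finset.disjoint_left]
    intro a ha hb
    simp only [hP0, hP1, hR0, hR1, Finset.mem_union, Finset.mem_filter] at ha hb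
    rcases ha with ha | ha <;> rcases hb with hb | hb
    · exact hb.2.1 ha.2.1
    · exact hb.2.1 ha.2.1
    · exact hb.2.1 ha.2.1
    · exact hb.2.1 ha.2.1
  have f0 : ∏ a ∈ R0, (if h a = a then β a else Real.sqrt (β a)) = ∏ a ∈ R0, β a :=
    Finset.prod_congr rfl fun a ha => if_pos (Finset.mem_filter.1 ha).2.2
  have f1 : ∏ a ∈ R1, (if h a = a then β a else Real.sqrt (β a)) = ∏ a ∈ R1, β a :=
    Finset.prod_congr rfl fun a ha => if_pos (Finset.mem_filter.1 ha).2.2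
  have g0 : ∏ a ∈ P0, (if h a = a then β a else Real.sqrt (β a)) = ∏ a ∈ P0, Real.sqrt (β a) :=
    Finset.prod_congr rfl fun a ha => if_neg (Finset.mem_filter.1 ha).2.2
  have g1 : ∏ a ∈ P1, (if h a = a then β a else Real.sqrt (β a)) = ∏ a ∈ P1, Real.sqrt (β a) :=
    Finset.prod_congr rfl fun a ha => if_neg (Finset.mem_filter.1 ha).2.2
  have key : ∏ a ∈ K, (if h a = a then β a else Real.sqrt (β a)) =
      ∏ a ∈ (R0 ∪ P0) ∪ (R1 ∪ P1), (if h a = a then β a else Real.sqrt (β a)) :=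
    congrArg (fun T => ∏ a ∈ T, (if h a = a then β a else Real.sqrt (β a))) hK
  rw [key, Finset.prod_union dd, Finset.prod_union d0, Finset.prod_union d1, f0, f1, g0, g1]

end

end Vale.Agent.P162
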