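import Vale.Agent.P162.FBasic

/-! # Factorisation of the law of a window respecting a set `S` of slots -/

namespace Vale.Agent.P162

open Finset Equiv

noncomputable section

variable {A : Type*} [Fintype A] [DecidableEq A]

lemma k3_resS_mem {S : Finset A} {τ : Perm A} (h : ∀ a, a ∈ S ↔ τ a ∈ S) {a : A} (ha : a ∈ S) :
    resS S τ a = τ a := by
  unfold resS
  rw [dif_pos h, Perm.ofSubtype_apply_of_mem _ ha]
  rfl

lemma k3_resS_notMem (S : Finset A) (τ : Perm A) {a : A} (ha : a ∉ S) : resS S τ a = a := by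
  unfold resS
  split_ifs with h
  · rw [Perm.ofSubtype_apply_of_not_mem _ ha]
  · rfl

/-- elements of `GT (resS S τ)` fix the points outside of `S` -/
lemma k3_GT_notMem {S : Finset A} {τ g : Perm A} (hg : g ∈ GT (resS S τ)) {a : A} (ha : a ∉ S) :
    g a = a := by
  rcases (mem_GT.mp hg) a with h | h
  · exact h
  · rw [h, k3_resS_notMem S τ ha]

/-- the restricted layers move only points of `S` -/
theorem wl_resS_supp (l : List (Perm A)) (S : Finset A) (G : Perm A)
    (hG : wl (l.map (resS S)) G ≠ 0) (a : A) (ha : a ∉ S) : G a = a := by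
  induction l generalizing G with
  | nil =>
    by_cases h : G = 1
    · rw [h]; rfl
    · exact absurd (if_neg h) hG
  | cons τ l ih =>
    rw [List.map_cons, wl_cons] at hG
    have h1 : ∑ g ∈ GT (resS S τ), wl (l.map (resS S)) (g⁻¹ * G) ≠ 0 := by
      intro h0
      rw [h0, zero_div] at hG
      exact hG rfl
    obtain ⟨g, hg, hg2⟩ := Finset.exists_ne_zero_of_sum_ne_zero h1
    have h2 := ih (g⁻¹ * G) hg2
    have h3 : g a = G a := by
      have h4 : g ((g⁻¹ * G) a) = g a := by rw [h2]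
      rw [← h4, ← Perm.mul_apply, mul_inv_cancel_left]
    rw [← h3]
    exact k3_GT_notMem hg ha

lemma k3_preserve {S : Finset A} {τ g : Perm A} (hτ : ∀ a, τ a ∈ S ↔ a ∈ S) (hg : g ∈ GT τ)
    (a : A) : a ∈ S ↔ g a ∈ S := by
  rcases (mem_GT.mp hg) a with h | h
  · rw [h]
  · rw [h, hτ]

lemma k3_mul_mem {S : Finset A} {τ g0 g1 : Perm A} (hτ : ∀ a, τ a ∈ S ↔ a ∈ S)
    (h0 : g0 ∈ GT (resS S τ)) (h1 : g1 ∈ GT (resS Sᶜ τ)) : g0 * g1 ∈ GT τ := by
  rw [mem_GT]
  intro a
  rw [Perm.mul_apply]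
  have hτ' : ∀ a, a ∈ S ↔ τ a ∈ S := fun a => (hτ a).symm
  have hτc : ∀ a, a ∈ Sᶜ ↔ τ a ∈ Sᶜ := fun a => by
    rw [Finset.mem_compl, Finset.mem_compl, hτ a]
  by_cases ha : a ∈ S
  · have e1 : g1 a = a := k3_GT_notMem h1 (by rw [Finset.mem_compl]; exact fun h => h ha)
    rw [e1]
    rcases (mem_GT.mp h0) a with h | h
    · left; exact h
    · right; rw [h, k3_resS_mem hτ' ha]
  · have hac : a ∈ Sᶜ := Finset.mem_compl.mpr ha
    rcases (mem_GT.mp h1) a with h | h
    · left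
      rw [h]
      exact k3_GT_notMem h0 ha
    · right
      rw [h, k3_resS_mem hτc hac]
      exact k3_GT_notMem h0 (fun h => ha ((hτ a).mp h))

lemma k3_resS_mem_GT {S : Finset A} {τ g : Perm A} (hτ : ∀ a, τ a ∈ S ↔ a ∈ S)
    (hg : g ∈ GT τ) : resS S g ∈ GT (resS S τ) := by
  rw [mem_GT]
  intro a
  by_cases ha : a ∈ S
  · rw [k3_resS_mem (k3_preserve hτ hg) ha, k3_resS_mem (fun a => (hτ a).symm) ha]
    exact (mem_GT.mp hg) a
  · left; exact k3_resS_notMem S g ha

lemma k3_resS_mul {S : Finset A} {g : Perm A} (hg : ∀ a, a ∈ S ↔ g a ∈ S) :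
    resS S g * resS Sᶜ g = g := by
  have hgc : ∀ a, a ∈ Sᶜ ↔ g a ∈ Sᶜ := fun a => by
    rw [Finset.mem_compl, Finset.mem_compl, hg a]
  ext a
  rw [Perm.mul_apply]
  by_cases ha : a ∈ S
  · rw [k3_resS_notMem Sᶜ g (by rw [Finset.mem_compl]; exact fun h => h ha), k3_resS_mem hg ha]
  · rw [k3_resS_mem hgc (Finset.mem_compl.mpr ha),
      k3_resS_notMem S g (fun h => ha ((hg a).mpr h))]

lemma k3_sum_GT {S : Finset A} {τ : Perm A} (hτ : ∀ a, τ a ∈ S ↔ a ∈ S) (φ : Perm A → ℝ) :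
    ∑ g ∈ GT τ, φ g = ∑ g0 ∈ GT (resS S τ), ∑ g1 ∈ GT (resS Sᶜ τ), φ (g0 * g1) := by
  have hτc : ∀ a, τ a ∈ Sᶜ ↔ a ∈ Sᶜ := fun a => by
    rw [Finset.mem_compl, Finset.mem_compl, hτ a]
  rw [← Finset.sum_product']
  refine Finset.sum_bij' (fun g _ => (resS S g, resS Sᶜ g)) (fun p _ => p.1 * p.2) ?_ ?_ ?_ ?_ ?_
  · intro g hg
    exact Finset.mem_product.mpr ⟨k3_resS_mem_GT hτ hg, k3_resS_mem_GT hτc hg⟩
  · intro p hp
    rw [Finset.mem_product] at hp
    exact k3_mul_mem hτ hp.1 hp.2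
  · intro g hg
    exact k3_resS_mul (k3_preserve hτ hg)
  · intro p hp
    rw [Finset.mem_product] at hp
    have hm := k3_mul_mem hτ hp.1 hp.2
    have hmc := k3_preserve hτc hm
    have hm' := k3_preserve hτ hm
    apply Prod.ext
    · ext a
      show resS S (p.1 * p.2) a = p.1 a
      by_cases ha : a ∈ S
      · rw [k3_resS_mem hm' ha, Perm.mul_apply,
          k3_GT_notMem hp.2 (by rw [Finset.mem_compl]; exact fun h => h ha)]
      · rw [k3_resS_notMem S _ ha, k3_GT_notMem hp.1 ha]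
    · ext a
      show resS Sᶜ (p.1 * p.2) a = p.2 a
      by_cases ha : a ∈ S
      · have hac : a ∉ Sᶜ := by rw [Finset.mem_compl]; exact fun h => h ha
        rw [k3_resS_notMem Sᶜ _ hac, k3_GT_notMem hp.2 hac]
      · have hac : a ∈ Sᶜ := Finset.mem_compl.mpr ha
        rw [k3_resS_mem hmc hac, Perm.mul_apply]
        apply k3_GT_notMem hp.1
        rcases (mem_GT.mp hp.2) a with h | h
        · rw [h]; exact ha
        · rw [h, k3_resS_mem (fun a => (hτc a).symm) hac]
          exact fun h2 => ha ((hτ a).mp h2)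
  · intro g hg
    show φ g = φ (resS S g * resS Sᶜ g)
    rw [k3_resS_mul (k3_preserve hτ hg)]

lemma k3_card_GT {S : Finset A} {τ : Perm A} (hτ : ∀ a, τ a ∈ S ↔ a ∈ S) :
    ((GT τ).card : ℝ) = ((GT (resS S τ)).card : ℝ) * ((GT (resS Sᶜ τ)).card : ℝ) := by
  have h := k3_sum_GT hτ (fun _ => 1)
  simpa using h

/-- independence of the two sides -/
theorem wl_factor (l : List (Perm A)) (S : Finset A) (hl : ∀ τ ∈ l, ∀ a, τ a ∈ S ↔ a ∈ S)
    (hinv : ∀ τ ∈ l, τ * τ = 1) (f : Perm A → ℝ) :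
    ∑ G, wl l G * f G =
      ∑ G0, ∑ G1, wl (l.map (resS S)) G0 * wl (l.map (resS Sᶜ)) G1 * f (G0 * G1) := by
  induction l generalizing f with
  | nil =>
    simp [wl]
  | cons τ l ih =>
    have hτ : ∀ a, τ a ∈ S ↔ a ∈ S := hl τ List.mem_cons_self
    have ih' := fun f => ih (fun τ' h => hl τ' (List.mem_cons_of_mem _ h))
      (fun τ' h => hinv τ' (List.mem_cons_of_mem _ h)) f
    rw [sum_wl_cons, k3_card_GT hτ, k3_sum_GT hτ, List.map_cons, List.map_cons]
    have e1 : ∀ G0, ∑ G1, wl (resS S τ :: l.map (resS S)) G0 *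
        wl (resS Sᶜ τ :: l.map (resS Sᶜ)) G1 * f (G0 * G1) =
        wl (resS S τ :: l.map (resS S)) G0 *
          ((∑ g1 ∈ GT (resS Sᶜ τ), ∑ G1, wl (l.map (resS Sᶜ)) G1 * f (G0 * (g1 * G1))) /
            ((GT (resS Sᶜ τ)).card : ℝ)) := by
      intro G0
      rw [← sum_wl_cons (resS Sᶜ τ) (l.map (resS Sᶜ)) (fun G1 => f (G0 * G1)), Finset.mul_sum]
      apply Finset.sum_congr rfl
      intro G1 _
      rw [mul_assoc]
    rw [Finset.sum_congr rfl (fun G0 _ => e1 G0), sum_wl_cons]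
    rw [mul_comm ((GT (resS S τ)).card : ℝ), ← div_div]
    congr 1
    rw [Finset.sum_div]
    apply Finset.sum_congr rfl
    intro g0 _
    rw [Finset.sum_div]
    -- move everything inside
    have e2 : ∀ G0, wl (l.map (resS S)) G0 *
        ((∑ g1 ∈ GT (resS Sᶜ τ), ∑ G1, wl (l.map (resS Sᶜ)) G1 * f (g0 * G0 * (g1 * G1))) /
          ((GT (resS Sᶜ τ)).card : ℝ)) =
        ∑ g1 ∈ GT (resS Sᶜ τ), (∑ G1, wl (l.map (resS S)) G0 * wl (l.map (resS Sᶜ)) G1 *
          f (g0 * g1 * (G0 * G1))) / ((GT (resS Sᶜ τ)).card : ℝ) := by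
      intro G0
      rw [Finset.sum_div, Finset.mul_sum]
      apply Finset.sum_congr rfl
      intro g1 hg1
      by_cases hG0 : wl (l.map (resS S)) G0 = 0
      · rw [hG0, zero_mul]
        simp
      · have hcomm : G0 * g1 = g1 * G0 := by
          have hG0' := wl_resS_supp l S G0 hG0
          have hpres : ∀ a, a ∈ S → G0 a ∈ S := by
            intro a ha
            by_contra hcon
            have h1 := hG0' (G0 a) hcon
            have h2 := G0.injective h1
            rw [h2] at hcon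
            exact hcon ha
          ext a
          rw [Perm.mul_apply, Perm.mul_apply]
          by_cases ha : a ∈ S
          · rw [k3_GT_notMem hg1 (by rw [Finset.mem_compl]; exact fun h => h ha),
              k3_GT_notMem hg1 (by rw [Finset.mem_compl]; exact fun h => h (hpres a ha))]
          · rw [hG0' a ha]
            apply hG0'
            rcases (mem_GT.mp hg1) a with h | h
            · rw [h]; exact ha
            · rw [h, k3_resS_mem (fun a => by
                rw [Finset.mem_compl, Finset.mem_compl, hτ a]) (Finset.mem_compl.mpr ha)]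
              exact fun h2 => ha ((hτ a).mp h2)
        rw [mul_div_assoc', Finset.mul_sum]
        congr 1
        apply Finset.sum_congr rfl
        intro G1 _
        have e3 : g0 * G0 * (g1 * G1) = g0 * g1 * (G0 * G1) := by
          rw [mul_assoc, ← mul_assoc G0, hcomm, mul_assoc, mul_assoc]
        rw [e3, ← mul_assoc]
    rw [Finset.sum_congr rfl (fun G0 _ => e2 G0), Finset.sum_comm]
    apply Finset.sum_congr rfl
    intro g1 _
    rw [← Finset.sum_div, ih' (fun G => f (g0 * g1 * G))]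

theorem pot_resS (ν : ℕ) (l : List (Perm A)) (S : Finset A)
    (hl : ∀ τ ∈ l, ∀ a, τ a ∈ S ↔ a ∈ S) (a : A) (ha : a ∈ S) :
    pot ν (l.map (resS S)) a = pot ν l a := by
  induction l generalizing a with
  | nil => rfl
  | cons τ l ih =>
    have hτ : ∀ a, τ a ∈ S ↔ a ∈ S := hl τ List.mem_cons_self
    have ih' := fun a ha => ih (fun τ' h => hl τ' (List.mem_cons_of_mem _ h)) a ha
    show upd (resS S τ) (pot ν (l.map (resS S))) a = upd τ (pot ν l) a
    unfold upd
    rw [k3_resS_mem (fun a => (hτ a).symm) ha, ih' a ha, ih' (τ a) ((hτ a).mpr ha)]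

theorem Str_resS (l : List (Perm A)) (S : Finset A)
    (hl : ∀ τ ∈ l, ∀ a, τ a ∈ S ↔ a ∈ S) (hS : Str l) : Str (l.map (resS S)) := by
  induction l with
  | nil => trivial
  | cons τ l ih =>
    have hτ : ∀ a, τ a ∈ S ↔ a ∈ S := hl τ List.mem_cons_self
    have hτ' : ∀ a, a ∈ S ↔ τ a ∈ S := fun a => (hτ a).symm
    obtain ⟨h1, h2, S', h3, h4⟩ := hS
    refine ⟨ih (fun τ' h => hl τ' (List.mem_cons_of_mem _ h)) h1, ?_, S', ?_, ?_⟩
    · ext a
      rw [Perm.mul_apply, Perm.one_apply]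
      by_cases ha : a ∈ S
      · rw [k3_resS_mem hτ' ha, k3_resS_mem hτ' ((hτ a).mpr ha), tau_tau h2]
      · rw [k3_resS_notMem S τ ha, k3_resS_notMem S τ ha]
    · intro τ' hτm a
      rw [List.mem_map] at hτm
      obtain ⟨τ'', hm, rfl⟩ := hτm
      by_cases ha : a ∈ S
      · rw [k3_resS_mem (fun a => (hl τ'' (List.mem_cons_of_mem _ hm) a).symm) ha]
        exact h3 τ'' hm a
      · rw [k3_resS_notMem S τ'' ha]
    · intro a
      by_cases ha : a ∈ S
      · rw [k3_resS_mem hτ' ha]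
        exact h4 a
      · left; exact k3_resS_notMem S τ ha

end

end Vale.Agent.P162
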