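import Vale.Agent.P162.FKey1
import Vale.Agent.P162.FKey2
import Vale.Agent.P162.FKey3

/-! # The key lemma -/

namespace Vale.Agent.P162

open Finset Equiv

noncomputable section

variable {A : Type*} [Fintype A] [DecidableEq A]

lemma FKey_Str_inv (l : List (Perm A)) (hl : Str l) : ∀ τ ∈ l, τ * τ = 1 := by
  induction l with
  | nil => intro τ h; simp at h
  | cons τ l ih =>
    obtain ⟨h1, h2, _⟩ := hl
    intro τ' h
    rcases List.mem_cons.mp h with e | e
    · rw [e]; exact h2
    · exact ih h1 τ' e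

lemma FKey_card_Col (ν : ℕ) (K : Finset A) : ((Col ν K).card : ℝ) = ∏ _a ∈ K, (2 : ℝ) ^ ν := by
  have h : Col ν K = Fintype.piFinset (fun a => if a ∈ K then (univ : Finset (Cube ν)) else {0}) := by
    ext χ
    simp only [Col, mem_filter, mem_univ, true_and, Fintype.mem_piFinset]
    constructor
    · intro h a
      by_cases ha : a ∈ K
      · rw [if_pos ha]; exact mem_univ _
      · rw [if_neg ha, mem_singleton]; exact h a ha
    · intro h a ha
      have := h a
      rwa [if_neg ha, mem_singleton] at this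
  rw [h, Fintype.card_piFinset]
  push_cast
  have h2 : ∀ a : A, (((if a ∈ K then (univ : Finset (Cube ν)) else {0}).card : ℕ) : ℝ) =
      if a ∈ K then (2 : ℝ) ^ ν else 1 := by
    intro a
    split_ifs
    · rw [card_univ]
      have : Fintype.card (Cube ν) = 2 ^ ν := by simp [Cube]
      rw [this]; push_cast; rfl
    · simp
  simp only [h2]
  rw [← Finset.prod_filter]
  congr 1
  ext a
  simp

/-- rewriting the count of invariant colourings -/
lemma FKey_FK (ν : ℕ) (K : Finset A) (g h G G' : Perm A) :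
    FK ν K (g * h * G' * (g * G)⁻¹) =
      (((Col ν (univ.filter fun a => g a ∈ K)).filter fun χ => ∀ a,
        χ (G a) = χ (h (G' a))).card : ℝ) := by
  unfold FK
  norm_cast
  refine Finset.card_bij' (fun χ _ => fun a => χ (g a)) (fun χ _ => fun a => χ (g⁻¹ a)) ?_ ?_ ?_ ?_
  · intro χ hχ
    rw [mem_filter, Col, mem_filter] at hχ ⊢
    obtain ⟨⟨_, h1⟩, h2⟩ := hχ
    refine ⟨⟨mem_univ _, ?_⟩, ?_⟩
    · intro a ha
      apply h1
      intro h3
      apply ha
      rw [mem_filter]
      exact ⟨mem_univ _, h3⟩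
    · intro a
      have := h2 ((g * G) a)
      simp only [Perm.mul_apply, mul_inv_rev] at this
      rw [← Perm.mul_apply g⁻¹ g, inv_mul_cancel, Perm.one_apply,
        ← Perm.mul_apply G⁻¹ G, inv_mul_cancel, Perm.one_apply] at this
      exact this.symm
  · intro χ hχ
    rw [mem_filter, Col, mem_filter] at hχ ⊢
    obtain ⟨⟨_, h1⟩, h2⟩ := hχ
    refine ⟨⟨mem_univ _, ?_⟩, ?_⟩
    · intro a ha
      apply h1
      intro h3
      apply ha
      rw [mem_filter] at h3
      have h4 := h3.2
      rwa [← Perm.mul_apply g g⁻¹, mul_inv_cancel, Perm.one_apply] at h4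
    · intro a
      have := h2 (G⁻¹ (g⁻¹ a))
      rw [← Perm.mul_apply G G⁻¹, mul_inv_cancel, Perm.one_apply] at this
      simp only [Perm.mul_apply, mul_inv_rev]
      rw [← Perm.mul_apply g⁻¹ g, inv_mul_cancel, Perm.one_apply]
      exact this.symm
  · intro χ _
    funext a
    show χ (g (g⁻¹ a)) = χ a
    rw [← Perm.mul_apply g g⁻¹, mul_inv_cancel, Perm.one_apply]
  · intro χ _
    funext a
    show χ (g⁻¹ (g a)) = χ a
    rw [← Perm.mul_apply g⁻¹ g, inv_mul_cancel, Perm.one_apply]

/-- the key lemma: exponential moment of the number of cycles contained in `K` -/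
theorem key (ν : ℕ) (l : List (Perm A)) (hl : Str l) (K : Finset A) :
    ∑ G, ∑ G', wl l G * wl l G' * FK ν K (G' * G⁻¹) ≤ ∏ a ∈ K, pot ν l a := by
  obtain ⟨n, hn⟩ : ∃ n, l.length = n := ⟨_, rfl⟩
  induction n generalizing l K with
  | zero =>
    have : l = [] := List.length_eq_zero_iff.mp hn
    subst this
    have h1 : ∑ G : Perm A, ∑ G' : Perm A, wl [] G * wl [] G' * FK ν K (G' * G⁻¹) = FK ν K 1 := by
      rw [Finset.sum_eq_single (1 : Perm A)]
      · rw [Finset.sum_eq_single (1 : Perm A)]
        · simp [wl]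
        · intro G' _ hG'
          simp [wl, hG']
        · intro h; exact absurd (mem_univ _) h
      · intro G _ hG
        apply Finset.sum_eq_zero
        intro G' _
        simp [wl, hG]
      · intro h; exact absurd (mem_univ _) h
    rw [h1]
    have h2 : FK ν K 1 ≤ ((Col ν K).card : ℝ) := by
      unfold FK
      exact_mod_cast Finset.card_filter_le _ _
    rw [FKey_card_Col] at h2
    exact h2
  | succ n ih =>
    obtain ⟨τ, l', rfl⟩ : ∃ τ l', l = τ :: l' := by
      cases l with
      | nil => simp at hn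
      | cons τ l' => exact ⟨τ, l', rfl⟩
    have hn' : l'.length = n := by simpa using hn
    obtain ⟨hl', hτ, S, hS1, hS2⟩ := hl
    have hinv := FKey_Str_inv l' hl'
    have hS1c : ∀ τ' ∈ l', ∀ a, τ' a ∈ Sᶜ ↔ a ∈ Sᶜ := by
      intro τ' h a
      rw [mem_compl, mem_compl, hS1 τ' h a]
    set β : A → ℝ := pot ν l' with hβdef
    have hβ : ∀ a, 0 ≤ β a := fun a => pot_nonneg ν l' a
    set w0 : Perm A → ℝ := wl (l'.map (resS S)) with hw0
    set w1 : Perm A → ℝ := wl (l'.map (resS Sᶜ)) with hw1
    set N : Finset A → Perm A → Perm A → Perm A → ℝ := fun K h G G' =>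
      (((Col ν K).filter fun χ => ∀ a, χ (G a) = χ (h (G' a))).card : ℝ) with hN
    have hc0 : (0 : ℝ) < ((GT τ).card : ℝ) := GT_card_pos τ
    -- step 1: expand
    have h1 : ∑ G, ∑ G', wl (τ :: l') G * wl (τ :: l') G' * FK ν K (G' * G⁻¹) =
        (∑ g ∈ GT τ, ∑ h ∈ GT τ, ∑ G, ∑ G', wl l' G * wl l' G' *
          N (univ.filter fun a => g a ∈ K) h G G') / ((GT τ).card : ℝ) ^ 2 := by
      have e1 : ∀ G, ∑ G', wl (τ :: l') G * wl (τ :: l') G' * FK ν K (G' * G⁻¹) =
          wl (τ :: l') G * ((∑ g' ∈ GT τ, ∑ G', wl l' G' * FK ν K (g' * G' * G⁻¹)) /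
            ((GT τ).card : ℝ)) := by
        intro G
        rw [← sum_wl_cons τ l' (fun G' => FK ν K (G' * G⁻¹)), Finset.mul_sum]
        exact Finset.sum_congr rfl fun G' _ => mul_assoc _ _ _
      rw [Finset.sum_congr rfl fun G _ => e1 G]
      rw [sum_wl_cons τ l' (fun G => (∑ g' ∈ GT τ, ∑ G', wl l' G' * FK ν K (g' * G' * G⁻¹)) /
            ((GT τ).card : ℝ))]
      have e2 : ∀ g ∈ GT τ, ∑ G, wl l' G * ((∑ g' ∈ GT τ, ∑ G', wl l' G' *
          FK ν K (g' * G' * (g * G)⁻¹)) / ((GT τ).card : ℝ)) =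
          (∑ h ∈ GT τ, ∑ G, ∑ G', wl l' G * wl l' G' *
          N (univ.filter fun a => g a ∈ K) h G G') / ((GT τ).card : ℝ) := by
        intro g hg
        have e3 : ∀ G, ∑ g' ∈ GT τ, ∑ G', wl l' G' * FK ν K (g' * G' * (g * G)⁻¹) =
            ∑ h ∈ GT τ, ∑ G', wl l' G' * N (univ.filter fun a => g a ∈ K) h G G' := by
          intro G
          refine Finset.sum_bij' (fun g' _ => g * g') (fun h _ => g * h) ?_ ?_ ?_ ?_ ?_
          · intro g' hg'; exact mul_mem_GT hτ hg hg'
          · intro h hh; exact mul_mem_GT hτ hg hh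
          · intro g' _; rw [← mul_assoc, GT_mul_self hτ hg, one_mul]
          · intro h _; rw [← mul_assoc, GT_mul_self hτ hg, one_mul]
          · intro g' _
            refine Finset.sum_congr rfl fun G' _ => ?_
            congr 1
            have := FKey_FK ν K g (g * g') G G'
            rw [← mul_assoc g g g', GT_mul_self hτ hg, one_mul] at this
            exact this
        have e4 : ∀ G, wl l' G * ((∑ g' ∈ GT τ, ∑ G', wl l' G' *
          FK ν K (g' * G' * (g * G)⁻¹)) / ((GT τ).card : ℝ)) =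
          (∑ h ∈ GT τ, ∑ G', wl l' G * wl l' G' *
            N (univ.filter fun a => g a ∈ K) h G G') / ((GT τ).card : ℝ) := by
          intro G
          rw [e3 G, mul_div_assoc', Finset.mul_sum]
          congr 1
          refine Finset.sum_congr rfl fun h _ => ?_
          rw [Finset.mul_sum]
          exact Finset.sum_congr rfl fun G' _ => (mul_assoc _ _ _).symm
        rw [Finset.sum_congr rfl fun G _ => e4 G, ← Finset.sum_div, Finset.sum_comm]
      rw [Finset.sum_congr rfl e2, ← Finset.sum_div, div_div, sq]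
    -- step 2: bound for fixed g, h
    have h2 : ∀ g ∈ GT τ, ∀ h ∈ GT τ, ∑ G, ∑ G', wl l' G * wl l' G' *
          N (univ.filter fun a => g a ∈ K) h G G' ≤
        ∏ a : A, (if g a ∈ K then (if h a = a then β a else Real.sqrt (β a)) else 1) := by
      intro g hg h hh
      set Kg : Finset A := univ.filter fun a => g a ∈ K with hKg
      have e1 : ∑ G, ∑ G', wl l' G * wl l' G' * N Kg h G G' =
          ∑ G0, ∑ G1, ∑ G0', ∑ G1', w0 G0 * w1 G1 * (w0 G0' * w1 G1') *
      (((Col ν Kg).filter fun χ => ∀ a, χ (G0 (G1 a)) = χ (h (G0' (G1' a)))).card : ℝ) := by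
        have e2 : ∀ G, ∑ G', wl l' G * wl l' G' * N Kg h G G' =
            wl l' G * ∑ G0', ∑ G1', w0 G0' * w1 G1' * N Kg h G (G0' * G1') := by
          intro G
          rw [← wl_factor l' S hS1 hinv (fun G' => N Kg h G G'), Finset.mul_sum]
          exact Finset.sum_congr rfl fun G' _ => mul_assoc _ _ _
        rw [Finset.sum_congr rfl fun G _ => e2 G,
          wl_factor l' S hS1 hinv (fun G => ∑ G0', ∑ G1', w0 G0' * w1 G1' * N Kg h G (G0' * G1'))]
        refine Finset.sum_congr rfl fun G0 _ => Finset.sum_congr rfl fun G1 _ => ?_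
        rw [Finset.mul_sum]
        refine Finset.sum_congr rfl fun G0' _ => ?_
        rw [Finset.mul_sum]
        refine Finset.sum_congr rfl fun G1' _ => ?_
        rw [← mul_assoc]
        rfl
      rw [e1]
      have e3 : ∏ a : A, (if g a ∈ K then (if h a = a then β a else Real.sqrt (β a)) else 1) =
          ∏ a ∈ Kg, (if h a = a then β a else Real.sqrt (β a)) := by
        rw [hKg, Finset.prod_filter]
      rw [e3]
      refine vbound ν S w0 w1 (fun G => wl_nonneg _ G) (fun G => wl_nonneg _ G)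
        (fun G hG a ha => wl_resS_supp l' S G hG a ha)
        (fun G hG a ha => wl_resS_supp l' Sᶜ G hG a (by rw [mem_compl]; exact fun h => h ha))
        β hβ ?_ ?_ h (GT_mul_self hτ hh) ?_ Kg
      · intro K' hK'
        have := ih (l'.map (resS S)) (Str_resS l' S hS1 hl') K' (by rw [List.length_map]; exact hn')
        refine this.trans (le_of_eq ?_)
        exact Finset.prod_congr rfl fun a ha => pot_resS ν l' S hS1 a (hK' ha)
      · intro K' hK'
        have := ih (l'.map (resS Sᶜ)) (Str_resS l' Sᶜ hS1c hl') K'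
          (by rw [List.length_map]; exact hn')
        refine this.trans (le_of_eq ?_)
        exact Finset.prod_congr rfl fun a ha => pot_resS ν l' Sᶜ hS1c a (hK' ha)
      · intro a
        rcases mem_GT.mp hh a with h3 | h3
        · left; exact h3
        · rcases hS2 a with h4 | h4
          · left; rw [h3, h4]
          · right; rw [h3]; exact h4
    -- step 3: average
    rw [h1, div_le_iff₀ (by positivity)]
    calc _ ≤ ∑ g ∈ GT τ, ∑ h ∈ GT τ,
        ∏ a : A, (if g a ∈ K then (if h a = a then β a else Real.sqrt (β a)) else 1) :=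
          Finset.sum_le_sum fun g hg => Finset.sum_le_sum fun h hh => h2 g hg h hh
      _ ≤ ((GT τ).card : ℝ) ^ 2 * ∏ a ∈ K, upd τ β a := avg_layer τ hτ β hβ K
      _ = (∏ a ∈ K, pot ν (τ :: l') a) * ((GT τ).card : ℝ) ^ 2 := by
          rw [mul_comm]; rfl

end

end Vale.Agent.P162
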