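import Vale.Agent.P162.FConj
import Vale.Agent.P162.FKey

/-! # The moment bound for the averaged kernel -/

namespace Vale.Agent.P162

open Finset Equiv

noncomputable section

section FHbaux

variable {A : Type*} [Fintype A] [DecidableEq A]

lemma FHb_FK_conj (ν : ℕ) (K : Finset A) (h π : Perm A) :
    FK ν K (h * π * h⁻¹) = FK ν (univ.filter fun a => h a ∈ K) π := by
  have h1 := FKey_FK ν K h 1 1 π
  rw [mul_one] at h1
  rw [h1]
  unfold FK
  norm_cast
  apply congrArg Finset.card
  apply Finset.filter_congr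
  intro χ _
  constructor
  · intro h2 a
    exact (h2 a).symm
  · intro h2 a
    exact (h2 a).symm

lemma FHb_card (K : Finset A) (h : Perm A) : (univ.filter fun a => h a ∈ K).card = K.card := by
  refine Finset.card_bij (fun a _ => h a) ?_ ?_ ?_
  · intro a ha
    exact (Finset.mem_filter.mp ha).2
  · intro a _ b _ hab
    exact h.injective hab
  · intro b hb
    refine ⟨h⁻¹ b, ?_, ?_⟩
    · rw [Finset.mem_filter]
      refine ⟨Finset.mem_univ _, ?_⟩
      rw [← Perm.mul_apply, mul_inv_cancel, Perm.one_apply]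
      exact hb
    · rw [← Perm.mul_apply, mul_inv_cancel, Perm.one_apply]

/-- the sum of `FK` over a conjugacy class -/
def FHbf (ν : ℕ) (K : Finset A) (π : Perm A) : ℝ := ∑ h : Perm A, FK ν K (h * π * h⁻¹)

lemma FHbf_swap (ν : ℕ) (K : Finset A) (G G' : Perm A) :
    FHbf ν K (G⁻¹ * G') = FHbf ν K (G' * G⁻¹) := by
  unfold FHbf
  refine Fintype.sum_equiv (Equiv.mulRight G⁻¹) _ _ (fun h => ?_)
  show FK ν K (h * (G⁻¹ * G') * h⁻¹) = FK ν K (h * G⁻¹ * (G' * G⁻¹) * (h * G⁻¹)⁻¹)
  congr 1
  group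

lemma FHb_window (ν : ℕ) (K : Finset A) (ts : List (Perm A)) (hs : Str ts)
    (hg : Good (pot ν ts)) :
    ∑ π, kern ts π * FHbf ν K π ≤ (Fintype.card (Perm A) : ℝ) * 3 ^ K.card := by
  rw [sum_kern]
  have h1 : ∀ G ∈ (univ : Finset (Perm A)), ∀ G' ∈ (univ : Finset (Perm A)),
      wl ts G * wl ts G' * FHbf ν K (G⁻¹ * G') =
      ∑ h : Perm A, wl ts G * wl ts G' * FK ν (univ.filter fun a => h a ∈ K) (G' * G⁻¹) := by
    intro G _ G' _
    rw [FHbf_swap, FHbf, Finset.mul_sum]
    exact Finset.sum_congr rfl fun h _ => by rw [FHb_FK_conj]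
  rw [Finset.sum_congr rfl fun G hG => Finset.sum_congr rfl fun G' hG' => h1 G hG G' hG']
  rw [Finset.sum_congr rfl fun G _ => Finset.sum_comm, Finset.sum_comm]
  have h2 : ∀ h ∈ (univ : Finset (Perm A)), ∑ G, ∑ G', wl ts G * wl ts G' *
      FK ν (univ.filter fun a => h a ∈ K) (G' * G⁻¹) ≤ 3 ^ K.card := by
    intro h _
    refine (key ν ts hs _).trans ?_
    rw [← FHb_card K h, ← Finset.prod_const]
    exact Finset.prod_le_prod (fun a _ => pot_nonneg ν ts a) (fun a _ => hg a)
  calc _ ≤ ∑ _h : Perm A, (3 : ℝ) ^ K.card := Finset.sum_le_sum h2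
    _ = (Fintype.card (Perm A) : ℝ) * 3 ^ K.card := by
      rw [Finset.sum_const, nsmul_eq_mul, Finset.card_univ]

end FHbaux

variable {d : ℕ} {A : Type*} [Fintype A] [DecidableEq A]

theorem pk_moment (ν : ℕ) (j : A → Cube d) (hj : Function.Injective j) (l : List (Fin d))
    (hl : l.Nodup) (K : Finset A) :
    ∑ π : Perm A, pk ν j l π * FK ν K π ≤ 3 ^ K.card := by
  classical
  have hP : (0 : ℝ) < (Fintype.card (Perm A) : ℝ) := by
    exact_mod_cast Fintype.card_pos
  have hQ : (0 : ℝ) < (Fintype.card (Perm (Cube d)) : ℝ) := by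
    exact_mod_cast Fintype.card_pos
  -- average over the conjugations
  have h1 : ∀ h : Perm A, ∑ π : Perm A, pk ν j l π * FK ν K π =
      ∑ π : Perm A, pk ν j l π * FK ν K (h * π * h⁻¹) := by
    intro h
    symm
    refine Fintype.sum_equiv (MulAut.conj h).toEquiv _ _ (fun π => ?_)
    show pk ν j l π * FK ν K (h * π * h⁻¹) = pk ν j l (h * π * h⁻¹) * FK ν K (h * π * h⁻¹)
    rw [pk_conj ν j hj l h π]
  have h2 : (Fintype.card (Perm A) : ℝ) * ∑ π : Perm A, pk ν j l π * FK ν K π =
      ∑ π : Perm A, pk ν j l π * FHbf ν K π := by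
    have h3 : (Fintype.card (Perm A) : ℝ) * ∑ π : Perm A, pk ν j l π * FK ν K π =
        ∑ _h : Perm A, ∑ π : Perm A, pk ν j l π * FK ν K π := by
      rw [Finset.sum_const, nsmul_eq_mul, Finset.card_univ]
    rw [h3, Finset.sum_congr rfl fun h _ => h1 h, Finset.sum_comm]
    apply Finset.sum_congr rfl
    intro π _
    rw [FHbf, Finset.mul_sum]
  have h3 : ∑ π : Perm A, pk ν j l π * FHbf ν K π ≤
      (Fintype.card (Perm A) : ℝ) * 3 ^ K.card := by
    unfold pk avgP
    have h4 : ∀ π ∈ (univ : Finset (Perm A)), (∑ g : Perm (Cube d),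
        SW (Y := A → Cube d) id l (fun _ ts => if Good (pot ν ts) then kern ts π else 0)
          (g ∘ j) []) / (Fintype.card (Perm (Cube d)) : ℝ) * FHbf ν K π =
        (∑ g : Perm (Cube d), SW (Y := A → Cube d) id l
          (fun _ ts => FHbf ν K π * (if Good (pot ν ts) then kern ts π else 0))
          (g ∘ j) []) / (Fintype.card (Perm (Cube d)) : ℝ) := by
      intro π _
      rw [div_mul_eq_mul_div, Finset.sum_mul]
      congr 1
      apply Finset.sum_congr rfl
      intro g _
      rw [SW_const_mul (Y := A → Cube d) l (FHbf ν K π)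
        (fun _ ts => if Good (pot ν ts) then kern ts π else 0), mul_comm]
    rw [Finset.sum_congr rfl h4, ← Finset.sum_div, Finset.sum_comm, div_le_iff₀ hQ]
    have h5 : ∀ g ∈ (univ : Finset (Perm (Cube d))), ∑ π : Perm A,
        SW (Y := A → Cube d) id l
          (fun _ ts => FHbf ν K π * (if Good (pot ν ts) then kern ts π else 0))
          (g ∘ j) [] ≤ (Fintype.card (Perm A) : ℝ) * 3 ^ K.card := by
      intro g _
      rw [← SW_sum (Y := A → Cube d) (em := id) univ l
        (fun π _ ts => FHbf ν K π * (if Good (pot ν ts) then kern ts π else 0)) (g ∘ j) []]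
      have hgj : Function.Injective (g ∘ j) := g.injective.comp hj
      have h6 := SW_mono_Str (A := A) (Φ := fun _ ts => ∑ π : Perm A, FHbf ν K π *
        (if Good (pot ν ts) then kern ts π else 0))
        (Ψ := fun _ _ => (Fintype.card (Perm A) : ℝ) * 3 ^ K.card) ?_ l hl (g ∘ j) hgj
      · rw [SW_const] at h6
        exact h6
      · intro e ts _ hs
        by_cases hgood : Good (pot ν ts)
        · simp only [if_pos hgood]
          refine le_trans (le_of_eq ?_) (FHb_window ν K ts hs hgood)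
          exact Finset.sum_congr rfl fun π _ => mul_comm _ _
        · simp only [if_neg hgood, mul_zero, Finset.sum_const_zero]
          positivity
    calc _ ≤ ∑ _g : Perm (Cube d), (Fintype.card (Perm A) : ℝ) * 3 ^ K.card :=
          Finset.sum_le_sum h5
      _ = (Fintype.card (Perm A) : ℝ) * 3 ^ K.card * (Fintype.card (Perm (Cube d)) : ℝ) := by
          rw [Finset.sum_const, nsmul_eq_mul, Finset.card_univ, mul_comm]
  rw [← h2] at h3
  exact le_of_mul_le_mul_left h3 hP

end

end Vale.Agent.P162
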