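import Vale.Agent.P162.IterDefs
import Vale.Agent.P162.Basic

/-! # Iteration, part 1: the chain applied to `cv j φ u` is bounded by `AjF` -/

namespace Vale.Agent.P162

open Finset Equiv

noncomputable section

variable {d m : ℕ}

lemma i1_via_swap {A X : Type*} [DecidableEq A] [DecidableEq X] (j : A ↪ X)
    (a b : A) : (swap a b).viaEmbedding j = swap (j a) (j b) := by
  ext y
  by_cases hy : y ∈ Set.range j
  · obtain ⟨x, rfl⟩ := hy
    rw [Perm.viaEmbedding_apply]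
    exact (j.injective.swap_apply a b x).symm
  · rw [Perm.viaEmbedding_apply_of_notMem _ _ _ hy, swap_apply_of_ne_of_ne]
    · rintro rfl
      exact hy ⟨a, rfl⟩
    · rintro rfl
      exact hy ⟨b, rfl⟩

lemma i1_via_mul {A X : Type*} (j : A ↪ X) (κ κ' : Perm A) :
    (κ * κ').viaEmbedding j = κ.viaEmbedding j * κ'.viaEmbedding j := by
  have h := map_mul (Perm.viaEmbeddingHom j) κ κ'
  simpa only [Perm.viaEmbeddingHom_apply] using h

lemma i1_Kl_cv (l : List (Fin d)) (j : Fin m ↪ Cube d) (φ : Perm (Cube d) → ℝ)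
    (u : Perm (Fin m) → ℝ) : Kl l (cv j φ u) = cv j (Kl l φ) u := by
  funext σ
  have h1 : cv j φ u = fun σ => ∑ κ : Perm (Fin m), u κ * φ (σ * κ.viaEmbedding j) := rfl
  rw [h1, Kl_sum]
  show _ = ∑ κ : Perm (Fin m), u κ * Kl l φ (σ * κ.viaEmbedding j)
  apply Finset.sum_congr rfl
  intro κ _
  rw [Kl_const_mul]
  congr 1
  exact Kl_comp (Y := Perm (Cube d)) (Y' := Perm (Cube d)) (fun σ => σ * κ.viaEmbedding j)
    (fun g y => by
      show g * y * _ = g * (y * _)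
      rw [mul_assoc]) l φ σ

lemma i1_iter_cv (l : List (Fin d)) (j : Fin m ↪ Cube d) (R : ℕ) (φ : Perm (Cube d) → ℝ)
    (u : Perm (Fin m) → ℝ) : (Kl l)^[R] (cv j φ u) = cv j ((Kl l)^[R] φ) u := by
  induction R with
  | zero => rfl
  | succ R ih => rw [Kl_iterate_succ, Kl_iterate_succ, ih, i1_Kl_cv]

lemma i1_cv_rho (s0 : Fin d) (j : Fin m ↪ Cube d) (ψ : Perm (Cube d) → ℝ)
    (hψ : ∀ g ∈ GF s0, ∀ σ, ψ (g * σ) = ψ σ) (σ : Perm (Cube d)) (x : Cube d)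
    (u : EuclideanSpace ℝ (Perm (Fin m))) :
    cv j ψ (regRep (Fin m) (sw (σ ∘ j) x (x + Pi.single s0 1)) u) σ = cv j ψ u σ := by
  by_cases h : ∃ p : Fin m × Fin m, (σ ∘ j) p.1 = x ∧ (σ ∘ j) p.2 = x + Pi.single s0 1
  · set s : Perm (Fin m) := sw (σ ∘ j) x (x + Pi.single s0 1) with hs
    have hs' : s = swap h.choose.1 h.choose.2 := by
      rw [hs]
      unfold sw
      rw [dif_pos h]
    obtain ⟨ha, hb⟩ := h.choose_spec
    set a := h.choose.1
    set b := h.choose.2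
    have hconj : σ * s.viaEmbedding j = swap x (x + Pi.single s0 1) * σ := by
      rw [hs', i1_via_swap]
      have ha' : σ (j a) = x := ha
      have hb' : σ (j b) = x + Pi.single s0 1 := hb
      rw [← hb', ← ha', swap_apply_apply, inv_mul_cancel_right]
    have e1 : cv j ψ (regRep (Fin m) s u) σ
        = ∑ κ : Perm (Fin m), u (s⁻¹ * κ) * ψ (σ * κ.viaEmbedding j) := rfl
    have e2 : cv j ψ u σ = ∑ κ : Perm (Fin m), u κ * ψ (σ * κ.viaEmbedding j) := rfl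
    rw [e1, e2]
    refine Fintype.sum_equiv (Equiv.mulLeft s⁻¹) _ _ (fun κ => ?_)
    show _ = u (s⁻¹ * κ) * ψ (σ * (s⁻¹ * κ).viaEmbedding j)
    congr 1
    have e3 : σ * κ.viaEmbedding j
        = swap x (x + Pi.single s0 1) * (σ * (s⁻¹ * κ).viaEmbedding j) := by
      rw [← mul_assoc, ← hconj, mul_assoc σ, ← i1_via_mul, mul_inv_cancel_left]
    rw [e3, hψ _ (swap_mem_GF s0 x)]
  · have h1 : sw (σ ∘ j) x (x + Pi.single s0 1) = 1 := by
      unfold sw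
      rw [dif_neg h]
    rw [h1, rho_one_apply]

lemma i1_cv_half (s0 : Fin d) (j : Fin m ↪ Cube d) (ψ : Perm (Cube d) → ℝ)
    (hψ : ∀ g ∈ GF s0, ∀ σ, ψ (g * σ) = ψ σ) (σ : Perm (Cube d)) (x : Cube d)
    (u : EuclideanSpace ℝ (Perm (Fin m))) :
    cv j ψ (half (regRep (Fin m)) (sw (σ ∘ j) x (x + Pi.single s0 1)) u) σ = cv j ψ u σ := by
  have h1 := i1_cv_rho s0 j ψ hψ σ x u
  rw [half_apply]
  set w := regRep (Fin m) (sw (σ ∘ j) x (x + Pi.single s0 1)) u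
  have e1 : cv j ψ ((2⁻¹ : ℝ) • (u + w)).ofLp σ = 2⁻¹ * (cv j ψ u σ + cv j ψ w σ) := by
    show ∑ κ : Perm (Fin m), (2⁻¹ * (u κ + w κ)) * ψ (σ * κ.viaEmbedding j)
      = 2⁻¹ * (∑ κ : Perm (Fin m), u κ * ψ (σ * κ.viaEmbedding j)
        + ∑ κ : Perm (Fin m), w κ * ψ (σ * κ.viaEmbedding j))
    rw [← Finset.sum_add_distrib, Finset.mul_sum]
    apply Finset.sum_congr rfl
    intro κ _
    ring
  rw [e1, h1]
  ring

lemma i1_cv_Pl (s0 : Fin d) (pairs : List (Cube d × Cube d))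
    (hp : ∀ p ∈ pairs, p.2 = p.1 + Pi.single s0 1) (j : Fin m ↪ Cube d)
    (ψ : Perm (Cube d) → ℝ) (hψ : ∀ g ∈ GF s0, ∀ σ, ψ (g * σ) = ψ σ) (σ : Perm (Cube d))
    (u : EuclideanSpace ℝ (Perm (Fin m))) :
    cv j ψ (Pl (regRep (Fin m)) (swl (σ ∘ j) pairs) u) σ = cv j ψ u σ := by
  induction pairs with
  | nil => rfl
  | cons p l ih =>
    have h1 := ih (fun q hq => hp q (List.mem_cons_of_mem _ hq))
    have h2 : Pl (regRep (Fin m)) (swl (σ ∘ j) (p :: l)) u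
        = half (regRep (Fin m)) (sw (σ ∘ j) p.1 p.2)
          (Pl (regRep (Fin m)) (swl (σ ∘ j) l) u) := rfl
    rw [h2, hp p List.mem_cons_self, i1_cv_half s0 j ψ hψ σ, h1]

theorem iter1 (s0 : Fin d) (l' : List (Fin d)) (pairs : List (Cube d × Cube d))
    (hp : ∀ p ∈ pairs, p.2 = p.1 + Pi.single s0 1) (j : Fin m ↪ Cube d) (R : ℕ)
    (φ : Perm (Cube d) → ℝ) (hφ : ∀ σ, |φ σ| ≤ 1) (u : EuclideanSpace ℝ (Perm (Fin m)))
    (σ : Perm (Cube d)) :
    |(Kl (s0 :: l'))^[R + 1] (cv j φ u) σ| ≤ AjF (s0 :: l') pairs R (σ ∘ j) u := by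
  induction R generalizing u σ with
  | zero =>
    have h1 : (Kl (s0 :: l'))^[0 + 1] (cv j φ u) = Kl (s0 :: l') (cv j φ u) := rfl
    rw [h1]
    apply abs_Kl_le_of_le
    intro σ'
    show |∑ κ : Perm (Fin m), u κ * φ (σ' * κ.viaEmbedding j)| ≤ ∑ κ, |u κ|
    refine (Finset.abs_sum_le_sum_abs _ _).trans (Finset.sum_le_sum fun κ _ => ?_)
    rw [abs_mul]
    exact mul_le_of_le_one_right (abs_nonneg _) (hφ _)
  | succ R ih =>
    have hinv : ∀ g ∈ GF s0, ∀ σ, (Kl (s0 :: l'))^[R + 1] φ (g * σ)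
        = (Kl (s0 :: l'))^[R + 1] φ σ := by
      intro g hg σ
      rw [Kl_iterate_succ, Kl_cons]
      exact Kop_smul_mem hg _ σ
    rw [Kl_iterate_succ]
    have hpt : ∀ σ' : Perm (Cube d), |(Kl (s0 :: l'))^[R + 1] (cv j φ u) σ'|
        ≤ AjF (s0 :: l') pairs R (σ' ∘ j)
          (Pl (regRep (Fin m)) (swl (σ' ∘ j) pairs) u) := by
      intro σ'
      have h1 := ih (Pl (regRep (Fin m)) (swl (σ' ∘ j) pairs) u) σ'
      rw [i1_iter_cv] at h1 ⊢
      rw [i1_cv_Pl s0 pairs hp j _ hinv σ' u] at h1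
      exact h1
    calc |Kl (s0 :: l') ((Kl (s0 :: l'))^[R + 1] (cv j φ u)) σ|
        ≤ Kl (s0 :: l') (fun σ' => |(Kl (s0 :: l'))^[R + 1] (cv j φ u) σ'|) σ := abs_Kl_le _ _ _
      _ ≤ Kl (s0 :: l') (fun σ' : Perm (Cube d) => AjF (s0 :: l') pairs R (σ' ∘ j)
          (Pl (regRep (Fin m)) (swl (σ' ∘ j) pairs) u)) σ := Kl_mono _ hpt σ
      _ = Kl (s0 :: l') (fun e' => AjF (s0 :: l') pairs R e'
          (Pl (regRep (Fin m)) (swl e' pairs) u)) (σ ∘ j) :=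
          Kl_comp (Y := Perm (Cube d)) (Y' := Fin m → Cube d) (fun σ' => σ' ∘ j)
            (fun g y => rfl) (s0 :: l')
            (fun e' => AjF (s0 :: l') pairs R e' (Pl (regRep (Fin m)) (swl e' pairs) u)) σ
      _ = _ := rfl

end

end Vale.Agent.P162
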