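import Vale.Agent.P162.FSW
import Vale.Agent.P162.Iter1

/-! # Iteration with windows, part 1 -/

namespace Vale.Agent.P162

open Finset Equiv

noncomputable section

variable {d m : ℕ}

lemma fi1_abs_SW_le {A : Type*} [Fintype A] [DecidableEq A] {Y : Type*}
    [MulAction (Perm (Cube d)) Y] {em : Y → A → Cube d} (l : List (Fin d))
    (Φ : Y → List (Perm A) → ℝ) (y : Y) (ts : List (Perm A)) :
    |SW em l Φ y ts| ≤ SW em l (fun y ts => |Φ y ts|) y ts := by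
  rw [abs_le]
  constructor
  · have h := SW_mono (em := em) (Φ := fun y ts => (-1) * |Φ y ts|) (Ψ := Φ)
      (fun y ts => by have := neg_abs_le (Φ y ts); linarith) l y ts
    rw [SW_const_mul] at h
    linarith
  · exact SW_mono (fun y ts => le_abs_self (Φ y ts)) l y ts

lemma fi1_conj_mem (s : Fin d) (j : Fin m ↪ Cube d) (σ : Perm (Cube d)) {h : Perm (Fin m)}
    (hh : h ∈ GT (tau s (σ ∘ j))) : σ * h.viaEmbedding j * σ⁻¹ ∈ GF s := by
  have hinj : Function.Injective (σ ∘ j) := σ.injective.comp j.injective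
  rw [mem_GF]
  intro x
  by_cases hx : σ⁻¹ x ∈ Set.range j
  · obtain ⟨a, ha⟩ := hx
    have hxa : σ (j a) = x := by
      rw [ha]
      exact Equiv.apply_symm_apply σ x
    have h1 : (σ * h.viaEmbedding j * σ⁻¹) x = σ (j (h a)) := by
      rw [Perm.mul_apply, Perm.mul_apply, ← ha, Perm.viaEmbedding_apply]
    rw [h1]
    rcases (mem_GT.mp hh) a with h2 | h2
    · left
      rw [h2, hxa]
    · rcases tau_spec (s := s) hinj a with h3 | h3
      · right
        rw [h2]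
        have h4 : σ (j (tau s (σ ∘ j) a)) = σ (j a) + Pi.single s 1 := h3
        rw [h4, hxa]
      · left
        rw [h2, h3.1, hxa]
  · left
    rw [Perm.mul_apply, Perm.mul_apply, Perm.viaEmbedding_apply_of_notMem _ _ _ hx]
    exact Equiv.apply_symm_apply σ x

lemma fi1_cv_rho (j : Fin m ↪ Cube d) (ψ : Perm (Cube d) → ℝ)
    (u : EuclideanSpace ℝ (Perm (Fin m))) (σ g : Perm (Cube d)) (h : Perm (Fin m)) :
    cv j ψ (regRep (Fin m) h u) (g * σ) =
      cv j ψ u (g * (σ * h.viaEmbedding j * σ⁻¹) * σ) := by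
  show ∑ κ : Perm (Fin m), u (h⁻¹ * κ) * ψ (g * σ * κ.viaEmbedding j) =
    ∑ κ : Perm (Fin m), u κ * ψ (g * (σ * h.viaEmbedding j * σ⁻¹) * σ * κ.viaEmbedding j)
  refine Fintype.sum_equiv (Equiv.mulLeft h⁻¹) _ _ (fun κ => ?_)
  show _ = u (h⁻¹ * κ) * ψ (g * (σ * h.viaEmbedding j * σ⁻¹) * σ * (h⁻¹ * κ).viaEmbedding j)
  have h1 : κ.viaEmbedding j = h.viaEmbedding j * (h⁻¹ * κ).viaEmbedding j := by
    rw [← i1_via_mul, mul_inv_cancel_left]
  have h2 : g * σ * κ.viaEmbedding j =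
      g * (σ * h.viaEmbedding j * σ⁻¹) * σ * (h⁻¹ * κ).viaEmbedding j := by
    rw [h1]
    simp only [mul_assoc, inv_mul_cancel_left]
  rw [h2]

lemma fi1_cv_PT (j : Fin m ↪ Cube d) (ψ : Perm (Cube d) → ℝ) (τ : Perm (Fin m))
    (u : EuclideanSpace ℝ (Perm (Fin m))) (σ : Perm (Cube d)) :
    cv j ψ (PT (regRep (Fin m)) τ u) σ =
      (∑ h ∈ GT τ, cv j ψ (regRep (Fin m) h u) σ) / ((GT τ).card : ℝ) := by
  rw [PT_apply]
  have h1 : ∀ κ : Perm (Fin m), (((GT τ).card : ℝ)⁻¹ • ∑ g ∈ GT τ, (regRep (Fin m)) g u) κ =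
      (∑ g ∈ GT τ, ((regRep (Fin m)) g u) κ) / ((GT τ).card : ℝ) := by
    intro κ
    rw [PiLp.smul_apply, smul_eq_mul, div_eq_inv_mul]
    congr 1
    simp
  show ∑ κ : Perm (Fin m), (((GT τ).card : ℝ)⁻¹ • ∑ g ∈ GT τ, (regRep (Fin m)) g u) κ *
    ψ (σ * κ.viaEmbedding j) = (∑ h ∈ GT τ, ∑ κ : Perm (Fin m), (regRep (Fin m) h u) κ *
    ψ (σ * κ.viaEmbedding j)) / ((GT τ).card : ℝ)
  rw [Finset.sum_comm, Finset.sum_div]
  apply Finset.sum_congr rfl
  intro κ _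
  rw [h1, div_mul_eq_mul_div, Finset.sum_mul]

lemma fi1_step (s : Fin d) (j : Fin m ↪ Cube d) (ψ : Perm (Cube d) → ℝ)
    (u : EuclideanSpace ℝ (Perm (Fin m))) (σ : Perm (Cube d)) :
    Kop s (cv j ψ u) σ = (∑ g ∈ GF s, cv j ψ (PT (regRep (Fin m)) (tau s (σ ∘ j)) u) (g * σ)) /
      ((GF s).card : ℝ) := by
  rw [Kop_apply]
  congr 1
  set τ := tau s (σ ∘ j) with hτ
  have h1 : ∀ h ∈ GT τ, ∑ g ∈ GF s, cv j ψ (regRep (Fin m) h u) (g * σ) =
      ∑ g ∈ GF s, cv j ψ u (g * σ) := by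
    intro h hh
    have hm := fi1_conj_mem s j σ hh
    set h' := σ * h.viaEmbedding j * σ⁻¹ with hh'
    refine Finset.sum_bij' (fun k _ => k * h') (fun k _ => k * h'⁻¹) ?_ ?_ ?_ ?_ ?_
    · intro k hk; exact mul_mem_GF hk hm
    · intro k hk; exact mul_mem_GF hk (inv_mem_GF hm)
    · intro k _; simp
    · intro k _; simp
    · intro k _
      exact fi1_cv_rho j ψ u σ k h
  rw [Finset.sum_congr rfl fun g _ => fi1_cv_PT j ψ τ u (g * σ), ← Finset.sum_div,
    Finset.sum_comm, Finset.sum_congr rfl h1, Finset.sum_const, nsmul_eq_mul,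
    mul_div_right_comm, div_self (GT_card_pos τ).ne', one_mul]
  rfl

lemma fi1_window (lw : List (Fin d)) (j : Fin m ↪ Cube d) (ψ : Perm (Cube d) → ℝ)
    (u : EuclideanSpace ℝ (Perm (Fin m))) (σ : Perm (Cube d)) (ts : List (Perm (Fin m))) :
    Kl lw (cv j ψ (Pw (regRep (Fin m)) ts u)) σ =
      SW (Y := Perm (Cube d)) (A := Fin m) (fun σ => (σ ∘ j : Fin m → Cube d)) lw
        (fun σ'' ts' => cv j ψ (Pw (regRep (Fin m)) ts' u) σ'') σ ts := by
  induction lw generalizing σ ts with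
  | nil => rfl
  | cons s l ih =>
    rw [Kl_cons, i1_Kl_cv, fi1_step, SW_cons]
    congr 1
    apply Finset.sum_congr rfl
    intro g _
    have h1 := ih (g * σ) (tau s (σ ∘ j) :: ts)
    rw [i1_Kl_cv] at h1
    exact h1

theorem biter1 (l0 lw : List (Fin d)) (j : Fin m ↪ Cube d) (R : ℕ)
    (φ : Perm (Cube d) → ℝ) (hφ : ∀ σ, |φ σ| ≤ 1) (u : EuclideanSpace ℝ (Perm (Fin m)))
    (σ : Perm (Cube d)) :
    |(Kl (l0 ++ lw))^[R] (cv j φ u) σ| ≤ BjF l0 lw R (σ ∘ j) u := by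
  induction R generalizing u σ with
  | zero =>
    show |∑ κ : Perm (Fin m), u κ * φ (σ * κ.viaEmbedding j)| ≤ ∑ κ, |u κ|
    refine (Finset.abs_sum_le_sum_abs _ _).trans (Finset.sum_le_sum fun κ _ => ?_)
    rw [abs_mul]
    exact mul_le_of_le_one_right (abs_nonneg _) (hφ _)
  | succ R ih =>
    rw [Kl_iterate_succ, Kl_append]
    have hpt : ∀ σ' : Perm (Cube d),
        |Kl lw ((Kl (l0 ++ lw))^[R] (cv j φ u)) σ'| ≤
        SW (Y := Fin m → Cube d) id lw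
          (fun e'' ts => BjF l0 lw R e'' (Pw (regRep (Fin m)) ts u)) (σ' ∘ j) [] := by
      intro σ'
      rw [i1_iter_cv]
      have h1 := fi1_window lw j ((Kl (l0 ++ lw))^[R] φ) u σ' []
      have h2 : Pw (regRep (Fin m)) ([] : List (Perm (Fin m))) u = u := rfl
      rw [h2] at h1
      rw [h1]
      refine (fi1_abs_SW_le _ _ _ _).trans ?_
      refine (SW_mono (Ψ := fun (σ'' : Perm (Cube d)) ts =>
        BjF l0 lw R (σ'' ∘ j) (Pw (regRep (Fin m)) ts u)) ?_ lw σ' []).trans (le_of_eq ?_)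
      · intro σ'' ts
        have h3 := ih (Pw (regRep (Fin m)) ts u) σ''
        rw [i1_iter_cv] at h3
        exact h3
      · exact SW_map (Y := Perm (Cube d)) (Y' := Fin m → Cube d)
          (em' := id) (fun σ' => (σ' ∘ j : Fin m → Cube d)) (fun g y => rfl) (fun y => rfl) lw
          (fun e'' ts => BjF l0 lw R e'' (Pw (regRep (Fin m)) ts u)) σ' []
    calc |Kl l0 (Kl lw ((Kl (l0 ++ lw))^[R] (cv j φ u))) σ|
        ≤ Kl l0 (fun σ' => |Kl lw ((Kl (l0 ++ lw))^[R] (cv j φ u)) σ'|) σ := abs_Kl_le _ _ _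
      _ ≤ Kl l0 (fun σ' : Perm (Cube d) => SW (Y := Fin m → Cube d) id lw
          (fun e'' ts => BjF l0 lw R e'' (Pw (regRep (Fin m)) ts u)) (σ' ∘ j) []) σ :=
          Kl_mono _ hpt σ
      _ = Kl l0 (fun e' => SW (Y := Fin m → Cube d) id lw
          (fun e'' ts => BjF l0 lw R e'' (Pw (regRep (Fin m)) ts u)) e' []) (σ ∘ j) :=
          Kl_comp (Y := Perm (Cube d)) (Y' := Fin m → Cube d) (fun σ' => σ' ∘ j)
            (fun g y => rfl) l0
            (fun e' => SW (Y := Fin m → Cube d) id lw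
              (fun e'' ts => BjF l0 lw R e'' (Pw (regRep (Fin m)) ts u)) e' []) σ
      _ = _ := rfl

end

end Vale.Agent.P162
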