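import Vale.Agent.P162.IterDefs
import Vale.Agent.P162.KKprops
import Vale.Agent.P162.Dim

/-! # Iteration, part 2: from the chain to uniform permutations, and then to `KK` -/

namespace Vale.Agent.P162

open Finset Equiv
open scoped RealInnerProductSpace

noncomputable section

variable {d m : ℕ}

namespace Iter2Aux

section avg

variable {X : Type*} [Fintype X] [DecidableEq X]

lemma cardPerm_pos' : (0 : ℝ) < (Fintype.card (Perm X) : ℝ) := by
  exact_mod_cast Fintype.card_pos

lemma avgP_mono' {f g : Perm X → ℝ} (h : ∀ x, f x ≤ g x) : avgP f ≤ avgP g := by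
  unfold avgP
  exact div_le_div_of_nonneg_right (Finset.sum_le_sum fun x _ => h x) cardPerm_pos'.le

lemma avgP_const' (c : ℝ) : avgP (fun _ : Perm X => c) = c := by
  unfold avgP
  rw [Finset.sum_const, Finset.card_univ, nsmul_eq_mul, mul_div_assoc, mul_comm,
    div_mul_cancel₀ _ cardPerm_pos'.ne']

lemma avgP_mul_left' (c : ℝ) (f : Perm X → ℝ) : avgP (fun x => c * f x) = c * avgP f := by
  unfold avgP
  rw [← Finset.mul_sum, mul_div_assoc]

lemma avgP_sqrt_le' {a : Perm X → ℝ} (ha : ∀ x, 0 ≤ a x) :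
    avgP (fun x => Real.sqrt (a x)) ≤ Real.sqrt (avgP a) := by
  have hc := cardPerm_pos' (X := X)
  apply Real.le_sqrt_of_sq_le
  have h1 := sq_sum_le_card_mul_sum_sq (s := (Finset.univ : Finset (Perm X)))
    (f := fun x => Real.sqrt (a x))
  rw [Finset.card_univ, Finset.sum_congr rfl fun x _ => Real.sq_sqrt (ha x)] at h1
  unfold avgP
  rw [div_pow, div_le_div_iff₀ (by positivity) hc]
  calc (∑ x, Real.sqrt (a x)) ^ 2 * (Fintype.card (Perm X) : ℝ)
      ≤ (Fintype.card (Perm X) : ℝ) * (∑ x, a x) * (Fintype.card (Perm X) : ℝ) :=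
        mul_le_mul_of_nonneg_right h1 hc.le
    _ = (∑ x, a x) * (Fintype.card (Perm X) : ℝ) ^ 2 := by ring

end avg

section l1

variable {A : Type*} [Fintype A] [DecidableEq A]

/-- the `ℓ¹` norm -/
def nn (u : EuclideanSpace ℝ (Perm A)) : ℝ := ∑ κ, |u κ|

lemma nn_nonneg (u : EuclideanSpace ℝ (Perm A)) : 0 ≤ nn u :=
  Finset.sum_nonneg fun _ _ => abs_nonneg _

lemma nn_half_le (s : Perm A) (u : EuclideanSpace ℝ (Perm A)) :
    nn (half (regRep A) s u) ≤ nn u := by
  have h1 : ∀ κ, |(half (regRep A) s u) κ| ≤ 2⁻¹ * (|u κ| + |u (s⁻¹ * κ)|) := by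
    intro κ
    have h2 : (half (regRep A) s u) κ = 2⁻¹ * (u κ + u (s⁻¹ * κ)) := by
      rw [half_apply]
      rfl
    rw [h2, abs_mul, abs_of_pos (by norm_num : (0 : ℝ) < 2⁻¹)]
    exact mul_le_mul_of_nonneg_left (abs_add_le _ _) (by norm_num)
  unfold nn
  refine (Finset.sum_le_sum fun κ _ => h1 κ).trans ?_
  rw [← Finset.mul_sum, Finset.sum_add_distrib]
  have h3 : ∑ κ, |u (s⁻¹ * κ)| = ∑ κ, |u κ| :=
    Equiv.sum_comp (Equiv.mulLeft (s⁻¹ : Perm A)) fun κ => |u κ|
  rw [h3]
  linarith

lemma nn_Pl_le (l : List (Perm A)) (u : EuclideanSpace ℝ (Perm A)) :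
    nn (Pl (regRep A) l u) ≤ nn u := by
  induction l with
  | nil => exact le_refl _
  | cons s l ih => exact (nn_half_le s _).trans ih

end l1

lemma UF_bounds (j : Fin m → Cube d) (pairs : List (Cube d × Cube d)) (R : ℕ)
    (u : EuclideanSpace ℝ (Perm (Fin m))) : 0 ≤ UF j pairs R u ∧ UF j pairs R u ≤ nn u := by
  induction R generalizing u with
  | zero => exact ⟨nn_nonneg u, le_refl _⟩
  | succ R ih =>
    have e : UF j pairs (R + 1) u = avgP fun g : Perm (Cube d) =>
        UF j pairs R (Pl (regRep (Fin m)) (swl (g ∘ j) pairs) u) := rfl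
    rw [e]
    constructor
    · have := avgP_mono' (X := Cube d) (f := fun _ => 0)
        (g := fun g => UF j pairs R (Pl (regRep (Fin m)) (swl (g ∘ j) pairs) u))
        fun g => (ih _).1
      rwa [avgP_const'] at this
    · have := avgP_mono' (X := Cube d)
        (f := fun g => UF j pairs R (Pl (regRep (Fin m)) (swl (g ∘ j) pairs) u))
        (g := fun _ => nn u) fun g => (ih _).2.trans (nn_Pl_le _ _)
      rwa [avgP_const'] at this

end Iter2Aux

open Iter2Aux

theorem iter2 (l0 : List (Fin d)) (pairs : List (Cube d × Cube d)) (hnd : (flat pairs).Nodup)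
    (j : Fin m → Cube d) (hj : Function.Injective j) (δ : ℝ) (hδ : 0 ≤ δ)
    (hA : ∀ f : (Fin m → Cube d) → ℝ, (∀ e, |f e| ≤ 1) → ∀ e : Fin m → Cube d,
      Function.Injective e → |Kl l0 f e - avgP (fun g : Perm (Cube d) => f (g ∘ j))| ≤ δ)
    (R : ℕ) (u : EuclideanSpace ℝ (Perm (Fin m))) (e : Fin m → Cube d)
    (he : Function.Injective e) :
    AjF l0 pairs R e u ≤ UF j pairs R u + R * δ * ∑ κ, |u κ| := by
  change AjF l0 pairs R e u ≤ UF j pairs R u + R * δ * nn u
  induction R generalizing u e with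
  | zero =>
    have e1 : AjF l0 pairs 0 e u = nn u := rfl
    have e2 : UF j pairs 0 u = nn u := rfl
    rw [e1, e2]
    simp
  | succ R ih =>
    have e1 : AjF l0 pairs (R + 1) e u =
      Kl l0 (fun e' => AjF l0 pairs R e' (Pl (regRep (Fin m)) (swl e' pairs) u)) e := rfl
    have hP : ∀ (g : Perm (Cube d)) (y : Fin m → Cube d), Function.Injective y →
        Function.Injective (g • y) := fun g y hy => g.injective.comp hy
    have h1 : Kl l0 (fun e' => AjF l0 pairs R e' (Pl (regRep (Fin m)) (swl e' pairs) u)) e ≤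
        Kl l0 (fun e' => UF j pairs R (Pl (regRep (Fin m)) (swl e' pairs) u) +
          R * δ * nn u) e := by
      refine Kl_mono_on (fun y : Fin m → Cube d => Function.Injective y) hP l0
        (fun y hy => ?_) e he
      refine (ih _ y hy).trans ?_
      have h2 : (R : ℝ) * δ * nn (Pl (regRep (Fin m)) (swl y pairs) u) ≤ R * δ * nn u :=
        mul_le_mul_of_nonneg_left (nn_Pl_le _ _) (by positivity)
      linarith
    rw [Kl_add, Kl_const] at h1
    have h2 : Kl l0 (fun e' => UF j pairs R (Pl (regRep (Fin m)) (swl e' pairs) u)) e ≤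
        avgP (fun g : Perm (Cube d) =>
          UF j pairs R (Pl (regRep (Fin m)) (swl (g ∘ j) pairs) u)) + δ * nn u := by
      rcases (nn_nonneg u).eq_or_lt with h0 | h0
      · have hz : ∀ e' : Fin m → Cube d,
            UF j pairs R (Pl (regRep (Fin m)) (swl e' pairs) u) = 0 := by
          intro e'
          have h3 := UF_bounds j pairs R (Pl (regRep (Fin m)) (swl e' pairs) u)
          have h4 := nn_Pl_le (swl e' pairs) u
          linarith [h3.1, h3.2]
        have h5 : (fun e' => UF j pairs R (Pl (regRep (Fin m)) (swl e' pairs) u)) =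
            fun _ : Fin m → Cube d => (0 : ℝ) := funext hz
        have h6 : (fun g : Perm (Cube d) =>
            UF j pairs R (Pl (regRep (Fin m)) (swl (g ∘ j) pairs) u)) = fun _ => 0 :=
          funext fun g => hz _
        rw [h5, h6, Kl_const, avgP_const', ← h0]
        simp
      · set c := nn u with hc
        have h3 := hA (fun e' => c⁻¹ * UF j pairs R (Pl (regRep (Fin m)) (swl e' pairs) u))
          (fun e' => by
            have h4 := UF_bounds j pairs R (Pl (regRep (Fin m)) (swl e' pairs) u)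
            have h5 := nn_Pl_le (swl e' pairs) u
            rw [abs_of_nonneg (mul_nonneg (inv_nonneg.mpr h0.le) h4.1), inv_mul_le_iff₀ h0,
              mul_one]
            exact h4.2.trans h5) e he
        rw [Kl_const_mul, avgP_mul_left', ← mul_sub, abs_mul,
          abs_of_pos (inv_pos.mpr h0), inv_mul_le_iff₀ h0] at h3
        have h4 := (abs_le.mp h3).2
        linarith
    have e2 : UF j pairs (R + 1) u = avgP fun g : Perm (Cube d) =>
        UF j pairs R (Pl (regRep (Fin m)) (swl (g ∘ j) pairs) u) := rfl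
    rw [e1, e2]
    push_cast
    linarith

theorem iter3 (pairs : List (Cube d × Cube d)) (hnd : (flat pairs).Nodup)
    (j : Fin m → Cube d) (hj : Function.Injective j) (R : ℕ)
    (u : EuclideanSpace ℝ (Perm (Fin m))) :
    UF j pairs R u ≤ Real.sqrt (Nat.factorial m) *
      Real.sqrt ⟪u, (KK (regRep (Fin m)) j pairs ^ R) u⟫ := by
  have hρ : ∀ (g : Perm (Fin m)) (v : EuclideanSpace ℝ (Perm (Fin m))),
      ‖regRep (Fin m) g v‖ = ‖v‖ := norm_regRep
  induction R generalizing u with
  | zero =>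
    have e1 : UF j pairs 0 u = ∑ κ, |u κ| := rfl
    rw [e1, pow_zero, ← Real.sqrt_mul (Nat.cast_nonneg _)]
    apply Real.le_sqrt_of_sq_le
    have h1 := sq_sum_le_card_mul_sum_sq (s := (Finset.univ : Finset (Perm (Fin m))))
      (f := fun κ => |u κ|)
    rw [Finset.card_univ, Fintype.card_perm, Fintype.card_fin] at h1
    refine h1.trans (le_of_eq ?_)
    congr 1
    have h2 : ⟪u, (1 : Module.End ℝ (EuclideanSpace ℝ (Perm (Fin m)))) u⟫ = ‖u‖ ^ 2 :=
      real_inner_self_eq_norm_sq u
    rw [h2, EuclideanSpace.norm_sq_eq]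
    rfl
  | succ R ih =>
    have e2 : UF j pairs (R + 1) u = avgP fun g : Perm (Cube d) =>
        UF j pairs R (Pl (regRep (Fin m)) (swl (g ∘ j) pairs) u) := rfl
    rw [e2, KK_pow_succ hρ hj pairs hnd u R]
    refine (avgP_mono' fun g => ih _).trans ?_
    rw [avgP_mul_left']
    refine mul_le_mul_of_nonneg_left ?_ (Real.sqrt_nonneg _)
    exact avgP_sqrt_le' fun g => KK_pow_nonneg hρ hj pairs hnd _ R

end

end Vale.Agent.P162
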