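import Vale.Agent.P162.FConj
import Vale.Agent.P162.FAbs
import Vale.Agent.P162.Iter2

/-! # Iteration with windows, part 2 -/

namespace Vale.Agent.P162

open Finset Equiv
open scoped RealInnerProductSpace

noncomputable section

variable {d m : ℕ}

namespace FIter2Aux

open Iter2Aux

section avg

variable {X : Type*} [Fintype X] [DecidableEq X]

lemma avgP_add' (f g : Perm X → ℝ) : avgP (fun x => f x + g x) = avgP f + avgP g := by
  unfold avgP
  rw [Finset.sum_add_distrib, add_div]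

end avg

section l1

variable {A : Type*} [Fintype A] [DecidableEq A]

lemma nn_PT_le (τ : Perm A) (u : EuclideanSpace ℝ (Perm A)) :
    nn (PT (regRep A) τ u) ≤ nn u := by
  have hc := GT_card_pos τ
  have h1 : ∀ κ, |(PT (regRep A) τ u) κ| ≤
      ((GT τ).card : ℝ)⁻¹ * ∑ g ∈ GT τ, |u (g⁻¹ * κ)| := by
    intro κ
    have h2 : (PT (regRep A) τ u) κ = ((GT τ).card : ℝ)⁻¹ * ∑ g ∈ GT τ, u (g⁻¹ * κ) := by
      rw [PT_apply]
      rw [PiLp.smul_apply, smul_eq_mul]
      congr 1
      rw [WithLp.ofLp_sum, Finset.sum_apply]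
      rfl
    rw [h2, abs_mul, abs_of_pos (inv_pos.mpr hc)]
    exact mul_le_mul_of_nonneg_left (Finset.abs_sum_le_sum_abs _ _) (inv_pos.mpr hc).le
  unfold nn
  refine (Finset.sum_le_sum fun κ _ => h1 κ).trans ?_
  rw [← Finset.mul_sum, Finset.sum_comm]
  have h3 : ∀ g ∈ GT τ, ∑ κ, |u (g⁻¹ * κ)| = ∑ κ, |u κ| := fun g _ =>
    Equiv.sum_comp (Equiv.mulLeft (g⁻¹ : Perm A)) fun κ => |u κ|
  rw [Finset.sum_congr rfl h3, Finset.sum_const, nsmul_eq_mul, ← mul_assoc,
    inv_mul_cancel₀ hc.ne', one_mul]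

lemma nn_Pw_le (l : List (Perm A)) (u : EuclideanSpace ℝ (Perm A)) :
    nn (Pw (regRep A) l u) ≤ nn u := by
  induction l with
  | nil => exact le_refl _
  | cons s l ih => exact (nn_PT_le s _).trans ih

end l1

section bounds

lemma SW_le_const (l : List (Fin d)) {Φ : (Fin m → Cube d) → List (Perm (Fin m)) → ℝ} {c : ℝ}
    (h : ∀ y ts, Φ y ts ≤ c) (y : Fin m → Cube d) (ts : List (Perm (Fin m))) :
    SW (Y := Fin m → Cube d) id l Φ y ts ≤ c := by
  have := SW_mono (em := (id : (Fin m → Cube d) → Fin m → Cube d)) (Φ := Φ)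
    (Ψ := fun _ _ => c) h l y ts
  rwa [SW_const] at this

lemma BjF_bounds (l0 lw : List (Fin d)) (R : ℕ) (e : Fin m → Cube d)
    (u : EuclideanSpace ℝ (Perm (Fin m))) : 0 ≤ BjF l0 lw R e u ∧ BjF l0 lw R e u ≤ nn u := by
  induction R generalizing u e with
  | zero => exact ⟨nn_nonneg u, le_refl _⟩
  | succ R ih =>
    have e1 : BjF l0 lw (R + 1) e u = Kl l0 (fun e' => SW (Y := Fin m → Cube d) id lw
      (fun e'' ts => BjF l0 lw R e'' (Pw (regRep (Fin m)) ts u)) e' []) e := rfl
    rw [e1]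
    constructor
    · have := Kl_mono l0 (φ := fun _ : Fin m → Cube d => 0)
        (ψ := fun e' => SW (Y := Fin m → Cube d) id lw
          (fun e'' ts => BjF l0 lw R e'' (Pw (regRep (Fin m)) ts u)) e' [])
        (fun e' => SW_nonneg (fun e'' ts => (ih e'' _).1) lw e' []) e
      rwa [Kl_const] at this
    · have := Kl_mono l0 (φ := fun e' => SW (Y := Fin m → Cube d) id lw
          (fun e'' ts => BjF l0 lw R e'' (Pw (regRep (Fin m)) ts u)) e' [])
        (ψ := fun _ : Fin m → Cube d => nn u)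
        (fun e' => SW_le_const lw (fun e'' ts => (ih e'' _).2.trans (nn_Pw_le _ _)) e' []) e
      rwa [Kl_const] at this

open Classical in
lemma VF_bounds (ν : ℕ) (j : Fin m → Cube d) (lw : List (Fin d)) (R : ℕ)
    (u : EuclideanSpace ℝ (Perm (Fin m))) : 0 ≤ VF ν j lw R u ∧ VF ν j lw R u ≤ nn u := by
  induction R generalizing u with
  | zero => exact ⟨nn_nonneg u, le_refl _⟩
  | succ R ih =>
    have e : VF ν j lw (R + 1) u = avgP fun g : Perm (Cube d) =>
      SW (Y := Fin m → Cube d) id lw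
        (fun _ ts => if Good (pot ν ts) then VF ν j lw R (Pw (regRep (Fin m)) ts u) else 0)
        (g ∘ j) [] := rfl
    rw [e]
    constructor
    · apply FConj_avgP_nonneg
      intro g
      apply SW_nonneg
      intro y ts
      split_ifs
      · exact (ih _).1
      · exact le_refl _
    · have := avgP_mono' (X := Cube d)
        (f := fun g => SW (Y := Fin m → Cube d) id lw
          (fun _ ts => if Good (pot ν ts) then VF ν j lw R (Pw (regRep (Fin m)) ts u) else 0)
          (g ∘ j) [])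
        (g := fun _ => nn u) fun g => SW_le_const lw (fun y ts => by
          split_ifs
          · exact (ih _).2.trans (nn_Pw_le _ _)
          · exact nn_nonneg u) _ _
      rwa [avgP_const'] at this

end bounds

section jensen

lemma avg_sqrt_le {ι : Type*} (s : Finset ι) (hs : (0 : ℝ) < (s.card : ℝ)) {a : ι → ℝ}
    (ha : ∀ x ∈ s, 0 ≤ a x) :
    (∑ x ∈ s, Real.sqrt (a x)) / (s.card : ℝ) ≤ Real.sqrt ((∑ x ∈ s, a x) / (s.card : ℝ)) := by
  apply Real.le_sqrt_of_sq_le
  have h1 := sq_sum_le_card_mul_sum_sq (s := s) (f := fun x => Real.sqrt (a x))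
  rw [Finset.sum_congr rfl fun x hx => Real.sq_sqrt (ha x hx)] at h1
  rw [div_pow, div_le_div_iff₀ (by positivity) hs]
  calc (∑ x ∈ s, Real.sqrt (a x)) ^ 2 * (s.card : ℝ)
      ≤ (s.card : ℝ) * (∑ x ∈ s, a x) * (s.card : ℝ) :=
        mul_le_mul_of_nonneg_right h1 hs.le
    _ = (∑ x ∈ s, a x) * (s.card : ℝ) ^ 2 := by ring

lemma SW_sqrt_le (l : List (Fin d)) {Φ : (Fin m → Cube d) → List (Perm (Fin m)) → ℝ}
    (h : ∀ y ts, 0 ≤ Φ y ts) (y : Fin m → Cube d) (ts : List (Perm (Fin m))) :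
    SW (Y := Fin m → Cube d) id l (fun y ts => Real.sqrt (Φ y ts)) y ts ≤
      Real.sqrt (SW (Y := Fin m → Cube d) id l Φ y ts) := by
  induction l generalizing y ts with
  | nil => exact le_refl _
  | cons s l ih =>
    rw [SW_cons, SW_cons]
    refine le_trans ?_ (avg_sqrt_le (GF s) (GF_card_pos s) fun g _ => SW_nonneg h l _ _)
    apply div_le_div_of_nonneg_right _ (GF_card_pos s).le
    exact Finset.sum_le_sum fun g _ => ih _ _

end jensen

section quad

variable {A : Type*} [Fintype A] [DecidableEq A]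
variable {H : Type*} [NormedAddCommGroup H] [InnerProductSpace ℝ H]
variable {ρ : Perm A →* (H →ₗ[ℝ] H)}

/-- the form of `kern` twisted by an operator commuting with the representation -/
lemma sum_kern_inner' (hρ : ∀ g v, ‖ρ g v‖ = ‖v‖) (S : H →ₗ[ℝ] H)
    (hS : ∀ g v, S (ρ g v) = ρ g (S v)) (l : List (Perm A)) (v : H) :
    ∑ π, kern l π * ⟪v, S (ρ π v)⟫ = ⟪Pw ρ l v, S (Pw ρ l v)⟫ := by
  rw [sum_kern, Pw_eq, map_sum, sum_inner]
  apply Finset.sum_congr rfl
  intro G _
  rw [inner_sum]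
  apply Finset.sum_congr rfl
  intro G' _
  rw [map_smul, real_inner_smul_left, real_inner_smul_right, inner_rho_left hρ, ← hS,
    rho_mul_apply]
  ring

open Classical in
lemma pk_inner' (hρ : ∀ g v, ‖ρ g v‖ = ‖v‖) (S : H →ₗ[ℝ] H)
    (hS : ∀ g v, S (ρ g v) = ρ g (S v)) (ν : ℕ) (j : A → Cube d) (l : List (Fin d)) (v : H) :
    ⟪v, S (Pop ρ (pk ν j l) v)⟫ = avgP fun g : Perm (Cube d) =>
      SW (Y := A → Cube d) id l
        (fun _ ts => if Good (pot ν ts) then ⟪Pw ρ ts v, S (Pw ρ ts v)⟫ else 0) (g ∘ j) [] := by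
  rw [Pop_apply, map_sum, inner_sum]
  have e1 : ∀ ts : List (Perm A),
      (if Good (pot ν ts) then ⟪Pw ρ ts v, S (Pw ρ ts v)⟫ else 0) =
      ∑ π : Perm A, ⟪v, S (ρ π v)⟫ * (if Good (pot ν ts) then kern ts π else 0) := by
    intro ts
    split_ifs with h
    · rw [← sum_kern_inner' hρ S hS ts v]
      exact Finset.sum_congr rfl fun π _ => mul_comm _ _
    · simp
  simp only [e1]
  have e2 : ∀ g : Perm (Cube d), SW (Y := A → Cube d) id l (fun _ ts =>
      ∑ π : Perm A, ⟪v, S (ρ π v)⟫ * (if Good (pot ν ts) then kern ts π else 0)) (g ∘ j) [] =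
      ∑ π : Perm A, ⟪v, S (ρ π v)⟫ * SW (Y := A → Cube d) id l (fun _ ts =>
        if Good (pot ν ts) then kern ts π else 0) (g ∘ j) [] := by
    intro g
    rw [SW_sum Finset.univ l (fun π _ ts => ⟪v, S (ρ π v)⟫ *
      (if Good (pot ν ts) then kern ts π else 0))]
    refine Finset.sum_congr rfl fun π _ => ?_
    rw [SW_const_mul]
  simp only [e2]
  unfold avgP pk avgP
  rw [Finset.sum_comm, Finset.sum_div]
  refine Finset.sum_congr rfl fun π _ => ?_
  rw [map_smul, real_inner_smul_right, ← Finset.mul_sum]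
  ring

lemma Pop_pow_rho {ν : ℕ} {p : Perm A → ℝ} (hp : PK ν p) (R : ℕ) (g : Perm A) (v : H) :
    (Pop ρ p ^ R) (ρ g v) = ρ g ((Pop ρ p ^ R) v) := by
  induction R generalizing v with
  | zero => rfl
  | succ R ih =>
    rw [pow_succ]
    change (Pop ρ p ^ R) (Pop ρ p (ρ g v)) = ρ g ((Pop ρ p ^ R) (Pop ρ p v))
    rw [Pop_rho hp, ih]

lemma Pop_pow_nonneg (hρ : ∀ g v, ‖ρ g v‖ = ‖v‖) {ν : ℕ} (j : A → Cube d) (l : List (Fin d))
    (hp : PK ν (pk ν j l)) (R : ℕ) (v : H) :
    0 ≤ ⟪v, (Pop ρ (pk ν j l) ^ R) v⟫ := by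
  classical
  induction R generalizing v with
  | zero =>
    have h2 : ⟪v, (Pop ρ (pk ν j l) ^ 0) v⟫ = ‖v‖ ^ 2 := real_inner_self_eq_norm_sq v
    rw [h2]
    positivity
  | succ R ih =>
    have h1 : (Pop ρ (pk ν j l) ^ (R + 1)) v = (Pop ρ (pk ν j l) ^ R) (Pop ρ (pk ν j l) v) := by
      rw [pow_succ]
      rfl
    rw [h1, pk_inner' hρ (Pop ρ (pk ν j l) ^ R) (fun g v => Pop_pow_rho hp R g v)]
    apply FConj_avgP_nonneg
    intro g
    apply SW_nonneg
    intro y ts
    split_ifs
    · exact ih _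
    · exact le_refl _

end quad

end FIter2Aux

open Iter2Aux FIter2Aux

open Classical in
theorem biter2 (l0 lw : List (Fin d)) (ν : ℕ) (j : Fin m → Cube d) (hj : Function.Injective j)
    (δ δ' : ℝ) (hδ : 0 ≤ δ)
    (hA : ∀ f : (Fin m → Cube d) → ℝ, (∀ e, |f e| ≤ 1) → ∀ e : Fin m → Cube d,
      Function.Injective e → |Kl l0 f e - avgP (fun g : Perm (Cube d) => f (g ∘ j))| ≤ δ)
    (hbad : avgP (fun g : Perm (Cube d) => SW (Y := Fin m → Cube d) id lw
      (fun _ ts => if Good (pot ν ts) then (0 : ℝ) else 1) (g ∘ j) []) ≤ δ')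
    (R : ℕ) (u : EuclideanSpace ℝ (Perm (Fin m))) (e : Fin m → Cube d)
    (he : Function.Injective e) :
    BjF l0 lw R e u ≤ VF ν j lw R u + R * (δ + δ') * ∑ κ, |u κ| := by
  have hδ' : 0 ≤ δ' := by
    refine le_trans ?_ hbad
    apply FConj_avgP_nonneg
    intro g
    apply SW_nonneg
    intro y ts
    split_ifs
    · exact le_refl _
    · exact zero_le_one
  change BjF l0 lw R e u ≤ VF ν j lw R u + R * (δ + δ') * nn u
  induction R generalizing u e with
  | zero =>
    have e1 : BjF l0 lw 0 e u = nn u := rfl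
    have e2 : VF ν j lw 0 u = nn u := rfl
    rw [e1, e2]
    simp
  | succ R ih =>
    have e1 : BjF l0 lw (R + 1) e u = Kl l0 (fun e' => SW (Y := Fin m → Cube d) id lw
      (fun e'' ts => BjF l0 lw R e'' (Pw (regRep (Fin m)) ts u)) e' []) e := rfl
    have e2 : VF ν j lw (R + 1) u = avgP fun g : Perm (Cube d) =>
      SW (Y := Fin m → Cube d) id lw
        (fun _ ts => if Good (pot ν ts) then VF ν j lw R (Pw (regRep (Fin m)) ts u) else 0)
        (g ∘ j) [] := rfl
    -- the functional of one block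
    set f : (Fin m → Cube d) → ℝ := fun e' => SW (Y := Fin m → Cube d) id lw
      (fun e'' ts => BjF l0 lw R e'' (Pw (regRep (Fin m)) ts u)) e' [] with hf
    have hfb : ∀ e', 0 ≤ f e' ∧ f e' ≤ nn u := fun e' =>
      ⟨SW_nonneg (fun e'' ts => (BjF_bounds l0 lw R e'' _).1) lw e' [],
        SW_le_const lw (fun e'' ts => (BjF_bounds l0 lw R e'' _).2.trans (nn_Pw_le _ _)) e' []⟩
    have h2 : Kl l0 f e ≤ avgP (fun g : Perm (Cube d) => f (g ∘ j)) + δ * nn u := by
      rcases (nn_nonneg u).eq_or_lt with h0 | h0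
      · have h5 : f = fun _ : Fin m → Cube d => (0 : ℝ) := funext fun e' => by
          have h3 := hfb e'
          linarith [h3.1, h3.2]
        rw [h5, Kl_const, avgP_const', ← h0]
        simp
      · set c := nn u with hc
        have h3 := hA (fun e' => c⁻¹ * f e')
          (fun e' => by
            have h4 := hfb e'
            rw [abs_of_nonneg (mul_nonneg (inv_nonneg.mpr h0.le) h4.1), inv_mul_le_iff₀ h0,
              mul_one]
            exact h4.2) e he
        rw [Kl_const_mul, avgP_mul_left', ← mul_sub, abs_mul,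
          abs_of_pos (inv_pos.mpr h0), inv_mul_le_iff₀ h0] at h3
        have h4 := (abs_le.mp h3).2
        linarith
    have h3 : ∀ g : Perm (Cube d), f (g ∘ j) ≤
        SW (Y := Fin m → Cube d) id lw
          (fun _ ts => if Good (pot ν ts) then VF ν j lw R (Pw (regRep (Fin m)) ts u) else 0)
          (g ∘ j) [] + (nn u * SW (Y := Fin m → Cube d) id lw
          (fun _ ts => if Good (pot ν ts) then (0 : ℝ) else 1) (g ∘ j) [] +
          R * (δ + δ') * nn u) := by
      intro g
      have h4 : f (g ∘ j) ≤ SW (Y := Fin m → Cube d) id lw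
          (fun _ ts => (if Good (pot ν ts) then VF ν j lw R (Pw (regRep (Fin m)) ts u) else 0) +
            (nn u * (if Good (pot ν ts) then (0 : ℝ) else 1) + R * (δ + δ') * nn u))
          (g ∘ j) [] := by
        refine SW_mono_on (Y := Fin m → Cube d) (fun _ y _ => Function.Injective y)
          (fun s l y ts hy g _ => smul_inj hy g) (fun y ts hy => ?_) lw (g ∘ j) []
          (g.injective.comp hj)
        have h5 : (R : ℝ) * (δ + δ') * nn (Pw (regRep (Fin m)) ts u) ≤
            R * (δ + δ') * nn u :=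
          mul_le_mul_of_nonneg_left (nn_Pw_le _ _) (by positivity)
        split_ifs with hg
        · have h6 := ih (Pw (regRep (Fin m)) ts u) y hy
          linarith
        · have h6 := (BjF_bounds l0 lw R y (Pw (regRep (Fin m)) ts u)).2.trans (nn_Pw_le ts u)
          have h7 : 0 ≤ (R : ℝ) * (δ + δ') * nn u :=
            mul_nonneg (by positivity) (nn_nonneg u)
          linarith
      refine h4.trans (le_of_eq ?_)
      rw [SW_add (em := (id : (Fin m → Cube d) → Fin m → Cube d)) lw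
        (fun _ ts => if Good (pot ν ts) then VF ν j lw R (Pw (regRep (Fin m)) ts u) else 0)
        (fun _ ts => nn u * (if Good (pot ν ts) then (0 : ℝ) else 1) + R * (δ + δ') * nn u),
        SW_add (em := (id : (Fin m → Cube d) → Fin m → Cube d)) lw
        (fun _ ts => nn u * (if Good (pot ν ts) then (0 : ℝ) else 1))
        (fun _ _ => R * (δ + δ') * nn u), SW_const, SW_const_mul]
    have h4 := avgP_mono' h3
    rw [avgP_add', avgP_add', avgP_mul_left', avgP_const', ← e2] at h4
    have h5 := mul_le_mul_of_nonneg_left hbad (nn_nonneg u)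
    rw [e1]
    push_cast
    linarith

theorem biter3 (lw : List (Fin d)) (ν : ℕ) (j : Fin m → Cube d)
    (hp : PK ν (pk ν j lw)) (R : ℕ) (u : EuclideanSpace ℝ (Perm (Fin m))) :
    VF ν j lw R u ≤ Real.sqrt (Nat.factorial m) *
      Real.sqrt ⟪u, (Pop (regRep (Fin m)) (pk ν j lw) ^ R) u⟫ := by
  classical
  have hρ : ∀ (g : Perm (Fin m)) (v : EuclideanSpace ℝ (Perm (Fin m))),
      ‖regRep (Fin m) g v‖ = ‖v‖ := norm_regRep
  induction R generalizing u with
  | zero =>
    have e1 : VF ν j lw 0 u = ∑ κ, |u κ| := rfl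
    rw [e1, pow_zero, ← Real.sqrt_mul (Nat.cast_nonneg _)]
    apply Real.le_sqrt_of_sq_le
    have h1 := sq_sum_le_card_mul_sum_sq (s := (Finset.univ : Finset (Perm (Fin m))))
      (f := fun κ => |u κ|)
    rw [Finset.card_univ, Fintype.card_perm, Fintype.card_fin] at h1
    refine h1.trans (le_of_eq ?_)
    congr 1
    have h2 : ⟪u, (1 : Module.End ℝ (EuclideanSpace ℝ (Perm (Fin m)))) u⟫ = ‖u‖ ^ 2 :=
      real_inner_self_eq_norm_sq u
    rw [h2, EuclideanSpace.norm_sq_eq]
    rfl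
  | succ R ih =>
    have e2 : VF ν j lw (R + 1) u = avgP fun g : Perm (Cube d) =>
      SW (Y := Fin m → Cube d) id lw
        (fun _ ts => if Good (pot ν ts) then VF ν j lw R (Pw (regRep (Fin m)) ts u) else 0)
        (g ∘ j) [] := rfl
    set T := Pop (regRep (Fin m)) (pk ν j lw) with hT
    have h1 : (T ^ (R + 1)) u = (T ^ R) (T u) := by
      rw [pow_succ]
      rfl
    have hnn : ∀ v, 0 ≤ ⟪v, (T ^ R) v⟫ := fun v => Pop_pow_nonneg hρ j lw hp R v
    have hΦ : ∀ (y : Fin m → Cube d) (ts : List (Perm (Fin m))), 0 ≤ (fun (_ : Fin m → Cube d)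
        (ts : List (Perm (Fin m))) => if Good (pot ν ts) then
          ⟪Pw (regRep (Fin m)) ts u, (T ^ R) (Pw (regRep (Fin m)) ts u)⟫ else 0) y ts := by
      intro y ts
      show 0 ≤ if Good (pot ν ts) then
          ⟪Pw (regRep (Fin m)) ts u, (T ^ R) (Pw (regRep (Fin m)) ts u)⟫ else 0
      split_ifs
      · exact hnn _
      · exact le_refl _
    rw [e2, h1, hT, pk_inner' hρ (Pop (regRep (Fin m)) (pk ν j lw) ^ R)
      (fun g v => Pop_pow_rho hp R g v), ← hT]
    have h2 : ∀ g : Perm (Cube d), SW (Y := Fin m → Cube d) id lw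
        (fun _ ts => if Good (pot ν ts) then VF ν j lw R (Pw (regRep (Fin m)) ts u) else 0)
        (g ∘ j) [] ≤ Real.sqrt (Nat.factorial m) * Real.sqrt (SW (Y := Fin m → Cube d) id lw
        (fun _ ts => if Good (pot ν ts) then
          ⟪Pw (regRep (Fin m)) ts u, (T ^ R) (Pw (regRep (Fin m)) ts u)⟫ else 0) (g ∘ j) []) := by
      intro g
      have h3 : SW (Y := Fin m → Cube d) id lw
          (fun _ ts => if Good (pot ν ts) then VF ν j lw R (Pw (regRep (Fin m)) ts u) else 0)
          (g ∘ j) [] ≤ SW (Y := Fin m → Cube d) id lw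
          (fun _ ts => Real.sqrt (Nat.factorial m) * Real.sqrt (if Good (pot ν ts) then
            ⟪Pw (regRep (Fin m)) ts u, (T ^ R) (Pw (regRep (Fin m)) ts u)⟫ else 0))
          (g ∘ j) [] := by
        refine SW_mono (fun y ts => ?_) lw _ _
        split_ifs
        · exact ih _
        · simp
      refine h3.trans ?_
      rw [SW_const_mul (em := (id : (Fin m → Cube d) → Fin m → Cube d)) lw
        (Real.sqrt (Nat.factorial m)) (fun _ ts => Real.sqrt (if Good (pot ν ts) then
            ⟪Pw (regRep (Fin m)) ts u, (T ^ R) (Pw (regRep (Fin m)) ts u)⟫ else 0))]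
      exact mul_le_mul_of_nonneg_left (SW_sqrt_le lw hΦ _ _) (Real.sqrt_nonneg _)
    refine (avgP_mono' h2).trans ?_
    rw [avgP_mul_left']
    refine mul_le_mul_of_nonneg_left ?_ (Real.sqrt_nonneg _)
    exact avgP_sqrt_le' fun g => SW_nonneg hΦ lw _ _

end

end Vale.Agent.P162
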