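import Vale.Agent.P162.ThorpDefs

/-! # The counting lower bound -/

namespace Vale.Agent.P162

open Finset Equiv

noncomputable section

lemma flower_law (h : ℕ) :
    (univ.filter fun k : Perm (Fin (2 * h)) => thorpLaw h k ≠ 0).card ≤ 2 ^ h := by
  classical
  have h1 : ∀ k ∈ univ.filter (fun k : Perm (Fin (2 * h)) => thorpLaw h k ≠ 0),
      ∃ c : Fin h → Bool,
        ∀ i, (k i : ℕ) = thorpPos h (fun k => if hk : k < h then c ⟨k, hk⟩ else false) i := by
    intro k hk
    rw [Finset.mem_filter] at hk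
    by_contra hcon
    push Not at hcon
    apply hk.2
    unfold thorpLaw
    rw [Finset.filter_eq_empty_iff.mpr, Finset.card_empty, Nat.cast_zero, zero_div]
    intro c _ hc
    obtain ⟨i, hi⟩ := hcon c
    exact hi (hc i)
  choose! f hf using h1
  have h2 : (univ.filter fun k : Perm (Fin (2 * h)) => thorpLaw h k ≠ 0).card ≤
      (univ : Finset (Fin h → Bool)).card := by
    apply Finset.card_le_card_of_injOn f
    · intro k _
      exact Finset.mem_coe.mpr (Finset.mem_univ _)
    · intro k hk k' hk' he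
      ext i
      rw [hf k hk i, hf k' hk' i, he]
  refine h2.trans (le_of_eq ?_)
  rw [Finset.card_univ]
  simp

lemma flower_supp (h t : ℕ) :
    (univ.filter fun g : Perm (Fin (2 * h)) => convPow h t g ≠ 0).card ≤ (2 ^ h) ^ t := by
  classical
  induction t with
  | zero =>
    rw [pow_zero]
    have : (univ.filter fun g : Perm (Fin (2 * h)) => convPow h 0 g ≠ 0) ⊆ {1} := by
      intro g hg
      rw [Finset.mem_filter] at hg
      rw [Finset.mem_singleton]
      by_contra hne
      apply hg.2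
      show (if g = 1 then (1 : ℝ) else 0) = 0
      rw [if_neg hne]
    exact (Finset.card_le_card this).trans (le_of_eq (Finset.card_singleton _))
  | succ t ih =>
    have hsub : (univ.filter fun g : Perm (Fin (2 * h)) => convPow h (t + 1) g ≠ 0) ⊆
        Finset.image₂ (fun k g => k * g)
          (univ.filter fun k : Perm (Fin (2 * h)) => thorpLaw h k ≠ 0)
          (univ.filter fun g : Perm (Fin (2 * h)) => convPow h t g ≠ 0) := by
      intro g hg
      rw [Finset.mem_filter] at hg
      have h1 : ∑ k, thorpLaw h k * convPow h t (k⁻¹ * g) ≠ 0 := hg.2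
      obtain ⟨k, _, hk⟩ := Finset.exists_ne_zero_of_sum_ne_zero h1
      rw [Finset.mem_image₂]
      refine ⟨k, ?_, k⁻¹ * g, ?_, ?_⟩
      · rw [Finset.mem_filter]
        exact ⟨Finset.mem_univ _, left_ne_zero_of_mul hk⟩
      · rw [Finset.mem_filter]
        exact ⟨Finset.mem_univ _, right_ne_zero_of_mul hk⟩
      · exact mul_inv_cancel_left k g
    calc _ ≤ _ := Finset.card_le_card hsub
      _ ≤ _ := Finset.card_image₂_le _ _ _
      _ ≤ 2 ^ h * (2 ^ h) ^ t := Nat.mul_le_mul (flower_law h) ih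
      _ = _ := by rw [pow_succ]; ring

theorem tmix_lower (d t : ℕ) (hd : 1 ≤ d) (h : tvDist (2 ^ d) t ≤ 1 / 4) : d ≤ t := by
  classical
  set H : ℕ := 2 ^ d with hH
  have hH2 : 2 ≤ H := by
    calc 2 = 2 ^ 1 := rfl
      _ ≤ 2 ^ d := Nat.pow_le_pow_right (by norm_num) hd
  set N : ℝ := (Nat.factorial (2 * H) : ℝ) with hN
  have hN0 : 0 < N := by rw [hN]; exact_mod_cast Nat.factorial_pos _
  set S := univ.filter fun g : Perm (Fin (2 * H)) => convPow H t g ≠ 0 with hS
  have h1 : (1 / 2 : ℝ) * ∑ g ∈ Sᶜ, 1 / N ≤ tvDist H t := by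
    unfold tvDist
    apply mul_le_mul_of_nonneg_left _ (by norm_num)
    calc ∑ g ∈ Sᶜ, 1 / N = ∑ g ∈ Sᶜ, |convPow H t g - 1 / N| := by
          apply Finset.sum_congr rfl
          intro g hg
          rw [Finset.mem_compl, hS, Finset.mem_filter] at hg
          have h2 : convPow H t g = 0 := by
            by_contra hne
            exact hg ⟨Finset.mem_univ _, hne⟩
          rw [h2, zero_sub, abs_neg, abs_of_pos (by positivity)]
      _ ≤ _ := Finset.sum_le_sum_of_subset_of_nonneg (Finset.subset_univ _)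
          (fun g _ _ => abs_nonneg _)
  have hcard : (Sᶜ.card : ℝ) = N - S.card := by
    rw [Finset.card_compl, Fintype.card_perm, Fintype.card_fin, Nat.cast_sub]
    have := Finset.card_le_univ S
    rwa [Fintype.card_perm, Fintype.card_fin] at this
  rw [Finset.sum_const, nsmul_eq_mul, hcard] at h1
  have h2 : (1 / 2 : ℝ) * ((N - S.card) * (1 / N)) ≤ 1 / 4 := h1.trans h
  have h3 : N ≤ 2 * (S.card : ℝ) := by
    have e1 : (1 / 2 : ℝ) * ((N - S.card) * (1 / N)) = (N - S.card) / (2 * N) := by
      field_simp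
    rw [e1, div_le_iff₀ (by positivity)] at h2
    linarith
  have h4 : Nat.factorial (2 * H) ≤ 2 * (2 ^ H) ^ t := by
    have h5 := flower_supp H t
    have h6 : Nat.factorial (2 * H) ≤ 2 * S.card := by
      rw [hN] at h3
      exact_mod_cast h3
    exact h6.trans (Nat.mul_le_mul_left 2 h5)
  have h5 : 2 * (2 ^ d) ^ H < Nat.factorial (2 * H) := by
    have h6 := Nat.factorial_mul_pow_le_factorial (m := H) (n := H)
    have h7 : 2 ≤ Nat.factorial H := by
      calc 2 = Nat.factorial 2 := rfl
        _ ≤ Nat.factorial H := Nat.factorial_le hH2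
    have h8 : (2 ^ d) ^ H < (H + 1) ^ H := Nat.pow_lt_pow_left (by omega) (by omega)
    calc 2 * (2 ^ d) ^ H < 2 * (H + 1) ^ H := by omega
      _ ≤ Nat.factorial H * (H + 1) ^ H := Nat.mul_le_mul_right _ h7
      _ ≤ Nat.factorial (H + H) := h6
      _ = Nat.factorial (2 * H) := by rw [two_mul]
  have h6 : 2 * (2 ^ d) ^ H < 2 * (2 ^ H) ^ t := lt_of_lt_of_le h5 h4
  have h7 : 2 ^ (d * H) < 2 ^ (H * t) := by
    rw [pow_mul, pow_mul]
    omega
  have h8 : d * H < H * t := (Nat.pow_lt_pow_iff_right (by norm_num)).mp h7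
  rw [mul_comm d H] at h8
  exact (Nat.lt_of_mul_lt_mul_left h8).le

end

end Vale.Agent.P162
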