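import Mathlib

/-! # Numerical estimates for the linear bound -/

namespace Vale.Agent.P162

open Finset

noncomputable section

lemma fnum_theta (n : ℕ) (hn : 1 ≤ n) : (1 - 1 / (n : ℝ)) ^ n ≤ 1 / 2 := by
  have h := Real.one_sub_div_pow_le_exp_neg (n := n) (t := 1) (by exact_mod_cast hn)
  have h2 := Real.exp_neg_one_lt_d9
  linarith

lemma fnum_choose (m k : ℕ) (hk : 1 ≤ k) :
    ((m.choose k : ℕ) : ℝ) ≤ (3 * (m : ℝ) / k) ^ k := by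
  have hk0 : (0 : ℝ) < k := by exact_mod_cast hk
  have h1 : ((m.choose k : ℕ) : ℝ) ≤ (m : ℝ) ^ k / (k.factorial : ℝ) := Nat.choose_le_pow_div k m
  have h2 := Real.pow_div_factorial_le_exp (k : ℝ) hk0.le k
  have h3 : Real.exp (k : ℝ) ≤ 3 ^ k := by
    rw [← Real.exp_one_pow]
    exact pow_le_pow_left₀ (Real.exp_pos 1).le (by linarith [Real.exp_one_lt_d9]) k
  have hf : (0 : ℝ) < (k.factorial : ℝ) := by exact_mod_cast k.factorial_pos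
  have h4 : (k : ℝ) ^ k ≤ 3 ^ k * (k.factorial : ℝ) := by
    rw [div_le_iff₀ hf] at h2
    exact h2.trans (mul_le_mul_of_nonneg_right h3 hf.le)
  refine h1.trans ?_
  rw [div_pow, mul_pow, div_le_div_iff₀ hf (by positivity)]
  have h5 : (0 : ℝ) ≤ (m : ℝ) ^ k := by positivity
  nlinarith [mul_le_mul_of_nonneg_left h4 h5]

lemma fnum_kk (m k : ℕ) (hk : 1 ≤ k) (hkm : 2 * k ≤ m) : ((k : ℝ) / m) ^ k ≤ 1 / m := by
  have hm0 : (0 : ℝ) < m := by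
    have : 0 < m := by omega
    exact_mod_cast this
  rw [div_pow, div_le_div_iff₀ (by positivity) hm0, one_mul]
  obtain ⟨j, rfl⟩ : ∃ j, k = j + 1 := ⟨k - 1, by omega⟩
  have h1 : (j + 1) ≤ 2 ^ j := by
    have := Nat.lt_two_pow_self (n := j)
    omega
  have h2 : (2 * (j + 1)) ^ j ≤ m ^ j := Nat.pow_le_pow_left hkm j
  have h3 : (j + 1) ^ (j + 1) ≤ m ^ j := by
    calc (j + 1) ^ (j + 1) = (j + 1) * (j + 1) ^ j := by ring
      _ ≤ 2 ^ j * (j + 1) ^ j := Nat.mul_le_mul_right _ h1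
      _ = (2 * (j + 1)) ^ j := by rw [mul_pow]
      _ ≤ m ^ j := h2
  have h4 : (((j + 1 : ℕ) : ℝ)) ^ (j + 1) ≤ (m : ℝ) ^ j := by exact_mod_cast h3
  calc (((j + 1 : ℕ) : ℝ)) ^ (j + 1) * m ≤ (m : ℝ) ^ j * m := mul_le_mul_of_nonneg_right h4 hm0.le
    _ = (m : ℝ) ^ (j + 1) := by ring

lemma fnum_cube (k : ℕ) (hk : 1024 ≤ k) : (k : ℝ) ^ 3 * ((2 ^ 100) ^ 3 * 2 ^ 10) ≤ 2 ^ k := by
  obtain ⟨j, rfl⟩ : ∃ j, k = j + 1024 := ⟨k - 1024, by omega⟩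
  clear hk
  induction j with
  | zero =>
    have h1 : (((0 + 1024 : ℕ) : ℝ)) = 2 ^ 10 := by norm_num
    have h2 : ((2 : ℝ) ^ 10) ^ 3 * ((2 ^ 100) ^ 3 * 2 ^ 10) = 2 ^ 340 := by
      rw [← pow_mul, ← pow_mul, ← pow_add, ← pow_add]
    rw [h1, h2]
    exact pow_le_pow_right₀ (by norm_num) (by norm_num)
  | succ n ih =>
    set c : ℝ := (2 ^ 100) ^ 3 * 2 ^ 10 with hc
    have hc0 : 0 < c := by positivity
    have e1 : ((n + 1 + 1024 : ℕ) : ℝ) = ((n + 1024 : ℕ) : ℝ) + 1 := by push_cast; ring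
    have hx : (1024 : ℝ) ≤ ((n + 1024 : ℕ) : ℝ) := by push_cast; linarith [Nat.cast_nonneg (α := ℝ) n]
    set x : ℝ := ((n + 1024 : ℕ) : ℝ) with hxd
    have h1 : (x + 1) ^ 3 ≤ 2 * x ^ 3 := by nlinarith [sq_nonneg x, mul_nonneg (sq_nonneg x) (sub_nonneg.2 hx)]
    have e2 : (2 : ℝ) ^ (n + 1 + 1024) = 2 * 2 ^ (n + 1024) := by
      rw [show n + 1 + 1024 = (n + 1024) + 1 by ring, pow_succ]; ring
    rw [e1, e2]
    calc (x + 1) ^ 3 * c ≤ 2 * x ^ 3 * c := mul_le_mul_of_nonneg_right h1 hc0.le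
      _ = 2 * (x ^ 3 * c) := by ring
      _ ≤ 2 * 2 ^ (n + 1024) := mul_le_mul_of_nonneg_left ih (by norm_num)

/-- low levels -/
lemma fnum_low (m k : ℕ) (hm : 2 ^ 110 ≤ m) (hk : 1 ≤ k) (hkm : 2 ^ 100 * k ≤ m) :
    ((2 ^ 49 * (k : ℝ) / m) ^ k) ^ 108032 * (16 * ((m.choose k : ℕ) : ℝ) ^ 2 * 81 ^ k)
      ≤ 1 / (64 * (m : ℝ) ^ 3) := by
  have hk0 : (0 : ℝ) < k := by exact_mod_cast hk
  have hm1 : (2 : ℝ) ^ 110 ≤ m := by exact_mod_cast hm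
  have hm0 : (0 : ℝ) < m := lt_of_lt_of_le (by positivity) hm1
  have hkm' : (2 : ℝ) ^ 100 * k ≤ m := by exact_mod_cast hkm
  set x : ℝ := (k : ℝ) / m with hx
  have hx0 : 0 < x := div_pos hk0 hm0
  have hx1 : 2 ^ 100 * x ≤ 1 := by
    rw [hx, ← mul_div_assoc, div_le_one hm0]; exact hkm'
  have e1 : 2 ^ 49 * (k : ℝ) / m = 2 ^ 49 * x := by rw [hx]; ring
  have e2 : 3 * (m : ℝ) / k = 3 / x := by rw [hx]; field_simp
  have hy0 : 0 ≤ 2 ^ 49 * x := by positivity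
  have hy1 : 2 ^ 49 * x ≤ 1 := by linarith
  have h1 : (2 ^ 49 * x) ^ 108032 ≤ (2 ^ 49 * x) ^ 100 :=
    pow_le_pow_of_le_one hy0 hy1 (by norm_num)
  have h2 : ((m.choose k : ℕ) : ℝ) ^ 2 ≤ ((3 / x) ^ k) ^ 2 := by
    rw [← e2]
    exact pow_le_pow_left₀ (by positivity) (fnum_choose m k hk) 2
  have h3 : (2 ^ 49 * x) ^ 100 * (9 / x ^ 2 * 81) ≤ x ^ 48 := by
    have h4 : (2 ^ 49 * x) ^ 100 * (9 / x ^ 2 * 81) = 729 * (2 ^ 98 * x) ^ 50 * x ^ 48 := by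
      have h40 : (2 ^ 49 * x) ^ 100 = (2 ^ 98 * x) ^ 50 * x ^ 50 := by
        rw [show (100 : ℕ) = 2 * 50 by norm_num, pow_mul, ← mul_pow]
        congr 1
        ring
      have h41 : x ^ 50 * (9 / x ^ 2 * 81) = 729 * x ^ 48 := by
        field_simp
        norm_num
      rw [h40, mul_assoc, h41]
      ring
    rw [h4]
    have h5 : (2 ^ 98 * x) ^ 50 ≤ (1 / 4) ^ 50 := by
      apply pow_le_pow_left₀ (by positivity)
      linarith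
    have h6 : 729 * (2 ^ 98 * x) ^ 50 ≤ 1 := by
      calc 729 * (2 ^ 98 * x) ^ 50 ≤ 729 * (1 / 4) ^ 50 := by gcongr
        _ ≤ 1 := by norm_num
    have h7 : 0 ≤ x ^ 48 := by positivity
    calc 729 * (2 ^ 98 * x) ^ 50 * x ^ 48 ≤ 1 * x ^ 48 := mul_le_mul_of_nonneg_right h6 h7
      _ = x ^ 48 := one_mul _
  have h8 : ((2 ^ 49 * x) ^ k) ^ 108032 * (16 * ((m.choose k : ℕ) : ℝ) ^ 2 * 81 ^ k) ≤
      16 * (x ^ 48) ^ k := by
    calc ((2 ^ 49 * x) ^ k) ^ 108032 * (16 * ((m.choose k : ℕ) : ℝ) ^ 2 * 81 ^ k)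
        = ((2 ^ 49 * x) ^ 108032) ^ k * (16 * ((m.choose k : ℕ) : ℝ) ^ 2 * 81 ^ k) := by
          rw [← pow_mul, ← pow_mul, mul_comm k 108032]
      _ ≤ ((2 ^ 49 * x) ^ 100) ^ k * (16 * ((3 / x) ^ k) ^ 2 * 81 ^ k) := by
          apply mul_le_mul
          · exact pow_le_pow_left₀ (by positivity) h1 k
          · gcongr
          · positivity
          · positivity
      _ = 16 * ((2 ^ 49 * x) ^ 100 * (9 / x ^ 2 * 81)) ^ k := by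
          have : ((3 / x) ^ k) ^ 2 = (9 / x ^ 2) ^ k := by
            rw [← pow_mul, mul_comm k 2, pow_mul, div_pow]; norm_num
          rw [this, mul_pow ((2 ^ 49 * x) ^ 100) (9 / x ^ 2 * 81) k, mul_pow (9 / x ^ 2) 81 k]
          ring
      _ ≤ 16 * (x ^ 48) ^ k := by gcongr
  rw [e1]
  refine h8.trans ?_
  have h9 : (x ^ 48) ^ k = (x ^ k) ^ 48 := by rw [← pow_mul, ← pow_mul, mul_comm]
  have h10 : x ^ k ≤ 1 / m := by
    rw [hx]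
    apply fnum_kk m k hk
    have : 2 * k ≤ 2 ^ 100 * k := Nat.mul_le_mul_right _ (by norm_num)
    omega
  have h11 : (x ^ k) ^ 48 ≤ (1 / (m : ℝ)) ^ 48 := pow_le_pow_left₀ (by positivity) h10 48
  rw [h9]
  calc 16 * (x ^ k) ^ 48 ≤ 16 * (1 / (m : ℝ)) ^ 48 := by gcongr
    _ = 16 / (m : ℝ) ^ 48 := by rw [div_pow]; ring
    _ ≤ 1 / (64 * (m : ℝ) ^ 3) := by
        rw [div_le_div_iff₀ (by positivity) (by positivity)]
        have h12 : (m : ℝ) ^ 48 = (m : ℝ) ^ 44 * m * (m : ℝ) ^ 3 := by ring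
        rw [h12]
        have h13 : (1 : ℝ) ≤ (m : ℝ) ^ 44 := one_le_pow₀ (by linarith [show (1 : ℝ) ≤ 2 ^ 110 by norm_num])
        have h14 : (1024 : ℝ) ≤ m := by linarith [show (1024 : ℝ) ≤ 2 ^ 110 by norm_num]
        have h15 : (1024 : ℝ) ≤ (m : ℝ) ^ 44 * m := by nlinarith
        have h16 : (0 : ℝ) ≤ (m : ℝ) ^ 3 := by positivity
        nlinarith

/-- high levels -/
lemma fnum_high (m k : ℕ) (hm : 2 ^ 110 ≤ m) (hkm : m < 2 ^ 100 * k) :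
    (((1 - 1 / 8192 : ℝ)) ^ k) ^ (16 * 108032) * (16 * ((m.choose k : ℕ) : ℝ) ^ 2 * 81 ^ k)
      ≤ 1 / (64 * (m : ℝ) ^ 3) := by
  have hk : 1024 ≤ k := by
    by_contra h
    push Not at h
    have : 2 ^ 100 * k ≤ 2 ^ 100 * 1024 := Nat.mul_le_mul_left _ h.le
    have h2 : 2 ^ 100 * 1024 = 2 ^ 110 := by norm_num
    omega
  have hk1 : 1 ≤ k := by omega
  have hk0 : (0 : ℝ) < k := by exact_mod_cast hk1
  have hm1 : (2 : ℝ) ^ 110 ≤ m := by exact_mod_cast hm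
  have hm0 : (0 : ℝ) < m := lt_of_lt_of_le (by positivity) hm1
  have hkm' : (m : ℝ) ≤ 2 ^ 100 * k := by exact_mod_cast hkm.le
  have h1 : ((m.choose k : ℕ) : ℝ) ≤ (3 * 2 ^ 100) ^ k := by
    refine (fnum_choose m k hk1).trans (pow_le_pow_left₀ (by positivity) ?_ k)
    rw [div_le_iff₀ hk0]; linarith
  have h2 : (((1 - 1 / 8192 : ℝ)) ^ k) ^ (16 * 108032) ≤ ((1 / 2) ^ 211) ^ k := by
    rw [← pow_mul, mul_comm k, pow_mul]
    apply pow_le_pow_left₀ (by positivity)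
    have h3 : 16 * 108032 = 8192 * 211 := by norm_num
    rw [h3, pow_mul]
    apply pow_le_pow_left₀ (by positivity)
    have := fnum_theta 8192 (by norm_num)
    norm_num at this ⊢
    exact this
  have h4 : 16 * ((m.choose k : ℕ) : ℝ) ^ 2 * 81 ^ k ≤ 16 * (2 ^ 210) ^ k := by
    have h5 : ((m.choose k : ℕ) : ℝ) ^ 2 ≤ ((3 * 2 ^ 100) ^ k) ^ 2 :=
      pow_le_pow_left₀ (by positivity) h1 2
    calc 16 * ((m.choose k : ℕ) : ℝ) ^ 2 * 81 ^ k ≤ 16 * ((3 * 2 ^ 100) ^ k) ^ 2 * 81 ^ k := by gcongr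
      _ = 16 * ((3 * 2 ^ 100) ^ 2 * 81) ^ k := by
          rw [← pow_mul, mul_comm k 2, pow_mul, mul_pow ((3 * 2 ^ 100 : ℝ) ^ 2) 81 k]; ring
      _ ≤ 16 * (2 ^ 210) ^ k := by
          gcongr
          norm_num
  have h6 : (((1 - 1 / 8192 : ℝ)) ^ k) ^ (16 * 108032) * (16 * ((m.choose k : ℕ) : ℝ) ^ 2 * 81 ^ k)
      ≤ 16 * (1 / 2) ^ k := by
    calc _ ≤ ((1 / 2) ^ 211) ^ k * (16 * (2 ^ 210) ^ k) :=
          mul_le_mul h2 h4 (by positivity) (by positivity)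
      _ = 16 * (((1 / 2) ^ 211 * 2 ^ 210) : ℝ) ^ k := by rw [mul_pow]; ring
      _ = 16 * (1 / 2) ^ k := by norm_num
  refine h6.trans ?_
  have h7 : (k : ℝ) ^ 3 * ((2 ^ 100) ^ 3 * 2 ^ 10) ≤ 2 ^ k := fnum_cube k hk
  have h8 : (m : ℝ) ^ 3 ≤ (2 ^ 100 * k) ^ 3 := pow_le_pow_left₀ hm0.le hkm' 3
  have h9 : 1024 * (m : ℝ) ^ 3 ≤ 2 ^ k := by
    calc 1024 * (m : ℝ) ^ 3 ≤ 1024 * (2 ^ 100 * k) ^ 3 := by gcongr
      _ = (k : ℝ) ^ 3 * ((2 ^ 100) ^ 3 * 2 ^ 10) := by rw [mul_pow]; ring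
      _ ≤ 2 ^ k := h7
  rw [one_div, inv_pow, ← div_eq_mul_inv, div_le_div_iff₀ (by positivity) (by positivity)]
  linarith

/-- the final sum over the levels -/
theorem num_sum : ∃ m₀ : ℕ, ∀ m : ℕ, m₀ ≤ m →
    ∑ k ∈ Icc 1 (m - 1),
      (if 2 ^ 100 * k ≤ m then ((2 ^ 49 * (k : ℝ) / m) ^ k) ^ 108032
        else (((1 - 1 / 8192 : ℝ)) ^ k) ^ (16 * 108032)) *
      (16 * ((m.choose k : ℕ) : ℝ) ^ 2 * 81 ^ k) ≤ 1 / (64 * (m : ℝ) ^ 2) := by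
  refine ⟨2 ^ 110, fun m hm => ?_⟩
  have hm1 : (2 : ℝ) ^ 110 ≤ m := by exact_mod_cast hm
  have hm0 : (0 : ℝ) < m := lt_of_lt_of_le (by positivity) hm1
  have h1 : ∀ k ∈ Icc 1 (m - 1),
      (if 2 ^ 100 * k ≤ m then ((2 ^ 49 * (k : ℝ) / m) ^ k) ^ 108032
        else (((1 - 1 / 8192 : ℝ)) ^ k) ^ (16 * 108032)) *
      (16 * ((m.choose k : ℕ) : ℝ) ^ 2 * 81 ^ k) ≤ 1 / (64 * (m : ℝ) ^ 3) := by
    intro k hk
    rw [mem_Icc] at hk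
    split_ifs with h
    · exact fnum_low m k hm hk.1 h
    · exact fnum_high m k hm (not_le.1 h)
  refine (sum_le_sum h1).trans ?_
  rw [sum_const, Nat.card_Icc, nsmul_eq_mul]
  have h2 : ((m - 1 + 1 - 1 : ℕ) : ℝ) ≤ m := by
    have : m - 1 + 1 - 1 ≤ m := by omega
    exact_mod_cast this
  calc ((m - 1 + 1 - 1 : ℕ) : ℝ) * (1 / (64 * (m : ℝ) ^ 3)) ≤ m * (1 / (64 * (m : ℝ) ^ 3)) := by gcongr
    _ = 1 / (64 * (m : ℝ) ^ 2) := by field_simp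

lemma fnum_grow (D : ℕ) (hD : 23 ≤ D) : 3 * (8 * D + 17) ≤ 2 ^ (D - 13) := by
  induction D, hD using Nat.le_induction with
  | base => norm_num
  | succ n hn ih =>
    have h1 : n + 1 - 13 = (n - 13) + 1 := by omega
    rw [h1, pow_succ]
    omega

/-- the error terms -/
theorem num_delta (R : ℕ) : ∃ D₀ : ℕ, ∀ D : ℕ, D₀ ≤ D → ∀ m : ℕ, m ≤ 2 ^ D →
    (R : ℝ) * ((m : ℝ) * (Real.sqrt (2 ^ D) * Real.sqrt
      ((1 - ((2 ^ (D - 13) : ℕ) : ℝ) / (8 * 2 ^ D)) ^ (524289 * D - D) +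
        (16 * 2 ^ D / ((2 ^ (D - 13) : ℕ) : ℝ)) * (3 / 4) ^ (2 ^ (D - 13) : ℕ))) +
      2 ^ 18 / 2 ^ (4 * D)) * 2 ≤ 1 / (4 * 2 ^ D) := by
  refine ⟨23 + R, fun D hD m hm => ?_⟩
  have hD23 : 23 ≤ D := by omega
  have hD13 : 13 ≤ D := by omega
  have hpos : (0 : ℝ) < 2 ^ D := by positivity
  have hsplit : (2 : ℝ) ^ D = 2 ^ (D - 13) * 2 ^ 13 := by
    rw [← pow_add]; congr 1; omega
  have hpos' : (0 : ℝ) < 2 ^ (D - 13) := by positivity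
  have e1 : ((2 ^ (D - 13) : ℕ) : ℝ) / (8 * 2 ^ D) = 1 / 65536 := by
    push_cast
    rw [hsplit]
    field_simp
    norm_num
  have e2 : (16 * 2 ^ D / ((2 ^ (D - 13) : ℕ) : ℝ)) = 2 ^ 17 := by
    push_cast
    rw [hsplit]
    field_simp
    norm_num
  have e3 : 524289 * D - D = 65536 * (8 * D) := by omega
  rw [e1, e2, e3]
  have h1 : (1 - 1 / 65536 : ℝ) ^ (65536 * (8 * D)) ≤ (1 / 2) ^ (8 * D) := by
    rw [pow_mul]
    apply pow_le_pow_left₀ (by positivity)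
    have := fnum_theta 65536 (by norm_num)
    norm_num at this ⊢
    exact this
  have h2 : (2 : ℝ) ^ 17 * (3 / 4) ^ (2 ^ (D - 13) : ℕ) ≤ (1 / 2) ^ (8 * D) := by
    have h3 : ((3 : ℝ) / 4) ^ (2 ^ (D - 13) : ℕ) ≤ (3 / 4) ^ (3 * (8 * D + 17)) :=
      pow_le_pow_of_le_one (by norm_num) (by norm_num) (fnum_grow D hD23)
    have h4 : ((3 : ℝ) / 4) ^ (3 * (8 * D + 17)) ≤ (1 / 2) ^ (8 * D + 17) := by
      rw [pow_mul]
      exact pow_le_pow_left₀ (by positivity) (by norm_num) _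
    calc (2 : ℝ) ^ 17 * (3 / 4) ^ (2 ^ (D - 13) : ℕ) ≤ 2 ^ 17 * (1 / 2) ^ (8 * D + 17) := by
          gcongr
          exact h3.trans h4
      _ = (1 / 2) ^ (8 * D) := by
          rw [pow_add]
          have : (2 : ℝ) ^ 17 * ((1 / 2) ^ (8 * D) * (1 / 2) ^ 17) =
            (1 / 2) ^ (8 * D) * (2 ^ 17 * (1 / 2) ^ 17) := by ring
          rw [this]
          norm_num
  have h5 : (1 - 1 / 65536 : ℝ) ^ (65536 * (8 * D)) + 2 ^ 17 * (3 / 4) ^ (2 ^ (D - 13) : ℕ) ≤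
      (2 * (1 / 2) ^ (4 * D)) ^ 2 := by
    have h6 : ((2 : ℝ) * (1 / 2) ^ (4 * D)) ^ 2 = 4 * (1 / 2) ^ (8 * D) := by
      rw [mul_pow, ← pow_mul]
      rw [show 4 * D * 2 = 8 * D by ring]
      norm_num
    rw [h6]
    have : (0 : ℝ) ≤ (1 / 2) ^ (8 * D) := by positivity
    linarith
  have h7 : Real.sqrt ((1 - 1 / 65536 : ℝ) ^ (65536 * (8 * D)) +
      2 ^ 17 * (3 / 4) ^ (2 ^ (D - 13) : ℕ)) ≤ 2 * (1 / 2) ^ (4 * D) := by
    rw [← Real.sqrt_sq (show (0 : ℝ) ≤ 2 * (1 / 2) ^ (4 * D) by positivity)]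
    exact Real.sqrt_le_sqrt h5
  have h8 : Real.sqrt (2 ^ D) ≤ 2 ^ D := by
    rw [Real.sqrt_le_left (by positivity)]
    have : (1 : ℝ) ≤ 2 ^ D := one_le_pow₀ (by norm_num)
    nlinarith
  have hm' : (m : ℝ) ≤ 2 ^ D := by exact_mod_cast hm
  set z : ℝ := (1 / 2) ^ D with hz
  have hz0 : 0 < z := by positivity
  have hz1 : z ≤ 1 := pow_le_one₀ (by norm_num) (by norm_num)
  have hzD : (2 : ℝ) ^ D * z = 1 := by
    rw [hz, ← mul_pow]; norm_num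
  have e4 : ((1 : ℝ) / 2) ^ (4 * D) = z ^ 4 := by rw [hz, ← pow_mul, mul_comm]
  have e5 : (2 : ℝ) ^ (4 * D) = (2 ^ D) ^ 4 := by rw [← pow_mul, mul_comm]
  have e6 : (2 : ℝ) ^ 18 / 2 ^ (4 * D) = 2 ^ 18 * z ^ 4 := by
    rw [e5, div_eq_iff (by positivity)]
    have : (2 : ℝ) ^ 18 * z ^ 4 * (2 ^ D) ^ 4 = 2 ^ 18 * (2 ^ D * z) ^ 4 := by ring
    rw [this, hzD]; norm_num
  have e7 : 1 / (4 * (2 : ℝ) ^ D) = z / 4 := by
    rw [div_eq_div_iff (by positivity) (by norm_num)]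
    linarith
  rw [e6, e7]
  have h9 : (m : ℝ) * (Real.sqrt (2 ^ D) * Real.sqrt ((1 - 1 / 65536 : ℝ) ^ (65536 * (8 * D)) +
      2 ^ 17 * (3 / 4) ^ (2 ^ (D - 13) : ℕ))) ≤ 2 * z ^ 2 := by
    calc _ ≤ (2 : ℝ) ^ D * (2 ^ D * (2 * z ^ 4)) := by
          rw [← e4]
          gcongr
      _ = 2 * ((2 : ℝ) ^ D * z) ^ 2 * z ^ 2 := by ring
      _ = 2 * z ^ 2 := by rw [hzD]; ring
  have hz18 : 2 ^ 18 * z ≤ 1 := by
    have : (2 : ℝ) ^ 18 ≤ 2 ^ D := pow_le_pow_right₀ (by norm_num) (by omega)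
    nlinarith
  have h10 : 2 ^ 18 * z ^ 4 ≤ z ^ 2 := by
    have h11 : 2 ^ 18 * z ^ 4 = (2 ^ 18 * z) * z * z ^ 2 := by ring
    rw [h11]
    have h12 : (2 ^ 18 * z) * z ≤ 1 := by nlinarith
    have : 0 ≤ z ^ 2 := by positivity
    nlinarith
  have hR : (R : ℝ) * 24 * z ≤ 1 := by
    have h13 : R * 24 ≤ 2 ^ D := by
      have h14 : R < 2 ^ R := Nat.lt_two_pow_self
      calc R * 24 ≤ 2 ^ R * 2 ^ 23 := Nat.mul_le_mul h14.le (by norm_num)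
        _ = 2 ^ (23 + R) := by rw [← pow_add]; congr 1; omega
        _ ≤ 2 ^ D := Nat.pow_le_pow_right (by norm_num) hD
    have h15 : (R : ℝ) * 24 ≤ 2 ^ D := by exact_mod_cast h13
    nlinarith
  calc _ ≤ (R : ℝ) * (2 * z ^ 2 + z ^ 2) * 2 := by gcongr
    _ = (R * 24 * z) * z / 4 := by ring
    _ ≤ z / 4 := by nlinarith

end

end Vale.Agent.P162
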