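import Vale.Agent.P162.FEig
import Vale.Agent.P162.FEdge

/-! # The eigenvalues of small degree -/

namespace Vale.Agent.P162

open Finset Equiv
open scoped RealInnerProductSpace

noncomputable section

variable {A : Type*} [Fintype A] [DecidableEq A]

lemma FP2_fact_lower (s : ℕ) : ((s : ℝ) / 3) ^ s ≤ (s.factorial : ℝ) := by
  have h1 := Real.pow_div_factorial_le_exp (s : ℝ) (Nat.cast_nonneg s) s
  have h2 : Real.exp (s : ℝ) ≤ 3 ^ s := by
    have e : Real.exp (s : ℝ) = Real.exp 1 ^ s := by rw [← Real.exp_nat_mul, mul_one]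
    rw [e]
    exact pow_le_pow_left₀ (Real.exp_pos 1).le Real.exp_one_lt_three.le s
  have hf : (0 : ℝ) < s.factorial := by exact_mod_cast Nat.factorial_pos s
  rw [div_le_iff₀ hf] at h1
  rw [div_pow, div_le_iff₀ (by positivity)]
  calc (s : ℝ) ^ s ≤ Real.exp s * s.factorial := h1
    _ ≤ 3 ^ s * s.factorial := mul_le_mul_of_nonneg_right h2 hf.le
    _ = _ := mul_comm _ _

lemma FP2_choose {m q k r : ℕ} (hk1 : 1 ≤ k) (hkm : q + k = m) (h4 : 4 * k ≤ m) (hr : r ≤ k) :
    ((m : ℝ) / (2 * k)) ^ r ≤ (q.choose r : ℝ) := by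
  have h1 := Nat.pow_le_choose (α := ℝ) r q
  have hk0 : (0 : ℝ) < k := by exact_mod_cast hk1
  have h2 : (r.factorial : ℝ) ≤ (k : ℝ) ^ r := by
    exact_mod_cast (Nat.factorial_le_pow r).trans (Nat.pow_le_pow_left hr r)
  have h3 : (m : ℝ) / 2 ≤ ((q + 1 - r : ℕ) : ℝ) := by
    have h5 : m ≤ 2 * (q + 1 - r) := by omega
    have h6 : (m : ℝ) ≤ 2 * ((q + 1 - r : ℕ) : ℝ) := by exact_mod_cast h5
    linarith
  have hf : (0 : ℝ) < r.factorial := by exact_mod_cast Nat.factorial_pos r
  refine le_trans ?_ h1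
  have e : (m : ℝ) / (2 * k) = (m / 2) / k := by rw [div_div]
  rw [e, div_pow]
  exact div_le_div₀ (by positivity) (pow_le_pow_left₀ (by positivity) h3 r) hf h2

/-- the three numbers -/
lemma FP2_three {a b c Y : ℝ} (ha : 0 ≤ a) (hb : 0 ≤ b) (hc : 0 ≤ c)
    (ha' : a ^ 16 ≤ Y) (hb' : b ^ 16 ≤ Y) (hc' : c ^ 16 ≤ Y) :
    (a + b + c) ^ 16 ≤ 3 ^ 16 * Y := by
  have hmax : ∃ M : ℝ, 0 ≤ M ∧ a ≤ M ∧ b ≤ M ∧ c ≤ M ∧ M ^ 16 ≤ Y := by
    rcases le_total a b with h1 | h1
    · rcases le_total b c with h2 | h2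
      · exact ⟨c, hc, h1.trans h2, h2, le_refl _, hc'⟩
      · exact ⟨b, hb, h1, le_refl _, h2, hb'⟩
    · rcases le_total a c with h2 | h2
      · exact ⟨c, hc, h2, h1.trans h2, le_refl _, hc'⟩
      · exact ⟨a, ha, le_refl _, h1, h2, ha'⟩
  obtain ⟨M, hM, h1, h2, h3, h4⟩ := hmax
  calc (a + b + c) ^ 16 ≤ (3 * M) ^ 16 := by
        apply pow_le_pow_left₀ (by positivity)
        linarith
    _ = 3 ^ 16 * M ^ 16 := by rw [mul_pow]
    _ ≤ 3 ^ 16 * Y := mul_le_mul_of_nonneg_left h4 (by positivity)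

lemma FP2_num {m k ν : ℕ} (hk1 : 1 ≤ k) (hmν : m ≤ 2 ^ (4 * ν)) (hbig : 2 ^ 49 * k < m) :
    ((2 * (k : ℝ) / m) ^ ((k + 1) / 2) + 2 ^ k * (3 / 2 ^ ν) ^ ((k + 3) / 4) +
      ((k : ℝ) ^ 2 / m) ^ ((k + 11) / 12) / (((k + 11) / 12).factorial : ℝ)) ^ 16 ≤
      (2 ^ 49 * (k : ℝ) / m) ^ k := by
  have hk0 : (1 : ℝ) ≤ k := by exact_mod_cast hk1
  have hbig' : (2 : ℝ) ^ 49 * k < m := by exact_mod_cast hbig
  have hm0 : (0 : ℝ) < m := lt_of_le_of_lt (by positivity) hbig'
  have hx0 : (0 : ℝ) ≤ (k : ℝ) / m := by positivity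
  have hx1 : (2 : ℝ) ^ 49 * ((k : ℝ) / m) ≤ 1 := by
    rw [← mul_div_assoc, div_le_one hm0]
    exact hbig'.le
  have hY : ∀ c : ℝ, 0 ≤ c → c ≤ 2 ^ 16 * 81 →
      (c * ((k : ℝ) / m)) ^ k ≤ (2 ^ 16 * 81 * ((k : ℝ) / m)) ^ k := by
    intro c hc hc2
    apply pow_le_pow_left₀ (by positivity)
    exact mul_le_mul_of_nonneg_right hc2 hx0
  have h3 := FP2_three (a := (2 * (k : ℝ) / m) ^ ((k + 1) / 2))
    (b := 2 ^ k * (3 / 2 ^ ν) ^ ((k + 3) / 4))
    (c := ((k : ℝ) ^ 2 / m) ^ ((k + 11) / 12) / (((k + 11) / 12).factorial : ℝ))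
    (Y := (2 ^ 16 * 81 * ((k : ℝ) / m)) ^ k) (by positivity) (by positivity) (by positivity)
    ?_ ?_ ?_
  · refine h3.trans ?_
    have e1 : (2 ^ 49 * (k : ℝ) / m) ^ k = (2 ^ 26) ^ k * (2 ^ 16 * 2 ^ 7 * ((k : ℝ) / m)) ^ k := by
      rw [← mul_pow]
      congr 1
      rw [mul_div_assoc]
      ring
    rw [e1]
    apply mul_le_mul
    · calc (3 : ℝ) ^ 16 ≤ 2 ^ 26 := by norm_num
        _ = (2 ^ 26) ^ 1 := (pow_one _).symm
        _ ≤ (2 ^ 26) ^ k := pow_le_pow_right₀ (by norm_num) hk1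
    · apply pow_le_pow_left₀ (by positivity)
      apply mul_le_mul_of_nonneg_right _ hx0
      norm_num
    · positivity
    · positivity
  · -- the first number
    rw [← pow_mul]
    calc (2 * (k : ℝ) / m) ^ ((k + 1) / 2 * 16) ≤ (2 * (k : ℝ) / m) ^ k := by
          apply pow_le_pow_of_le_one (by positivity)
          · rw [mul_div_assoc]
            nlinarith
          · omega
      _ = (2 * ((k : ℝ) / m)) ^ k := by rw [mul_div_assoc]
      _ ≤ _ := hY 2 (by norm_num) (by norm_num)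
  · -- the second number
    have e2 : (2 ^ k * (3 / 2 ^ ν) ^ ((k + 3) / 4) : ℝ) ^ 16 =
        (2 ^ 16) ^ k * ((81 : ℝ) / 2 ^ (4 * ν)) ^ ((k + 3) / 4 * 4) := by
      rw [mul_pow]
      congr 1
      · rw [← pow_mul, ← pow_mul, mul_comm]
      · have e3 : (81 : ℝ) / 2 ^ (4 * ν) = (3 / 2 ^ ν) ^ 4 := by
          rw [div_pow, ← pow_mul, mul_comm ν 4]
          norm_num
        rw [e3, ← pow_mul, ← pow_mul]
        congr 1
        ring
    rw [e2]
    have hmν' : (m : ℝ) ≤ 2 ^ (4 * ν) := by exact_mod_cast hmν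
    calc (2 ^ 16) ^ k * ((81 : ℝ) / 2 ^ (4 * ν)) ^ ((k + 3) / 4 * 4)
        ≤ (2 ^ 16) ^ k * ((81 : ℝ) / m) ^ ((k + 3) / 4 * 4) := by
          apply mul_le_mul_of_nonneg_left _ (by positivity)
          apply pow_le_pow_left₀ (by positivity)
          exact div_le_div_of_nonneg_left (by norm_num) hm0 hmν'
      _ ≤ (2 ^ 16) ^ k * ((81 : ℝ) / m) ^ k := by
          apply mul_le_mul_of_nonneg_left _ (by positivity)
          apply pow_le_pow_of_le_one (by positivity)
          · rw [div_le_one hm0]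
            nlinarith
          · omega
      _ = (2 ^ 16 * ((81 : ℝ) / m)) ^ k := by rw [mul_pow]
      _ ≤ _ := by
          apply pow_le_pow_left₀ (by positivity)
          rw [mul_assoc]
          apply mul_le_mul_of_nonneg_left _ (by positivity)
          rw [← mul_div_assoc]
          apply div_le_div_of_nonneg_right _ hm0.le
          linarith
  · -- the third number
    set s := (k + 11) / 12 with hs
    have hs1 : 1 ≤ s := by omega
    have hsk : k ≤ 12 * s := by omega
    have hs0 : (0 : ℝ) < s := by exact_mod_cast hs1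
    have hsk' : (k : ℝ) ≤ 12 * s := by exact_mod_cast hsk
    have hpos : (0 : ℝ) < ((s : ℝ) / 3) ^ s := by positivity
    have h4 : ((k : ℝ) ^ 2 / m) ^ s / (s.factorial : ℝ) ≤ (36 * ((k : ℝ) / m)) ^ s := by
      calc ((k : ℝ) ^ 2 / m) ^ s / (s.factorial : ℝ)
          ≤ ((k : ℝ) ^ 2 / m) ^ s / ((s : ℝ) / 3) ^ s :=
            div_le_div_of_nonneg_left (by positivity) hpos (FP2_fact_lower s)
        _ = ((k : ℝ) ^ 2 / m / ((s : ℝ) / 3)) ^ s := by rw [← div_pow]
        _ ≤ (36 * ((k : ℝ) / m)) ^ s := by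
            apply pow_le_pow_left₀ (by positivity)
            rw [div_le_iff₀ (by positivity)]
            have e4 : 36 * ((k : ℝ) / m) * (s / 3) = (12 * s * k) / m := by ring
            rw [e4]
            apply div_le_div_of_nonneg_right _ hm0.le
            nlinarith
    calc (((k : ℝ) ^ 2 / m) ^ s / (s.factorial : ℝ)) ^ 16 ≤ ((36 * ((k : ℝ) / m)) ^ s) ^ 16 :=
          pow_le_pow_left₀ (by positivity) h4 16
      _ = (36 * ((k : ℝ) / m)) ^ (s * 16) := by rw [← pow_mul]
      _ ≤ (36 * ((k : ℝ) / m)) ^ k := by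
          apply pow_le_pow_of_le_one (by positivity)
          · nlinarith
          · omega
      _ ≤ _ := hY 36 (by norm_num) (by norm_num)

theorem eig_small {H : Type*} [NormedAddCommGroup H] [InnerProductSpace ℝ H]
    {ρ : Perm A →* (H →ₗ[ℝ] H)} (hρ : ∀ g v, ‖ρ g v‖ = ‖v‖)
    {ν : ℕ} {p : Perm A → ℝ} (hp : PK ν p) {m q : ℕ} (hm : Fintype.card A = m)
    (hmν : m ≤ 2 ^ (4 * ν)) (hq : q < m) (hk : 4 * (m - q) ≤ m) {F : H}
    (hF : F ∈ lev ρ univ q) (Z : Finset A) (hZc : Z.card = q) (hZ : Qop ρ Z F ≠ 0)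
    (μ : ℝ) (hμ : Pop ρ p F = μ • F) :
    |μ| ^ 16 ≤ (2 ^ 49 * ((m - q : ℕ) : ℝ) / m) ^ (m - q) := by
  classical
  obtain ⟨k, hkdef⟩ : ∃ k, k = m - q := ⟨_, rfl⟩
  rw [← hkdef] at hk ⊢
  have hk1 : 1 ≤ k := by omega
  have hqk : q + k = m := by omega
  have hm1 : 1 ≤ m := by omega
  have hm0 : (0 : ℝ) < m := by exact_mod_cast hm1
  have hk0 : (1 : ℝ) ≤ k := by exact_mod_cast hk1
  have hμ1 : |μ| ≤ 1 := by
    have hF0 : F ≠ 0 := by
      intro h0
      apply hZ
      rw [h0, map_zero]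
    have h1 := norm_Pop_le hp hρ F
    rw [hμ, norm_smul, Real.norm_eq_abs] at h1
    have h2 : 0 < ‖F‖ := norm_pos_iff.mpr hF0
    by_contra h3
    push Not at h3
    nlinarith
  by_cases hbig : 2 ^ 49 * k < m
  · -- the main case
    set K : Finset A := Zᶜ with hK
    have hKc : K.card = k := by
      rw [hK, Finset.card_compl, hm, hZc]
      omega
    have hmemK : ∀ a, a ∈ K ↔ a ∉ Z := fun a => by rw [hK, Finset.mem_compl]
    set r : Perm A → ℕ := fun π => (univ.filter fun x => x ∉ Z ∧ π x ∈ Z).card with hr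
    have hrK : ∀ π, r π = (K.filter fun x => π x ∈ Z).card := by
      intro π
      show (univ.filter fun x => x ∉ Z ∧ π x ∈ Z).card = _
      apply congrArg Finset.card
      ext x
      rw [Finset.mem_filter, Finset.mem_filter, hmemK]
      simp
    have hrk : ∀ π, r π ≤ k := by
      intro π
      rw [hrK, ← hKc]
      exact Finset.card_filter_le _ _
    have hsplit : ∀ π : Perm A, (K.filter fun a => π a = a).card +
        (K.filter fun a => π a ∈ K ∧ π a ≠ a).card + r π = k := by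
      intro π
      rw [hrK, ← hKc]
      rw [← Finset.card_filter_add_card_filter_not (s := K) (fun x => π x ∈ Z),
        add_comm]
      congr 1
      rw [← Finset.card_union_of_disjoint]
      · congr 1
        ext a
        rw [Finset.mem_union, Finset.mem_filter, Finset.mem_filter, Finset.mem_filter, hmemK,
          hmemK]
        by_cases h1 : π a = a
        · rw [h1]; tauto
        · tauto
      · rw [Finset.disjoint_left]
        intro a h1 h2
        rw [Finset.mem_filter] at h1 h2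
        exact h2.2.2 h1.2
    have hbound := eig_le hρ hp hF Z hZc hZ μ hμ
    have hchoose1 : ∀ π, (1 : ℝ) ≤ (q.choose (r π) : ℝ) := by
      intro π
      have : 0 < q.choose (r π) := Nat.choose_pos (by have := hrk π; omega)
      exact_mod_cast this
    have hterm : ∀ π, p π / ((q.choose (r π) : ℕ) : ℝ) ≤
        p π * (2 * (k : ℝ) / m) ^ ((k + 1) / 2) +
        (if (k + 3) / 4 ≤ (K.filter fun a => π a = a).card then p π else 0) +
        (if 3 * ((k + 11) / 12) ≤ (K.filter fun a => π a ∈ K ∧ π a ≠ a).card + 2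
          then p π else 0) := by
      intro π
      have hpos := hp.nonneg π
      by_cases h1 : (k + 1) / 2 ≤ r π
      · have h2 := FP2_choose hk1 hqk hk (hrk π)
        have h3 : ((m : ℝ) / (2 * k)) ^ ((k + 1) / 2) ≤ (q.choose (r π) : ℝ) := by
          refine le_trans ?_ h2
          apply pow_le_pow_right₀ _ h1
          rw [le_div_iff₀ (by positivity), one_mul]
          have : 2 * k ≤ m := by omega
          exact_mod_cast this
        have h4 : p π / ((q.choose (r π) : ℕ) : ℝ) ≤ p π * (2 * (k : ℝ) / m) ^ ((k + 1) / 2) := by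
          rw [div_eq_mul_inv]
          apply mul_le_mul_of_nonneg_left _ hpos
          have e : (2 * (k : ℝ) / m) ^ ((k + 1) / 2) = (((m : ℝ) / (2 * k)) ^ ((k + 1) / 2))⁻¹ := by
            rw [← inv_pow, inv_div]
          rw [e]
          apply inv_anti₀ _ h3
          positivity
        have h5 : (0 : ℝ) ≤ (if (k + 3) / 4 ≤ (K.filter fun a => π a = a).card then p π else 0) := by
          split_ifs
          · exact hpos
          · exact le_refl _
        have h6 : (0 : ℝ) ≤ (if 3 * ((k + 11) / 12) ≤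
            (K.filter fun a => π a ∈ K ∧ π a ≠ a).card + 2 then p π else 0) := by
          split_ifs
          · exact hpos
          · exact le_refl _
        linarith
      · have h2 := hsplit π
        have h3 : p π / ((q.choose (r π) : ℕ) : ℝ) ≤ p π := div_le_self hpos (hchoose1 π)
        have h4 : (0 : ℝ) ≤ p π * (2 * (k : ℝ) / m) ^ ((k + 1) / 2) := by positivity
        by_cases h5 : (k + 3) / 4 ≤ (K.filter fun a => π a = a).card
        · rw [if_pos h5]
          have h6 : (0 : ℝ) ≤ (if 3 * ((k + 11) / 12) ≤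
              (K.filter fun a => π a ∈ K ∧ π a ≠ a).card + 2 then p π else 0) := by
            split_ifs
            · exact hpos
            · exact le_refl _
          linarith
        · have h6 : 3 * ((k + 11) / 12) ≤ (K.filter fun a => π a ∈ K ∧ π a ≠ a).card + 2 := by
            omega
          rw [if_neg h5, if_pos h6]
          linarith
    have hsum := hbound.trans (Finset.sum_le_sum fun π _ => hterm π)
    rw [Finset.sum_add_distrib, Finset.sum_add_distrib, ← Finset.sum_mul, ← Finset.sum_filter,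
      ← Finset.sum_filter] at hsum
    have hA : (∑ π, p π) * (2 * (k : ℝ) / m) ^ ((k + 1) / 2) ≤
        (2 * (k : ℝ) / m) ^ ((k + 1) / 2) := by
      apply mul_le_of_le_one_left (by positivity) hp.sum_le_one
    have hB := fix_term hp K ((k + 3) / 4)
    have hC := edge_term hp K ((k + 11) / 12)
    rw [hKc] at hB hC
    rw [hm] at hC
    have hfin : |μ| ≤ (2 * (k : ℝ) / m) ^ ((k + 1) / 2) + 2 ^ k * (3 / 2 ^ ν) ^ ((k + 3) / 4) +
      ((k : ℝ) ^ 2 / m) ^ ((k + 11) / 12) / (((k + 11) / 12).factorial : ℝ) := by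
      linarith
    exact (pow_le_pow_left₀ (abs_nonneg μ) hfin 16).trans (FP2_num hk1 hmν hbig)
  · push Not at hbig
    have h1 : |μ| ^ 16 ≤ 1 := pow_le_one₀ (abs_nonneg μ) hμ1
    refine h1.trans (one_le_pow₀ ?_)
    rw [le_div_iff₀ hm0, one_mul]
    exact_mod_cast hbig

end

end Vale.Agent.P162
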