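import Vale.Agent.P162.Spectral

/-! # Summation over the levels, general form -/

namespace Vale.Agent.P162

open Finset Equiv
open scoped RealInnerProductSpace

noncomputable section

variable {A : Type*} [Fintype A] [DecidableEq A]
variable {H : Type*} [NormedAddCommGroup H] [InnerProductSpace ℝ H] [FiniteDimensional ℝ H]
variable {ρ : Perm A →* (H →ₗ[ℝ] H)}

/-- the bound on one layer -/
lemma layer_bound2 (T : H →ₗ[ℝ] H) (hT : T.IsSymmetric)
    (hTρ : ∀ g v, T (ρ g v) = ρ g (T v)) (c : ℝ) (hc : 0 ≤ c) (q : ℕ)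
    (heig : ∀ F ∈ lev ρ univ (q + 1), (∀ G ∈ lev ρ univ q, ⟪G, F⟫ = 0) → F ≠ 0 →
      ∀ μ : ℝ, T F = μ • F → |μ| ≤ c)
    (F : H) (hF : F ∈ lev ρ univ (q + 1)) (hF' : ∀ G ∈ lev ρ univ q, ⟪G, F⟫ = 0) (R : ℕ) :
    ⟪F, (T ^ R) F⟫ ≤ c ^ R * ‖F‖ ^ 2 := by
  set E : Submodule ℝ H := lev ρ univ (q + 1) ⊓ (lev ρ univ q)ᗮ with hEdef
  have hE : ∀ v ∈ E, T v ∈ E := by
    intro v hv
    rw [hEdef, Submodule.mem_inf, Submodule.mem_orthogonal] at hv ⊢
    refine ⟨T_mem_lev T hTρ hv.1, ?_⟩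
    intro G hG
    rw [← hT G v]
    exact hv.2 _ (T_mem_lev T hTρ hG)
  have h1 : ∀ v ∈ E, ‖T v‖ ≤ c * ‖v‖ := by
    apply norm_le_of_eigen T hT E hE c hc
    intro v hv hv0 μ hμ
    have hv' := hv
    rw [hEdef, Submodule.mem_inf, Submodule.mem_orthogonal] at hv'
    exact heig v hv'.1 hv'.2 hv0 μ hμ
  have hFE : F ∈ E := by
    rw [hEdef, Submodule.mem_inf, Submodule.mem_orthogonal]
    exact ⟨hF, hF'⟩
  calc ⟪F, (T ^ R) F⟫ ≤ ‖F‖ * ‖(T ^ R) F‖ := real_inner_le_norm _ _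
    _ ≤ ‖F‖ * (c ^ R * ‖F‖) :=
        mul_le_mul_of_nonneg_left (norm_Tpow_le T E hE c hc h1 R hFE) (norm_nonneg _)
    _ = c ^ R * ‖F‖ ^ 2 := by ring

theorem spectral_sum2 (hρ : ∀ g v, ‖ρ g v‖ = ‖v‖) (T : H →ₗ[ℝ] H) (hT : T.IsSymmetric)
    (hTρ : ∀ g v, T (ρ g v) = ρ g (T v)) (b : ℕ → ℝ) (hb : ∀ k, 0 ≤ b k) (m : ℕ)
    (hm : Fintype.card A = m) (hm0 : 0 < m)
    (heig : ∀ q, 1 ≤ q → q < m → ∀ F ∈ lev ρ univ q,
      (∀ G ∈ lev ρ univ (q - 1), ⟪G, F⟫ = 0) → F ≠ 0 →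
      ∀ μ : ℝ, T F = μ • F → |μ| ≤ b (m - q))
    (u : H) (hu : Qop ρ univ u = 0) (D : ℕ → ℝ)
    (hD : ∀ q, 1 ≤ q → q < m → ∀ w : H, (∀ F ∈ lev ρ univ (q - 1), ⟪F, w⟫ = 0) →
      u - w ∈ lev ρ univ (q - 1) → ‖w‖ ^ 2 ≤ D (m - q)) (R : ℕ) :
    ⟪u, (T ^ R) u⟫ ≤ ∑ k ∈ Icc 1 (m - 1), b k ^ R * D k := by
  -- the projections of `u`
  obtain ⟨P, hP⟩ : ∃ P : ℕ → H, ∀ q, P q ∈ lev ρ univ q ∧
      (∀ G ∈ lev ρ univ q, ⟪G, u - P q⟫ = 0) := by
    refine ⟨fun q => (lev ρ univ q).starProjection u, fun q => ⟨?_, ?_⟩⟩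
    · exact Submodule.starProjection_apply_mem _ _
    · intro G hG
      rw [real_inner_comm]
      exact Submodule.starProjection_inner_eq_zero u G hG
  have key : ∀ q, q < m → ⟪P q, (T ^ R) (P q)⟫ ≤
      ∑ j ∈ range q, b (m - (j + 1)) ^ R * D (m - (j + 1)) := by
    intro q
    induction q with
    | zero =>
      intro _
      have hne : (univ : Finset A).Nonempty := by
        rw [← Finset.card_pos, Finset.card_univ, hm]
        exact hm0
      rw [lev_zero hne (hP 0).1]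
      simp
    | succ q ih =>
      intro hq
      have ih' := ih (by omega)
      rw [Finset.sum_range_succ]
      set F' : H := P (q + 1) - P q with hF'def
      have hF'1 : F' ∈ lev ρ univ (q + 1) :=
        Submodule.sub_mem _ (hP (q + 1)).1 (lev_mono (Nat.le_succ q) (hP q).1)
      have hF'2 : ∀ G ∈ lev ρ univ q, ⟪G, F'⟫ = 0 := by
        intro G hG
        have h1 := (hP q).2 G hG
        have h2 := (hP (q + 1)).2 G (lev_mono (Nat.le_succ q) hG)
        rw [inner_sub_right] at h1 h2 ⊢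
        linarith
      have hc : 0 ≤ b (m - (q + 1)) := hb _
      have h3 := layer_bound2 T hT hTρ (b (m - (q + 1))) hc q
        (heig (q + 1) (by omega) hq) F' hF'1 hF'2 R
      -- the norm of `F'`
      have h4 : ‖F'‖ ^ 2 ≤ D (m - (q + 1)) := by
        have h5 := hD (q + 1) (by omega) hq (u - P q) (fun G hG => (hP q).2 G hG)
          (by rw [sub_sub_cancel]; exact (hP q).1)
        refine le_trans ?_ h5
        -- `u - P q = F' + (u - P (q+1))`, orthogonal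
        have h6 : u - P q = F' + (u - P (q + 1)) := by rw [hF'def]; abel
        rw [h6, norm_add_sq_real, (hP (q + 1)).2 F' hF'1]
        nlinarith [sq_nonneg ‖u - P (q + 1)‖]
      have h7 : P (q + 1) = P q + F' := by rw [hF'def]; abel
      have h8 : ⟪P q, (T ^ R) F'⟫ = 0 := by
        rw [← Tpow_symm T hT]
        exact hF'2 _ (Tpow_mem T _ (fun v hv => T_mem_lev T hTρ hv) R (hP q).1)
      have h9 : ⟪F', (T ^ R) (P q)⟫ = 0 := by
        rw [real_inner_comm]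
        exact hF'2 _ (Tpow_mem T _ (fun v hv => T_mem_lev T hTρ hv) R (hP q).1)
      rw [h7, map_add, inner_add_left, inner_add_right, inner_add_right, h8, h9]
      have h10 : (b (m - (q + 1))) ^ R * ‖F'‖ ^ 2 ≤
          (b (m - (q + 1))) ^ R * D (m - (q + 1)) :=
        mul_le_mul_of_nonneg_left h4 (pow_nonneg hc R)
      linarith
  have hfin := key (m - 1) (by omega)
  have hu' : u ∈ lev ρ univ (m - 1) := by
    intro Z _ hZ
    have h1 : Z = univ := by
      rw [← Finset.card_eq_iff_eq_univ, hZ, hm]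
      omega
    rw [h1, hu]
  have hPu : P (m - 1) = u := by
    have h1 := (hP (m - 1)).2 (u - P (m - 1)) (Submodule.sub_mem _ hu' (hP (m - 1)).1)
    exact (sub_eq_zero.mp (inner_self_eq_zero.mp h1)).symm
  rw [hPu] at hfin
  refine hfin.trans (le_of_eq ?_)
  refine Finset.sum_bij' (fun j _ => m - (j + 1)) (fun k _ => m - k - 1) ?_ ?_ ?_ ?_ ?_
  · intro j hj
    rw [Finset.mem_range] at hj
    rw [Finset.mem_Icc]
    omega
  · intro k hk
    rw [Finset.mem_Icc] at hk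
    rw [Finset.mem_range]
    omega
  · intro j hj
    rw [Finset.mem_range] at hj
    show m - (m - (j + 1)) - 1 = j
    omega
  · intro k hk
    rw [Finset.mem_Icc] at hk
    show m - (m - k - 1 + 1) = k
    omega
  · intro j _
    rfl

end

end Vale.Agent.P162
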