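import Vale.Agent.P162.Final
import Vale.Agent.P162.ThmA2
import Vale.Agent.P162.FHigh
import Vale.Agent.P162.FSpec
import Vale.Agent.P162.FHb
import Vale.Agent.P162.FBad
import Vale.Agent.P162.FDk
import Vale.Agent.P162.FP2
import Vale.Agent.P162.FComp
import Vale.Agent.P162.FIter1
import Vale.Agent.P162.FIter2
import Vale.Agent.P162.FNum
import Vale.Agent.P162.FLower

/-! # Assembly of the linear bound -/

namespace Vale.Agent.P162

open Finset Equiv
open scoped RealInnerProductSpace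

noncomputable section

lemma dirs_self (D : ℕ) [NeZero D] : dirs D D = List.finRange D := by
  apply List.ext_getElem
  · simp [dirs]
  · intro i h1 h2
    simp only [dirs, List.getElem_map, List.getElem_range, List.getElem_finRange]
    apply Fin.ext
    simp only [Fin.ofNat, Fin.val_mk, Fin.cast_mk]
    exact Nat.mod_eq_of_lt (by simpa using h2)

lemma PK_pk {d : ℕ} {A : Type*} [Fintype A] [DecidableEq A] (ν : ℕ) (j : A → Cube d)
    (hj : Function.Injective j) (l : List (Fin d)) (hl : l.Nodup) : PK ν (pk ν j l) :=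
  ⟨pk_nonneg ν j l, fun h π => pk_conj ν j hj l h π, pk_inv ν j l,
    fun K => pk_moment ν j hj l hl K⟩

section eig

variable {A : Type*} [Fintype A] [DecidableEq A]
variable {H : Type*} [NormedAddCommGroup H] [InnerProductSpace ℝ H] [FiniteDimensional ℝ H]
variable {ρ : Perm A →* (H →ₗ[ℝ] H)}

omit [FiniteDimensional ℝ H] in
lemma exists_Z {q : ℕ} (hq : 1 ≤ q) {F : H} (h1 : ∀ G ∈ lev ρ univ (q - 1), ⟪G, F⟫ = 0)
    (h0 : F ≠ 0) : ∃ Z : Finset A, Z.card = q ∧ Qop ρ Z F ≠ 0 := by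
  by_contra hcon
  push Not at hcon
  have h2 : F ∈ lev ρ univ (q - 1) := fun Z _ hZ => hcon Z (by omega)
  exact h0 (inner_self_eq_zero.mp (h1 F h2))

/-- the large degrees, by comparison -/
lemma eig_large {d : ℕ} (hρ : ∀ g v, ‖ρ g v‖ = ‖v‖) (ν : ℕ) {j : A → Cube d}
    (hj : Function.Injective j) (hX : Fintype.card (Cube d) ≤ 4 * Fintype.card A)
    (s0 : Fin d) (l' : List (Fin d))
    (pairs : List (Cube d × Cube d)) (hp : ∀ p ∈ pairs, p.2 = p.1 + Pi.single s0 1)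
    (hnd : (flat pairs).Nodup) (hL : 64 * pairs.length = Fintype.card (Cube d))
    (q : ℕ) (hq1 : 1 ≤ q) (F : H) (hF : F ∈ lev ρ univ q)
    (hF' : ∀ G ∈ lev ρ univ (q - 1), ⟪G, F⟫ = 0) (hF0 : F ≠ 0) (μ : ℝ)
    (hμ : Pop ρ (pk ν j (s0 :: l')) F = μ • F) :
    |μ| ≤ (1 - 1 / 8192) ^ (Fintype.card A - q) := by
  obtain ⟨q', rfl⟩ : ∃ q', q = q' + 1 := ⟨q - 1, by omega⟩
  rw [Nat.add_sub_cancel] at hF'
  have hpos : 0 < ‖F‖ ^ 2 := by positivity
  have h1 := comp_KK hρ ν j hj s0 l' pairs hp hnd F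
  have hc : (0 : ℝ) ≤ (1 - 1 / 8192) ^ (Fintype.card A - (q' + 1)) :=
    pow_nonneg (by norm_num) _
  have h2 := layer_bound2 (KK ρ j pairs) (KK_symm hρ hj pairs hnd)
    (fun g v => KK_rho hj pairs hnd g v) _ hc q'
    (fun G hG hG' hG0 μ' hμ' => eig_bound2 hρ hj hX pairs hnd hL (q' + 1) G hG
      (exists_Z (by omega) (by rwa [Nat.add_sub_cancel]) hG0) μ' hμ') F hF hF' 1
  rw [pow_one, pow_one] at h2
  have h3 : 0 ≤ ⟪F, Pop ρ (pk ν j (s0 :: l')) F⟫ := by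
    rw [pk_inner hρ]
    unfold avgP
    apply div_nonneg _ (Nat.cast_nonneg _)
    apply Finset.sum_nonneg
    intro g _
    apply SW_nonneg
    intro y ts
    split_ifs
    · positivity
    · exact le_refl _
  rw [hμ, real_inner_smul_right, real_inner_self_eq_norm_sq] at h1 h3
  have h4 : 0 ≤ μ := by
    by_contra h
    have := mul_neg_of_neg_of_pos (not_le.mp h) hpos
    linarith
  rw [abs_of_nonneg h4]
  exact le_of_mul_le_mul_right (h1.trans h2) hpos

end eig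

/-- the bound for the eigenvalues -/
def bfun (m k : ℕ) : ℝ :=
  if 2 ^ 100 * k ≤ m then ((2 ^ 49 * (k : ℝ) / m) ^ k) ^ ((16 : ℝ)⁻¹) else (1 - 1 / 8192) ^ k

lemma bfun_nonneg (m k : ℕ) : 0 ≤ bfun m k := by
  unfold bfun
  split_ifs
  · positivity
  · exact pow_nonneg (by norm_num) _

lemma num_sum' : ∃ N m₀ : ℕ, ∀ m : ℕ, m₀ ≤ m →
    ∑ k ∈ Icc 1 (m - 1),
      (if 2 ^ 100 * k ≤ m then ((2 ^ 49 * (k : ℝ) / m) ^ k) ^ N
        else (((1 - 1 / 8192 : ℝ)) ^ k) ^ (16 * N)) *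
      (16 * ((m.choose k : ℕ) : ℝ) ^ 2 * 81 ^ k) ≤ 1 / (64 * (m : ℝ) ^ 2) :=
  ⟨108032, num_sum⟩

lemma bfun_pow (N m k : ℕ) : bfun m k ^ (16 * N) =
    (if 2 ^ 100 * k ≤ m then ((2 ^ 49 * (k : ℝ) / m) ^ k) ^ N
        else (((1 - 1 / 8192 : ℝ)) ^ k) ^ (16 * N)) := by
  unfold bfun
  split_ifs
  · rw [pow_mul]
    congr 1
    have h0 : (0 : ℝ) ≤ (2 ^ 49 * (k : ℝ) / m) ^ k := by positivity
    have := Real.rpow_inv_natCast_pow h0 (n := 16) (by norm_num)
    simpa using this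
  · rfl

lemma le_bfun_of_pow {m k : ℕ} {μ : ℝ} (hk : 2 ^ 100 * k ≤ m)
    (h : |μ| ^ 16 ≤ (2 ^ 49 * (k : ℝ) / m) ^ k) : |μ| ≤ bfun m k := by
  unfold bfun
  rw [if_pos hk]
  have h0 : (0 : ℝ) ≤ (2 ^ 49 * (k : ℝ) / m) ^ k := by positivity
  have h1 := Real.rpow_inv_natCast_pow h0 (n := 16) (by norm_num)
  have h2 : |μ| ^ 16 ≤ (((2 ^ 49 * (k : ℝ) / m) ^ k) ^ ((16 : ℝ)⁻¹)) ^ 16 := by
    refine h.trans (le_of_eq ?_)
    simpa using h1.symm
  exact le_of_pow_le_pow_left₀ (by norm_num) (by positivity) h2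

lemma dl_eq {A : Type*} [Fintype A] [DecidableEq A] (x : Perm A) :
    (EuclideanSpace.single x (1 : ℝ) : EuclideanSpace ℝ (Perm A)) = dl x := rfl

lemma Qop_univ_sub {m : ℕ} (x y : Perm (Fin m)) :
    Qop (regRep (Fin m)) univ (dl x - dl y) = 0 := by
  have h1 : ∀ z : Perm (Fin m), Qop (regRep (Fin m)) univ (dl z) =
      Qop (regRep (Fin m)) univ (dl 1) := by
    intro z
    have h2 : dl z = regRep (Fin m) z (dl 1) := by rw [regRep_dl, mul_one]
    rw [h2]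
    exact Qop_rho (by simp [symF]) _
  rw [map_sub, h1 x, h1 y, sub_self]

/-- the spectral estimate -/
lemma spectral_final2 {N m D ν : ℕ} [NeZero D]
    (hm₀ : ∑ k ∈ Icc 1 (m - 1),
      (if 2 ^ 100 * k ≤ m then ((2 ^ 49 * (k : ℝ) / m) ^ k) ^ N
        else (((1 - 1 / 8192 : ℝ)) ^ k) ^ (16 * N)) *
      (16 * ((m.choose k : ℕ) : ℝ) ^ 2 * 81 ^ k) ≤ 1 / (64 * (m : ℝ) ^ 2))
    (hm0 : 0 < m) (hmD : m ≤ 2 ^ D) (hmD2 : 2 ^ D ≤ 2 * m) (hν : D ≤ 4 * ν)
    (j : Fin m → Cube D) (hj : Function.Injective j)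
    (pairs : List (Cube D × Cube D)) (hp : ∀ p ∈ pairs, p.2 = p.1 + Pi.single 0 1)
    (hnd : (flat pairs).Nodup) (hlen : 64 * pairs.length = 2 ^ D)
    (x y : Perm (Fin m)) :
    Real.sqrt (Nat.factorial m) * Real.sqrt ⟪dl x - dl y,
      (Pop (regRep (Fin m)) (pk ν j (List.finRange D)) ^ (2 + 16 * N + 2)) (dl x - dl y)⟫ ≤
      1 / (4 * 2 ^ D) := by
  have hcX : Fintype.card (Cube D) = 2 ^ D := by simp [ZMod.card]
  have hPK : PK ν (pk ν j (List.finRange D)) := PK_pk ν j hj _ (List.nodup_finRange D)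
  obtain ⟨l', hl'⟩ : ∃ l', List.finRange D = (0 : Fin D) :: l' := by
    obtain ⟨D', rfl⟩ : ∃ D', D = D' + 1 := ⟨D - 1, by have := NeZero.pos D; omega⟩
    exact ⟨_, List.finRange_succ⟩
  set T := Pop (regRep (Fin m)) (pk ν j (List.finRange D)) with hT
  set u := dl x - dl y with hu
  have hTsymm : T.IsSymmetric := Pop_symm hPK norm_regRep
  have hTρ : ∀ g v, T (regRep (Fin m) g v) = regRep (Fin m) g (T v) := fun g v => Pop_rho hPK g v
  have hfact : (0 : ℝ) < (Nat.factorial m : ℝ) := by exact_mod_cast Nat.factorial_pos m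
  -- reduction to `u' = T (T u)`
  have hI : ⟪u, (T ^ (2 + 16 * N + 2)) u⟫ = ⟪T (T u), (T ^ (16 * N)) (T (T u))⟫ := by
    have h1 : (T ^ (2 + 16 * N + 2)) u = (T ^ 2) ((T ^ (16 * N)) ((T ^ 2) u)) := by
      rw [pow_add, pow_add]; rfl
    have h2 : ∀ v, (T ^ 2) v = T (T v) := by
      intro v; rw [pow_two]; rfl
    rw [h1, ← Tpow_symm T hTsymm, h2]
  have hspec := spectral_sum2 (ρ := regRep (Fin m)) norm_regRep T hTsymm hTρ (bfun m)
    (bfun_nonneg m) m (Fintype.card_fin m) hm0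
    (by
      intro q hq1 hq F hF hF' hF0 μ hμ
      by_cases hk : 2 ^ 100 * (m - q) ≤ m
      · apply le_bfun_of_pow hk
        obtain ⟨Z, hZc, hZ⟩ := exists_Z hq1 hF' hF0
        exact eig_small norm_regRep hPK (Fintype.card_fin m)
          (hmD.trans (Nat.pow_le_pow_right (by norm_num) hν)) hq (by omega) hF Z hZc hZ μ hμ
      · unfold bfun
        rw [if_neg hk]
        rw [hT, hl'] at hμ
        have := eig_large norm_regRep ν hj (by rw [hcX, Fintype.card_fin]; omega) 0 l' pairs hp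
          hnd (by rw [hcX]; exact hlen) q hq1 F hF hF' hF0 μ hμ
        rwa [Fintype.card_fin] at this)
    (T (T u)) (by
      rw [← T_Qop T hTρ, ← T_Qop T hTρ, hu, Qop_univ_sub, map_zero, map_zero])
    (fun k => 16 * ((m.choose k : ℕ) : ℝ) ^ 2 * 81 ^ k / (m.factorial : ℝ))
    (by
      intro q hq1 hq w hw hw2
      have h1 := Dk_bound hPK (Fintype.card_fin m)
        (hmD.trans (Nat.pow_le_pow_right (by norm_num) hν)) hq1 hq x y w hw hw2
      have h2 : m.choose (m - q) = m.choose q := Nat.choose_symm hq.le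
      show ‖w‖ ^ 2 ≤ 16 * ((m.choose (m - q) : ℕ) : ℝ) ^ 2 * 81 ^ (m - q) / (m.factorial : ℝ)
      rw [h2]
      exact h1) (16 * N)
  rw [← Real.sqrt_mul hfact.le]
  apply Real.sqrt_le_iff.mpr
  refine ⟨by positivity, ?_⟩
  rw [hI]
  have h1 : (Nat.factorial m : ℝ) * ⟪T (T u), (T ^ (16 * N)) (T (T u))⟫ ≤
      1 / (64 * (m : ℝ) ^ 2) := by
    refine (mul_le_mul_of_nonneg_left hspec hfact.le).trans ?_
    refine le_trans (le_of_eq ?_) hm₀
    rw [Finset.mul_sum]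
    apply Finset.sum_congr rfl
    intro k _
    rw [bfun_pow]
    field_simp
  refine h1.trans ?_
  have hm1 : (0 : ℝ) < m := by exact_mod_cast hm0
  have hm2 : (2 : ℝ) ^ D ≤ 2 * m := by exact_mod_cast hmD2
  have h2 : (1 / (4 * 2 ^ D) : ℝ) ^ 2 = 1 / (16 * (2 ^ D) ^ 2) := by
    rw [div_pow, one_pow, mul_pow]
    norm_num
  rw [h2]
  apply one_div_le_one_div_of_le (by positivity)
  have h3 : ((2 : ℝ) ^ D) ^ 2 ≤ (2 * m) ^ 2 := pow_le_pow_left₀ (by positivity) hm2 2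
  nlinarith

/-- near invariance under transpositions of two cards -/
lemma near_inv_block2 : ∃ R D₀ : ℕ, ∀ D : ℕ, D₀ ≤ D → ∀ [NeZero D], ∀ a b : Cube D, a ≠ b →
    ∀ φ : Perm (Cube D) → ℝ, (∀ σ, |φ σ| ≤ 1) →
    |Kl (dirs D (R * (524290 * D))) (fun σ => φ σ - φ (σ * swap a b)) 1| ≤
      1 / (2 * 2 ^ D) := by
  obtain ⟨N, m₀, hm₀⟩ := num_sum'
  obtain ⟨D₁, hD₁⟩ := num_delta (2 + 16 * N + 2)
  refine ⟨2 + 16 * N + 2, max (max 20 m₀) D₁, ?_⟩
  intro D hD _ a b hab φ hφ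
  have hD20 : 20 ≤ D := (le_max_left _ _).trans ((le_max_left _ _).trans hD)
  have hDm : m₀ ≤ D := (le_max_right _ _).trans ((le_max_left _ _).trans hD)
  have hDD : D₁ ≤ D := (le_max_right _ _).trans hD
  set R := 2 + 16 * N + 2 with hR
  obtain ⟨E, hE⟩ : ∃ E, D = E + 13 := ⟨D - 13, by omega⟩
  set F := 2 ^ (D - 13) with hF
  have hFE : F = 2 ^ E := by rw [hF, hE, Nat.add_sub_cancel]
  have hF0 : 0 < F := by rw [hF]; positivity
  have h2D : 2 ^ D = 8192 * F := by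
    rw [hFE, hE, pow_add]; norm_num; ring
  set m := 8191 * F with hm
  have hmF : m + F = 2 ^ D := by rw [hm, h2D]; ring
  have hDlt : D < 2 ^ D := Nat.lt_two_pow_self
  have hmm₀ : m₀ ≤ m := by
    have : E < 2 ^ E := Nat.lt_two_pow_self
    rw [← hFE] at this
    omega
  set ν := (D + 3) / 4 with hν
  have hcX : Fintype.card (Cube D) = 2 ^ D := by simp [ZMod.card]
  obtain ⟨L, hL⟩ : 2 ^ 6 ∣ 2 ^ D := pow_dvd_pow 2 (by omega)
  have hL' : 64 * L = 2 ^ D := by rw [hL]; norm_num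
  obtain ⟨pairs, hplen, hnd, hp⟩ := exists_pairs (D := D) 0 L (by omega)
  obtain ⟨j, α, β, hαβ, hja, hjb⟩ := exists_slots m (by omega) (by rw [hcX]; omega) a b hab
  have hcv : (fun σ => φ σ - φ (σ * swap a b)) =
      cv j φ (dl 1 - dl (swap α β) : EuclideanSpace ℝ (Perm (Fin m))) := by
    funext σ
    have := cv_single j φ α β σ
    rw [hja, hjb] at this
    exact this.symm
  set u : EuclideanSpace ℝ (Perm (Fin m)) := dl 1 - dl (swap α β) with hu
  set δ : ℝ := (m : ℝ) * (Real.sqrt (2 ^ D) * Real.sqrt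
      ((1 - (F : ℝ) / (8 * 2 ^ D)) ^ (524289 * D - D) +
        (16 * 2 ^ D / (F : ℝ)) * (3 / 4) ^ F)) with hδ
  have hδ0 : 0 ≤ δ := by positivity
  have hA : ∀ f : (Fin m → Cube D) → ℝ, (∀ e, |f e| ≤ 1) → ∀ e : Fin m → Cube D,
      Function.Injective e →
      |Kl (dirs D (524289 * D)) f e - avgP (fun g : Perm (Cube D) => f (g ∘ j))| ≤ δ := by
    intro f hf e he
    exact thmA2 (524289 * D) (by omega) m F (by omega) hF0 f hf j e j.injective he
  have hsplit : dirs D (524290 * D) = dirs D (524289 * D) ++ List.finRange D := by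
    rw [← dirs_self D, ← dirs_add]
    congr 1
    ring
  rw [hcv, dirs_iterate, hsplit]
  have h1 := biter1 (dirs D (524289 * D)) (List.finRange D) j R φ hφ u 1
  have h2 := biter2 (dirs D (524289 * D)) (List.finRange D) ν j j.injective δ
    (2 ^ 18 / 2 ^ (4 * D)) hδ0 hA (pbad ν (by omega) (by omega) j j.injective (by
      rw [Fintype.card_fin]
      omega)) R u ((1 : Perm (Cube D)) ∘ j) j.injective
  have h3 := biter3 (List.finRange D) ν j (PK_pk ν j j.injective _ (List.nodup_finRange D)) R u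
  have h4 := spectral_final2 (hm₀ m hmm₀) (by omega) (by omega) (by omega)
    (ν := ν) (by omega) j j.injective pairs hp hnd (by rw [hplen]; exact hL') 1 (swap α β)
  have h5 := hD₁ D hDD m (by omega)
  have h6 : ∑ κ, |u κ| = 2 := by
    have hne : (1 : Perm (Fin m)) ≠ swap α β := by
      intro h
      apply hαβ
      have := congrArg (fun g : Perm (Fin m) => g α) h
      simpa using this
    have e1 : ∀ κ : Perm (Fin m), |u κ| =
        (if κ = 1 then 1 else 0) + (if κ = swap α β then 1 else 0) := by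
      intro κ
      rw [hu]
      unfold dl
      simp only [PiLp.sub_apply, PiLp.single_apply]
      by_cases h1 : κ = 1
      · have h2 : κ ≠ swap α β := by rw [h1]; exact hne
        simp [h1, hne]
      · by_cases h2 : κ = swap α β
        · simp [h2, hne.symm]
        · simp [h1, h2]
    simp only [e1, Finset.sum_add_distrib, Finset.sum_ite_eq', Finset.mem_univ, if_true]
    norm_num
  rw [h6] at h2
  have h7 : (1 : ℝ) / (2 * 2 ^ D) = 1 / (4 * 2 ^ D) + 1 / (4 * 2 ^ D) := by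
    have : (2 : ℝ) ^ D ≠ 0 := by positivity
    field_simp
    norm_num
  rw [h7]
  have h8 : (R : ℝ) * (δ + 2 ^ 18 / 2 ^ (4 * D)) * 2 ≤ 1 / (4 * 2 ^ D) := h5
  linarith

theorem tv_bound2 : ∃ R d₀ : ℕ, ∀ d : ℕ, d₀ ≤ d →
    tvDist (2 ^ d) (R * (524290 * (d + 1))) ≤ 1 / 4 := by
  obtain ⟨R, D₀, hD₀⟩ := near_inv_block2
  refine ⟨R, D₀, fun d hd => ?_⟩
  set t := R * (524290 * (d + 1)) with ht
  have hcX : Fintype.card (Cube (d + 1)) = 2 ^ (d + 1) := by simp [ZMod.card]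
  have h1 : ∑ σ, |layerLaw (d + 1) t σ - 1 / (Fintype.card (Perm (Cube (d + 1))) : ℝ)| ≤
      Fintype.card (Cube (d + 1)) * (1 / (2 * 2 ^ (d + 1))) := by
    apply near_inv
    · have := sum_layerLaw (D := d + 1) t (fun _ => 1)
      rw [Kl_const] at this
      simpa using this
    · positivity
    · intro a b hab φ hφ
      rw [sum_layerLaw]
      exact hD₀ (d + 1) (by omega) a b hab φ hφ
  rw [tv_eq]
  rw [hcX] at h1
  have h2 : (((2 ^ (d + 1) : ℕ)) : ℝ) * (1 / (2 * 2 ^ (d + 1))) = 1 / 2 := by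
    push_cast
    have : (2 : ℝ) ^ (d + 1) ≠ 0 := by positivity
    field_simp
  rw [h2] at h1
  linarith

/-- the mixing time of the Thorp shuffle of `2 ^ (d + 1)` cards is of order `d` -/
theorem tmix_linear : ∃ C d₀ : ℕ, ∀ d : ℕ, d₀ ≤ d →
    tvDist (2 ^ d) (tmix (2 ^ d)) ≤ 1 / 4 ∧ d ≤ tmix (2 ^ d) ∧
    tmix (2 ^ d) ≤ C * (d + 1) := by
  obtain ⟨R, d₀, hd₀⟩ := tv_bound2
  refine ⟨R * 524290, max 1 d₀, fun d hd => ?_⟩
  have h1 := hd₀ d ((le_max_right _ _).trans hd)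
  have hne : {t | tvDist (2 ^ d) t ≤ 1 / 4}.Nonempty := ⟨_, h1⟩
  have h2 : tvDist (2 ^ d) (tmix (2 ^ d)) ≤ 1 / 4 := Nat.sInf_mem hne
  refine ⟨h2, tmix_lower d _ ((le_max_left _ _).trans hd) h2, ?_⟩
  have h3 : tmix (2 ^ d) ≤ R * (524290 * (d + 1)) := Nat.sInf_le h1
  rwa [← mul_assoc] at h3

end

end Vale.Agent.P162
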