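import Vale.Agent.P162.FAbs

/-! # Intertwiners and the pointwise bound for the marginals of the averaged kernel -/

namespace Vale.Agent.P162

open Finset Equiv

noncomputable section

variable {A : Type*} [Fintype A] [DecidableEq A]

/-- representative of the cycle of `a` -/
def FInter_rep (g : Perm A) (a : A) : A :=
  Quotient.out (Quotient.mk (Perm.SameCycle.setoid g) a)

omit [Fintype A] [DecidableEq A] in
lemma FInter_rep_apply (g : Perm A) (a : A) : FInter_rep g (g a) = FInter_rep g a := by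
  unfold FInter_rep
  congr 1
  apply Quotient.sound
  show Perm.SameCycle g (g a) a
  rw [Perm.sameCycle_apply_left]

omit [DecidableEq A] in
lemma FInter_rep_pow (g : Perm A) (a : A) : ∃ i : ℕ, (g ^ i) (FInter_rep g a) = a := by
  have h : Perm.SameCycle g (FInter_rep g a) a := Quotient.mk_out (s := Perm.SameCycle.setoid g) a
  exact h.exists_nat_pow_eq

/-- the points whose cycle is contained in `Φ` -/
def FInter_full (g : Perm A) (Φ : Finset A) (a : A) : Prop := ∀ i : ℤ, (g ^ i) a ∈ Φ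

omit [Fintype A] [DecidableEq A] in
lemma FInter_full_apply (g : Perm A) (Φ : Finset A) (a : A) :
    FInter_full g Φ (g a) ↔ FInter_full g Φ a := by
  unfold FInter_full
  constructor
  · intro h i
    have := h (i - 1)
    rw [← Perm.mul_apply, ← zpow_add_one] at this
    simpa using this
  · intro h i
    rw [← Perm.mul_apply, ← zpow_add_one]
    exact h _

omit [Fintype A] [DecidableEq A] in
lemma FInter_full_pow (g : Perm A) (Φ : Finset A) (a : A) (i : ℕ) (h : FInter_full g Φ ((g ^ i) a)) :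
    FInter_full g Φ a := by
  intro j
  have := h (j - i)
  rw [← Perm.mul_apply, ← zpow_natCast, ← zpow_add] at this
  simpa using this

omit [DecidableEq A] in
lemma FInter_not_full (g : Perm A) (Φ : Finset A) (a : A) (h : ¬ FInter_full g Φ a) :
    ∃ i : ℕ, (g ^ i) a ∉ Φ := by
  unfold FInter_full at h
  push Not at h
  obtain ⟨i, hi⟩ := h
  obtain ⟨n, hn⟩ := (show Perm.SameCycle g a ((g ^ i) a) from ⟨i, rfl⟩).exists_nat_pow_eq
  exact ⟨n, by rw [hn]; exact hi⟩

omit [Fintype A] [DecidableEq A] in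
/-- agreement propagates backwards along the orbit -/
lemma FInter_back {g π h h' : Perm A} {Φ : Finset A} (hh : ∀ a ∈ Φ, π (h a) = h (g a))
    (hh' : ∀ a ∈ Φ, π (h' a) = h' (g a)) (hout : ∀ a, a ∉ Φ → h a = h' a) (n : ℕ) :
    ∀ a, (g ^ n) a ∉ Φ → h a = h' a := by
  induction n with
  | zero => intro a ha; exact hout a ha
  | succ n ih =>
    intro a ha
    by_cases haΦ : a ∈ Φ
    · have h1 := ih (g a) (by rwa [← Perm.mul_apply, ← pow_succ])
      rw [← hh a haΦ, ← hh' a haΦ] at h1
      exact π.injective h1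
    · exact hout a haΦ

omit [Fintype A] [DecidableEq A] in
/-- agreement propagates forwards along a full cycle -/
lemma FInter_forw {g π h h' : Perm A} {Φ : Finset A} (hh : ∀ a ∈ Φ, π (h a) = h (g a))
    (hh' : ∀ a ∈ Φ, π (h' a) = h' (g a)) (r : A) (hr : FInter_full g Φ r) (heq : h r = h' r)
    (n : ℕ) : h ((g ^ n) r) = h' ((g ^ n) r) := by
  induction n with
  | zero => exact heq
  | succ n ih =>
    have h1 : (g ^ n) r ∈ Φ := by
      have := hr n
      rwa [zpow_natCast] at this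
    rw [pow_succ', Perm.mul_apply, ← hh _ h1, ← hh' _ h1, ih]

/-- the number of `h` preserving `Φ` with `π h = h g` on `Φ` -/
theorem intertwiners (ν : ℕ) (Φ : Finset A) (hk : Φ.card ≤ 2 ^ (4 * ν)) (g π : Perm A) :
    ((univ.filter fun h : Perm A =>
      (∀ a, h a ∈ Φ ↔ a ∈ Φ) ∧ ∀ a ∈ Φ, π (h a) = h (g a)).card : ℝ) ≤
      (Φᶜ.card.factorial : ℝ) * FK ν Φ g ^ 4 := by
  classical
  -- the injection of `Φ` in the set of 4-tuples of colours
  obtain ⟨c⟩ : Nonempty ({x // x ∈ Φ} ↪ (Fin 4 → Cube ν)) := by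
    apply Function.Embedding.nonempty_of_card_le
    rw [Fintype.card_coe]
    refine hk.trans (le_of_eq ?_)
    simp only [Fintype.card_pi, ZMod.card, Finset.prod_const, Finset.card_univ, Fintype.card_fin]
    rw [← pow_mul, mul_comm]
  obtain ⟨Inv, hInv⟩ : ∃ Inv, Inv = (Col ν Φ).filter fun χ => ∀ a, χ (g a) = χ a := ⟨_, rfl⟩
  have hFK : FK ν Φ g = (Inv.card : ℝ) := by rw [hInv]; rfl
  rw [hFK]
  -- the map
  let col : Perm A → Fin 4 → A → Cube ν := fun h j a =>
    if FInter_full g Φ a then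
      (if hr : h (FInter_rep g a) ∈ Φ then c ⟨h (FInter_rep g a), hr⟩ j else 0) else 0
  let T : Finset (Perm {a // a ∉ Φ} × (Fin 4 → A → Cube ν)) :=
    univ ×ˢ Fintype.piFinset (fun _ : Fin 4 => Inv)
  have hT : T.card = Φᶜ.card.factorial * Inv.card ^ 4 := by
    rw [Finset.card_product, Fintype.card_piFinset_const, Finset.card_univ, Fintype.card_perm]
    congr 2
    rw [Fintype.card_subtype]
    congr 1
    ext a
    simp
  let F : Perm A → Perm {a // a ∉ Φ} × (Fin 4 → A → Cube ν) := fun h =>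
    (if hh : ∀ a, a ∉ Φ ↔ h a ∉ Φ then h.subtypePerm (fun a => (hh a).symm) else 1, col h)
  have hle : (univ.filter fun h : Perm A =>
      (∀ a, h a ∈ Φ ↔ a ∈ Φ) ∧ ∀ a ∈ Φ, π (h a) = h (g a)).card ≤ T.card := by
    refine Finset.card_le_card_of_injOn F ?_ ?_
    · intro h hh
      rw [Finset.mem_coe, Finset.mem_product, Fintype.mem_piFinset]
      refine ⟨Finset.mem_univ _, ?_⟩
      intro j
      rw [hInv, Finset.mem_filter, Col, Finset.mem_filter]
      refine ⟨⟨Finset.mem_univ _, ?_⟩, ?_⟩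
      · intro a ha
        show (if FInter_full g Φ a then _ else _) = _
        rw [if_neg]
        intro hf
        exact ha (by simpa using hf 0)
      · intro a
        show (if FInter_full g Φ (g a) then _ else _) = (if FInter_full g Φ a then _ else _)
        simp only [FInter_full_apply, FInter_rep_apply]
    · intro h hh h' hh' heq
      rw [Finset.mem_coe, Finset.mem_filter] at hh hh'
      obtain ⟨_, h1, h2⟩ := hh
      obtain ⟨_, h1', h2'⟩ := hh'
      have hp : ∀ a, a ∉ Φ ↔ h a ∉ Φ := fun a => not_congr (h1 a).symm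
      have hp' : ∀ a, a ∉ Φ ↔ h' a ∉ Φ := fun a => not_congr (h1' a).symm
      have heq1 := congrArg Prod.fst heq
      have heq2 := congrArg Prod.snd heq
      have hout : ∀ a, a ∉ Φ → h a = h' a := by
        intro a ha
        simp only [F, dif_pos hp, dif_pos hp'] at heq1
        have := congrArg Subtype.val (Equiv.ext_iff.1 heq1 ⟨a, ha⟩)
        simpa using this
      ext a
      by_cases hf : FInter_full g Φ a
      · obtain ⟨n, hn⟩ := FInter_rep_pow g a
        have hfr : FInter_full g Φ (FInter_rep g a) := by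
          apply FInter_full_pow g Φ _ n
          rw [hn]; exact hf
        have hrΦ : FInter_rep g a ∈ Φ := by simpa using hfr 0
        have hcol : c ⟨h (FInter_rep g a), (h1 _).2 hrΦ⟩ = c ⟨h' (FInter_rep g a), (h1' _).2 hrΦ⟩ := by
          funext j
          have := congrFun (congrFun heq2 j) a
          simp only [F, col, if_pos hf, dif_pos ((h1 _).2 hrΦ), dif_pos ((h1' _).2 hrΦ)] at this
          exact this
        have hr : h (FInter_rep g a) = h' (FInter_rep g a) :=
          congrArg Subtype.val (c.injective hcol)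
        have := FInter_forw h2 h2' _ hfr hr n
        rwa [hn] at this
      · obtain ⟨n, hn⟩ := FInter_not_full g Φ a hf
        exact FInter_back h2 h2' hout n a hn
  have hle' : ((univ.filter fun h : Perm A =>
      (∀ a, h a ∈ Φ ↔ a ∈ Φ) ∧ ∀ a ∈ Φ, π (h a) = h (g a)).card : ℝ) ≤
      ((Φᶜ.card.factorial * Inv.card ^ 4 : ℕ) : ℝ) := by
    rw [← hT]
    exact_mod_cast hle
  refine hle'.trans (le_of_eq ?_)
  push_cast
  rfl

/-- the permutations preserving `Φ` -/
lemma FInter_card_pres (Φ : Finset A) : (Φ.card.factorial * Φᶜ.card.factorial : ℕ) ≤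
    (univ.filter fun h : Perm A => ∀ a, h a ∈ Φ ↔ a ∈ Φ).card := by
  rw [← card_symF Φ, ← card_symF Φᶜ, ← Finset.card_product]
  refine Finset.card_le_card_of_injOn (fun x => x.1 * x.2) ?_ ?_
  · rintro ⟨u, v⟩ hx
    rw [Finset.mem_coe, Finset.mem_product] at hx
    obtain ⟨hu, hv⟩ := hx
    rw [mem_symF] at hu hv
    rw [Finset.mem_coe, Finset.mem_filter]
    refine ⟨Finset.mem_univ _, ?_⟩
    intro a
    show u (v a) ∈ Φ ↔ a ∈ Φ
    have hu' : ∀ x, x ∈ Φ ↔ u x ∈ Φ := by
      intro x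
      by_cases hx : x ∈ Φ
      · refine ⟨fun _ => ?_, fun _ => hx⟩
        by_contra hcon
        have := hu (u x) hcon
        rw [u.injective this] at hcon
        exact hcon hx
      · rw [hu x hx]
    have hv' : ∀ x, x ∈ Φ ↔ v x ∈ Φ := by
      intro x
      by_cases hx : x ∈ Φ
      · rw [hv x (by simpa using hx)]
      · refine ⟨fun h => absurd h hx, fun h => ?_⟩
        have := hv (v x) (by simpa using h)
        rw [v.injective this] at h
        exact h
    rw [← hu', ← hv']
  · rintro ⟨u, v⟩ hx ⟨u', v'⟩ hx' heq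
    rw [Finset.mem_coe, Finset.mem_product] at hx hx'
    obtain ⟨hu, hv⟩ := hx
    obtain ⟨hu', hv'⟩ := hx'
    simp only at heq hu hv hu' hv'
    have h1 : u'⁻¹ * u = v' * v⁻¹ := by
      rw [inv_mul_eq_iff_eq_mul, ← mul_assoc, eq_mul_inv_iff_mul_eq]
      exact heq
    have h2 : u'⁻¹ * u ∈ symF Φ := mul_mem_symF (inv_mem_symF hu') hu
    have h3 : u'⁻¹ * u ∈ symF Φᶜ := by
      rw [h1]
      exact mul_mem_symF hv' (inv_mem_symF hv)
    have h4 : u'⁻¹ * u = 1 := by
      rw [mem_symF] at h2 h3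
      ext a
      by_cases ha : a ∈ Φ
      · exact h3 a (by simpa using ha)
      · exact h2 a ha
    have h5 : u' = u := by
      rw [inv_mul_eq_one] at h4
      exact h4
    subst h5
    have h6 : v = v' := mul_left_cancel heq
    rw [h6]

theorem pointwise {ν : ℕ} {p : Perm A → ℝ} (hp : PK ν p) (Φ : Finset A)
    (hk : Φ.card ≤ 2 ^ (4 * ν)) (g : Perm A) :
    ∑ z ∈ symF Φᶜ, p (g * z) ≤ 3 ^ Φ.card / (Φ.card.factorial : ℝ) * FK ν Φ g ^ 3 := by
  classical
  obtain ⟨B, hB⟩ : ∃ B, B = univ.filter fun h : Perm A => ∀ a, h a ∈ Φ ↔ a ∈ Φ := ⟨_, rfl⟩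
  obtain ⟨s, hs⟩ : ∃ s : ℝ, s = ∑ z ∈ symF Φᶜ, p (g * z) := ⟨_, rfl⟩
  have hs0 : 0 ≤ s := by rw [hs]; exact Finset.sum_nonneg fun z _ => hp.nonneg _
  rw [← hs]
  -- the sum in terms of all permutations
  have h1 : s = ∑ π, if ∀ a ∈ Φ, π a = g a then p π else 0 := by
    rw [hs, ← Finset.sum_filter]
    refine Finset.sum_bij' (fun z _ => g * z) (fun π _ => g⁻¹ * π) ?_ ?_ ?_ ?_ ?_
    · intro z hz
      rw [Finset.mem_filter]
      refine ⟨Finset.mem_univ _, fun a ha => ?_⟩
      rw [Perm.mul_apply, mem_symF.1 hz a (by simpa using ha)]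
    · intro π hπ
      rw [Finset.mem_filter] at hπ
      rw [mem_symF]
      intro a ha
      rw [Perm.mul_apply, hπ.2 a (by simpa using ha)]
      exact Equiv.symm_apply_apply g a
    · intro z _; simp
    · intro π _; simp
    · intro z _; rfl
  have h2 : ∀ h ∈ B, s = ∑ π, if ∀ a ∈ Φ, π (h a) = h (g a) then p π else 0 := by
    intro h _
    rw [h1]
    refine Fintype.sum_equiv (MulAut.conj h).toEquiv _ _ (fun π => ?_)
    have e1 : (MulAut.conj h).toEquiv π = h * π * h⁻¹ := rfl
    rw [e1, hp.conj]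
    have e2 : (∀ a ∈ Φ, π a = g a) ↔ ∀ a ∈ Φ, (h * π * h⁻¹) (h a) = h (g a) := by
      refine forall_congr' fun a => imp_congr_right fun _ => ?_
      rw [Perm.mul_apply, Perm.mul_apply, show h⁻¹ (h a) = a from Equiv.symm_apply_apply h a]
      exact h.injective.eq_iff.symm
    by_cases hc : ∀ a ∈ Φ, π a = g a
    · rw [if_pos hc, if_pos (e2.1 hc)]
    · rw [if_neg hc, if_neg (fun h' => hc (e2.2 h'))]
  have h3 : (B.card : ℝ) * s = ∑ π, p π *
      ((univ.filter fun h : Perm A =>
        (∀ a, h a ∈ Φ ↔ a ∈ Φ) ∧ ∀ a ∈ Φ, π (h a) = h (g a)).card : ℝ) := by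
    rw [← nsmul_eq_mul, ← Finset.sum_const, Finset.sum_congr rfl h2, Finset.sum_comm]
    refine Finset.sum_congr rfl fun π _ => ?_
    rw [hB, ← Finset.sum_filter, Finset.filter_filter, Finset.sum_const, nsmul_eq_mul, mul_comm]
  have hFK1 : 1 ≤ FK ν Φ g := FK_ge_one ν Φ g
  have h4 : ∀ π, p π * ((univ.filter fun h : Perm A =>
        (∀ a, h a ∈ Φ ↔ a ∈ Φ) ∧ ∀ a ∈ Φ, π (h a) = h (g a)).card : ℝ) ≤
      ((Φᶜ.card.factorial : ℝ) * FK ν Φ g ^ 3) * (p π * FK ν Φ π) := by
    intro π
    have hFKπ := FK_ge_one ν Φ π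
    have hpπ := hp.nonneg π
    rcases Finset.eq_empty_or_nonempty (univ.filter fun h : Perm A =>
        (∀ a, h a ∈ Φ ↔ a ∈ Φ) ∧ ∀ a ∈ Φ, π (h a) = h (g a)) with he | ⟨h, hh⟩
    · rw [he, Finset.card_empty, Nat.cast_zero, mul_zero]
      positivity
    · have heq : FK ν Φ π = FK ν Φ g := by
        rw [Finset.mem_filter] at hh
        obtain ⟨_, hh1, hh2⟩ := hh
        have hz : g⁻¹ * (h⁻¹ * π * h) ∈ symF Φᶜ := by
          rw [mem_symF]
          intro a ha
          have ha' : a ∈ Φ := by simpa using ha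
          show g⁻¹ (h⁻¹ (π (h a))) = a
          rw [hh2 a ha', show h⁻¹ (h (g a)) = g a from Equiv.symm_apply_apply h _]
          exact Equiv.symm_apply_apply g a
        have e1 := FK_mul_symF ν Φ g _ hz
        rw [mul_inv_cancel_left] at e1
        have e2 := FK_conj ν Φ h⁻¹ π
        rw [inv_inv] at e2
        have e3 : Φ.image (h⁻¹ : Perm A) = Φ := by
          ext a
          rw [Finset.mem_image]
          constructor
          · rintro ⟨b, hb, rfl⟩
            rw [← hh1]
            rw [show h (h⁻¹ b) = b from Equiv.apply_symm_apply h b]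
            exact hb
          · intro ha
            exact ⟨h a, (hh1 a).2 ha, Equiv.symm_apply_apply h a⟩
        rw [e3] at e2
        rw [← e2, e1]
      have h5 := intertwiners ν Φ hk g π
      calc _ ≤ p π * ((Φᶜ.card.factorial : ℝ) * FK ν Φ g ^ 4) :=
            mul_le_mul_of_nonneg_left h5 hpπ
        _ = ((Φᶜ.card.factorial : ℝ) * FK ν Φ g ^ 3) * (p π * FK ν Φ π) := by rw [heq]; ring
  have h5 : (B.card : ℝ) * s ≤ ((Φᶜ.card.factorial : ℝ) * FK ν Φ g ^ 3) * 3 ^ Φ.card := by
    rw [h3]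
    refine (Finset.sum_le_sum fun π _ => h4 π).trans ?_
    rw [← Finset.mul_sum]
    exact mul_le_mul_of_nonneg_left (hp.mom Φ) (by positivity)
  have h6 : ((Φ.card.factorial : ℝ) * (Φᶜ.card.factorial : ℝ)) * s ≤
      ((Φᶜ.card.factorial : ℝ) * FK ν Φ g ^ 3) * 3 ^ Φ.card := by
    refine le_trans (mul_le_mul_of_nonneg_right ?_ hs0) h5
    rw [hB]
    exact_mod_cast FInter_card_pres Φ
  have hf1 : (0 : ℝ) < Φ.card.factorial := by exact_mod_cast Nat.factorial_pos _
  have hf2 : (0 : ℝ) < Φᶜ.card.factorial := by exact_mod_cast Nat.factorial_pos _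
  rw [div_mul_eq_mul_div, le_div_iff₀ hf1]
  have h7 : (Φᶜ.card.factorial : ℝ) * (s * Φ.card.factorial) ≤
      (Φᶜ.card.factorial : ℝ) * (3 ^ Φ.card * FK ν Φ g ^ 3) := by
    calc _ = ((Φ.card.factorial : ℝ) * (Φᶜ.card.factorial : ℝ)) * s := by ring
      _ ≤ _ := h6
      _ = _ := by ring
  exact le_of_mul_le_mul_left h7 hf2

end

end Vale.Agent.P162
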