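import Vale.Agent.P162.FBasic

/-! # The average over one layer (numerical part of the key lemma) -/

namespace Vale.Agent.P162

open Finset Equiv

noncomputable section

variable {A : Type*} [Fintype A] [DecidableEq A]

/-- representatives of the 2-cycles of an involution -/
lemma fk1_rep (τ : Perm A) (hτ : τ * τ = 1) :
    ∃ B : Finset A, (∀ a ∈ B, τ a ≠ a ∧ τ a ∉ B) ∧ ∀ a, τ a ≠ a → a ∈ B ∨ τ a ∈ B := by
  classical
  let idx := Fintype.equivFin A
  refine ⟨univ.filter fun a => idx a < idx (τ a), ?_, ?_⟩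
  · intro a ha
    rw [mem_filter] at ha
    refine ⟨fun h => ?_, fun h => ?_⟩
    · rw [h] at ha
      exact lt_irrefl _ ha.2
    · rw [mem_filter, tau_tau hτ] at h
      exact lt_asymm ha.2 h.2
  · intro a ha
    simp only [mem_filter, mem_univ, true_and]
    rcases lt_trichotomy (idx a) (idx (τ a)) with h | h | h
    · left; exact h
    · exact absurd (idx.injective h).symm ha
    · right; rwa [tau_tau hτ]

lemma fk1_split {τ : Perm A} (hτ : τ * τ = 1) {B : Finset A}
    (hB : (∀ a ∈ B, τ a ≠ a ∧ τ a ∉ B) ∧ ∀ a, τ a ≠ a → a ∈ B ∨ τ a ∈ B) (φ : A → ℝ) :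
    ∏ a, φ a = (∏ a ∈ univ.filter (fun a => τ a = a), φ a) * ∏ b ∈ B, φ b * φ (τ b) := by
  classical
  have hun : (univ : Finset A) = (univ.filter (fun a => τ a = a)) ∪ (B ∪ B.image τ) := by
    ext a
    simp only [mem_univ, mem_union, mem_filter, true_and, mem_image, true_iff]
    by_cases h : τ a = a
    · left; exact h
    · right
      rcases hB.2 a h with h1 | h1
      · left; exact h1
      · right; exact ⟨τ a, h1, tau_tau hτ a⟩
  have hd1 : Disjoint B (B.image τ) := by
    rw [Finset.disjoint_left]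
    intro a ha h
    rw [mem_image] at h
    obtain ⟨b, hb, rfl⟩ := h
    exact (hB.1 b hb).2 ha
  have hd2 : Disjoint (univ.filter (fun a => τ a = a)) (B ∪ B.image τ) := by
    rw [Finset.disjoint_left]
    intro a ha h
    rw [mem_filter] at ha
    rw [mem_union, mem_image] at h
    rcases h with h | ⟨b, hb, rfl⟩
    · exact (hB.1 a h).1 ha.2
    · have := ha.2
      rw [tau_tau hτ] at this
      exact (hB.1 b hb).1 this.symm
  conv_lhs => rw [hun]
  rw [prod_union hd2, prod_union hd1, prod_image (fun x _ y _ h => τ.injective h),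
    prod_mul_distrib]

/-- the element of `GT τ` exchanging the 2-cycles through `T` -/
def fk1_perm (τ : Perm A) (hτ : τ * τ = 1) (T : Finset A) : Perm A :=
  Function.Involutive.toPerm (fun a => if a ∈ T ∨ τ a ∈ T then τ a else a) (by
    intro a
    simp only []
    by_cases h : a ∈ T ∨ τ a ∈ T
    · rw [if_pos h, tau_tau hτ, if_pos h.symm]
    · rw [if_neg h, if_neg h])

lemma fk1_perm_apply (τ : Perm A) (hτ : τ * τ = 1) (T : Finset A) (a : A) :
    fk1_perm τ hτ T a = if a ∈ T ∨ τ a ∈ T then τ a else a := rfl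

lemma fk1_perm_mem (τ : Perm A) (hτ : τ * τ = 1) (T : Finset A) : fk1_perm τ hτ T ∈ GT τ := by
  rw [mem_GT]
  intro a
  rw [fk1_perm_apply]
  split_ifs
  · right; rfl
  · left; rfl

lemma fk1_sum {τ : Perm A} (hτ : τ * τ = 1) {B : Finset A}
    (hB : (∀ a ∈ B, τ a ≠ a ∧ τ a ∉ B) ∧ ∀ a, τ a ≠ a → a ∈ B ∨ τ a ∈ B) (F : Perm A → ℝ) :
    ∑ g ∈ GT τ, F g = ∑ T ∈ B.powerset, F (fk1_perm τ hτ T) := by
  classical
  symm
  refine Finset.sum_bij (fun T _ => fk1_perm τ hτ T) (fun T _ => fk1_perm_mem τ hτ T) ?_ ?_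
    (fun _ _ => rfl)
  · intro T hT U hU h
    rw [mem_powerset] at hT hU
    have key : ∀ T' : Finset A, T' ⊆ B → ∀ b ∈ B, (fk1_perm τ hτ T' b = τ b ↔ b ∈ T') := by
      intro T' hT' b hb
      rw [fk1_perm_apply]
      constructor
      · intro h1
        by_contra h2
        rw [if_neg] at h1
        · exact (hB.1 b hb).1 h1.symm
        · rintro (h3 | h3)
          · exact h2 h3
          · exact (hB.1 b hb).2 (hT' h3)
      · intro h1
        rw [if_pos (Or.inl h1)]
    ext b
    constructor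
    · intro hb
      have h1 := (key T hT b (hT hb)).mpr hb
      rw [h] at h1
      exact (key U hU b (hT hb)).mp h1
    · intro hb
      have h1 := (key U hU b (hU hb)).mpr hb
      rw [← h] at h1
      exact (key T hT b (hU hb)).mp h1
  · intro g hg
    refine ⟨B.filter (fun b => g b = τ b), mem_powerset.mpr (filter_subset _ _), ?_⟩
    ext a
    rw [fk1_perm_apply]
    by_cases hf : τ a = a
    · have : g a = a := by
        rcases mem_GT.mp hg a with h | h
        · exact h
        · rw [h, hf]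
      rw [this, hf]
      split_ifs <;> rfl
    · by_cases hga : g a = τ a
      · rw [hga, if_pos]
        rcases hB.2 a hf with h | h
        · left; exact mem_filter.mpr ⟨h, hga⟩
        · right
          refine mem_filter.mpr ⟨h, ?_⟩
          rcases mem_GT.mp hg (τ a) with h2 | h2
          · rw [GT_tau_iff hτ hg] at h2
            exact absurd (hga.symm.trans h2) hf
          · exact h2
      · have hga' : g a = a := (mem_GT.mp hg a).resolve_right hga
        rw [hga', if_neg]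
        rintro (h | h)
        · exact hga (mem_filter.mp h).2
        · have h1 := (mem_filter.mp h).2
          have h2 := (GT_tau_iff hτ hg a).mpr hga'
          rw [h2, tau_tau hτ] at h1
          exact hf h1

lemma fk1_card {τ : Perm A} (hτ : τ * τ = 1) {B : Finset A}
    (hB : (∀ a ∈ B, τ a ≠ a ∧ τ a ∉ B) ∧ ∀ a, τ a ≠ a → a ∈ B ∨ τ a ∈ B) :
    ((GT τ).card : ℝ) = ∏ _b ∈ B, (2 : ℝ) := by
  have h := fk1_sum hτ hB (fun _ => (1 : ℝ))
  rw [sum_const, sum_const, nsmul_eq_mul, nsmul_eq_mul, mul_one, mul_one, card_powerset] at h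
  rw [h, prod_const]
  push_cast
  rfl

lemma fk1_powerset (B : Finset A) (f g : A → ℝ) :
    ∑ T ∈ B.powerset, ∏ b ∈ B, (if b ∈ T then f b else g b) = ∏ b ∈ B, (f b + g b) := by
  rw [prod_add]
  refine sum_congr rfl fun T hT => ?_
  rw [mem_powerset] at hT
  rw [← prod_sdiff hT, mul_comm]
  congr 1
  · exact prod_congr rfl fun b hb => by rw [if_pos hb]
  · exact prod_congr rfl fun b hb => by rw [if_neg (mem_sdiff.mp hb).2]

/-- the factor of the 2-cycle `{b, τ b}` -/
def fk1_F (τ : Perm A) (β : A → ℝ) (K : Finset A) (b : A) (t u : Prop) [Decidable t]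
    [Decidable u] : ℝ :=
  (if (if t then τ b else b) ∈ K then (if u then Real.sqrt (β b) else β b) else 1) *
    (if (if t then b else τ b) ∈ K then (if u then Real.sqrt (β (τ b)) else β (τ b)) else 1)

lemma fk1_prod {τ : Perm A} (hτ : τ * τ = 1) {B : Finset A}
    (hB : (∀ a ∈ B, τ a ≠ a ∧ τ a ∉ B) ∧ ∀ a, τ a ≠ a → a ∈ B ∨ τ a ∈ B) (β : A → ℝ)
    (K : Finset A) {T U : Finset A} (hT : T ⊆ B) (hU : U ⊆ B) :
    ∏ a : A, (if fk1_perm τ hτ T a ∈ K then
      (if fk1_perm τ hτ U a = a then β a else Real.sqrt (β a)) else 1) =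
    (∏ a ∈ univ.filter (fun a => τ a = a), if a ∈ K then β a else 1) *
      ∏ b ∈ B, fk1_F τ β K b (b ∈ T) (b ∈ U) := by
  rw [fk1_split hτ hB]
  congr 1
  · refine prod_congr rfl fun a ha => ?_
    rw [mem_filter] at ha
    have h : ∀ V, fk1_perm τ hτ V a = a := by
      intro V
      rw [fk1_perm_apply, ha.2]
      split_ifs <;> rfl
    rw [h, h, if_pos rfl]
  · refine prod_congr rfl fun b hb => ?_
    have hne := (hB.1 b hb).1
    have hnB := (hB.1 b hb).2
    have h1 : ∀ V ⊆ B, fk1_perm τ hτ V b = if b ∈ V then τ b else b := by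
      intro V hV
      rw [fk1_perm_apply]
      have : (b ∈ V ∨ τ b ∈ V) ↔ b ∈ V := ⟨fun h => h.resolve_right fun h' => hnB (hV h'), Or.inl⟩
      simp only [this]
    have h2 : ∀ V ⊆ B, fk1_perm τ hτ V (τ b) = if b ∈ V then b else τ b := by
      intro V hV
      rw [fk1_perm_apply, tau_tau hτ]
      have : (τ b ∈ V ∨ b ∈ V) ↔ b ∈ V := ⟨fun h => h.resolve_left fun h' => hnB (hV h'), Or.inr⟩
      simp only [this]
    rw [h1 T hT, h1 U hU, h2 T hT, h2 U hU]
    unfold fk1_F
    by_cases hbU : b ∈ U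
    · simp only [hbU, if_true, if_neg hne, if_neg hne.symm]
    · simp only [hbU, if_false, if_true]

lemma fk1_sqrt (x : ℝ) (hx : 0 ≤ x) :
    Real.sqrt x ≤ (Real.sqrt 2 - 1) * x + (Real.sqrt 2 + 1) / 4 := by
  have h2 : Real.sqrt 2 ^ 2 = 2 := Real.sq_sqrt (by norm_num)
  have h1 : 1 < Real.sqrt 2 := by
    rw [Real.lt_sqrt (by norm_num)]; norm_num
  have hs : Real.sqrt x ^ 2 = x := Real.sq_sqrt hx
  set r := Real.sqrt 2
  set s := Real.sqrt x
  -- (r-1) (s - (r+1)/2)^2 ≥ 0
  have h3 : 0 ≤ (r - 1) * (s - (r + 1) / 2) ^ 2 := mul_nonneg (by linarith) (sq_nonneg _)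
  have h4 : (r - 1) * (s - (r + 1) / 2) ^ 2 =
      (r - 1) * s ^ 2 - (r ^ 2 - 1) * s + (r ^ 2 - 1) * (r + 1) / 4 := by ring
  rw [h4, h2, hs] at h3
  linarith

lemma fk1_num {x y : ℝ} (hx : 0 ≤ x) (hy : 0 ≤ y) :
    x + Real.sqrt x + y + Real.sqrt y ≤ 4 * (((x + y) / 2 + 1 / 2) / Real.sqrt 2) := by
  have h1 := fk1_sqrt x hx
  have h2 := fk1_sqrt y hy
  have h3 : Real.sqrt 2 ^ 2 = 2 := Real.sq_sqrt (by norm_num)
  have h4 : 1 < Real.sqrt 2 := by
    rw [Real.lt_sqrt (by norm_num)]; norm_num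
  set r := Real.sqrt 2
  have h5 : 4 * (((x + y) / 2 + 1 / 2) / r) = r * (x + y + 1) := by
    have hr : r ≠ 0 := by linarith
    field_simp
    rw [h3]
    ring
  rw [h5]
  nlinarith

lemma fk1_num2 {x y : ℝ} (hx : 0 ≤ x) (hy : 0 ≤ y) :
    2 * (x * y + Real.sqrt x * Real.sqrt y) ≤
      4 * ((((x + y) / 2 + 1 / 2) / Real.sqrt 2) * (((y + x) / 2 + 1 / 2) / Real.sqrt 2)) := by
  have h3 : Real.sqrt 2 * Real.sqrt 2 = 2 := Real.mul_self_sqrt (by norm_num)
  have h5 : 4 * ((((x + y) / 2 + 1 / 2) / Real.sqrt 2) * (((y + x) / 2 + 1 / 2) / Real.sqrt 2)) =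
      2 * ((x + y) / 2 + 1 / 2) ^ 2 := by
    rw [div_mul_div_comm, h3]
    ring
  rw [h5]
  have hsx : Real.sqrt x ^ 2 = x := Real.sq_sqrt hx
  have hsy : Real.sqrt y ^ 2 = y := Real.sq_sqrt hy
  nlinarith [sq_nonneg (x - y), sq_nonneg (Real.sqrt x - Real.sqrt y)]

lemma fk1_local {τ : Perm A} (hτ : τ * τ = 1) (β : A → ℝ) (hβ : ∀ a, 0 ≤ β a) (K : Finset A)
    (b : A) (hb : τ b ≠ b) :
    (fk1_F τ β K b True True + fk1_F τ β K b True False) +
      (fk1_F τ β K b False True + fk1_F τ β K b False False) ≤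
    4 * ((if b ∈ K then upd τ β b else 1) * (if τ b ∈ K then upd τ β (τ b) else 1)) := by
  have hb' : b ≠ τ b := hb.symm
  have e1 : upd τ β b = ((β b + β (τ b)) / 2 + 1 / 2) / Real.sqrt 2 := by
    unfold upd; rw [if_neg hb]
  have e2 : upd τ β (τ b) = ((β (τ b) + β b) / 2 + 1 / 2) / Real.sqrt 2 := by
    unfold upd; rw [tau_tau hτ, if_neg hb']
  rw [e1, e2]
  unfold fk1_F
  simp only [if_true, if_false]
  have n1 := fk1_num (hβ b) (hβ (τ b))
  have n3 := fk1_num (hβ (τ b)) (hβ b)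
  have n2 := fk1_num2 (hβ b) (hβ (τ b))
  by_cases h1 : b ∈ K <;> by_cases h2 : τ b ∈ K
  · simp only [h1, h2, if_true]
    linarith
  · simp only [h1, h2, if_true, if_false]
    linarith
  · simp only [h1, h2, if_true, if_false]
    linarith
  · simp only [h1, h2, if_false]
    linarith

lemma fk1_F_nonneg {τ : Perm A} (β : A → ℝ) (hβ : ∀ a, 0 ≤ β a) (K : Finset A)
    (b : A) (t u : Prop) [Decidable t] [Decidable u] : 0 ≤ fk1_F τ β K b t u := by
  unfold fk1_F
  have h1 := hβ b
  have h2 := hβ (τ b)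
  have h3 := Real.sqrt_nonneg (β b)
  have h4 := Real.sqrt_nonneg (β (τ b))
  refine mul_nonneg ?_ ?_ <;> split_ifs <;> first | assumption | norm_num

/-- averaging over two independent elements of `GT τ`, the product over the slots is dominated
by the product of the updated potentials -/
theorem avg_layer (τ : Perm A) (hτ : τ * τ = 1) (β : A → ℝ) (hβ : ∀ a, 0 ≤ β a)
    (K : Finset A) :
    ∑ g ∈ GT τ, ∑ h ∈ GT τ,
        ∏ a : A, (if g a ∈ K then (if h a = a then β a else Real.sqrt (β a)) else 1) ≤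
      ((GT τ).card : ℝ) ^ 2 * ∏ a ∈ K, upd τ β a := by
  classical
  obtain ⟨B, hB⟩ := fk1_rep τ hτ
  set Φ : ℝ := ∏ a ∈ univ.filter (fun a => τ a = a), if a ∈ K then β a else 1 with hΦ
  have hΦ0 : 0 ≤ Φ := by
    refine prod_nonneg fun a _ => ?_
    split_ifs
    · exact hβ a
    · norm_num
  -- left side
  have hL : ∑ g ∈ GT τ, ∑ h ∈ GT τ,
        ∏ a : A, (if g a ∈ K then (if h a = a then β a else Real.sqrt (β a)) else 1) =
      Φ * ∏ b ∈ B, ((fk1_F τ β K b True True + fk1_F τ β K b True False) +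
        (fk1_F τ β K b False True + fk1_F τ β K b False False)) := by
    rw [fk1_sum hτ hB]
    have h1 : ∀ T ∈ B.powerset, (∑ h ∈ GT τ,
        ∏ a : A, (if fk1_perm τ hτ T a ∈ K then
          (if h a = a then β a else Real.sqrt (β a)) else 1)) =
        Φ * ∏ b ∈ B, (if b ∈ T then (fk1_F τ β K b True True + fk1_F τ β K b True False)
          else (fk1_F τ β K b False True + fk1_F τ β K b False False)) := by
      intro T hT
      rw [mem_powerset] at hT
      rw [fk1_sum hτ hB]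
      have h2 : ∀ U ∈ B.powerset, (∏ a : A, (if fk1_perm τ hτ T a ∈ K then
          (if fk1_perm τ hτ U a = a then β a else Real.sqrt (β a)) else 1)) =
          Φ * ∏ b ∈ B, (if b ∈ U then (if b ∈ T then fk1_F τ β K b True True
              else fk1_F τ β K b False True)
            else (if b ∈ T then fk1_F τ β K b True False else fk1_F τ β K b False False)) := by
        intro U hU
        rw [mem_powerset] at hU
        rw [fk1_prod hτ hB β K hT hU]
        congr 1
        refine prod_congr rfl fun b _ => ?_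
        unfold fk1_F
        by_cases hbT : b ∈ T <;> by_cases hbU : b ∈ U <;> simp [hbT, hbU]
      rw [sum_congr rfl h2, ← mul_sum, fk1_powerset]
      congr 1
      refine prod_congr rfl fun b _ => ?_
      by_cases hbT : b ∈ T <;> simp [hbT]
    rw [sum_congr rfl h1, ← mul_sum, fk1_powerset]
  have hR : ((GT τ).card : ℝ) ^ 2 * ∏ a ∈ K, upd τ β a =
      Φ * ∏ b ∈ B, 4 * ((if b ∈ K then upd τ β b else 1) *
        (if τ b ∈ K then upd τ β (τ b) else 1)) := by
    have h1 : ∏ a ∈ K, upd τ β a = ∏ a : A, if a ∈ K then upd τ β a else 1 := by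
      rw [prod_ite_mem, univ_inter]
    rw [h1, fk1_split hτ hB, fk1_card hτ hB]
    have h2 : ∏ a ∈ univ.filter (fun a => τ a = a), (if a ∈ K then upd τ β a else 1) = Φ := by
      refine prod_congr rfl fun a ha => ?_
      rw [mem_filter] at ha
      unfold upd
      rw [if_pos ha.2]
    rw [h2, prod_mul_distrib (f := fun _ => (4 : ℝ)), sq, ← prod_mul_distrib]
    have h3 : ∏ _b ∈ B, (2 : ℝ) * 2 = ∏ _b ∈ B, (4 : ℝ) := prod_congr rfl fun _ _ => by norm_num
    rw [h3]
    ring
  rw [hL, hR]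
  refine mul_le_mul_of_nonneg_left ?_ hΦ0
  refine prod_le_prod (fun b _ => ?_) fun b hb => fk1_local hτ β hβ K b (hB.1 b hb).1
  have n1 := fk1_F_nonneg (τ := τ) β hβ K b True True
  have n2 := fk1_F_nonneg (τ := τ) β hβ K b True False
  have n3 := fk1_F_nonneg (τ := τ) β hβ K b False True
  have n4 := fk1_F_nonneg (τ := τ) β hβ K b False False
  linarith

end

end Vale.Agent.P162
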