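import Vale.Agent.P162.FBasic

/-! # Two lemmas for the key lemma: a row-sum bound for Gram kernels, and the counting of
solutions of the equation `(ψ + ω) ∘ G = (ψ + ω') ∘ G'` -/

namespace Vale.Agent.P162

open Finset Equiv

noncomputable section

/-- if the nonnegative Gram kernel `Z = Mᵀ M` has row sums at most `c` then
`Z ^ 2 ≤ c Z` on the diagonal -/
theorem psd_row {Ω Ξ : Type*} [Fintype Ω] [Fintype Ξ] (M : Ξ → Ω → ℝ)
    (hM : ∀ ξ ω, 0 ≤ M ξ ω) (c : ℝ) (hc : ∀ ω, ∑ ω', ∑ ξ, M ξ ω * M ξ ω' ≤ c) (ω : Ω) :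
    ∑ ω', (∑ ξ, M ξ ω * M ξ ω') ^ 2 ≤ c * ∑ ξ, M ξ ω ^ 2 := by
  obtain ⟨z, hz⟩ : ∃ z : Ω → ℝ, z = fun ω' => ∑ ξ, M ξ ω * M ξ ω' := ⟨_, rfl⟩
  have hz0 : ∀ ω', 0 ≤ z ω' := by
    intro ω'
    rw [hz]
    exact Finset.sum_nonneg fun ξ _ => mul_nonneg (hM _ _) (hM _ _)
  have hc0 : 0 ≤ c := le_trans (Finset.sum_nonneg fun ω' _ => Finset.sum_nonneg fun ξ _ =>
    mul_nonneg (hM _ _) (hM _ _)) (hc ω)
  obtain ⟨S, hS⟩ : ∃ S : ℝ, S = ∑ ω', z ω' ^ 2 := ⟨_, rfl⟩
  have hgoal : ∑ ω', (∑ ξ, M ξ ω * M ξ ω') ^ 2 = S := by rw [hS, hz]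
  rw [hgoal]
  have hS1 : S = ∑ ξ, M ξ ω * ∑ ω', M ξ ω' * z ω' := by
    rw [hS]
    have : ∀ ω', z ω' ^ 2 = ∑ ξ, M ξ ω * (M ξ ω' * z ω') := by
      intro ω'
      rw [sq]
      conv_lhs => rw [show z ω' * z ω' = (∑ ξ, M ξ ω * M ξ ω') * z ω' by rw [hz]]
      rw [Finset.sum_mul]
      exact Finset.sum_congr rfl fun ξ _ => by ring
    simp only [this]
    rw [Finset.sum_comm]
    exact Finset.sum_congr rfl fun ξ _ => by rw [Finset.mul_sum]
  have hCS : S ^ 2 ≤ (∑ ξ, M ξ ω ^ 2) * ∑ ξ, (∑ ω', M ξ ω' * z ω') ^ 2 := by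
    rw [hS1]
    exact Finset.sum_mul_sq_le_sq_mul_sq _ _ _
  have hMz : ∑ ξ, (∑ ω', M ξ ω' * z ω') ^ 2 ≤ c * S := by
    have e1 : ∑ ξ, (∑ ω', M ξ ω' * z ω') ^ 2 =
        ∑ ω', ∑ ω'', (∑ ξ, M ξ ω' * M ξ ω'') * (z ω' * z ω'') := by
      have : ∀ ξ, (∑ ω', M ξ ω' * z ω') ^ 2 =
          ∑ ω', ∑ ω'', (M ξ ω' * M ξ ω'') * (z ω' * z ω'') := by
        intro ξ
        rw [sq, Finset.sum_mul_sum]
        exact Finset.sum_congr rfl fun _ _ => Finset.sum_congr rfl fun _ _ => by ring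
      simp only [this]
      rw [Finset.sum_comm]
      refine Finset.sum_congr rfl fun ω' _ => ?_
      rw [Finset.sum_comm]
      refine Finset.sum_congr rfl fun ω'' _ => ?_
      rw [Finset.sum_mul]
    have e2 : ∑ ω', ∑ ω'', (∑ ξ, M ξ ω' * M ξ ω'') * (z ω' * z ω'') ≤
        ∑ ω', ∑ ω'', ((∑ ξ, M ξ ω' * M ξ ω'') * (z ω' ^ 2 / 2) +
          (∑ ξ, M ξ ω' * M ξ ω'') * (z ω'' ^ 2 / 2)) := by
      refine Finset.sum_le_sum fun ω' _ => Finset.sum_le_sum fun ω'' _ => ?_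
      rw [← mul_add]
      refine mul_le_mul_of_nonneg_left ?_
        (Finset.sum_nonneg fun ξ _ => mul_nonneg (hM _ _) (hM _ _))
      nlinarith [sq_nonneg (z ω' - z ω'')]
    have e3 : ∑ ω', ∑ ω'', (∑ ξ, M ξ ω' * M ξ ω'') * (z ω' ^ 2 / 2) ≤ c * S / 2 := by
      rw [hS, Finset.mul_sum, Finset.sum_div]
      refine Finset.sum_le_sum fun ω' _ => ?_
      rw [← Finset.sum_mul]
      have := mul_le_mul_of_nonneg_right (hc ω') (show 0 ≤ z ω' ^ 2 / 2 by positivity)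
      linarith
    have e4 : ∑ ω', ∑ ω'', (∑ ξ, M ξ ω' * M ξ ω'') * (z ω'' ^ 2 / 2) =
        ∑ ω', ∑ ω'', (∑ ξ, M ξ ω' * M ξ ω'') * (z ω' ^ 2 / 2) := by
      rw [Finset.sum_comm]
      refine Finset.sum_congr rfl fun ω' _ => Finset.sum_congr rfl fun ω'' _ => ?_
      congr 1
      exact Finset.sum_congr rfl fun _ _ => mul_comm _ _
    rw [e1]
    refine e2.trans ?_
    simp only [Finset.sum_add_distrib]
    rw [e4]
    linarith
  have hM2 : 0 ≤ ∑ ξ, M ξ ω ^ 2 := Finset.sum_nonneg fun ξ _ => sq_nonneg _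
  have hS0 : 0 ≤ S := by rw [hS]; exact Finset.sum_nonneg fun _ _ => sq_nonneg _
  rcases hS0.eq_or_lt with h0 | hpos
  · rw [← h0]; positivity
  · have h1 : S * S ≤ S * (c * ∑ ξ, M ξ ω ^ 2) := by
      calc S * S = S ^ 2 := by ring
        _ ≤ (∑ ξ, M ξ ω ^ 2) * ∑ ξ, (∑ ω', M ξ ω' * z ω') ^ 2 := hCS
        _ ≤ (∑ ξ, M ξ ω ^ 2) * (c * S) := mul_le_mul_of_nonneg_left hMz hM2
        _ = S * (c * ∑ ξ, M ξ ω ^ 2) := by ring
    exact le_of_mul_le_mul_left h1 hpos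

variable {A : Type*} [Fintype A] [DecidableEq A]

lemma FKey2a_mem_Col {ν : ℕ} {K : Finset A} {χ : A → Cube ν} :
    χ ∈ Col ν K ↔ ∀ a, a ∉ K → χ a = 0 := by
  simp [Col]

lemma FKey2a_diff {ν : ℕ} {R P : Finset A} (hRP : Disjoint R P) {G G' : Perm A}
    {δ ε : A → Cube ν} (hδ : δ ∈ Col ν R) (hε : ε ∈ Col ν P)
    (h : ∀ a, δ (G a) = δ (G' a) + ε (G' a)) : ε = 0 := by
  rw [FKey2a_mem_Col] at hδ hε
  have h1 : (univ.filter fun a => δ (G a) ≠ 0).card = (univ.filter fun a => δ a ≠ 0).card := by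
    refine Finset.card_bij (fun a _ => G a) ?_ ?_ ?_
    · intro a ha; simpa using ha
    · intro a _ b _ hab; exact G.injective hab
    · intro b hb
      refine ⟨G⁻¹ b, ?_, Equiv.apply_symm_apply G b⟩
      simpa using hb
  have h2 : (univ.filter fun a => δ (G' a) + ε (G' a) ≠ 0).card =
      (univ.filter fun a => δ a + ε a ≠ 0).card := by
    refine Finset.card_bij (fun a _ => G' a) ?_ ?_ ?_
    · intro a ha; simpa using ha
    · intro a _ b _ hab; exact G'.injective hab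
    · intro b hb
      refine ⟨G'⁻¹ b, ?_, Equiv.apply_symm_apply G' b⟩
      simpa using hb
  have h3 : (univ.filter fun a => δ a + ε a ≠ 0) =
      (univ.filter fun a => δ a ≠ 0) ∪ (univ.filter fun a => ε a ≠ 0) := by
    ext a
    simp only [Finset.mem_filter, Finset.mem_univ, true_and, Finset.mem_union]
    by_cases haR : a ∈ R
    · have haP : a ∉ P := Finset.disjoint_left.1 hRP haR
      rw [hε a haP]; simp
    · rw [hδ a haR]; simp
  have h4 : Disjoint (univ.filter fun a => δ a ≠ 0) (univ.filter fun a => ε a ≠ 0) := by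
    rw [Finset.disjoint_left]
    intro a ha hb
    simp only [Finset.mem_filter, Finset.mem_univ, true_and] at ha hb
    by_cases haR : a ∈ R
    · exact hb (hε a (Finset.disjoint_left.1 hRP haR))
    · exact ha (hδ a haR)
  have h5 : (univ.filter fun a => ε a ≠ 0).card = 0 := by
    have h6 : (univ.filter fun a => δ (G a) ≠ 0) =
        (univ.filter fun a => δ (G' a) + ε (G' a) ≠ 0) := by
      ext a
      simp only [Finset.mem_filter, Finset.mem_univ, true_and, h a]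
    have h7 := congrArg Finset.card h6
    rw [h1, h2, h3, Finset.card_union_of_disjoint h4] at h7
    omega
  rw [Finset.card_eq_zero, Finset.filter_eq_empty_iff] at h5
  funext a
  simpa using h5 (Finset.mem_univ a)

/-- the number of solutions is at most the number of invariant colourings -/
theorem row_count (ν : ℕ) (R P : Finset A) (hRP : Disjoint R P) (G G' : Perm A)
    (ω : A → Cube ν) :
    (((Col ν R ×ˢ Col ν P).filter fun x => ∀ a, (x.1 + ω) (G a) = (x.1 + x.2) (G' a)).card : ℝ)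
      ≤ FK ν R (G' * G⁻¹) := by
  unfold FK
  norm_cast
  rcases Finset.eq_empty_or_nonempty
    ((Col ν R ×ˢ Col ν P).filter fun x => ∀ a, (x.1 + ω) (G a) = (x.1 + x.2) (G' a)) with he | hne
  · rw [he]; simp
  · obtain ⟨⟨ψ0, ω0⟩, h0⟩ := hne
    rw [Finset.mem_filter, Finset.mem_product] at h0
    obtain ⟨⟨hψ0, hω0⟩, h0⟩ := h0
    simp only at hψ0 hω0 h0
    rw [FKey2a_mem_Col] at hψ0 hω0
    have key : ∀ ψ ω' : A → Cube ν, ψ ∈ Col ν R → ω' ∈ Col ν P →
        (∀ a, (ψ + ω) (G a) = (ψ + ω') (G' a)) →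
        ψ - ψ0 ∈ Col ν R ∧ ω' = ω0 ∧ ∀ a, (ψ - ψ0) (G a) = (ψ - ψ0) (G' a) := by
      intro ψ ω' hψ hω' h
      rw [FKey2a_mem_Col] at hψ hω'
      have hδ : ψ - ψ0 ∈ Col ν R := by
        rw [FKey2a_mem_Col]
        intro a ha
        rw [Pi.sub_apply, hψ a ha, hψ0 a ha, sub_zero]
      have hε : ω' - ω0 ∈ Col ν P := by
        rw [FKey2a_mem_Col]
        intro a ha
        rw [Pi.sub_apply, hω' a ha, hω0 a ha, sub_zero]
      have hrel : ∀ a, (ψ - ψ0) (G a) = (ψ - ψ0) (G' a) + (ω' - ω0) (G' a) := by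
        intro a
        have e1 := h a
        have e2 := h0 a
        simp only [Pi.add_apply, Pi.sub_apply] at *
        have e3 : ψ (G a) - ψ0 (G a) = (ψ (G a) + ω (G a)) - (ψ0 (G a) + ω (G a)) := by abel
        rw [e3, e1, e2]
        abel
      have hz := FKey2a_diff hRP hδ hε hrel
      refine ⟨hδ, sub_eq_zero.1 hz, ?_⟩
      intro a
      have := hrel a
      rw [hz] at this
      simpa using this
    refine Finset.card_le_card_of_injOn (fun x => x.1 - ψ0) ?_ ?_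
    · rintro ⟨ψ, ω'⟩ hx
      rw [Finset.mem_coe, Finset.mem_filter, Finset.mem_product] at hx
      obtain ⟨h1, _, h3⟩ := key ψ ω' hx.1.1 hx.1.2 hx.2
      rw [Finset.mem_coe, Finset.mem_filter]
      refine ⟨h1, ?_⟩
      intro b
      show (ψ - ψ0) (G' (G⁻¹ b)) = (ψ - ψ0) b
      rw [← h3]
      exact congrArg (ψ - ψ0) (Equiv.apply_symm_apply G b)
    · rintro ⟨ψ, ω'⟩ hx ⟨ψ2, ω2⟩ hx2 heq
      rw [Finset.mem_coe, Finset.mem_filter, Finset.mem_product] at hx hx2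
      obtain ⟨_, h2, _⟩ := key ψ ω' hx.1.1 hx.1.2 hx.2
      obtain ⟨_, h2', _⟩ := key ψ2 ω2 hx2.1.1 hx2.1.2 hx2.2
      simp only at heq
      have : ψ = ψ2 := sub_left_inj.1 heq
      rw [this, h2, h2']

/-- colourings vanishing off a disjoint union -/
theorem sum_Col_union (ν : ℕ) (K L : Finset A) (hKL : Disjoint K L) (f : (A → Cube ν) → ℝ) :
    ∑ χ ∈ Col ν (K ∪ L), f χ = ∑ χ ∈ Col ν K, ∑ χ' ∈ Col ν L, f (χ + χ') := by
  rw [← Finset.sum_product']
  symm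
  refine Finset.sum_bij' (fun x _ => x.1 + x.2)
    (fun χ _ => (fun a => if a ∈ K then χ a else 0, fun a => if a ∈ L then χ a else 0)) ?_ ?_ ?_ ?_ ?_
  · rintro ⟨χ, χ'⟩ hx
    rw [Finset.mem_product, FKey2a_mem_Col, FKey2a_mem_Col] at hx
    rw [FKey2a_mem_Col]
    intro a ha
    rw [Finset.mem_union, not_or] at ha
    rw [Pi.add_apply, hx.1 a ha.1, hx.2 a ha.2, add_zero]
  · intro χ _
    rw [Finset.mem_product, FKey2a_mem_Col, FKey2a_mem_Col]
    exact ⟨fun a ha => if_neg ha, fun a ha => if_neg ha⟩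
  · rintro ⟨χ, χ'⟩ hx
    rw [Finset.mem_product, FKey2a_mem_Col, FKey2a_mem_Col] at hx
    simp only at hx
    ext1
    · funext a
      by_cases ha : a ∈ K
      · have hL : a ∉ L := Finset.disjoint_left.1 hKL ha
        simp only [Pi.add_apply, if_pos ha, hx.2 a hL, add_zero]
      · simp only [if_neg ha, hx.1 a ha]
    · funext a
      by_cases ha : a ∈ L
      · have hK : a ∉ K := Finset.disjoint_right.1 hKL ha
        simp only [Pi.add_apply, if_pos ha, hx.1 a hK, zero_add]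
      · simp only [if_neg ha, hx.2 a ha]
  · intro χ hχ
    rw [FKey2a_mem_Col] at hχ
    funext a
    simp only [Pi.add_apply]
    by_cases hK : a ∈ K
    · have hL : a ∉ L := Finset.disjoint_left.1 hKL hK
      rw [if_pos hK, if_neg hL, add_zero]
    · by_cases hL : a ∈ L
      · rw [if_neg hK, if_pos hL, zero_add]
      · rw [if_neg hK, if_neg hL, add_zero, hχ a (by rw [Finset.mem_union, not_or]; exact ⟨hK, hL⟩)]
  · rintro ⟨χ, χ'⟩ _
    rfl

end

end Vale.Agent.P162
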