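import Vale.Agent.P162.FBasic

/-! # Basic facts about `SW` and `tau` -/

namespace Vale.Agent.P162

open Finset Equiv

noncomputable section

set_option linter.unusedSectionVars false

section SWfacts

variable {d : ℕ} {A : Type*} [Fintype A] [DecidableEq A]
variable {Y : Type*} [MulAction (Perm (Cube d)) Y] {em : Y → A → Cube d}

lemma SW_nil (Φ : Y → List (Perm A) → ℝ) (y : Y) (ts : List (Perm A)) :
    SW em [] Φ y ts = Φ y ts := rfl

lemma SW_cons (s : Fin d) (l : List (Fin d)) (Φ : Y → List (Perm A) → ℝ) (y : Y)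
    (ts : List (Perm A)) :
    SW em (s :: l) Φ y ts =
      (∑ g ∈ GF s, SW em l Φ (g • y) (tau s (em y) :: ts)) / ((GF s).card : ℝ) := rfl

/-- comparison on an invariant set of states -/
lemma SW_mono_on (Inv : List (Fin d) → Y → List (Perm A) → Prop)
    (hstep : ∀ s l y ts, Inv (s :: l) y ts → ∀ g ∈ GF s, Inv l (g • y) (tau s (em y) :: ts))
    {Φ Ψ : Y → List (Perm A) → ℝ} (h : ∀ y ts, Inv [] y ts → Φ y ts ≤ Ψ y ts)
    (l : List (Fin d)) (y : Y) (ts : List (Perm A)) (hI : Inv l y ts) :
    SW em l Φ y ts ≤ SW em l Ψ y ts := by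
  induction l generalizing y ts with
  | nil => exact h y ts hI
  | cons s l ih =>
    rw [SW_cons, SW_cons]
    apply div_le_div_of_nonneg_right _ (GF_card_pos s).le
    exact Finset.sum_le_sum fun g hg => ih _ _ (hstep s l y ts hI g hg)

lemma SW_mono {Φ Ψ : Y → List (Perm A) → ℝ} (h : ∀ y ts, Φ y ts ≤ Ψ y ts)
    (l : List (Fin d)) (y : Y) (ts : List (Perm A)) : SW em l Φ y ts ≤ SW em l Ψ y ts :=
  SW_mono_on (fun _ _ _ => True) (fun _ _ _ _ _ _ _ => trivial) (fun y ts _ => h y ts) l y ts
    trivial

lemma SW_const (l : List (Fin d)) (c : ℝ) (y : Y) (ts : List (Perm A)) :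
    SW em l (fun _ _ => c) y ts = c := by
  induction l generalizing y ts with
  | nil => rfl
  | cons s l ih =>
    rw [SW_cons, Finset.sum_congr rfl (fun g _ => ih _ _), Finset.sum_const, nsmul_eq_mul,
      mul_div_right_comm, div_self (GF_card_pos s).ne', one_mul]

lemma SW_nonneg {Φ : Y → List (Perm A) → ℝ} (h : ∀ y ts, 0 ≤ Φ y ts) (l : List (Fin d)) (y : Y)
    (ts : List (Perm A)) : 0 ≤ SW em l Φ y ts := by
  have := SW_mono (em := em) (Φ := fun _ _ => 0) (Ψ := Φ) h l y ts
  rwa [SW_const] at this

lemma SW_const_mul (l : List (Fin d)) (c : ℝ) (Φ : Y → List (Perm A) → ℝ) (y : Y)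
    (ts : List (Perm A)) : SW em l (fun y ts => c * Φ y ts) y ts = c * SW em l Φ y ts := by
  induction l generalizing y ts with
  | nil => rfl
  | cons s l ih =>
    rw [SW_cons, SW_cons, Finset.sum_congr rfl (fun g _ => ih _ _), ← Finset.mul_sum,
      mul_div_assoc]

lemma SW_add (l : List (Fin d)) (Φ Ψ : Y → List (Perm A) → ℝ) (y : Y)
    (ts : List (Perm A)) :
    SW em l (fun y ts => Φ y ts + Ψ y ts) y ts = SW em l Φ y ts + SW em l Ψ y ts := by
  induction l generalizing y ts with
  | nil => rfl
  | cons s l ih =>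
    rw [SW_cons, SW_cons, SW_cons, Finset.sum_congr rfl (fun g _ => ih _ _),
      Finset.sum_add_distrib, add_div]

lemma SW_sum {ι : Type*} (t : Finset ι) (l : List (Fin d)) (Φ : ι → Y → List (Perm A) → ℝ)
    (y : Y) (ts : List (Perm A)) :
    SW em l (fun y ts => ∑ i ∈ t, Φ i y ts) y ts = ∑ i ∈ t, SW em l (Φ i) y ts := by
  induction l generalizing y ts with
  | nil => rfl
  | cons s l ih =>
    rw [SW_cons, Finset.sum_congr rfl (fun g _ => ih _ _), Finset.sum_comm, Finset.sum_div]
    rfl

/-- change of the state space -/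
lemma SW_map {Y' : Type*} [MulAction (Perm (Cube d)) Y'] {em' : Y' → A → Cube d} (f : Y → Y')
    (hf : ∀ (g : Perm (Cube d)) y, f (g • y) = g • f y) (hem : ∀ y, em' (f y) = em y)
    (l : List (Fin d)) (Φ : Y' → List (Perm A) → ℝ) (y : Y) (ts : List (Perm A)) :
    SW em l (fun y ts => Φ (f y) ts) y ts = SW em' l Φ (f y) ts := by
  induction l generalizing y ts with
  | nil => rfl
  | cons s l ih =>
    rw [SW_cons, SW_cons]
    congr 1
    apply Finset.sum_congr rfl
    intro g _
    rw [ih, hf, hem]

lemma SW_fst (l : List (Fin d)) (φ : Y → ℝ) (y : Y) (ts : List (Perm A)) :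
    SW em l (fun y _ => φ y) y ts = Kl l φ y := by
  induction l generalizing y ts with
  | nil => rfl
  | cons s l ih =>
    rw [SW_cons, Kl_cons, Kop_apply]
    congr 1
    exact Finset.sum_congr rfl fun g _ => ih _ _

end SWfacts

section taufacts

variable {d : ℕ} {A : Type*} [Fintype A] [DecidableEq A]

lemma tauf_spec {s : Fin d} {e : A → Cube d} (a : A) :
    e (tauf s e a) = e a + Pi.single s 1 ∨
      (tauf s e a = a ∧ ∀ b, e b ≠ e a + Pi.single s 1) := by
  unfold tauf
  split_ifs with h
  · left; exact h.choose_spec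
  · right
    push Not at h
    exact ⟨rfl, h⟩

lemma tauf_involutive {s : Fin d} {e : A → Cube d} (he : Function.Injective e) :
    Function.Involutive (tauf s e) := by
  intro a
  rcases tauf_spec (s := s) (e := e) a with h | h
  · rcases tauf_spec (s := s) (e := e) (tauf s e a) with h2 | h2
    · apply he
      rw [h2, h, single_add_single]
    · exfalso
      apply h2.2 a
      rw [h, single_add_single]
  · rw [h.1, h.1]

lemma tau_eq_tauf {s : Fin d} {e : A → Cube d} (he : Function.Injective e) (a : A) :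
    tau s e a = tauf s e a := by
  unfold tau
  rw [dif_pos (tauf_involutive he)]
  rfl

lemma tau_spec {s : Fin d} {e : A → Cube d} (he : Function.Injective e) (a : A) :
    e (tau s e a) = e a + Pi.single s 1 ∨
      (tau s e a = a ∧ ∀ b, e b ≠ e a + Pi.single s 1) := by
  rw [tau_eq_tauf he]
  exact tauf_spec a

/-- characterisation of the partner -/
lemma tau_eq_of {s : Fin d} {e : A → Cube d} (he : Function.Injective e) {a b : A}
    (h : e b = e a + Pi.single s 1) : tau s e a = b := by
  rcases tau_spec (s := s) he a with h1 | h1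
  · apply he
    rw [h1, h]
  · exact absurd h (h1.2 b)

lemma tau_mul_self (s : Fin d) (e : A → Cube d) : tau s e * tau s e = 1 := by
  unfold tau
  split_ifs with h
  · ext a
    show tauf s e (tauf s e a) = a
    exact h a
  · rw [mul_one]

/-- the partner agrees off the direction `s` -/
lemma tau_coord {s : Fin d} {e : A → Cube d} (he : Function.Injective e) (a : A) {i : Fin d}
    (hi : i ≠ s) : e (tau s e a) i = e a i := by
  rcases tau_spec (s := s) he a with h | h
  · rw [h, Pi.add_apply, Pi.single_eq_of_ne hi, add_zero]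
  · rw [h.1]

/-- the partner (if any) disagrees in the direction `s` -/
lemma tau_coord_ne {s : Fin d} {e : A → Cube d} (he : Function.Injective e) (a : A)
    (ha : tau s e a ≠ a) : e (tau s e a) s = e a s + 1 := by
  rcases tau_spec (s := s) he a with h | h
  · rw [h, Pi.add_apply, Pi.single_eq_same]
  · exact absurd h.1 ha

/-- relabelling of the slots -/
lemma tau_relabel {s : Fin d} {e : A → Cube d} (he : Function.Injective e) (h : Perm A) :
    tau s (e ∘ h) = h⁻¹ * tau s e * h := by
  have he' : Function.Injective (e ∘ h) := he.comp h.injective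
  ext a
  show tau s (e ∘ h) a = h⁻¹ (tau s e (h a))
  rcases tau_spec (s := s) he (h a) with h1 | h1
  · apply tau_eq_of he'
    show e (h (h⁻¹ (tau s e (h a)))) = e (h a) + Pi.single s 1
    rw [show h (h⁻¹ (tau s e (h a))) = tau s e (h a) from Equiv.apply_symm_apply h _, h1]
  · rw [h1.1, show h⁻¹ (h a) = a from Equiv.symm_apply_apply h a]
    rcases tau_spec (s := s) he' a with h2 | h2
    · exact absurd h2 (h1.2 _)
    · exact h2.1

/-- a step does not change the coordinates off the direction -/
lemma GF_coord {s : Fin d} {g : Perm (Cube d)} (hg : g ∈ GF s) (x : Cube d) {i : Fin d}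
    (hi : i ≠ s) : g x i = x i := by
  rcases (mem_GF.mp hg) x with h | h
  · rw [h]
  · rw [h, Pi.add_apply, Pi.single_eq_of_ne hi, add_zero]

lemma smul_inj {e : A → Cube d} (he : Function.Injective e) (g : Perm (Cube d)) :
    Function.Injective (g • e) := by
  intro a b hab
  exact he (g.injective hab)

/-- the windows have the structure `Str` -/
lemma SW_mono_Str {Φ Ψ : (A → Cube d) → List (Perm A) → ℝ}
    (h : ∀ e ts, Function.Injective e → Str ts → Φ e ts ≤ Ψ e ts)
    (l : List (Fin d)) (hl : l.Nodup) (e : A → Cube d) (he : Function.Injective e) :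
    SW (Y := A → Cube d) id l Φ e [] ≤ SW (Y := A → Cube d) id l Ψ e [] := by
  refine SW_mono_on (Y := A → Cube d) (fun (l : List (Fin d)) (e : A → Cube d)
    (ts : List (Perm A)) => l.Nodup ∧ Function.Injective e ∧ Str ts ∧
    ∀ i ∈ l, ∀ τ ∈ ts, ∀ a, e (τ a) i = e a i) ?_ ?_ l e [] ⟨hl, he, trivial, ?_⟩
  · intro s l e ts hI g hg
    obtain ⟨h1, h2, h3, h4⟩ := hI
    rw [List.nodup_cons] at h1
    refine ⟨h1.2, smul_inj h2 g, ⟨h3, tau_mul_self s _, univ.filter fun a => e a s = 0, ?_, ?_⟩,
      ?_⟩
    · intro τ' hτ' a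
      rw [Finset.mem_filter, Finset.mem_filter, h4 s List.mem_cons_self τ' hτ' a]
      simp
    · intro a
      by_cases hta : tau s e a = a
      · left; exact hta
      · right
        have h5 := tau_coord_ne h2 a hta
        show tau s e a ∈ _ ↔ _
        rw [Finset.mem_filter, Finset.mem_filter, h5]
        have h6 : ∀ z : ZMod 2, z + 1 = 0 ↔ ¬ z = 0 := by decide
        simpa using h6 (e a s)
    · intro i hi τ hτ a
      have his : i ≠ s := by
        rintro rfl
        exact h1.1 hi
      show g (e (τ a)) i = g (e a) i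
      rw [GF_coord hg _ his, GF_coord hg _ his]
      rcases List.mem_cons.mp hτ with h5 | h5
      · rw [h5]
        exact tau_coord h2 a his
      · exact h4 i (List.mem_cons_of_mem _ hi) τ h5 a
  · intro e ts hI
    exact h e ts hI.2.1 hI.2.2.1
  · intro i _ τ hτ
    simp at hτ

end taufacts

end

end Vale.Agent.P162
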