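import Vale.Agent.P162.Defs

/-! # Near invariance under transpositions of the cards implies closeness to uniform -/

namespace Vale.Agent.P162

open Finset Equiv

noncomputable section

lemma ni_perm {X : Type*} [Fintype X] [DecidableEq X] (p : Perm X → ℝ) (η : ℝ) (hη : 0 ≤ η)
    (h : ∀ a b : X, a ≠ b → ∀ φ : Perm X → ℝ, (∀ σ, |φ σ| ≤ 1) →
      |∑ σ, p σ * (φ σ - φ (σ * swap a b))| ≤ η) (n : ℕ) :
    ∀ κ : Perm X, κ.support.card ≤ n → ∀ φ : Perm X → ℝ, (∀ σ, |φ σ| ≤ 1) →
      |∑ σ, p σ * (φ σ - φ (σ * κ))| ≤ n * η := by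
  induction n with
  | zero =>
    intro κ hκ φ _
    have h1 : κ = 1 := by
      rw [← Perm.support_eq_empty_iff, ← Finset.card_eq_zero]
      omega
    rw [h1]
    simp
  | succ n ih =>
    intro κ hκ φ hφ
    by_cases h1 : κ = 1
    · rw [h1]
      simp only [mul_one, sub_self, mul_zero, Finset.sum_const_zero, abs_zero]
      positivity
    · obtain ⟨x, hx⟩ : ∃ x, κ x ≠ x := by
        by_contra hcon
        push Not at hcon
        exact h1 (Equiv.ext hcon)
      set κ' := swap x (κ x) * κ with hκ'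
      have hc : κ'.support.card ≤ n := by
        have := Perm.card_support_swap_mul hx
        rw [← hκ'] at this
        omega
      have hκκ : κ = swap x (κ x) * κ' := by
        rw [hκ', ← mul_assoc, swap_mul_self, one_mul]
      have a1 := ih κ' hc φ hφ
      have a2 := h x (κ x) (Ne.symm hx) (fun σ => φ (σ * κ')) (fun σ => hφ _)
      have e1 : ∑ σ, p σ * (φ σ - φ (σ * κ)) = ∑ σ, p σ * (φ σ - φ (σ * κ'))
          + ∑ σ, p σ * (φ (σ * κ') - φ (σ * swap x (κ x) * κ')) := by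
        rw [← Finset.sum_add_distrib]
        apply Finset.sum_congr rfl
        intro σ _
        rw [mul_assoc σ, ← hκκ]
        ring
      rw [e1]
      refine (abs_add_le _ _).trans ((add_le_add a1 a2).trans (le_of_eq ?_))
      push_cast
      ring

theorem near_inv {X : Type*} [Fintype X] [DecidableEq X] (p : Perm X → ℝ)
    (hp1 : ∑ σ, p σ = 1) (η : ℝ) (hη : 0 ≤ η)
    (h : ∀ a b : X, a ≠ b → ∀ φ : Perm X → ℝ, (∀ σ, |φ σ| ≤ 1) →
      |∑ σ, p σ * (φ σ - φ (σ * swap a b))| ≤ η) :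
    ∑ σ, |p σ - 1 / (Fintype.card (Perm X) : ℝ)| ≤ Fintype.card X * η := by
  set N : ℝ := (Fintype.card (Perm X) : ℝ) with hN
  have hN0 : 0 < N := by
    rw [hN]
    exact_mod_cast Fintype.card_pos
  set φ : Perm X → ℝ := fun σ => if 0 ≤ p σ - 1 / N then 1 else -1 with hφ
  have hφ1 : ∀ σ, |φ σ| ≤ 1 := by
    intro σ
    simp only [hφ]
    split_ifs <;> simp
  have habs : ∀ σ, |p σ - 1 / N| = (p σ - 1 / N) * φ σ := by
    intro σ
    simp only [hφ]
    split_ifs with h0
    · rw [abs_of_nonneg h0, mul_one]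
    · rw [abs_of_neg (not_le.mp h0)]
      ring
  have hsum : ∀ κ : Perm X, |∑ σ, p σ * (φ σ - φ (σ * κ))| ≤ Fintype.card X * η :=
    fun κ => ni_perm p η hη h (Fintype.card X) κ (by
      rw [← Finset.card_univ]
      exact Finset.card_le_card (Finset.subset_univ _)) φ hφ1
  have e1 : ∑ κ : Perm X, ∑ σ, p σ * (φ σ - φ (σ * κ)) = N * ∑ σ, |p σ - 1 / N| := by
    have e2 : ∀ σ : Perm X, ∑ κ : Perm X, φ (σ * κ) = ∑ κ, φ κ := fun σ =>
      Fintype.sum_equiv (Equiv.mulLeft σ) _ _ (fun _ => rfl)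
    rw [Finset.sum_comm]
    have e3 : ∀ σ : Perm X, ∑ κ : Perm X, p σ * (φ σ - φ (σ * κ))
        = N * (p σ * φ σ) - p σ * ∑ κ, φ κ := by
      intro σ
      rw [← Finset.mul_sum, Finset.sum_sub_distrib, e2, Finset.sum_const, nsmul_eq_mul,
        Finset.card_univ, ← hN]
      ring
    simp only [e3]
    rw [Finset.sum_sub_distrib, ← Finset.mul_sum, ← Finset.sum_mul, hp1, one_mul]
    simp only [habs, sub_mul]
    rw [Finset.sum_sub_distrib, ← Finset.mul_sum, mul_sub, ← mul_assoc N, mul_one_div_cancel hN0.ne',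
      one_mul]
  have e4 : N * ∑ σ, |p σ - 1 / N| ≤ N * (Fintype.card X * η) := by
    rw [← e1]
    calc ∑ κ : Perm X, ∑ σ, p σ * (φ σ - φ (σ * κ))
        ≤ ∑ κ : Perm X, |∑ σ, p σ * (φ σ - φ (σ * κ))| :=
          Finset.sum_le_sum fun κ _ => le_abs_self _
      _ ≤ ∑ _κ : Perm X, (Fintype.card X * η : ℝ) := Finset.sum_le_sum fun κ _ => hsum κ
      _ = _ := by rw [Finset.sum_const, nsmul_eq_mul, Finset.card_univ]
  exact le_of_mul_le_mul_left e4 hN0

end

end Vale.Agent.P162
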