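import Vale.Agent.P162.Proc

/-! # Theorem A: the positions of at most a quarter of the cards mix in `O(d)` steps -/

namespace Vale.Agent.P162

open Finset Equiv

noncomputable section

variable {d : ℕ}

/-! ### the process `Ml` -/

lemma ta_Mop_mono {m : ℕ} (s : Fin d) {Ψ Φ : (Fin m → Cube d) → (Cube d → ℝ) → ℝ}
    (h : ∀ e q, Ψ e q ≤ Φ e q) (e : Fin m → Cube d) (q : Cube d → ℝ) :
    Mop s Ψ e q ≤ Mop s Φ e q := by
  unfold Mop
  apply div_le_div_of_nonneg_right _ (GF_card_pos s).le
  exact Finset.sum_le_sum fun g _ => h _ _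

lemma ta_Ml_mono {m : ℕ} (l : List (Fin d)) {Ψ Φ : (Fin m → Cube d) → (Cube d → ℝ) → ℝ}
    (h : ∀ e q, Ψ e q ≤ Φ e q) (e : Fin m → Cube d) (q : Cube d → ℝ) :
    Ml l Ψ e q ≤ Ml l Φ e q := by
  induction l generalizing e q with
  | nil => exact h e q
  | cons s l ih => exact ta_Mop_mono s ih e q

lemma ta_Ml_lin {m : ℕ} (l : List (Fin d)) (a b : ℝ) (Ψ : (Fin m → Cube d) → (Cube d → ℝ) → ℝ)
    (e : Fin m → Cube d) (q : Cube d → ℝ) :
    Ml l (fun e q => a * Ψ e q + b) e q = a * Ml l Ψ e q + b := by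
  induction l generalizing e q with
  | nil => rfl
  | cons s l ih =>
    have h1 : Ml (s :: l) (fun e q => a * Ψ e q + b) e q
        = Mop s (Ml l (fun e q => a * Ψ e q + b)) e q := rfl
    have h2 : Ml (s :: l) Ψ e q = Mop s (Ml l Ψ) e q := rfl
    rw [h1, h2]
    unfold Mop
    simp only [ih]
    rw [Finset.sum_add_distrib, ← Finset.mul_sum, Finset.sum_const, nsmul_eq_mul, add_div,
      mul_div_assoc, mul_div_cancel_left₀ _ (GF_card_pos s).ne']

/-! ### free sites -/

/-- the sites free of revealed cards -/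
def frS {m : ℕ} (e : Fin m → Cube d) : Finset (Cube d) := univ.filter (fun x => ∀ i, e i ≠ x)

lemma mem_frS {m : ℕ} {e : Fin m → Cube d} {x : Cube d} : x ∈ frS e ↔ ∀ i, e i ≠ x := by
  simp [frS]

lemma frS_iff {m : ℕ} (e : Fin m → Cube d) (g : Perm (Cube d)) (x : Cube d) :
    x ∈ frS e ↔ g x ∈ frS (g • e) := by
  rw [mem_frS, mem_frS]
  constructor
  · intro h i hi
    exact h i (g.injective hi)
  · intro h i hi
    exact h i (by rw [← hi]; rfl)

lemma frS_sum {m : ℕ} (e : Fin m → Cube d) (g : Perm (Cube d)) (F : Cube d → ℝ) :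
    ∑ x ∈ frS e, F (g x) = ∑ x ∈ frS (g • e), F x :=
  Finset.sum_equiv g (fun x => frS_iff e g x) (fun _ _ => rfl)

lemma frS_card {m : ℕ} (e : Fin m → Cube d) (g : Perm (Cube d)) :
    (frS (g • e)).card = (frS e).card :=
  (Finset.card_equiv g (fun x => frS_iff e g x)).symm

/-- average over the free sites -/
def Hav {m : ℕ} (h : (Fin m → Cube d) × Cube d → ℝ) (e : Fin m → Cube d) : ℝ :=
  (∑ x ∈ frS e, h (e, x)) / ((frS e).card : ℝ)

lemma Hav_Kop {m : ℕ} (s : Fin d) (h : (Fin m → Cube d) × Cube d → ℝ) (e : Fin m → Cube d) :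
    Hav (Kop s h) e = Kop s (Hav h) e := by
  unfold Hav
  rw [Kop_apply]
  simp only [Kop_apply]
  rw [← Finset.sum_div, Finset.sum_comm, div_div, mul_comm ((GF s).card : ℝ), ← div_div]
  congr 1
  rw [Finset.sum_div]
  apply Finset.sum_congr rfl
  intro g _
  rw [frS_card e g, ← frS_sum e g (fun x => h (g • e, x))]
  rfl

lemma Hav_Kl {m : ℕ} (l : List (Fin d)) (h : (Fin m → Cube d) × Cube d → ℝ)
    (e : Fin m → Cube d) : Hav (Kl l h) e = Kl l (Hav h) e := by
  induction l generalizing e with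
  | nil => rfl
  | cons s l ih =>
    rw [Kl_cons, Kl_cons, Hav_Kop]
    congr 1
    funext e
    exact ih e

lemma abs_Hav_le {m : ℕ} {h : (Fin m → Cube d) × Cube d → ℝ} (hh : ∀ y, |h y| ≤ 1)
    (e : Fin m → Cube d) : |Hav h e| ≤ 1 := by
  unfold Hav
  rcases Nat.eq_zero_or_pos (frS e).card with h0 | h0
  · rw [h0]
    simp
  · have hpos : (0 : ℝ) < ((frS e).card : ℝ) := by exact_mod_cast h0
    rw [abs_div, abs_of_pos hpos, div_le_one hpos]
    calc |∑ x ∈ frS e, h (e, x)| ≤ ∑ x ∈ frS e, |h (e, x)| := Finset.abs_sum_le_sum_abs _ _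
      _ ≤ ∑ _x ∈ frS e, (1 : ℝ) := Finset.sum_le_sum fun x _ => hh _
      _ = _ := by simp

/-- the signed mass -/
def qx {m : ℕ} (e : Fin m → Cube d) (x : Cube d) : Cube d → ℝ :=
  fun y => (if y = x then 1 else 0) - (if y ∈ frS e then ((frS e).card : ℝ)⁻¹ else 0)

lemma qx_sum {m : ℕ} (e : Fin m → Cube d) {x : Cube d} (F : Cube d → ℝ) :
    ∑ y, qx e x y * F y = F x - (∑ y ∈ frS e, F y) / ((frS e).card : ℝ) := by
  unfold qx
  simp only [sub_mul, ite_mul, one_mul, zero_mul]
  rw [Finset.sum_sub_distrib, Finset.sum_ite_eq' univ x, if_pos (Finset.mem_univ x)]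
  congr 1
  rw [← Finset.sum_filter, Finset.filter_mem_eq_inter, Finset.univ_inter, ← Finset.mul_sum]
  ring

lemma ta_claim1 [NeZero d] (T : ℕ) (hT : d ≤ T + 1) {m : ℕ} (hm : 4 * m ≤ 2 ^ d)
    (h : (Fin m → Cube d) × Cube d → ℝ) (hh : ∀ y, |h y| ≤ 1)
    (e : Fin m → Cube d) (x : Cube d) (hx : ∀ i, e i ≠ x) :
    |Kl (dirs d T) h (e, x) - Kl (dirs d T) (Hav h) e|
      ≤ Real.sqrt (2 ^ d) * Real.sqrt ((3 / 4) ^ (T + 1 - d)) := by
  have hxf : x ∈ frS e := mem_frS.mpr hx
  have hcard : 0 < (frS e).card := Finset.card_pos.mpr ⟨x, hxf⟩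
  have hc : (0 : ℝ) < ((frS e).card : ℝ) := by exact_mod_cast hcard
  have hc1 : (1 : ℝ) ≤ ((frS e).card : ℝ) := by exact_mod_cast hcard
  set q := qx e x with hq
  have hq0 : ∀ i, q (e i) = 0 := by
    intro i
    have h1 : e i ∉ frS e := by
      rw [mem_frS]
      intro h
      exact h i rfl
    simp only [hq, qx]
    rw [if_neg (hx i), if_neg h1, sub_zero]
  have hqs : ∑ y, q y = 0 := by
    have h1 := qx_sum e (x := x) (fun _ => (1 : ℝ))
    simp only [mul_one, Finset.sum_const, nsmul_eq_mul] at h1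
    rw [h1, div_self hc.ne', sub_self]
  have hq2 : ∑ y, q y ^ 2 ≤ 1 := by
    have h1 := qx_sum e (x := x) q
    have h2 : ∑ y ∈ frS e, q y = 0 := by
      rw [← hqs]
      apply Finset.sum_subset (Finset.subset_univ _)
      intro y _ hy
      simp only [hq, qx]
      have hne : y ≠ x := fun h => hy (h ▸ hxf)
      rw [if_neg hne, if_neg hy, sub_zero]
    rw [h2, zero_div, sub_zero] at h1
    have h3 : ∑ y, q y ^ 2 = q x := by
      rw [← h1]
      apply Finset.sum_congr rfl
      intro y _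
      rw [pow_two]
    rw [h3]
    simp only [hq, qx]
    rw [if_pos trivial, if_pos hxf]
    have : 0 ≤ ((frS e).card : ℝ)⁻¹ := by positivity
    linarith
  have hlin := Ml_linear (dirs d T) h e q hq0
  have e1 : ∑ y, q y * Kl (dirs d T) h (e, y)
      = Kl (dirs d T) h (e, x) - Kl (dirs d T) (Hav h) e := by
    rw [← Hav_Kl]
    exact qx_sum e (fun y => Kl (dirs d T) h (e, y))
  rw [e1] at hlin
  rw [← hlin]
  set δ : ℝ := (3 / 4) ^ (T + 1 - d) with hδ
  have hδ0 : 0 < δ := by positivity
  set D : ℝ := 2 ^ d with hD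
  have hD0 : 0 < D := by positivity
  set lam : ℝ := Real.sqrt D / Real.sqrt δ with hlam
  have hlam0 : 0 < lam := div_pos (Real.sqrt_pos.mpr hD0) (Real.sqrt_pos.mpr hδ0)
  have hpt : ∀ (e : Fin m → Cube d) (q : Cube d → ℝ),
      |∑ x, q x * h (e, x)| ≤ lam / 2 * (∑ x, q x ^ 2) + D / (2 * lam) := by
    intro e q
    calc |∑ x, q x * h (e, x)| ≤ ∑ x, |q x * h (e, x)| := Finset.abs_sum_le_sum_abs _ _
      _ ≤ ∑ x : Cube d, (lam / 2 * q x ^ 2 + 1 / (2 * lam)) := by
          apply Finset.sum_le_sum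
          intro x _
          have h1 : |q x * h (e, x)| ≤ |q x| := by
            rw [abs_mul]
            exact mul_le_of_le_one_right (abs_nonneg _) (hh _)
          have h2 : |q x| ≤ lam / 2 * q x ^ 2 + 1 / (2 * lam) := by
            have h3 : 0 ≤ (lam * |q x| - 1) ^ 2 / (2 * lam) := by positivity
            have h4 : (lam * |q x| - 1) ^ 2 / (2 * lam)
                = lam / 2 * q x ^ 2 + 1 / (2 * lam) - |q x| := by
              rw [← sq_abs (q x)]
              field_simp
              ring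
            linarith
          exact h1.trans h2
      _ = _ := by
          rw [Finset.sum_add_distrib, ← Finset.mul_sum, Finset.sum_const, nsmul_eq_mul]
          congr 1
          have : (Finset.univ : Finset (Cube d)).card = 2 ^ d := by
            rw [Finset.card_univ, Fintype.card_fun, ZMod.card, Fintype.card_fin]
          rw [this, hD]
          push_cast
          ring
  have hup : Ml (dirs d T) (fun e q => lam / 2 * (∑ x, q x ^ 2) + D / (2 * lam)) e q
      ≤ Real.sqrt D * Real.sqrt δ := by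
    rw [ta_Ml_lin (dirs d T) (lam / 2) (D / (2 * lam)) (fun _ q => ∑ x, q x ^ 2)]
    have h1 := Ml_decay T hT hm e q hq0 hqs
    have h2 : Ml (dirs d T) (fun _ q => ∑ x, q x ^ 2) e q ≤ δ := by
      refine h1.trans ?_
      rw [← hδ]
      calc δ * ∑ y, q y ^ 2 ≤ δ * 1 := mul_le_mul_of_nonneg_left hq2 hδ0.le
        _ = δ := mul_one _
    have sD : Real.sqrt D * Real.sqrt D = D := Real.mul_self_sqrt hD0.le
    have sδ : Real.sqrt δ * Real.sqrt δ = δ := Real.mul_self_sqrt hδ0.le
    have pD : 0 < Real.sqrt D := Real.sqrt_pos.mpr hD0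
    have pδ : 0 < Real.sqrt δ := Real.sqrt_pos.mpr hδ0
    calc lam / 2 * Ml (dirs d T) (fun _ q => ∑ x, q x ^ 2) e q + D / (2 * lam)
        ≤ lam / 2 * δ + D / (2 * lam) := by gcongr
      _ = Real.sqrt D * Real.sqrt δ := by
          have e2 : lam / 2 * δ = Real.sqrt D * Real.sqrt δ / 2 := by
            rw [hlam]
            nth_rewrite 2 [← sδ]
            field_simp
          have e3 : D / (2 * lam) = Real.sqrt D * Real.sqrt δ / 2 := by
            rw [hlam]
            nth_rewrite 1 [← sD]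
            field_simp
          rw [e2, e3]
          ring
  rw [abs_le]
  constructor
  · have h1 := ta_Ml_mono (dirs d T)
      (Ψ := fun e q => (-1) * (lam / 2 * (∑ x, q x ^ 2) + D / (2 * lam)) + 0)
      (Φ := fun e q => ∑ x, q x * h (e, x)) (fun e q => by
        have := (abs_le.mp (hpt e q)).1
        linarith) e q
    rw [ta_Ml_lin (dirs d T) (-1) 0
      (fun e q => lam / 2 * (∑ x, q x ^ 2) + D / (2 * lam))] at h1
    linarith
  · exact (ta_Ml_mono (dirs d T) (fun e q => (abs_le.mp (hpt e q)).2) e q).trans hup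

/-! ### the average over all permutations -/

lemma ta_avgP_mul_right (f : Perm (Cube d) → ℝ) (k : Perm (Cube d)) :
    avgP (fun g => f (g * k)) = avgP f := by
  unfold avgP
  congr 1
  exact Fintype.sum_equiv (Equiv.mulRight k) _ _ (fun _ => rfl)

lemma ta_claim3 {m : ℕ} (f : (Fin (m + 1) → Cube d) → ℝ) (j : Fin (m + 1) → Cube d)
    (hj : Function.Injective j) :
    avgP (fun g : Perm (Cube d) => Hav (fun y : (Fin m → Cube d) × Cube d =>
        f (Fin.snoc (α := fun _ => Cube d) y.1 y.2)) (g ∘ Fin.init j))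
      = avgP (fun g : Perm (Cube d) => f (g ∘ j)) := by
  set j' : Fin m → Cube d := Fin.init j with hj'
  set x0 := j (Fin.last m) with hx0
  have hx0f : x0 ∈ frS j' := by
    rw [mem_frS]
    intro i hi
    have h1 : j (Fin.castSucc i) = j (Fin.last m) := hi
    exact absurd (hj h1) (Fin.castSucc_lt_last i).ne
  have hc : (0 : ℝ) < ((frS j').card : ℝ) := by
    exact_mod_cast Finset.card_pos.mpr ⟨x0, hx0f⟩
  have e1 : ∀ g : Perm (Cube d), Hav (fun y : (Fin m → Cube d) × Cube d =>
      f (Fin.snoc (α := fun _ => Cube d) y.1 y.2)) (g ∘ j')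
      = (∑ z ∈ frS j', f (Fin.snoc (α := fun _ => Cube d) (g ∘ j') (g z)))
        / ((frS j').card : ℝ) := by
    intro g
    unfold Hav
    have e2 : (g ∘ j') = g • j' := rfl
    rw [e2, frS_card, ← frS_sum j' g (fun x => f (Fin.snoc (α := fun _ => Cube d) (g • j') x))]
  have e3 : ∀ z ∈ frS j', avgP (fun g : Perm (Cube d) =>
      f (Fin.snoc (α := fun _ => Cube d) (g ∘ j') (g z)))
      = avgP (fun g : Perm (Cube d) => f (g ∘ j)) := by
    intro z hz
    rw [← ta_avgP_mul_right _ (swap z x0)]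
    congr 1
    funext g
    congr 1
    have e4 : (g * swap z x0) ∘ j' = g ∘ j' := by
      funext i
      show g (swap z x0 (j' i)) = g (j' i)
      rw [swap_apply_of_ne_of_ne (mem_frS.mp hz i) (mem_frS.mp hx0f i)]
    have e5 : (g * swap z x0) z = g x0 := by
      rw [Perm.mul_apply, swap_apply_left]
    rw [e4, e5]
    funext i
    refine Fin.lastCases ?_ (fun i => ?_) i
    · rw [Fin.snoc_last]
      rfl
    · rw [Fin.snoc_castSucc]
      rfl
  simp only [e1]
  have e6 : avgP (fun g : Perm (Cube d) =>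
      (∑ z ∈ frS j', f (Fin.snoc (α := fun _ => Cube d) (g ∘ j') (g z))) / ((frS j').card : ℝ))
      = (∑ z ∈ frS j', avgP (fun g : Perm (Cube d) =>
        f (Fin.snoc (α := fun _ => Cube d) (g ∘ j') (g z)))) / ((frS j').card : ℝ) := by
    unfold avgP
    rw [← Finset.sum_div, ← Finset.sum_div, Finset.sum_comm, div_div, div_div, mul_comm]
  rw [e6, Finset.sum_congr rfl e3, Finset.sum_const, nsmul_eq_mul, mul_div_cancel_left₀ _ hc.ne']

theorem thmA [NeZero d] (T : ℕ) (hT : d ≤ T + 1) (m : ℕ) (hm : 4 * m ≤ 2 ^ d)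
    (f : (Fin m → Cube d) → ℝ) (hf : ∀ e, |f e| ≤ 1)
    (j e : Fin m → Cube d) (hj : Function.Injective j) (he : Function.Injective e) :
    |Kl (dirs d T) f e - avgP (fun g : Perm (Cube d) => f (g ∘ j))| ≤
      m * (Real.sqrt (2 ^ d) * Real.sqrt ((3 / 4) ^ (T + 1 - d))) := by
  induction m with
  | zero =>
    have h1 : f = fun _ => f e := by
      funext e'
      congr 1
      exact Subsingleton.elim _ _
    have h2 : Kl (dirs d T) f e = f e := by
      conv_lhs => rw [h1]
      exact Kl_const _ _ _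
    have h3 : avgP (fun g : Perm (Cube d) => f (g ∘ j)) = f e := by
      have h4 : ∀ g : Perm (Cube d), f (g ∘ j) = f e := by
        intro g
        congr 1
        exact Subsingleton.elim _ _
      unfold avgP
      simp only [h4]
      rw [Finset.sum_const, nsmul_eq_mul, Finset.card_univ, mul_div_cancel_left₀]
      have : 0 < Fintype.card (Perm (Cube d)) := Fintype.card_pos
      exact_mod_cast this.ne'
    rw [h2, h3]
    simp
  | succ m ih =>
    set h : (Fin m → Cube d) × Cube d → ℝ :=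
      fun y => f (Fin.snoc (α := fun _ => Cube d) y.1 y.2) with hh
    have hh1 : ∀ y, |h y| ≤ 1 := fun y => hf _
    have hinit : ∀ e : Fin (m + 1) → Cube d, Function.Injective e →
        Function.Injective (Fin.init e : Fin m → Cube d) := by
      intro e he a b hab
      have h1 : e (Fin.castSucc a) = e (Fin.castSucc b) := hab
      exact Fin.castSucc_injective m (he h1)
    have e1 : Kl (dirs d T) f e = Kl (dirs d T) h (Fin.init e, e (Fin.last m)) := by
      have h1 := Kl_comp (Y := (Fin m → Cube d) × Cube d) (Y' := Fin (m + 1) → Cube d)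
        (fun y => Fin.snoc (α := fun _ => Cube d) y.1 y.2) (by
          intro g y
          funext i
          refine Fin.lastCases ?_ (fun i => ?_) i
          · rw [Fin.snoc_last]
            show g • y.2 = g • (Fin.snoc (α := fun _ => Cube d) y.1 y.2 (Fin.last m))
            rw [Fin.snoc_last]
          · rw [Fin.snoc_castSucc]
            show g • y.1 i = g • (Fin.snoc (α := fun _ => Cube d) y.1 y.2 (Fin.castSucc i))
            rw [Fin.snoc_castSucc]) (dirs d T) f (Fin.init e, e (Fin.last m))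
      rw [hh, h1]
      congr 1
      exact (Fin.snoc_init_self e).symm
    have c1 := ta_claim1 T hT (by omega : 4 * m ≤ 2 ^ d) h hh1 (Fin.init e) (e (Fin.last m))
      (by
        intro i hi
        have h1 : e (Fin.castSucc i) = e (Fin.last m) := hi
        exact absurd (he h1) (Fin.castSucc_lt_last i).ne)
    have c2 := ih (by omega) (Hav h) (abs_Hav_le hh1) (Fin.init j) (Fin.init e) (hinit j hj)
      (hinit e he)
    have c3 := ta_claim3 f j hj
    rw [← hh] at c3
    rw [c3] at c2
    rw [e1]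
    set ε := Real.sqrt (2 ^ d) * Real.sqrt ((3 / 4) ^ (T + 1 - d)) with hε
    calc |Kl (dirs d T) h (Fin.init e, e (Fin.last m))
          - avgP (fun g : Perm (Cube d) => f (g ∘ j))|
        ≤ |Kl (dirs d T) h (Fin.init e, e (Fin.last m)) - Kl (dirs d T) (Hav h) (Fin.init e)|
          + |Kl (dirs d T) (Hav h) (Fin.init e)
            - avgP (fun g : Perm (Cube d) => f (g ∘ j))| := abs_sub_le _ _ _
      _ ≤ ε + m * ε := add_le_add c1 c2
      _ = _ := by
          push_cast
          ring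

end

end Vale.Agent.P162
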