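import Vale.Agent.P162.ThorpDefs
import Vale.Agent.P162.KlBasic

/-! # The Thorp shuffle as a time-inhomogeneous product of butterfly layers -/

namespace Vale.Agent.P162

open Finset Equiv

noncomputable section

/-- the law of the product of the first `t` layers -/
def layerLaw (d t : ℕ) [NeZero d] (σ : Perm (Cube d)) : ℝ :=
  Kl (dirs d t) (fun τ : Perm (Cube d) => if τ = σ then (1 : ℝ) else 0) 1

namespace ThorpAux

/-! ### the encoding of positions by bits, most significant bit first -/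

/-- a Boolean as an element of `ZMod 2` -/
def bz (b : Bool) : ZMod 2 := if b then 1 else 0

lemma bz_inj {a b : Bool} (h : bz a = bz b) : a = b := by
  cases a <;> cases b
  · rfl
  · exact absurd h (by decide)
  · exact absurd h (by decide)
  · rfl

/-- coordinate `k` of the encoding of `i` is the bit `d - k` of `i` -/
def encFun (d : ℕ) (i : Fin (2 * 2 ^ d)) : Cube (d + 1) :=
  fun k => bz (Nat.testBit i (d - k))

lemma encFun_inj (d : ℕ) : Function.Injective (encFun d) := by
  intro i j hij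
  apply Fin.ext
  apply Nat.eq_of_testBit_eq
  intro b
  by_cases hb : b ≤ d
  · have h := congrFun hij ⟨d - b, by omega⟩
    simp only [encFun] at h
    rw [show d - (d - b) = b by omega] at h
    exact bz_inj h
  · have hlt : 2 * 2 ^ d ≤ 2 ^ b := by
      have : 2 ^ (d + 1) ≤ 2 ^ b := Nat.pow_le_pow_right (by norm_num) (by omega)
      rw [pow_succ] at this
      omega
    rw [Nat.testBit_lt_two_pow (lt_of_lt_of_le i.2 hlt),
      Nat.testBit_lt_two_pow (lt_of_lt_of_le j.2 hlt)]

lemma card_cube (d : ℕ) : Fintype.card (Cube (d + 1)) = 2 * 2 ^ d := by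
  rw [Fintype.card_fun, ZMod.card, Fintype.card_fin, pow_succ, mul_comm]

lemma encFun_bij (d : ℕ) : Function.Bijective (encFun d) := by
  rw [Fintype.bijective_iff_injective_and_card]
  exact ⟨encFun_inj d, by rw [card_cube, Fintype.card_fin]⟩

/-- the encoding of positions -/
def enc (d : ℕ) : Fin (2 * 2 ^ d) ≃ Cube (d + 1) := Equiv.ofBijective _ (encFun_bij d)

lemma enc_apply (d : ℕ) (i : Fin (2 * 2 ^ d)) (k : Fin (d + 1)) :
    enc d i k = bz (Nat.testBit i (d - k)) := rfl

/-- rotation of the coordinates -/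
def rot (d : ℕ) : Perm (Cube (d + 1)) where
  toFun x := fun k => x (k + 1)
  invFun x := fun k => x (k - 1)
  left_inv x := by funext k; simp only [sub_add_cancel]
  right_inv x := by funext k; simp only [add_sub_cancel_right]

lemma rot_apply (d : ℕ) (x : Cube (d + 1)) (k : Fin (d + 1)) : rot d x k = x (k + 1) := rfl

lemma rot_pow_apply (d t : ℕ) (x : Cube (d + 1)) (k : Fin (d + 1)) :
    ((rot d) ^ t) x k = x (k + Fin.ofNat (d + 1) t) := by
  induction t generalizing k with
  | zero =>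
    rw [pow_zero, Perm.one_apply]
    congr 1
    have : Fin.ofNat (d + 1) 0 = 0 := by ext; simp [Fin.ofNat]
    rw [this, add_zero]
  | succ t ih =>
    rw [pow_succ', Perm.mul_apply, rot_apply, ih]
    congr 1
    have : Fin.ofNat (d + 1) (t + 1) = Fin.ofNat (d + 1) t + 1 := by
      ext
      simp [Fin.ofNat, Fin.val_add]
    rw [this]
    abel

lemma rot_pow_single (d t : ℕ) (x : Cube (d + 1)) :
    ((rot d) ^ t) (x + Pi.single (Fin.ofNat (d + 1) t) 1) =
      ((rot d) ^ t) x + Pi.single 0 1 := by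
  funext k
  rw [rot_pow_apply, Pi.add_apply, Pi.add_apply, rot_pow_apply]
  congr 1
  by_cases hk : k = 0
  · subst hk
    rw [zero_add, Pi.single_eq_same, Pi.single_eq_same]
  · rw [Pi.single_eq_of_ne hk, Pi.single_eq_of_ne]
    intro h
    exact hk (by simpa using h)

/-! ### positions -/

/-- position `k` in the top half -/
def lo (d : ℕ) (k : Fin (2 ^ d)) : Fin (2 * 2 ^ d) := ⟨k, by have := k.2; omega⟩

/-- position `h + k` in the bottom half -/
def hi (d : ℕ) (k : Fin (2 ^ d)) : Fin (2 * 2 ^ d) := ⟨2 ^ d + k, by have := k.2; omega⟩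

/-- position `2 k` -/
def ev (d : ℕ) (k : Fin (2 ^ d)) : Fin (2 * 2 ^ d) := ⟨2 * k, by have := k.2; omega⟩

/-- position `2 k + 1` -/
def od (d : ℕ) (k : Fin (2 ^ d)) : Fin (2 * 2 ^ d) := ⟨2 * k + 1, by have := k.2; omega⟩

lemma lo_val (d : ℕ) (k : Fin (2 ^ d)) : ((lo d k : Fin (2 * 2 ^ d)) : ℕ) = k := rfl
lemma hi_val (d : ℕ) (k : Fin (2 ^ d)) : ((hi d k : Fin (2 * 2 ^ d)) : ℕ) = 2 ^ d + k := rfl
lemma ev_val (d : ℕ) (k : Fin (2 ^ d)) : ((ev d k : Fin (2 * 2 ^ d)) : ℕ) = 2 * k := rfl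
lemma od_val (d : ℕ) (k : Fin (2 ^ d)) : ((od d k : Fin (2 * 2 ^ d)) : ℕ) = 2 * k + 1 := rfl

lemma lo_or_hi (d : ℕ) (i : Fin (2 * 2 ^ d)) : (∃ k, i = lo d k) ∨ ∃ k, i = hi d k := by
  by_cases h : (i : ℕ) < 2 ^ d
  · left; exact ⟨⟨i, h⟩, rfl⟩
  · right
    refine ⟨⟨i - 2 ^ d, by have := i.2; omega⟩, ?_⟩
    apply Fin.ext
    simp only [hi]
    omega

lemma enc_hi (d : ℕ) (k : Fin (2 ^ d)) :
    enc d (hi d k) = enc d (lo d k) + Pi.single 0 1 := by
  funext j
  rw [Pi.add_apply, enc_apply, enc_apply, hi_val, lo_val]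
  by_cases hj : j = 0
  · subst hj
    rw [Pi.single_eq_same]
    rw [Fin.val_zero, Nat.sub_zero, Nat.testBit_two_pow_add_eq, Nat.testBit_lt_two_pow k.2]
    decide
  · rw [Pi.single_eq_of_ne hj, add_zero]
    have hj' : (j : ℕ) ≠ 0 := fun h => hj (Fin.ext h)
    rw [Nat.testBit_two_pow_add_gt (by omega)]

lemma enc_ev (d : ℕ) (k : Fin (2 ^ d)) : enc d (ev d k) = rot d (enc d (lo d k)) := by
  funext j
  rw [rot_apply, enc_apply, enc_apply, ev_val, lo_val]
  by_cases hj : j = Fin.last d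
  · subst hj
    rw [Fin.last_add_one]
    rw [Fin.val_last, Nat.sub_self, Fin.val_zero, Nat.sub_zero, Nat.testBit_lt_two_pow k.2,
      Nat.testBit_zero]
    simp
  · have hjd : (j : ℕ) < d := by
      have h1 := j.2
      have h2 : (j : ℕ) ≠ d := fun h => hj (Fin.ext h)
      omega
    have h3 : ((j + 1 : Fin (d + 1)) : ℕ) = j + 1 := Fin.val_add_one_of_lt' (by omega)
    rw [h3]
    have h4 : d - (j : ℕ) = (d - (j + 1)) + 1 := by omega
    rw [h4, Nat.testBit_add_one]
    congr 3
    omega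

lemma enc_od (d : ℕ) (k : Fin (2 ^ d)) : enc d (od d k) = rot d (enc d (hi d k)) := by
  funext j
  rw [rot_apply, enc_apply, enc_apply, od_val, hi_val]
  by_cases hj : j = Fin.last d
  · subst hj
    rw [Fin.last_add_one]
    rw [Fin.val_last, Nat.sub_self, Fin.val_zero, Nat.sub_zero, Nat.testBit_two_pow_add_eq,
      Nat.testBit_lt_two_pow k.2, Nat.testBit_zero]
    simp
  · have hjd : (j : ℕ) < d := by
      have h1 := j.2
      have h2 : (j : ℕ) ≠ d := fun h => hj (Fin.ext h)
      omega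
    have h3 : ((j + 1 : Fin (d + 1)) : ℕ) = j + 1 := Fin.val_add_one_of_lt' (by omega)
    rw [h3]
    have h4 : d - (j : ℕ) = (d - (j + 1)) + 1 := by omega
    rw [h4, Nat.testBit_add_one, Nat.testBit_two_pow_add_gt (by omega)]
    congr 3
    omega

/-! ### coins -/

/-- the index of the pair of a position -/
def idx (d : ℕ) (i : Fin (2 * 2 ^ d)) : Fin (2 ^ d) :=
  if h : (i : ℕ) < 2 ^ d then ⟨i, h⟩ else ⟨i - 2 ^ d, by have := i.2; omega⟩

lemma idx_lo (d : ℕ) (k : Fin (2 ^ d)) : idx d (lo d k) = k := by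
  have h : ((lo d k : Fin (2 * 2 ^ d)) : ℕ) < 2 ^ d := k.2
  rw [idx, dif_pos h]
  rfl

lemma idx_hi (d : ℕ) (k : Fin (2 ^ d)) : idx d (hi d k) = k := by
  have h : ¬ ((hi d k : Fin (2 * 2 ^ d)) : ℕ) < 2 ^ d := by simp [hi]
  rw [idx, dif_neg h]
  apply Fin.ext
  simp [hi]

lemma enc_lo_add (d : ℕ) (k : Fin (2 ^ d)) :
    enc d (lo d k) + Pi.single 0 1 = enc d (hi d k) := (enc_hi d k).symm

lemma enc_hi_add (d : ℕ) (k : Fin (2 ^ d)) :
    enc d (hi d k) + Pi.single 0 1 = enc d (lo d k) := by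
  rw [enc_hi, single_add_single]

lemma idx_add (d : ℕ) (x : Cube (d + 1)) :
    idx d ((enc d).symm (x + Pi.single 0 1)) = idx d ((enc d).symm x) := by
  obtain ⟨i, rfl⟩ := (enc d).surjective x
  rcases lo_or_hi d i with ⟨k, rfl⟩ | ⟨k, rfl⟩
  · rw [enc_lo_add, symm_apply_apply, symm_apply_apply, idx_hi, idx_lo]
  · rw [enc_hi_add, symm_apply_apply, symm_apply_apply, idx_hi, idx_lo]

/-- the product of swaps given by coins -/
def sg (d : ℕ) (c : Fin (2 ^ d) → Bool) : Perm (Cube (d + 1)) where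
  toFun x := if c (idx d ((enc d).symm x)) then x + Pi.single 0 1 else x
  invFun x := if c (idx d ((enc d).symm x)) then x + Pi.single 0 1 else x
  left_inv x := by
    by_cases h : c (idx d ((enc d).symm x))
    · simp only [h, if_true, idx_add, single_add_single]
    · simp only [h, if_false, Bool.false_eq_true]
  right_inv x := by
    by_cases h : c (idx d ((enc d).symm x))
    · simp only [h, if_true, idx_add, single_add_single]
    · simp only [h, if_false, Bool.false_eq_true]

lemma sg_apply (d : ℕ) (c : Fin (2 ^ d) → Bool) (x : Cube (d + 1)) :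
    sg d c x = if c (idx d ((enc d).symm x)) then x + Pi.single 0 1 else x := rfl

lemma sg_lo (d : ℕ) (c : Fin (2 ^ d) → Bool) (k : Fin (2 ^ d)) :
    sg d c (enc d (lo d k)) = if c k then enc d (hi d k) else enc d (lo d k) := by
  rw [sg_apply, symm_apply_apply, idx_lo, enc_lo_add]

lemma sg_hi (d : ℕ) (c : Fin (2 ^ d) → Bool) (k : Fin (2 ^ d)) :
    sg d c (enc d (hi d k)) = if c k then enc d (lo d k) else enc d (hi d k) := by
  rw [sg_apply, symm_apply_apply, idx_hi, enc_hi_add]

lemma sg_mem (d : ℕ) (c : Fin (2 ^ d) → Bool) : sg d c ∈ GF (0 : Fin (d + 1)) := by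
  rw [mem_GF]
  intro x
  rw [sg_apply]
  split_ifs
  · right; rfl
  · left; rfl

lemma add_single_ne (d : ℕ) (x : Cube (d + 1)) : x + Pi.single 0 1 ≠ x := by
  intro h
  have h1 := congrFun h 0
  rw [Pi.add_apply, Pi.single_eq_same] at h1
  have h2 : (1 : ZMod 2) = 0 := by
    have := add_eq_left.mp h1
    exact this
  exact absurd h2 (by decide)

lemma sg_inj (d : ℕ) {c c' : Fin (2 ^ d) → Bool} (h : sg d c = sg d c') : c = c' := by
  funext k
  have h1 : sg d c (enc d (lo d k)) = sg d c' (enc d (lo d k)) := by rw [h]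
  rw [sg_lo, sg_lo] at h1
  have h2 : enc d (hi d k) ≠ enc d (lo d k) := by
    rw [enc_hi]; exact add_single_ne d _
  cases h3 : c k <;> cases h4 : c' k
  · rfl
  · rw [h3, h4] at h1
    exact absurd h1.symm (by simpa using h2)
  · rw [h3, h4] at h1
    exact absurd h1 (by simpa using h2)
  · rfl

lemma sg_surj (d : ℕ) {g : Perm (Cube (d + 1))} (hg : g ∈ GF (0 : Fin (d + 1))) :
    ∃ c, sg d c = g := by
  classical
  rw [mem_GF] at hg
  refine ⟨fun k => decide (g (enc d (lo d k)) ≠ enc d (lo d k)), ?_⟩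
  ext1 x
  obtain ⟨i, rfl⟩ := (enc d).surjective x
  rcases lo_or_hi d i with ⟨k, rfl⟩ | ⟨k, rfl⟩
  · rw [sg_lo]
    by_cases h : g (enc d (lo d k)) = enc d (lo d k)
    · simp [h]
    · have h1 := (hg (enc d (lo d k))).resolve_left h
      rw [enc_lo_add] at h1
      simp only [decide_not, Bool.not_eq_true', decide_eq_false_iff_not, h, not_false_eq_true,
        if_true]
      exact h1.symm
  · rw [sg_hi]
    have hne : enc d (hi d k) ≠ enc d (lo d k) := by
      rw [enc_hi]; exact add_single_ne d _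
    have h2 := hg (enc d (hi d k))
    rw [enc_hi_add] at h2
    by_cases h : g (enc d (lo d k)) = enc d (lo d k)
    · have h3 : g (enc d (hi d k)) = enc d (hi d k) := by
        rcases h2 with h2 | h2
        · exact h2
        · exact absurd (g.injective (h2.trans h.symm)) hne
      simp [h, h3]
    · have h1 := (hg (enc d (lo d k))).resolve_left h
      rw [enc_lo_add] at h1
      have h3 : g (enc d (hi d k)) = enc d (lo d k) := by
        rcases h2 with h2 | h2
        · exact absurd (g.injective (h2.trans h1.symm)) hne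
        · exact h2
      simp only [decide_not, Bool.not_eq_true', decide_eq_false_iff_not, h, not_false_eq_true,
        if_true]
      exact h3.symm

lemma card_GF_zero (d : ℕ) : ((GF (0 : Fin (d + 1))).card : ℝ) = 2 ^ (2 ^ d) := by
  have h : (univ : Finset (Fin (2 ^ d) → Bool)).card = (GF (0 : Fin (d + 1))).card := by
    refine Finset.card_bij (fun c _ => sg d c) (fun c _ => sg_mem d c)
      (fun c _ c' _ h => sg_inj d h) ?_
    intro g hg
    obtain ⟨c, hc⟩ := sg_surj d hg
    exact ⟨c, mem_univ c, hc⟩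
  rw [← h, Finset.card_univ, Fintype.card_fun, Fintype.card_bool, Fintype.card_fin]
  push_cast
  rfl

/-- the permutation of the positions produced by the coins `c` -/
def shuf (d : ℕ) (c : Fin (2 ^ d) → Bool) : Perm (Fin (2 * 2 ^ d)) :=
  (enc d).symm.permCongrHom (rot d * sg d c)

lemma shuf_apply (d : ℕ) (c : Fin (2 ^ d) → Bool) (i : Fin (2 * 2 ^ d)) :
    shuf d c i = (enc d).symm (rot d (sg d c (enc d i))) := rfl

lemma shuf_lo (d : ℕ) (c : Fin (2 ^ d) → Bool) (k : Fin (2 ^ d)) :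
    shuf d c (lo d k) = if c k then od d k else ev d k := by
  rw [shuf_apply, sg_lo, symm_apply_eq]
  split_ifs
  · rw [enc_od]
  · rw [enc_ev]

lemma shuf_hi (d : ℕ) (c : Fin (2 ^ d) → Bool) (k : Fin (2 ^ d)) :
    shuf d c (hi d k) = if c k then ev d k else od d k := by
  rw [shuf_apply, sg_hi, symm_apply_eq]
  split_ifs
  · rw [enc_ev]
  · rw [enc_od]

lemma shuf_spec (d : ℕ) (c : Fin (2 ^ d) → Bool) (i : Fin (2 * 2 ^ d)) :
    (shuf d c i : ℕ) =
      thorpPos (2 ^ d) (fun k => if hk : k < 2 ^ d then c ⟨k, hk⟩ else false) i := by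
  rcases lo_or_hi d i with ⟨k, rfl⟩ | ⟨k, rfl⟩
  · rw [shuf_lo, thorpPos, lo_val, if_pos k.2, dif_pos k.2]
    cases c k <;> simp [ev, od]
  · have hk' : 2 ^ d + (k : ℕ) - 2 ^ d = k := by omega
    have hk2 : ¬ 2 ^ d + (k : ℕ) < 2 ^ d := by omega
    rw [shuf_hi, thorpPos, hi_val, if_neg hk2, hk', dif_pos k.2]
    cases c k <;> simp [ev, od]

lemma shuf_iff (d : ℕ) (c : Fin (2 ^ d) → Bool) (g : Perm (Fin (2 * 2 ^ d))) :
    (∀ i, (g i : ℕ) =
      thorpPos (2 ^ d) (fun k => if hk : k < 2 ^ d then c ⟨k, hk⟩ else false) i) ↔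
      shuf d c = g := by
  constructor
  · intro h
    ext i
    rw [h i, shuf_spec]
  · rintro rfl i
    exact shuf_spec d c i

/-- integration against the law of one shuffle -/
lemma sum_thorpLaw (d : ℕ) (F : Perm (Fin (2 * 2 ^ d)) → ℝ) :
    ∑ g, thorpLaw (2 ^ d) g * F g =
      (∑ p ∈ GF (0 : Fin (d + 1)), F ((enc d).symm.permCongrHom (rot d * p))) /
        ((GF (0 : Fin (d + 1))).card : ℝ) := by
  classical
  have h1 : ∀ g, thorpLaw (2 ^ d) g * F g =
      (∑ c : Fin (2 ^ d) → Bool, if shuf d c = g then F g else 0) / 2 ^ (2 ^ d) := by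
    intro g
    rw [thorpLaw]
    have : (univ.filter fun c : Fin (2 ^ d) → Bool =>
        ∀ i, (g i : ℕ) =
          thorpPos (2 ^ d) (fun k => if hk : k < 2 ^ d then c ⟨k, hk⟩ else false) i) =
        univ.filter fun c => shuf d c = g := by
      apply Finset.filter_congr
      intro c _
      exact shuf_iff d c g
    rw [this, ← Finset.sum_filter, Finset.sum_const, nsmul_eq_mul]
    ring
  rw [Finset.sum_congr rfl (fun g _ => h1 g), ← Finset.sum_div, Finset.sum_comm, card_GF_zero]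
  congr 1
  have h2 : ∀ c : Fin (2 ^ d) → Bool, (∑ g, if shuf d c = g then F g else 0) = F (shuf d c) := by
    intro c
    rw [Finset.sum_ite_eq]
    simp
  rw [Finset.sum_congr rfl (fun c _ => h2 c)]
  refine Finset.sum_bij (fun c _ => sg d c) (fun c _ => sg_mem d c)
    (fun c _ c' _ h => sg_inj d h) ?_ (fun c _ => rfl)
  intro g hg
  obtain ⟨c, hc⟩ := sg_surj d hg
  exact ⟨c, mem_univ c, hc⟩

/-! ### conjugation of the directions by the rotation -/

lemma conj_mem {d t : ℕ} {g : Perm (Cube (d + 1))} (hg : g ∈ GF (0 : Fin (d + 1))) :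
    ((rot d) ^ t)⁻¹ * g * (rot d) ^ t ∈ GF (Fin.ofNat (d + 1) t) := by
  rw [mem_GF] at *
  intro x
  rw [Perm.mul_apply, Perm.mul_apply]
  rcases hg (((rot d) ^ t) x) with h | h
  · left
    rw [h]
    exact Equiv.symm_apply_apply _ x
  · right
    rw [h, ← rot_pow_single]
    exact Equiv.symm_apply_apply _ _

lemma conj_mem' {d t : ℕ} {g : Perm (Cube (d + 1))} (hg : g ∈ GF (Fin.ofNat (d + 1) t)) :
    (rot d) ^ t * g * ((rot d) ^ t)⁻¹ ∈ GF (0 : Fin (d + 1)) := by
  rw [mem_GF] at *
  intro x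
  obtain ⟨y, rfl⟩ := ((rot d) ^ t).surjective x
  have hy : ((rot d) ^ t)⁻¹ (((rot d) ^ t) y) = y := Equiv.symm_apply_apply _ y
  rw [Perm.mul_apply, Perm.mul_apply, hy]
  rcases hg y with h | h
  · left; rw [h]
  · right; rw [h, rot_pow_single]

lemma Kop_ofNat (d t : ℕ) (F : Perm (Cube (d + 1)) → ℝ) (σ : Perm (Cube (d + 1))) :
    Kop (Fin.ofNat (d + 1) t) (fun σ => F ((rot d) ^ (t + 1) * σ)) σ =
      (∑ g ∈ GF (0 : Fin (d + 1)), F (rot d * g * (rot d) ^ t * σ)) /
        ((GF (0 : Fin (d + 1))).card : ℝ) := by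
  have hcard : (GF (Fin.ofNat (d + 1) t)).card = (GF (0 : Fin (d + 1))).card := by
    refine Finset.card_bij' (fun g _ => (rot d) ^ t * g * ((rot d) ^ t)⁻¹)
      (fun g _ => ((rot d) ^ t)⁻¹ * g * (rot d) ^ t) (fun g hg => conj_mem' hg)
      (fun g hg => conj_mem hg) ?_ ?_
    · intro g _; group
    · intro g _; group
  rw [Kop_apply, hcard]
  congr 1
  refine Finset.sum_bij' (fun g _ => (rot d) ^ t * g * ((rot d) ^ t)⁻¹)
      (fun g _ => ((rot d) ^ t)⁻¹ * g * (rot d) ^ t) (fun g hg => conj_mem' hg)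
      (fun g hg => conj_mem hg) ?_ ?_ ?_
  · intro g _; group
  · intro g _; group
  · intro g _
    congr 1
    rw [smul_eq_mul, pow_succ']
    group

/-- integration against the law of `t` shuffles -/
lemma sum_convPow (d t : ℕ) (F : Perm (Cube (d + 1)) → ℝ) :
    ∑ g, convPow (2 ^ d) t g * F ((enc d).permCongrHom g) =
      Kl (dirs (d + 1) t) (fun σ => F ((rot d) ^ t * σ)) (1 : Perm (Cube (d + 1))) := by
  classical
  induction t generalizing F with
  | zero =>
    simp only [convPow, pow_zero, one_mul, ite_mul, zero_mul]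
    rw [Finset.sum_ite_eq' univ (1 : Perm (Fin (2 * 2 ^ d))), if_pos (mem_univ _), map_one]
    simp [dirs, Kl]
  | succ t ih =>
    simp only [convPow]
    have h1 : ∑ g, (∑ k, thorpLaw (2 ^ d) k * convPow (2 ^ d) t (k⁻¹ * g)) *
        F ((enc d).permCongrHom g) =
        ∑ k, thorpLaw (2 ^ d) k * ∑ g, convPow (2 ^ d) t g *
          F ((enc d).permCongrHom k * (enc d).permCongrHom g) := by
      simp only [Finset.sum_mul, Finset.mul_sum]
      rw [Finset.sum_comm]
      apply Finset.sum_congr rfl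
      intro k _
      rw [← Equiv.sum_comp (Equiv.mulLeft k)]
      apply Finset.sum_congr rfl
      intro g _
      rw [Equiv.coe_mulLeft, inv_mul_cancel_left, map_mul, mul_assoc]
    have h2 : ∀ k, ∑ g, convPow (2 ^ d) t g *
        F ((enc d).permCongrHom k * (enc d).permCongrHom g) =
        Kl (dirs (d + 1) t) (fun σ => F ((enc d).permCongrHom k * ((rot d) ^ t * σ)))
          (1 : Perm (Cube (d + 1))) := by
      intro k
      exact ih (fun p => F ((enc d).permCongrHom k * p))
    rw [h1, Finset.sum_congr rfl (fun k _ => by rw [h2 k]), sum_thorpLaw]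
    have h3 : ∀ p : Perm (Cube (d + 1)),
        (enc d).permCongrHom ((enc d).symm.permCongrHom p) = p := by
      intro p
      ext x : 1
      simp [Equiv.permCongrHom]
    rw [dirs_succ, Kl_append, Kl_cons]
    have h4 : Kop (Fin.ofNat (d + 1) t)
        (Kl ([] : List (Fin (d + 1)))
          fun σ : Perm (Cube (d + 1)) => F ((rot d) ^ (t + 1) * σ)) =
        fun σ => ((GF (0 : Fin (d + 1))).card : ℝ)⁻¹ *
          ∑ g ∈ GF (0 : Fin (d + 1)), F (rot d * g * (rot d) ^ t * σ) := by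
      funext σ
      rw [← div_eq_inv_mul, ← Kop_ofNat]
      rfl
    rw [h4, Kl_const_mul, Kl_sum, div_eq_inv_mul]
    congr 1
    apply Finset.sum_congr rfl
    intro p _
    rw [h3]
    simp only [mul_assoc]

lemma convPow_eq (d t : ℕ) (g : Perm (Fin (2 * 2 ^ d))) :
    convPow (2 ^ d) t g =
      layerLaw (d + 1) t (((rot d) ^ t)⁻¹ * (enc d).permCongrHom g) := by
  classical
  have h := sum_convPow d t (fun p => if p = (enc d).permCongrHom g then 1 else 0)
  have h1 : ∀ k, (convPow (2 ^ d) t k *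
      if (enc d).permCongrHom k = (enc d).permCongrHom g then (1 : ℝ) else 0) =
      if k = g then convPow (2 ^ d) t k else 0 := by
    intro k
    by_cases hk : k = g
    · rw [if_pos hk, if_pos (by rw [hk]), mul_one]
    · rw [if_neg hk, if_neg (fun h => hk ((enc d).permCongrHom.injective h)), mul_zero]
  rw [Finset.sum_congr rfl (fun k _ => h1 k), Finset.sum_ite_eq', if_pos (mem_univ _)] at h
  rw [h, layerLaw]
  congr 1
  funext σ
  have h2 : ((rot d) ^ t * σ = (enc d).permCongrHom g) ↔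
      (σ = ((rot d) ^ t)⁻¹ * (enc d).permCongrHom g) := by
    rw [eq_inv_mul_iff_mul_eq]
  simp only [h2]

end ThorpAux

open ThorpAux in
theorem tv_eq (d t : ℕ) :
    tvDist (2 ^ d) t = (1 / 2) * ∑ σ : Perm (Cube (d + 1)),
      |layerLaw (d + 1) t σ - 1 / (Fintype.card (Perm (Cube (d + 1))) : ℝ)| := by
  classical
  rw [tvDist]
  congr 1
  have hc : (Fintype.card (Perm (Cube (d + 1))) : ℝ) = (Nat.factorial (2 * 2 ^ d) : ℝ) := by
    rw [Fintype.card_perm, card_cube]
  rw [hc, ← Equiv.sum_comp ((enc d).permCongrHom.toEquiv.trans (Equiv.mulLeft ((rot d) ^ t)⁻¹))]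
  apply Finset.sum_congr rfl
  intro g _
  rw [convPow_eq]
  rfl

end

end Vale.Agent.P162
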