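import Vale.Agent.P162.Eig
import Vale.Agent.P162.Spectral
import Vale.Agent.P162.Dim
import Vale.Agent.P162.ThmA
import Vale.Agent.P162.Iter1
import Vale.Agent.P162.Iter2
import Vale.Agent.P162.NearInv
import Vale.Agent.P162.Thorp

/-! # Assembly -/

namespace Vale.Agent.P162

open Finset Equiv
open scoped RealInnerProductSpace

noncomputable section

/-! ### the pairs -/

lemma flat_map_nodup {D : ℕ} (s : Fin D) (l : List (Cube D)) (hl : l.Nodup)
    (h0 : ∀ x ∈ l, x s = 0) :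
    (flat (l.map fun x => (x, x + Pi.single s 1))).Nodup := by
  induction l with
  | nil => simp [flat]
  | cons x l ih =>
    rw [List.nodup_cons] at hl
    have hx : x s = 0 := h0 x (List.mem_cons_self)
    have ih' := ih hl.2 (fun y hy => h0 y (List.mem_cons_of_mem _ hy))
    have hmem : ∀ y, y ∈ flat (l.map fun x => (x, x + Pi.single s 1)) →
        y ∈ l ∨ ∃ z ∈ l, y = z + Pi.single s 1 := by
      intro y hy
      simp only [flat, List.mem_flatMap, List.mem_map] at hy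
      obtain ⟨p, ⟨z, hz, rfl⟩, hy⟩ := hy
      simp only [List.mem_cons, List.not_mem_nil, or_false] at hy
      rcases hy with rfl | rfl
      · left; exact hz
      · right; exact ⟨z, hz, rfl⟩
    have e1 : ∀ z : Cube D, z s = 0 → (z + Pi.single s 1 : Cube D) s = 1 := by
      intro z hz
      rw [Pi.add_apply, hz, Pi.single_eq_same, zero_add]
    have hcons : flat ((x :: l).map fun x => (x, x + Pi.single s 1)) =
        x :: (x + Pi.single s 1) :: flat (l.map fun x => (x, x + Pi.single s 1)) := by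
      simp [flat]
    rw [hcons, List.nodup_cons, List.nodup_cons]
    have h01 : (0 : ZMod 2) ≠ 1 := by decide
    refine ⟨?_, ?_, ih'⟩
    · rw [List.mem_cons]
      rintro (h | h)
      · have := congrFun h s
        rw [e1 x hx, hx] at this
        exact h01 this
      · rcases hmem _ h with h | ⟨z, hz, h⟩
        · exact hl.1 h
        · have := congrFun h s
          rw [e1 z (h0 z (List.mem_cons_of_mem _ hz)), hx] at this
          exact h01 this
    · intro h
      rcases hmem _ h with h | ⟨z, hz, h⟩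
      · have := h0 _ (List.mem_cons_of_mem _ h)
        rw [e1 x hx] at this
        exact h01 this.symm
      · have : x = z := add_right_cancel h
        rw [← this] at hz
        exact hl.1 hz

lemma exists_pairs {D : ℕ} (s : Fin D) (L : ℕ) (hL : 2 * L ≤ 2 ^ D) :
    ∃ pairs : List (Cube D × Cube D), pairs.length = L ∧ (flat pairs).Nodup ∧
      ∀ p ∈ pairs, p.2 = p.1 + Pi.single s 1 := by
  classical
  set S : Finset (Cube D) := univ.filter fun x => x s = 0 with hS
  set S' : Finset (Cube D) := univ.filter fun x => ¬ x s = 0 with hS'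
  have hcard : S.card = S'.card := by
    refine Finset.card_bij' (fun x _ => x + Pi.single s 1) (fun x _ => x + Pi.single s 1)
      ?_ ?_ ?_ ?_
    · intro x hx
      simp only [hS, hS', Finset.mem_filter, Finset.mem_univ, true_and] at hx ⊢
      rw [Pi.add_apply, hx, Pi.single_eq_same]
      decide
    · intro x hx
      simp only [hS, hS', Finset.mem_filter, Finset.mem_univ, true_and] at hx ⊢
      rw [Pi.add_apply, Pi.single_eq_same]
      generalize x s = z at hx
      revert z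
      decide
    · intro x _; exact single_add_single s x
    · intro x _; exact single_add_single s x
  have htot : S.card + S'.card = 2 ^ D := by
    rw [hS, hS', Finset.card_filter_add_card_filter_not, Finset.card_univ]
    simp [ZMod.card]
  have hSL : L ≤ S.toList.length := by
    rw [Finset.length_toList]
    omega
  refine ⟨(S.toList.take L).map fun x => (x, x + Pi.single s 1), ?_, ?_, ?_⟩
  · rw [List.length_map, List.length_take]
    omega
  · apply flat_map_nodup s _ ((List.take_sublist _ _).nodup S.nodup_toList)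
    intro x hx
    have h1 := List.mem_of_mem_take hx
    rw [Finset.mem_toList, hS, Finset.mem_filter] at h1
    exact h1.2
  · intro p hp
    rw [List.mem_map] at hp
    obtain ⟨x, _, rfl⟩ := hp
    rfl

/-! ### slots containing two given cards -/

lemma exists_slots {X : Type*} [Fintype X] [DecidableEq X] (m : ℕ) (hm : 2 ≤ m)
    (hmX : m ≤ Fintype.card X) (a b : X) (hab : a ≠ b) :
    ∃ j : Fin m ↪ X, ∃ α β : Fin m, α ≠ β ∧ j α = a ∧ j β = b := by
  obtain ⟨j0⟩ : Nonempty (Fin m ↪ X) :=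
    Function.Embedding.nonempty_of_card_le (by simpa using hmX)
  set α : Fin m := ⟨0, by omega⟩
  set β : Fin m := ⟨1, by omega⟩
  have hαβ : α ≠ β := by
    intro h
    have := congrArg Fin.val h
    simp [α, β] at this
  set g1 : Perm X := swap (j0 α) a
  set c := g1 (j0 β)
  have hg1 : g1 (j0 α) = a := swap_apply_left _ _
  have hca : c ≠ a := by
    intro h
    apply hαβ
    apply j0.injective
    apply g1.injective
    rw [hg1]
    exact h.symm
  refine ⟨(j0.trans g1.toEmbedding).trans (swap c b).toEmbedding, α, β, hαβ, ?_, ?_⟩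
  · show swap c b (g1 (j0 α)) = a
    rw [hg1]
    exact swap_apply_of_ne_of_ne hca.symm hab
  · show swap c b (g1 (j0 β)) = b
    exact swap_apply_left _ _

lemma viaEmbedding_swap {A X : Type*} [Fintype A] [DecidableEq A] [DecidableEq X] (j : A ↪ X)
    (a b : A) : (swap a b).viaEmbedding j = swap (j a) (j b) := by
  ext x
  by_cases hx : x ∈ Set.range j
  · obtain ⟨c, rfl⟩ := hx
    rw [Perm.viaEmbedding_apply]
    exact j.injective.map_swap a b c
  · rw [Perm.viaEmbedding_apply_of_notMem _ _ _ hx]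
    symm
    apply swap_apply_of_ne_of_ne
    · rintro rfl; exact hx ⟨a, rfl⟩
    · rintro rfl; exact hx ⟨b, rfl⟩

lemma cv_single {A X : Type*} [Fintype A] [DecidableEq A] [DecidableEq X] (j : A ↪ X)
    (φ : Perm X → ℝ) (α β : A) (σ : Perm X) :
    cv j φ (EuclideanSpace.single 1 (1 : ℝ) - EuclideanSpace.single (swap α β) (1 : ℝ) :
      EuclideanSpace ℝ (Perm A)) σ = φ σ - φ (σ * swap (j α) (j β)) := by
  unfold cv
  simp only [PiLp.sub_apply, PiLp.single_apply, sub_mul, Finset.sum_sub_distrib,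
    ite_mul, one_mul, zero_mul, Finset.sum_ite_eq', Finset.mem_univ, if_true]
  rw [viaEmbedding_swap]
  have : (1 : Perm A).viaEmbedding j = 1 := by
    have := (Equiv.Perm.viaEmbeddingHom j).map_one
    exact this
  rw [this, mul_one]

/-! ### the spectral bound -/

lemma theta_pow_le (k : ℕ) : (1 - 1 / 8192 : ℝ) ^ (8192 * k) ≤ (1 / 2) ^ k := by
  rw [pow_mul]
  apply pow_le_pow_left₀ (by positivity)
  have h1 : (1 - 1 / 8192 : ℝ) ≤ Real.exp (-(1 / 8192)) := by
    have := Real.add_one_le_exp (-(1 / 8192 : ℝ))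
    linarith
  calc (1 - 1 / 8192 : ℝ) ^ 8192 ≤ (Real.exp (-(1 / 8192))) ^ 8192 :=
        pow_le_pow_left₀ (by norm_num) h1 _
    _ = Real.exp (-1) := by
        rw [← Real.exp_nat_mul]
        norm_num
    _ ≤ 1 / 2 := by
        rw [Real.exp_neg, inv_eq_one_div]
        apply one_div_le_one_div_of_le (by norm_num)
        have := Real.add_one_le_exp (1 : ℝ)
        linarith

lemma geom_bound (x : ℝ) (hx0 : 0 ≤ x) (hx : x ≤ 1 / 2) (m : ℕ) :
    ∑ k ∈ Icc 1 (m - 1), x ^ k ≤ 2 * x := by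
  have key : ∀ N : ℕ, ∑ k ∈ Icc 1 N, x ^ k ≤ 2 * x - 2 * x ^ (N + 1) := by
    intro N
    induction N with
    | zero => simp
    | succ N ih =>
      rw [Finset.sum_Icc_succ_top (by omega)]
      have h1 : x ^ (N + 1 + 1) ≤ x ^ (N + 1) * (1 / 2) := by
        rw [pow_succ]
        exact mul_le_mul_of_nonneg_left hx (by positivity)
      linarith
  have := key (m - 1)
  have h2 : 0 ≤ x ^ (m - 1 + 1) := by positivity
  linarith

/-- the spectral estimate: `m! ⟪u, 𝒦^R u⟫` is tiny for `R ≥ 8192 (4 D + 3)` -/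
lemma spectral_final {m D : ℕ} (hm : 4 * m = 2 ^ D) (hm0 : 0 < m) (hD : 6 ≤ D)
    (j : Fin m → Cube D) (hj : Function.Injective j) (pairs : List (Cube D × Cube D))
    (hnd : (flat pairs).Nodup) (hlen : 64 * pairs.length = 2 ^ D)
    (x y : Perm (Fin m)) (R : ℕ) (hR : R = 8192 * (4 * D + 3)) :
    Real.sqrt (Nat.factorial m) * Real.sqrt ⟪(EuclideanSpace.single x (1 : ℝ) -
      EuclideanSpace.single y (1 : ℝ) : EuclideanSpace ℝ (Perm (Fin m))),
      (KK (regRep (Fin m)) j pairs ^ R) (EuclideanSpace.single x (1 : ℝ) -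
      EuclideanSpace.single y (1 : ℝ) : EuclideanSpace ℝ (Perm (Fin m)))⟫ ≤
      1 / (4 * 2 ^ D) := by
  set u : EuclideanSpace ℝ (Perm (Fin m)) := EuclideanSpace.single x (1 : ℝ) -
      EuclideanSpace.single y (1 : ℝ) with hu
  set θ : ℝ := 1 - 1 / 8192 with hθ
  have hcX : Fintype.card (Cube D) = 2 ^ D := by simp [ZMod.card]
  have hθ0 : 0 ≤ θ := by rw [hθ]; norm_num
  have hfact : (0 : ℝ) < (Nat.factorial m : ℝ) := by exact_mod_cast Nat.factorial_pos m
  -- mean zero
  have hu0 : Qop (regRep (Fin m)) univ u = 0 := by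
    have h1 : ∀ z : Perm (Fin m), Qop (regRep (Fin m)) univ (EuclideanSpace.single z (1 : ℝ)) =
        Qop (regRep (Fin m)) univ (EuclideanSpace.single 1 (1 : ℝ)) := by
      intro z
      have h2 : EuclideanSpace.single z (1 : ℝ) =
          regRep (Fin m) z (EuclideanSpace.single 1 (1 : ℝ)) := by
        ext κ
        simp only [regRep, MonoidHom.coe_mk, OneHom.coe_mk, LinearMap.coe_mk, AddHom.coe_mk,
          PiLp.single_apply]
        have : κ = z ↔ z⁻¹ * κ = 1 := by
          constructor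
          · rintro rfl; simp
          · intro h; exact (inv_mul_eq_one.mp h).symm
        simp only [this]
      rw [h2]
      exact Qop_rho (by simp [symF]) _
    rw [hu, map_sub, h1 x, h1 y, sub_self]
  have hspec := spectral_sum (ρ := regRep (Fin m)) norm_regRep (KK (regRep (Fin m)) j pairs)
    (KK_symm norm_regRep hj pairs hnd) (fun g v => KK_rho hj pairs hnd g v) θ hθ0 m
    (Fintype.card_fin m) hm0
    (by
      intro q _ _ F hF hZ μ hμ
      have := eig_bound norm_regRep hj (by rw [hcX, Fintype.card_fin]; exact hm.symm) pairs hnd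
        (by rw [hcX]; exact hlen) q F hF hZ μ hμ
      rwa [Fintype.card_fin] at this)
    u hu0 (fun k => 4 * ((m : ℝ) ^ 2) ^ k / (Nat.factorial m : ℝ))
    (by
      intro q hq1 hq w hw hw2
      exact dim_bound m q (Fintype.card_fin m) hq1 hq.le x y w hw hw2) R
  set I := ⟪u, (KK (regRep (Fin m)) j pairs ^ R) u⟫ with hI
  -- `m! I ≤ 8 m² θ^R`
  have hm2 : ((m : ℝ)) ^ 2 * 16 = 2 ^ (2 * D) := by
    have : ((4 * m : ℕ) : ℝ) = 2 ^ D := by exact_mod_cast hm
    rw [pow_mul', ← this]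
    push_cast
    ring
  have hθR : θ ^ R ≤ (1 / 2) ^ (4 * D + 3) := by
    rw [hR]
    exact theta_pow_le _
  have hxs : (m : ℝ) ^ 2 * θ ^ R ≤ (1 / 2) ^ (2 * D + 7) := by
    have h1 : (m : ℝ) ^ 2 = 2 ^ (2 * D) / 16 := by linarith
    rw [h1]
    have h2 : (2 : ℝ) ^ (2 * D) / 16 * θ ^ R ≤ 2 ^ (2 * D) / 16 * (1 / 2) ^ (4 * D + 3) :=
      mul_le_mul_of_nonneg_left hθR (by positivity)
    refine h2.trans (le_of_eq ?_)
    have h3 : (1 / 2 : ℝ) ^ (4 * D + 3) = (1 / 2) ^ (2 * D) * (1 / 2) ^ (2 * D + 3) := by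
      rw [← pow_add]; congr 1; ring
    have h4 : (2 : ℝ) ^ (2 * D) * (1 / 2) ^ (2 * D) = 1 := by
      rw [← mul_pow]; norm_num
    have h5 : (1 / 2 : ℝ) ^ (2 * D + 7) = (1 / 2) ^ (2 * D + 3) * (1 / 16) := by
      rw [show 2 * D + 7 = (2 * D + 3) + 4 by ring, pow_add]; norm_num
    rw [h3, h5]
    calc (2 : ℝ) ^ (2 * D) / 16 * ((1 / 2) ^ (2 * D) * (1 / 2) ^ (2 * D + 3))
        = (2 ^ (2 * D) * (1 / 2) ^ (2 * D)) * ((1 / 2) ^ (2 * D + 3) * (1 / 16)) := by ring
      _ = _ := by rw [h4, one_mul]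
  set x0 := (m : ℝ) ^ 2 * θ ^ R with hx0
  have hx0nn : 0 ≤ x0 := by positivity
  have hx0half : x0 ≤ 1 / 2 := by
    refine hxs.trans ?_
    have : (1 / 2 : ℝ) ^ (2 * D + 7) ≤ (1 / 2) ^ 1 :=
      pow_le_pow_of_le_one (by norm_num) (by norm_num) (by omega)
    simpa using this
  have hsum : (Nat.factorial m : ℝ) * I ≤ 8 * x0 := by
    have h1 : (Nat.factorial m : ℝ) * I ≤ (Nat.factorial m : ℝ) *
        ∑ k ∈ Icc 1 (m - 1), (θ ^ k) ^ R * (4 * ((m : ℝ) ^ 2) ^ k / (Nat.factorial m : ℝ)) :=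
      mul_le_mul_of_nonneg_left hspec hfact.le
    refine h1.trans ?_
    have h2 : (Nat.factorial m : ℝ) *
        ∑ k ∈ Icc 1 (m - 1), (θ ^ k) ^ R * (4 * ((m : ℝ) ^ 2) ^ k / (Nat.factorial m : ℝ)) =
        4 * ∑ k ∈ Icc 1 (m - 1), x0 ^ k := by
      rw [Finset.mul_sum, Finset.mul_sum]
      apply Finset.sum_congr rfl
      intro k _
      rw [hx0, mul_pow, ← pow_mul, ← pow_mul, mul_comm k R, pow_mul, pow_mul]
      field_simp
    rw [h2]
    have := geom_bound x0 hx0nn hx0half m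
    linarith
  rw [← Real.sqrt_mul hfact.le]
  apply Real.sqrt_le_iff.mpr
  refine ⟨by positivity, ?_⟩
  refine hsum.trans ?_
  have h6 : 8 * x0 ≤ 8 * (1 / 2) ^ (2 * D + 7) := by linarith
  refine h6.trans (le_of_eq ?_)
  have h7 : (1 / 2 : ℝ) ^ (2 * D + 7) = ((1 / 2) ^ D) ^ 2 * (1 / 128) := by
    rw [pow_add, ← pow_mul, mul_comm D 2]; norm_num
  rw [h7]
  have h8 : (1 / (4 * 2 ^ D) : ℝ) = (1 / 4) * (1 / 2) ^ D := by
    rw [one_div_pow]
    field_simp
  rw [h8]
  ring

/-- the numeric estimate for the error of Theorem A -/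
lemma delta_final {m D : ℕ} (hm : 4 * m = 2 ^ D) (hD : 6 ≤ D) (R : ℕ)
    (hR : R = 8192 * (4 * D + 3)) :
    (R : ℝ) * ((m : ℝ) * (Real.sqrt (2 ^ D) * Real.sqrt ((3 / 4) ^ (41 * D + 1 - D)))) * 2 ≤
      1 / (4 * 2 ^ D) := by
  have h1 : Real.sqrt (2 ^ D) ≤ 2 ^ D := by
    apply Real.sqrt_le_iff.mpr
    refine ⟨by positivity, ?_⟩
    have : (1 : ℝ) ≤ 2 ^ D := one_le_pow₀ (by norm_num)
    nlinarith
  have h2 : Real.sqrt ((3 / 4) ^ (41 * D + 1 - D)) ≤ (1 / 2) ^ (8 * D) := by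
    apply Real.sqrt_le_iff.mpr
    refine ⟨by positivity, ?_⟩
    have e1 : 41 * D + 1 - D = 40 * D + 1 := by omega
    rw [e1]
    have e2 : ((3 / 4 : ℝ)) ^ (40 * D + 1) ≤ (3 / 4) ^ (40 * D) :=
      pow_le_pow_of_le_one (by norm_num) (by norm_num) (by omega)
    refine e2.trans ?_
    have e3 : ((3 / 4 : ℝ)) ^ (40 * D) = ((3 / 4) ^ 40) ^ D := by rw [pow_mul]
    have e4 : (((1 / 2 : ℝ)) ^ (8 * D)) ^ 2 = ((1 / 2) ^ 16) ^ D := by
      rw [← pow_mul, ← pow_mul]; congr 1; ring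
    rw [e3, e4]
    apply pow_le_pow_left₀ (by positivity)
    norm_num
  have h3 : (m : ℝ) = 2 ^ D / 4 := by
    have : ((4 * m : ℕ) : ℝ) = 2 ^ D := by exact_mod_cast hm
    push_cast at this
    linarith
  have h4 : (R : ℝ) ≤ 8192 * 2 ^ D := by
    have e1 : 4 * D + 3 ≤ 2 ^ D := by
      clear hm h1 h2 h3 hR
      induction D, hD using Nat.le_induction with
      | base => norm_num
      | succ k hk ih => rw [pow_succ]; omega
    have e2 : R ≤ 8192 * 2 ^ D := by rw [hR]; exact Nat.mul_le_mul_left _ e1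
    exact_mod_cast e2
  have hstep : (R : ℝ) * ((m : ℝ) * (Real.sqrt (2 ^ D) * Real.sqrt ((3 / 4) ^ (41 * D + 1 - D))))
      * 2 ≤ (8192 * 2 ^ D) * ((2 ^ D / 4) * (2 ^ D * (1 / 2) ^ (8 * D))) * 2 := by
    rw [h3]
    gcongr
  refine hstep.trans ?_
  have h5 : (1 / 2 : ℝ) ^ (8 * D) = 1 / ((2 ^ D) ^ 8) := by
    rw [one_div_pow, ← pow_mul]; congr 2; ring
  rw [h5]
  set N : ℝ := 2 ^ D with hN
  have hN64 : (64 : ℝ) ≤ N := by
    have : (2 : ℝ) ^ 6 ≤ 2 ^ D := pow_le_pow_right₀ (by norm_num) hD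
    norm_num at this
    exact this
  have hN0 : 0 < N := by linarith
  have h6 : (8192 * N) * ((N / 4) * (N * (1 / N ^ 8))) * 2 = 4096 / N ^ 5 := by
    field_simp
    ring
  rw [h6, div_le_div_iff₀ (by positivity) (by positivity)]
  have h7 : (16384 : ℝ) ≤ N ^ 4 := by
    have : (64 : ℝ) ^ 4 ≤ N ^ 4 := pow_le_pow_left₀ (by norm_num) hN64 4
    norm_num at this
    linarith
  nlinarith

/-- near invariance under transpositions of two cards -/
lemma near_inv_block {m D : ℕ} [NeZero D] (hm : 4 * m = 2 ^ D) (hD : 6 ≤ D) (R : ℕ)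
    (hR : R = 8192 * (4 * D + 3)) (a b : Cube D) (hab : a ≠ b)
    (φ : Perm (Cube D) → ℝ) (hφ : ∀ σ, |φ σ| ≤ 1) :
    |Kl (dirs D ((R + 1) * (41 * D))) (fun σ => φ σ - φ (σ * swap a b)) 1| ≤
      1 / (2 * 2 ^ D) := by
  have h64 : 2 ^ 6 ∣ 2 ^ D := pow_dvd_pow 2 hD
  obtain ⟨L, hL⟩ := h64
  have hL' : 64 * L = 2 ^ D := by rw [hL]; norm_num
  have hcX : Fintype.card (Cube D) = 2 ^ D := by simp [ZMod.card]
  obtain ⟨l', hl'⟩ := dirs_cons (d := D) (41 * D - 1)
  have h41 : 41 * D - 1 + 1 = 41 * D := by omega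
  rw [h41] at hl'
  obtain ⟨pairs, hplen, hnd, hp⟩ := exists_pairs (D := D) 0 L (by omega)
  have hL0 : 0 < L := by
    rcases Nat.eq_zero_or_pos L with h | h
    · rw [h] at hL'
      have : 0 < 2 ^ D := by positivity
      omega
    · exact h
  obtain ⟨j, α, β, hαβ, hja, hjb⟩ := exists_slots m (by omega) (by rw [hcX]; omega) a b hab
  set u : EuclideanSpace ℝ (Perm (Fin m)) := EuclideanSpace.single 1 (1 : ℝ) -
      EuclideanSpace.single (swap α β) (1 : ℝ) with hu
  have hcv : (fun σ => φ σ - φ (σ * swap a b)) = cv j φ u := by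
    funext σ
    rw [hu, cv_single, hja, hjb]
  set δ : ℝ := (m : ℝ) * (Real.sqrt (2 ^ D) * Real.sqrt ((3 / 4) ^ (41 * D + 1 - D))) with hδ
  have hδ0 : 0 ≤ δ := by positivity
  have hA : ∀ f : (Fin m → Cube D) → ℝ, (∀ e, |f e| ≤ 1) → ∀ e : Fin m → Cube D,
      Function.Injective e →
      |Kl ((0 : Fin D) :: l') f e - avgP (fun g : Perm (Cube D) => f (g ∘ j))| ≤ δ := by
    intro f hf e he
    rw [← hl']
    exact thmA (41 * D) (by omega) m hm.le f hf j e j.injective he
  rw [hcv, dirs_iterate, hl']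
  have h1 := iter1 (0 : Fin D) l' pairs hp j R φ hφ u 1
  have h2 := iter2 ((0 : Fin D) :: l') pairs hnd j j.injective δ hδ0 hA R u
    ((1 : Perm (Cube D)) ∘ j) j.injective
  have h3 := iter3 pairs hnd j j.injective R u
  have h4 := spectral_final hm (by omega) hD j j.injective pairs hnd (by rw [hplen]; exact hL')
    1 (swap α β) R hR
  have h5 := delta_final hm hD R hR
  have h6 : ∑ κ, |u κ| = 2 := by
    have hne : (1 : Perm (Fin m)) ≠ swap α β := by
      intro h
      apply hαβ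
      have := congrArg (fun g : Perm (Fin m) => g α) h
      simpa using this
    have e1 : ∀ κ : Perm (Fin m), |u κ| =
        (if κ = 1 then 1 else 0) + (if κ = swap α β then 1 else 0) := by
      intro κ
      rw [hu]
      simp only [PiLp.sub_apply, PiLp.single_apply]
      by_cases h1 : κ = 1
      · have h2 : κ ≠ swap α β := by rw [h1]; exact hne
        simp [h1, hne]
      · by_cases h2 : κ = swap α β
        · simp [h2, hne.symm]
        · simp [h1, h2]
    simp only [e1, Finset.sum_add_distrib, Finset.sum_ite_eq', Finset.mem_univ, if_true]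
    norm_num
  rw [h6] at h2
  have h7 : (1 : ℝ) / (2 * 2 ^ D) = 1 / (4 * 2 ^ D) + 1 / (4 * 2 ^ D) := by
    have : (2 : ℝ) ^ D ≠ 0 := by positivity
    field_simp
    norm_num
  rw [h7]
  linarith

lemma sum_layerLaw {D : ℕ} [NeZero D] (t : ℕ) (ψ : Perm (Cube D) → ℝ) :
    ∑ σ, layerLaw D t σ * ψ σ = Kl (dirs D t) ψ 1 := by
  have h1 : ψ = fun τ => ∑ σ, ψ σ * (if τ = σ then (1 : ℝ) else 0) := by
    funext τ
    simp
  conv_rhs => rw [h1]
  rw [Kl_sum]
  apply Finset.sum_congr rfl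
  intro σ _
  rw [Kl_const_mul, layerLaw, mul_comm]

theorem tv_bound (d : ℕ) (hd : 5 ≤ d) :
    tvDist (2 ^ d) ((8192 * (4 * (d + 1) + 3) + 1) * (41 * (d + 1))) ≤ 1 / 4 := by
  set R := 8192 * (4 * (d + 1) + 3) with hR
  set t := (R + 1) * (41 * (d + 1)) with ht
  have hm : 4 * 2 ^ (d - 1) = 2 ^ (d + 1) := by
    obtain ⟨k, rfl⟩ : ∃ k, d = k + 1 := ⟨d - 1, by omega⟩
    rw [Nat.add_sub_cancel]
    ring
  have hcX : Fintype.card (Cube (d + 1)) = 2 ^ (d + 1) := by simp [ZMod.card]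
  have h1 : ∑ σ, |layerLaw (d + 1) t σ - 1 / (Fintype.card (Perm (Cube (d + 1))) : ℝ)| ≤
      Fintype.card (Cube (d + 1)) * (1 / (2 * 2 ^ (d + 1))) := by
    apply near_inv
    · have := sum_layerLaw (D := d + 1) t (fun _ => 1)
      rw [Kl_const] at this
      simpa using this
    · positivity
    · intro a b hab φ hφ
      rw [sum_layerLaw]
      exact near_inv_block hm (by omega) R hR a b hab φ hφ
  rw [tv_eq]
  rw [hcX] at h1
  have h2 : (((2 ^ (d + 1) : ℕ)) : ℝ) * (1 / (2 * 2 ^ (d + 1))) = 1 / 2 := by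
    push_cast
    have : (2 : ℝ) ^ (d + 1) ≠ 0 := by positivity
    field_simp
  rw [h2] at h1
  linarith

/-- the mixing time of the Thorp shuffle of `2 ^ (d + 1)` cards is `O(d ^ 2)` -/
theorem tmix_bound (d : ℕ) (hd : 5 ≤ d) :
    tvDist (2 ^ d) (tmix (2 ^ d)) ≤ 1 / 4 ∧ (tmix (2 ^ d) : ℝ) ≤ 1679360 * ((d : ℝ) + 1) ^ 2 := by
  have h1 := tv_bound d hd
  have hne : {t | tvDist (2 ^ d) t ≤ 1 / 4}.Nonempty := ⟨_, h1⟩
  refine ⟨Nat.sInf_mem hne, ?_⟩
  have h2 : tmix (2 ^ d) ≤ (8192 * (4 * (d + 1) + 3) + 1) * (41 * (d + 1)) := Nat.sInf_le h1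
  have h3 : (8192 * (4 * (d + 1) + 3) + 1) * (41 * (d + 1)) ≤ 1679360 * (d + 1) ^ 2 := by
    have e1 : 8192 * (4 * (d + 1) + 3) + 1 ≤ 40960 * (d + 1) := by omega
    calc (8192 * (4 * (d + 1) + 3) + 1) * (41 * (d + 1)) ≤ (40960 * (d + 1)) * (41 * (d + 1)) :=
          Nat.mul_le_mul_right _ e1
      _ = 1679360 * (d + 1) ^ 2 := by ring
  exact_mod_cast h2.trans h3

end

end Vale.Agent.P162
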