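import Vale.Agent.P162.Basic
import Vale.Agent.P162.SymEig

/-! # (H1): the Laplacian of all transpositions of `W` on vectors of level `q ≤ |W|/2` -/

namespace Vale.Agent.P162

open Finset Equiv
open scoped RealInnerProductSpace

noncomputable section

variable {A : Type*} [Fintype A] [DecidableEq A]
variable {H : Type*} [NormedAddCommGroup H] [InnerProductSpace ℝ H]
variable {ρ : Perm A →* (H →ₗ[ℝ] H)}

private lemma mem_image_of_symF {W : Finset A} {g : Perm A} (hg : g ∈ symF W) {x : A}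
    (hx : x ∈ W) : g x ∈ W := by
  by_contra h
  have h1 := (mem_symF.mp hg) _ h
  have h2 := g.injective h1
  rw [h2] at h
  exact h hx

private lemma rho_mem_levW {W : Finset A} {q : ℕ} {F : H} {g : Perm A} (hg : g ∈ symF W)
    (hF : F ∈ lev ρ W q) : ρ g F ∈ lev ρ W q := by
  intro Z hZ hc
  have h1 := rho_Qop_image (ρ := ρ) g (Z.image (g⁻¹ : Perm A)) F
  have h2 : (Z.image (g⁻¹ : Perm A)).image g = Z := by
    rw [Finset.image_image]
    have : (⇑g ∘ ⇑(g⁻¹ : Perm A)) = id := by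
      funext x
      exact Equiv.apply_symm_apply g x
    rw [this, Finset.image_id]
  rw [h2] at h1
  rw [← h1, hF (Z.image (g⁻¹ : Perm A)), map_zero]
  · intro x hx
    rw [Finset.mem_image] at hx
    obtain ⟨y, hy, rfl⟩ := hx
    exact mem_image_of_symF (inv_mem_symF hg) (hZ hy)
  · rw [Finset.card_image_of_injective _ (g⁻¹ : Perm A).injective, hc]

/-- the Laplacian -/
private def TL (ρ : Perm A →* (H →ₗ[ℝ] H)) (W : Finset A) : H →ₗ[ℝ] H :=
  ∑ p ∈ W.offDiag, (LinearMap.id - ρ (swap p.1 p.2))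

private lemma TL_apply (W : Finset A) (F : H) :
    TL ρ W F = ∑ p ∈ W.offDiag, (F - ρ (swap p.1 p.2) F) := by
  simp [TL]

private lemma inner_TL (W : Finset A) (F : H) :
    ⟪F, TL ρ W F⟫ = ∑ p ∈ W.offDiag, (‖F‖ ^ 2 - ⟪F, ρ (swap p.1 p.2) F⟫) := by
  rw [TL_apply, inner_sum]
  apply Finset.sum_congr rfl
  intro p _
  rw [inner_sub_right, real_inner_self_eq_norm_sq]

private lemma TL_symm (hρ : ∀ g v, ‖ρ g v‖ = ‖v‖) (W : Finset A) : (TL ρ W).IsSymmetric := by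
  intro v w
  rw [TL_apply, TL_apply, sum_inner, inner_sum]
  apply Finset.sum_congr rfl
  intro p _
  rw [inner_sub_left, inner_sub_right, inner_rho_left hρ, swap_inv]

private lemma offDiag_image {W : Finset A} {g : Perm A} (hg : g ∈ symF W) (f : A × A → H) :
    ∑ p ∈ W.offDiag, f (g p.1, g p.2) = ∑ p ∈ W.offDiag, f p := by
  refine Finset.sum_bij' (fun p _ => (g p.1, g p.2)) (fun p _ => (g⁻¹ p.1, g⁻¹ p.2))
    ?_ ?_ ?_ ?_ ?_
  · intro p hp
    rw [Finset.mem_offDiag] at hp ⊢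
    exact ⟨mem_image_of_symF hg hp.1, mem_image_of_symF hg hp.2.1,
      fun h => hp.2.2 (g.injective h)⟩
  · intro p hp
    rw [Finset.mem_offDiag] at hp ⊢
    exact ⟨mem_image_of_symF (inv_mem_symF hg) hp.1, mem_image_of_symF (inv_mem_symF hg) hp.2.1,
      fun h => hp.2.2 ((g⁻¹ : Perm A).injective h)⟩
  · intro p _
    simp
  · intro p _
    simp
  · intro p _
    rfl

private lemma TL_rho {W : Finset A} {g : Perm A} (hg : g ∈ symF W) (F : H) :
    TL ρ W (ρ g F) = ρ g (TL ρ W F) := by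
  rw [TL_apply, TL_apply, map_sum,
    ← offDiag_image hg (fun p => ρ g F - ρ (swap p.1 p.2) (ρ g F))]
  apply Finset.sum_congr rfl
  intro p _
  rw [map_sub, ← rho_mul_apply, ← rho_mul_apply, Equiv.mul_swap_eq_swap_mul]

private lemma TL_Qop {W Z : Finset A} (hZ : Z ⊆ W) (F : H) :
    TL ρ W (Qop ρ Z F) = Qop ρ Z (TL ρ W F) := by
  rw [Qop_apply, Qop_apply, map_smul, map_sum]
  congr 1
  apply Finset.sum_congr rfl
  intro g hg
  exact TL_rho (symF_mono hZ hg) F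

private lemma TL_mem {W : Finset A} {q : ℕ} {F : H} (hF : F ∈ lev ρ W q) :
    TL ρ W F ∈ lev ρ W q := by
  rw [TL_apply]
  apply Submodule.sum_mem
  intro p hp
  rw [Finset.mem_offDiag] at hp
  exact Submodule.sub_mem _ hF (rho_mem_levW (swap_mem_symF hp.1 hp.2.1) hF)

private lemma term_nonneg (hρ : ∀ g v, ‖ρ g v‖ = ‖v‖) (g : Perm A) (v : H) :
    0 ≤ ‖v‖ ^ 2 - ⟪v, ρ g v⟫ := by
  have h := real_inner_le_norm v (ρ g v)
  rw [hρ] at h
  nlinarith

/-- cross pairs -/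
private lemma cross_bound (hρ : ∀ g v, ‖ρ g v‖ = ‖v‖) {W Z : Finset A} (hZ : Z ⊆ W) (v : H)
    (hv : ∀ x ∈ W, x ∉ Z → ∑ z ∈ Z, ρ (swap x z) v = -v) :
    2 * (((W \ Z).card : ℝ) * ((Z.card : ℝ) + 1)) * ‖v‖ ^ 2 ≤ ⟪v, TL ρ W v⟫ := by
  rw [inner_TL]
  set f : A × A → ℝ := fun p => ‖v‖ ^ 2 - ⟪v, ρ (swap p.1 p.2) v⟫ with hf
  have h1 : ∑ p ∈ (W \ Z) ×ˢ Z, f p = ((W \ Z).card : ℝ) * ((Z.card : ℝ) + 1) * ‖v‖ ^ 2 := by
    rw [Finset.sum_product]
    have h2 : ∀ x ∈ W \ Z, ∑ z ∈ Z, f (x, z) = ((Z.card : ℝ) + 1) * ‖v‖ ^ 2 := by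
      intro x hx
      rw [Finset.mem_sdiff] at hx
      simp only [hf]
      rw [Finset.sum_sub_distrib, Finset.sum_const, nsmul_eq_mul, ← inner_sum, hv x hx.1 hx.2,
        inner_neg_right, real_inner_self_eq_norm_sq]
      ring
    rw [Finset.sum_congr rfl h2, Finset.sum_const, nsmul_eq_mul]
    ring
  have h3 : ∑ p ∈ Z ×ˢ (W \ Z), f p = ∑ p ∈ (W \ Z) ×ˢ Z, f p := by
    refine Finset.sum_bij' (fun p _ => (p.2, p.1)) (fun p _ => (p.2, p.1)) ?_ ?_ ?_ ?_ ?_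
    · intro p hp
      rw [Finset.mem_product] at hp ⊢
      exact ⟨hp.2, hp.1⟩
    · intro p hp
      rw [Finset.mem_product] at hp ⊢
      exact ⟨hp.2, hp.1⟩
    · intro p _; rfl
    · intro p _; rfl
    · intro p _
      simp only [hf]
      rw [swap_comm]
  have hdisj : Disjoint ((W \ Z) ×ˢ Z) (Z ×ˢ (W \ Z)) := by
    rw [Finset.disjoint_left]
    intro p hp hp'
    rw [Finset.mem_product, Finset.mem_sdiff] at hp hp'
    exact hp.1.2 hp'.1
  have hsub : ((W \ Z) ×ˢ Z) ∪ (Z ×ˢ (W \ Z)) ⊆ W.offDiag := by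
    intro p hp
    rw [Finset.mem_union, Finset.mem_product, Finset.mem_product, Finset.mem_sdiff,
      Finset.mem_sdiff] at hp
    rw [Finset.mem_offDiag]
    rcases hp with hp | hp
    · refine ⟨hp.1.1, hZ hp.2, ?_⟩
      intro h
      rw [h] at hp
      exact hp.1.2 hp.2
    · refine ⟨hZ hp.1, hp.2.1, ?_⟩
      intro h
      rw [h] at hp
      exact hp.2.2 hp.1
  have h4 : ∑ p ∈ ((W \ Z) ×ˢ Z) ∪ (Z ×ˢ (W \ Z)), f p ≤ ∑ p ∈ W.offDiag, f p :=
    Finset.sum_le_sum_of_subset_of_nonneg hsub (fun p _ _ => term_nonneg hρ _ v)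
  rw [Finset.sum_union hdisj, h3, h1] at h4
  calc 2 * (((W \ Z).card : ℝ) * ((Z.card : ℝ) + 1)) * ‖v‖ ^ 2
      = ((W \ Z).card : ℝ) * ((Z.card : ℝ) + 1) * ‖v‖ ^ 2
        + ((W \ Z).card : ℝ) * ((Z.card : ℝ) + 1) * ‖v‖ ^ 2 := by ring
    _ ≤ _ := h4

/-- double counting -/
private lemma sum_erase (W : Finset A) (f : A × A → ℝ) :
    ∑ x ∈ W, ∑ p ∈ (W.erase x).offDiag, f p = ((W.card : ℝ) - 2) * ∑ p ∈ W.offDiag, f p := by
  have h1 : ∀ x ∈ W, ∑ p ∈ (W.erase x).offDiag, f p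
      = ∑ p ∈ W.offDiag, if x ≠ p.1 ∧ x ≠ p.2 then f p else 0 := by
    intro x _
    rw [← Finset.sum_filter]
    apply Finset.sum_congr _ (fun _ _ => rfl)
    ext p
    rw [Finset.mem_offDiag, Finset.mem_filter, Finset.mem_offDiag, Finset.mem_erase,
      Finset.mem_erase]
    constructor
    · rintro ⟨⟨h1, h2⟩, ⟨h3, h4⟩, h5⟩
      exact ⟨⟨h2, h4, h5⟩, Ne.symm h1, Ne.symm h3⟩
    · rintro ⟨⟨h2, h4, h5⟩, h1, h3⟩
      exact ⟨⟨Ne.symm h1, h2⟩, ⟨Ne.symm h3, h4⟩, h5⟩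
  rw [Finset.sum_congr rfl h1, Finset.sum_comm, Finset.mul_sum]
  apply Finset.sum_congr rfl
  intro p hp
  rw [Finset.mem_offDiag] at hp
  rw [← Finset.sum_filter, Finset.sum_const, nsmul_eq_mul]
  congr 1
  have h2 : W.filter (fun x => x ≠ p.1 ∧ x ≠ p.2) = (W.erase p.1).erase p.2 := by
    ext x
    rw [Finset.mem_filter, Finset.mem_erase, Finset.mem_erase]
    tauto
  have h3 : p.2 ∈ W.erase p.1 := Finset.mem_erase.mpr ⟨Ne.symm hp.2.2, hp.2.1⟩
  rw [h2, Finset.card_erase_of_mem h3, Finset.card_erase_of_mem hp.1]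
  have h4 : 2 ≤ W.card := by
    have := Finset.one_lt_card.mpr ⟨p.1, hp.1, p.2, hp.2.1, hp.2.2⟩
    omega
  have h5 : W.card - 1 - 1 = W.card - 2 := by omega
  rw [h5, Nat.cast_sub h4]
  norm_num

private lemma caseA (n : ℕ)
    (ih : ∀ (W : Finset A) (q : ℕ) (F : H), W.card = n → 2 * q ≤ W.card → F ∈ lev ρ W q →
      (W.card : ℝ) ^ 2 / 2 * ‖F‖ ^ 2 ≤ ⟪F, TL ρ W F⟫)
    (W : Finset A) (q : ℕ) (F : H) (hW : W.card = n + 1) (hq : 2 * q ≤ n)
    (hF : F ∈ lev ρ W q) :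
    (W.card : ℝ) ^ 2 / 2 * ‖F‖ ^ 2 ≤ ⟪F, TL ρ W F⟫ := by
  rcases Nat.eq_zero_or_pos q with hq0 | hq0
  · subst hq0
    have hne : W.Nonempty := by rw [← Finset.card_pos]; omega
    rw [lev_zero hne hF]
    simp
  · have h1 : ∀ x ∈ W, (n : ℝ) ^ 2 / 2 * ‖F‖ ^ 2
        ≤ ∑ p ∈ (W.erase x).offDiag, (‖F‖ ^ 2 - ⟪F, ρ (swap p.1 p.2) F⟫) := by
      intro x hx
      have hc : (W.erase x).card = n := by rw [Finset.card_erase_of_mem hx, hW]; rfl
      have h := ih (W.erase x) q F hc (by omega) (lev_anti (Finset.erase_subset x W) q hF)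
      rw [inner_TL, hc] at h
      exact h
    have h2 := Finset.sum_le_sum h1
    rw [Finset.sum_const, nsmul_eq_mul, sum_erase W
      (fun p => ‖F‖ ^ 2 - ⟪F, ρ (swap p.1 p.2) F⟫), ← inner_TL, hW] at h2
    rw [hW]
    push_cast at h2 ⊢
    have hn : (2 : ℝ) ≤ n := by exact_mod_cast (by omega : 2 ≤ n)
    have h3 : 0 ≤ ‖F‖ ^ 2 := sq_nonneg _
    have h4 : ((n : ℝ) + 1 - 2) * (((n : ℝ) + 1) ^ 2 / 2 * ‖F‖ ^ 2)
        ≤ ((n : ℝ) + 1 - 2) * ⟪F, TL ρ W F⟫ := by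
      refine le_trans ?_ h2
      have h5 : ((n : ℝ) + 1 - 2) * ((n : ℝ) + 1) ^ 2 / 2 ≤ ((n : ℝ) + 1) * (n ^ 2 / 2) := by
        nlinarith
      calc ((n : ℝ) + 1 - 2) * (((n : ℝ) + 1) ^ 2 / 2 * ‖F‖ ^ 2)
          = (((n : ℝ) + 1 - 2) * ((n : ℝ) + 1) ^ 2 / 2) * ‖F‖ ^ 2 := by ring
        _ ≤ (((n : ℝ) + 1) * (n ^ 2 / 2)) * ‖F‖ ^ 2 := mul_le_mul_of_nonneg_right h5 h3
        _ = ((n : ℝ) + 1) * ((n : ℝ) ^ 2 / 2 * ‖F‖ ^ 2) := by ring
    exact le_of_mul_le_mul_left h4 (by linarith)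

variable [FiniteDimensional ℝ H]

private lemma H1_aux (hρ : ∀ g v, ‖ρ g v‖ = ‖v‖) (n : ℕ) :
    ∀ (W : Finset A) (q : ℕ) (F : H), W.card = n → 2 * q ≤ W.card → F ∈ lev ρ W q →
      (W.card : ℝ) ^ 2 / 2 * ‖F‖ ^ 2 ≤ ⟪F, TL ρ W F⟫ := by
  induction n with
  | zero =>
    intro W q F hW _ _
    rw [Finset.card_eq_zero] at hW
    subst hW
    rw [inner_TL]
    simp
  | succ n ih =>
    intro W q F hW hq hF
    by_cases hA : 2 * q ≤ n
    · exact caseA n ih W q F hW hA hF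
    · have hqw : 2 * q = n + 1 := by omega
      refine inner_ge_of_eigen (TL ρ W) (TL_symm hρ W) (lev ρ W q) (fun v hv => TL_mem hv)
        ((W.card : ℝ) ^ 2 / 2) ?_ F hF
      intro G hG hG0 μ hμ
      by_cases hlow : G ∈ lev ρ W (q - 1)
      · have h1 := caseA n ih W (q - 1) G hW (by omega) hlow
        rw [hμ, real_inner_smul_right, real_inner_self_eq_norm_sq] at h1
        have h2 : 0 < ‖G‖ ^ 2 := by
          have := norm_pos_iff.mpr hG0
          positivity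
        exact le_of_mul_le_mul_right h1 h2
      · rw [mem_lev] at hlow
        push Not at hlow
        obtain ⟨Z, hZ, hZc, hZ0⟩ := hlow
        have hZc' : Z.card = q := by omega
        set v := Qop ρ Z G with hv
        have hTv : TL ρ W v = μ • v := by
          rw [hv, TL_Qop hZ, hμ, map_smul]
        have hstar : ∀ x ∈ W, x ∉ Z → ∑ z ∈ Z, ρ (swap x z) v = -v := by
          intro x hxW hx
          exact star hG hZ hZc' hxW hx
        have h1 := cross_bound hρ hZ v hstar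
        rw [hTv, real_inner_smul_right, real_inner_self_eq_norm_sq] at h1
        have h2 : 0 < ‖v‖ ^ 2 := by
          have := norm_pos_iff.mpr hZ0
          positivity
        have h3 : (2 * (((W \ Z).card : ℝ) * ((Z.card : ℝ) + 1))) ≤ μ :=
          le_of_mul_le_mul_right h1 h2
        refine le_trans ?_ h3
        have h4 : (W \ Z).card = q := by
          rw [Finset.card_sdiff_of_subset hZ, hW, hZc']
          omega
        rw [h4, hZc', hW, ← hqw]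
        push_cast
        have hq0 : (0 : ℝ) ≤ q := by positivity
        nlinarith

theorem H1 (hρ : ∀ g v, ‖ρ g v‖ = ‖v‖) (W : Finset A) (q : ℕ) (hq : 2 * q ≤ W.card)
    (F : H) (hF : F ∈ lev ρ W q) :
    (W.card : ℝ) ^ 2 / 2 * ‖F‖ ^ 2 ≤
      ∑ p ∈ W.offDiag, (‖F‖ ^ 2 - ⟪F, ρ (swap p.1 p.2) F⟫) := by
  rw [← inner_TL]
  exact H1_aux hρ _ W q F rfl hq hF

end

end Vale.Agent.P162
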