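import Vale.Agent.P162.KlBasic

/-! # The two recursions used in the iteration argument -/

namespace Vale.Agent.P162

open Finset Equiv

noncomputable section

/-- the recursion along the chain -/
def AjF {d m : ℕ} (l0 : List (Fin d)) (pairs : List (Cube d × Cube d)) :
    ℕ → (Fin m → Cube d) → EuclideanSpace ℝ (Perm (Fin m)) → ℝ
  | 0, _, u => ∑ κ, |u κ|
  | r + 1, e, u =>
    Kl l0 (fun e' => AjF l0 pairs r e' (Pl (regRep (Fin m)) (swl e' pairs) u)) e

/-- the recursion with a uniform permutation in each block -/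
def UF {d m : ℕ} (j : Fin m → Cube d) (pairs : List (Cube d × Cube d)) :
    ℕ → EuclideanSpace ℝ (Perm (Fin m)) → ℝ
  | 0, u => ∑ κ, |u κ|
  | r + 1, u => avgP fun g : Perm (Cube d) =>
      UF j pairs r (Pl (regRep (Fin m)) (swl (g ∘ j) pairs) u)

end

end Vale.Agent.P162
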