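import Vale.Agent.P162.ThorpDefs

/-! # Joint positions of a prescribed set of cards -/

namespace Vale.Agent.P162

open Finset Equiv

noncomputable section

/-- total variation distance, after `t` Thorp shuffles of `2 * h` cards, between the joint law
of the positions of the cards initially at the positions in `S` and the joint law of their
positions in a uniformly random deck -/
def setTV (h t : ℕ) (S : Finset (Fin (2 * h))) : ℝ :=
  (1 / 2) * ∑ x : S → Fin (2 * h),
    |∑ g ∈ univ.filter (fun g : Perm (Fin (2 * h)) => ∀ i : S, g i = x i),
      (convPow h t g - 1 / (Nat.factorial (2 * h) : ℝ))|

end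

end Vale.Agent.P162
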