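import Vale.Agent.P162.KlBasic

/-! # The averaging process: L² decay of the signed mass `q` of one card, given the
trajectories of the revealed cards `e` -/

namespace Vale.Agent.P162

open Finset Equiv

noncomputable section

variable {d : ℕ}

/-- the signed mass `q` after one step: averaged over the pair if both sites of the pair are
free of revealed cards, moved by `g` otherwise -/
def Astep {m : ℕ} (s : Fin d) (e : Fin m → Cube d) (g : Perm (Cube d)) (q : Cube d → ℝ) :
    Cube d → ℝ :=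
  fun y => if (∃ i, e i = y) ∨ (∃ i, e i = y + Pi.single s 1) then q (g⁻¹ y)
    else (q y + q (y + Pi.single s 1)) / 2

/-- one step of the process -/
def Mop {m : ℕ} (s : Fin d) (Ψ : (Fin m → Cube d) → (Cube d → ℝ) → ℝ) :
    (Fin m → Cube d) → (Cube d → ℝ) → ℝ :=
  fun e q => (∑ g ∈ GF s, Ψ (g ∘ e) (Astep s e g q)) / ((GF s).card : ℝ)

/-- a list of steps; the first element is the first step made -/
def Ml {m : ℕ} : List (Fin d) → ((Fin m → Cube d) → (Cube d → ℝ) → ℝ) →
    (Fin m → Cube d) → (Cube d → ℝ) → ℝ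
  | [], Ψ => Ψ
  | s :: l, Ψ => Mop s (Ml l Ψ)

section steps

variable {m : ℕ}

/-- the pair of `y` in direction `s` contains a revealed card -/
def Occ (s : Fin d) (e : Fin m → Cube d) (y : Cube d) : Prop :=
  (∃ i, e i = y) ∨ (∃ i, e i = y + Pi.single s 1)

instance (s : Fin d) (e : Fin m → Cube d) : DecidablePred (Occ s e) := fun y => by
  unfold Occ; infer_instance

lemma Astep_occ (s : Fin d) (e : Fin m → Cube d) (g : Perm (Cube d)) (q : Cube d → ℝ)
    {y : Cube d} (h : Occ s e y) : Astep s e g q y = q (g⁻¹ y) := if_pos h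

lemma Astep_free (s : Fin d) (e : Fin m → Cube d) (g : Perm (Cube d)) (q : Cube d → ℝ)
    {y : Cube d} (h : ¬ Occ s e y) :
    Astep s e g q y = (q y + q (y + Pi.single s 1)) / 2 := if_neg h

lemma Occ_flip (s : Fin d) (e : Fin m → Cube d) (y : Cube d) :
    Occ s e (y + Pi.single s 1) ↔ Occ s e y := by
  unfold Occ
  rw [single_add_single]
  exact or_comm

lemma Occ_GF {s : Fin d} {g : Perm (Cube d)} (hg : g ∈ GF s) (e : Fin m → Cube d) (y : Cube d) :
    Occ s e (g y) ↔ Occ s e y := by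
  rcases mem_GF.mp hg y with h | h
  · rw [h]
  · rw [h]; exact Occ_flip s e y

lemma Occ_self {s : Fin d} {g : Perm (Cube d)} (hg : g ∈ GF s) (e : Fin m → Cube d) (i : Fin m) :
    Occ s e (g (e i)) := (Occ_GF hg e (e i)).mpr (Or.inl ⟨i, rfl⟩)

/-- validity at the revealed cards is preserved -/
lemma Astep_zero {s : Fin d} {g : Perm (Cube d)} (hg : g ∈ GF s) (e : Fin m → Cube d)
    (q : Cube d → ℝ) (hq : ∀ i, q (e i) = 0) (i : Fin m) :
    Astep s e g q ((g ∘ e) i) = 0 := by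
  rw [Function.comp_apply, Astep_occ s e g q (Occ_self hg e i)]
  rw [show g⁻¹ (g (e i)) = e i from Equiv.symm_apply_apply g (e i)]
  exact hq i

lemma pair_sum {s : Fin d} {g : Perm (Cube d)} (hg : g ∈ GF s) (q : Cube d → ℝ) (y : Cube d) :
    q (g⁻¹ y) + q ((g * swap y (y + Pi.single s 1))⁻¹ y) = q y + q (y + Pi.single s 1) := by
  rw [mul_inv_rev, swap_inv, Perm.mul_apply]
  rcases mem_GF.mp (inv_mem_GF hg) y with h | h
  · rw [h, swap_apply_left]
  · rw [h, swap_apply_right, add_comm]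

lemma swap_comp {s : Fin d} {e : Fin m → Cube d} {y : Cube d} (h : ¬ Occ s e y)
    (g : Perm (Cube d)) : (⇑(g * swap y (y + Pi.single s 1)) ∘ e) = ⇑g ∘ e := by
  funext i
  rw [Function.comp_apply, Function.comp_apply, Perm.mul_apply]
  rw [swap_apply_of_ne_of_ne]
  · intro h1; exact h (Or.inl ⟨i, h1⟩)
  · intro h1; exact h (Or.inr ⟨i, h1⟩)

lemma one_step_linear (s : Fin d) (e : Fin m → Cube d) (q : Cube d → ℝ)
    (φ : (Fin m → Cube d) × Cube d → ℝ) (y : Cube d) :
    ∑ g ∈ GF s, Astep s e g q y * φ (g ∘ e, y) = ∑ g ∈ GF s, q (g⁻¹ y) * φ (g ∘ e, y) := by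
  by_cases h : Occ s e y
  · refine Finset.sum_congr rfl fun g _ => ?_
    rw [Astep_occ s e g q h]
  · have h1 : ∑ g ∈ GF s, q (g⁻¹ y) * φ (g ∘ e, y)
        = ∑ g ∈ GF s, q ((g * swap y (y + Pi.single s 1))⁻¹ y) * φ (g ∘ e, y) := by
      refine Finset.sum_bij' (fun g _ => g * swap y (y + Pi.single s 1))
        (fun g _ => g * swap y (y + Pi.single s 1)) ?_ ?_ ?_ ?_ ?_
      · intro g hg; exact mul_mem_GF hg (swap_mem_GF s y)
      · intro g hg; exact mul_mem_GF hg (swap_mem_GF s y)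
      · intro g _; simp [mul_assoc]
      · intro g _; simp [mul_assoc]
      · intro g _
        rw [swap_comp h, mul_assoc, swap_mul_self, mul_one]
    have h2 : ∑ g ∈ GF s, Astep s e g q y * φ (g ∘ e, y)
        = (∑ g ∈ GF s, q (g⁻¹ y) * φ (g ∘ e, y)
          + ∑ g ∈ GF s, q ((g * swap y (y + Pi.single s 1))⁻¹ y) * φ (g ∘ e, y)) / 2 := by
      rw [← Finset.sum_add_distrib, Finset.sum_div]
      refine Finset.sum_congr rfl fun g hg => ?_
      rw [Astep_free s e g q h, ← add_mul, pair_sum hg q y]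
      ring
    rw [h2, ← h1]
    ring

end steps

/-- linear functionals of `q`: the process reproduces the chain of the unrevealed card -/
theorem Ml_linear {m : ℕ} (l : List (Fin d)) (h : (Fin m → Cube d) × Cube d → ℝ)
    (e : Fin m → Cube d) (q : Cube d → ℝ) (hq : ∀ i, q (e i) = 0) :
    Ml l (fun e q => ∑ x, q x * h (e, x)) e q = ∑ x, q x * Kl l h (e, x) := by
  induction l generalizing e q with
  | nil => rfl
  | cons s l ih =>
    have h1 : Ml (s :: l) (fun e q => ∑ x, q x * h (e, x)) e q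
        = (∑ g ∈ GF s, ∑ x, Astep s e g q x * Kl l h (g ∘ e, x)) / ((GF s).card : ℝ) := by
      change (∑ g ∈ GF s, Ml l (fun e q => ∑ x, q x * h (e, x)) (⇑(g : Perm (Cube d)) ∘ e)
        (Astep s e g q))
        / ((GF s).card : ℝ) = _
      refine congrArg (· / ((GF s).card : ℝ)) (Finset.sum_congr rfl ?_)
      intro g hg
      exact ih (⇑g ∘ e) (Astep s e g q) (Astep_zero hg e q hq)
    rw [h1, Finset.sum_comm, Finset.sum_congr rfl fun x _ => one_step_linear s e q (Kl l h) x,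
      Finset.sum_comm]
    have h2 : ∀ g ∈ GF s, ∑ x, q (g⁻¹ x) * Kl l h (g ∘ e, x)
        = ∑ x, q x * Kl l h (g ∘ e, g x) := by
      intro g _
      rw [← Equiv.sum_comp g]
      refine Finset.sum_congr rfl fun x _ => ?_
      rw [show g⁻¹ (g x) = x from Equiv.symm_apply_apply g x]
    rw [Finset.sum_congr rfl h2, Finset.sum_comm, Finset.sum_div]
    refine Finset.sum_congr rfl fun x _ => ?_
    rw [Kl_cons, Kop_apply, ← Finset.mul_sum, mul_div_assoc]
    rfl

section decay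

variable {m : ℕ}

lemma sum_flipE (s : Fin d) (f : Cube d → ℝ) :
    ∑ y : Cube d, f (y + Pi.single s 1) = ∑ y : Cube d, f y :=
  Equiv.sum_comp (Equiv.addRight (Pi.single s 1 : Cube d)) f

lemma sum_Astep_gen {s : Fin d} {g : Perm (Cube d)} (hg : g ∈ GF s) (e : Fin m → Cube d)
    (q : Cube d → ℝ) (F : ℝ → ℝ) :
    ∑ y, F (Astep s e g q y)
      = ∑ y, (if Occ s e y then F (q y) else F ((q y + q (y + Pi.single s 1)) / 2)) := by
  have h1 : ∀ y, F (Astep s e g q y) = (if Occ s e y then F (q (g⁻¹ y)) else 0)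
      + (if Occ s e y then 0 else F ((q y + q (y + Pi.single s 1)) / 2)) := by
    intro y
    by_cases h : Occ s e y
    · rw [if_pos h, if_pos h, Astep_occ s e g q h, add_zero]
    · rw [if_neg h, if_neg h, Astep_free s e g q h, zero_add]
  rw [Finset.sum_congr rfl (fun y _ => h1 y), Finset.sum_add_distrib,
    ← Equiv.sum_comp g (fun y => if Occ s e y then F (q (g⁻¹ y)) else 0),
    ← Finset.sum_add_distrib]
  refine Finset.sum_congr rfl fun y _ => ?_
  rw [show g⁻¹ (g y) = y from Equiv.symm_apply_apply g y]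
  by_cases h : Occ s e y
  · rw [if_pos ((Occ_GF hg e y).mpr h), if_pos h, if_pos h, add_zero]
  · rw [if_neg (fun h' => h ((Occ_GF hg e y).mp h')), if_neg h, if_neg h, zero_add]

/-- sums over free sites are invariant under the flip -/
lemma sum_free_flip (s : Fin d) (e : Fin m → Cube d) (f : Cube d → ℝ) :
    ∑ y, (if Occ s e y then 0 else f (y + Pi.single s 1))
      = ∑ y, (if Occ s e y then 0 else f y) := by
  rw [← sum_flipE s (fun y => if Occ s e y then 0 else f y)]
  refine Finset.sum_congr rfl fun y _ => ?_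
  by_cases h : Occ s e y
  · rw [if_pos h, if_pos ((Occ_flip s e y).mpr h)]
  · rw [if_neg h, if_neg (fun h' => h ((Occ_flip s e y).mp h'))]

lemma sum_Astep {s : Fin d} {g : Perm (Cube d)} (hg : g ∈ GF s) (e : Fin m → Cube d)
    (q : Cube d → ℝ) : ∑ y, Astep s e g q y = ∑ y, q y := by
  rw [sum_Astep_gen hg e q (fun t => t)]
  have h1 : ∀ y, (if Occ s e y then q y else (q y + q (y + Pi.single s 1)) / 2)
      = q y + (1 / 2) * ((if Occ s e y then 0 else q (y + Pi.single s 1))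
        - (if Occ s e y then 0 else q y)) := by
    intro y
    by_cases h : Occ s e y
    · rw [if_pos h, if_pos h, if_pos h]; ring
    · rw [if_neg h, if_neg h, if_neg h]; ring
  rw [Finset.sum_congr rfl (fun y _ => h1 y), Finset.sum_add_distrib, ← Finset.mul_sum,
    Finset.sum_sub_distrib, sum_free_flip]
  ring

/-- the loss of the L² norm in one step -/
def Gam (s : Fin d) (e : Fin m → Cube d) (q : Cube d → ℝ) : ℝ :=
  ∑ y, if Occ s e y then 0 else (q y - q (y + Pi.single s 1)) ^ 2 / 4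

lemma Gam_nonneg (s : Fin d) (e : Fin m → Cube d) (q : Cube d → ℝ) : 0 ≤ Gam s e q := by
  refine Finset.sum_nonneg fun y _ => ?_
  by_cases h : Occ s e y
  · rw [if_pos h]
  · rw [if_neg h]; positivity

/-- the L² norm -/
def Nrm (_e : Fin m → Cube d) (q : Cube d → ℝ) : ℝ := ∑ x, q x ^ 2

lemma Nrm_Astep {s : Fin d} {g : Perm (Cube d)} (hg : g ∈ GF s) (e e' : Fin m → Cube d)
    (q : Cube d → ℝ) : Nrm e' (Astep s e g q) = Nrm e q - Gam s e q := by
  unfold Nrm Gam
  rw [sum_Astep_gen hg e q (fun t => t ^ 2)]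
  have h1 : ∀ y, (if Occ s e y then q y ^ 2 else ((q y + q (y + Pi.single s 1)) / 2) ^ 2)
      = q y ^ 2 - (if Occ s e y then 0 else (q y - q (y + Pi.single s 1)) ^ 2 / 4)
        + (1 / 2) * ((if Occ s e y then 0 else q (y + Pi.single s 1) ^ 2)
        - (if Occ s e y then 0 else q y ^ 2)) := by
    intro y
    by_cases h : Occ s e y
    · rw [if_pos h, if_pos h, if_pos h, if_pos h]; ring
    · rw [if_neg h, if_neg h, if_neg h, if_neg h]; ring
  rw [Finset.sum_congr rfl (fun y _ => h1 y), Finset.sum_add_distrib, ← Finset.mul_sum,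
    Finset.sum_sub_distrib, Finset.sum_sub_distrib, sum_free_flip s e (fun y => q y ^ 2)]
  ring

lemma Mop_apply (s : Fin d) (Ψ : (Fin m → Cube d) → (Cube d → ℝ) → ℝ) (e : Fin m → Cube d)
    (q : Cube d → ℝ) :
    Mop s Ψ e q = (∑ g ∈ GF s, Ψ (⇑(g : Perm (Cube d)) ∘ e) (Astep s e g q)) /
      ((GF s).card : ℝ) := rfl

lemma Mop_Nrm (s : Fin d) :
    Mop s (Nrm (m := m) (d := d)) = fun e q => Nrm e q - Gam s e q := by
  funext e q
  rw [Mop_apply, Finset.sum_congr rfl (fun g hg => Nrm_Astep hg e (⇑g ∘ e) q), Finset.sum_const,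
    nsmul_eq_mul, mul_comm, mul_div_assoc, div_self (GF_card_pos s).ne', mul_one]

/-- valid states -/
def Val (e : Fin m → Cube d) (q : Cube d → ℝ) : Prop := (∀ i, q (e i) = 0) ∧ ∑ x, q x = 0

lemma Val_step {s : Fin d} {g : Perm (Cube d)} (hg : g ∈ GF s) (e : Fin m → Cube d)
    (q : Cube d → ℝ) (h : Val e q) : Val (⇑g ∘ e) (Astep s e g q) :=
  ⟨Astep_zero hg e q h.1, by rw [sum_Astep hg]; exact h.2⟩

lemma Mop_mono_val (s : Fin d) {Φ Ψ : (Fin m → Cube d) → (Cube d → ℝ) → ℝ}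
    (h : ∀ e q, Val e q → Φ e q ≤ Ψ e q) (e : Fin m → Cube d) (q : Cube d → ℝ)
    (hv : Val e q) : Mop s Φ e q ≤ Mop s Ψ e q := by
  rw [Mop_apply, Mop_apply]
  apply div_le_div_of_nonneg_right _ (GF_card_pos s).le
  exact Finset.sum_le_sum fun g hg => h _ _ (Val_step hg e q hv)

lemma Ml_mono_val (l : List (Fin d)) {Φ Ψ : (Fin m → Cube d) → (Cube d → ℝ) → ℝ}
    (h : ∀ e q, Val e q → Φ e q ≤ Ψ e q) (e : Fin m → Cube d) (q : Cube d → ℝ)
    (hv : Val e q) : Ml l Φ e q ≤ Ml l Ψ e q := by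
  induction l generalizing e q with
  | nil => exact h e q hv
  | cons s l ih => exact Mop_mono_val s ih e q hv

lemma Mop_mono (s : Fin d) {Φ Ψ : (Fin m → Cube d) → (Cube d → ℝ) → ℝ}
    (h : ∀ e q, Φ e q ≤ Ψ e q) (e : Fin m → Cube d) (q : Cube d → ℝ) :
    Mop s Φ e q ≤ Mop s Ψ e q := by
  rw [Mop_apply, Mop_apply]
  apply div_le_div_of_nonneg_right _ (GF_card_pos s).le
  exact Finset.sum_le_sum fun g _ => h _ _

lemma Ml_mono (l : List (Fin d)) {Φ Ψ : (Fin m → Cube d) → (Cube d → ℝ) → ℝ}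
    (h : ∀ e q, Φ e q ≤ Ψ e q) (e : Fin m → Cube d) (q : Cube d → ℝ) :
    Ml l Φ e q ≤ Ml l Ψ e q := by
  induction l generalizing e q with
  | nil => exact h e q
  | cons s l ih => exact Mop_mono s ih e q

lemma Ml_append (a b : List (Fin d)) (Ψ : (Fin m → Cube d) → (Cube d → ℝ) → ℝ) :
    Ml (a ++ b) Ψ = Ml a (Ml b Ψ) := by
  induction a with
  | nil => rfl
  | cons s a ih =>
    change Mop s (Ml (a ++ b) Ψ) = Mop s (Ml a (Ml b Ψ))
    rw [ih]

lemma Mop_const_mul (s : Fin d) (c : ℝ) (Ψ : (Fin m → Cube d) → (Cube d → ℝ) → ℝ) :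
    Mop s (fun e q => c * Ψ e q) = fun e q => c * Mop s Ψ e q := by
  funext e q
  rw [Mop_apply, Mop_apply, ← Finset.mul_sum, mul_div_assoc]

lemma Ml_const_mul (l : List (Fin d)) (c : ℝ) (Ψ : (Fin m → Cube d) → (Cube d → ℝ) → ℝ) :
    Ml l (fun e q => c * Ψ e q) = fun e q => c * Ml l Ψ e q := by
  induction l with
  | nil => rfl
  | cons s l ih =>
    change Mop s (Ml l (fun e q => c * Ψ e q)) = fun e q => c * Mop s (Ml l Ψ) e q
    rw [ih, Mop_const_mul]

lemma Mop_sub (s : Fin d) (Φ Ψ : (Fin m → Cube d) → (Cube d → ℝ) → ℝ) :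
    Mop s (fun e q => Φ e q - Ψ e q) = fun e q => Mop s Φ e q - Mop s Ψ e q := by
  funext e q
  rw [Mop_apply, Mop_apply, Mop_apply, Finset.sum_sub_distrib, sub_div]

lemma Ml_sub (l : List (Fin d)) (Φ Ψ : (Fin m → Cube d) → (Cube d → ℝ) → ℝ) :
    Ml l (fun e q => Φ e q - Ψ e q) = fun e q => Ml l Φ e q - Ml l Ψ e q := by
  induction l with
  | nil => rfl
  | cons s l ih =>
    change Mop s (Ml l (fun e q => Φ e q - Ψ e q))
      = fun e q => Mop s (Ml l Φ) e q - Mop s (Ml l Ψ) e q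
    rw [ih, Mop_sub]

lemma Mop_sum {ι : Type*} (t : Finset ι) (s : Fin d)
    (Ψ : ι → (Fin m → Cube d) → (Cube d → ℝ) → ℝ) :
    Mop s (fun e q => ∑ i ∈ t, Ψ i e q) = fun e q => ∑ i ∈ t, Mop s (Ψ i) e q := by
  funext e q
  rw [Mop_apply, Finset.sum_comm, Finset.sum_div]
  rfl

lemma Ml_sum {ι : Type*} (t : Finset ι) (l : List (Fin d))
    (Ψ : ι → (Fin m → Cube d) → (Cube d → ℝ) → ℝ) :
    Ml l (fun e q => ∑ i ∈ t, Ψ i e q) = fun e q => ∑ i ∈ t, Ml l (Ψ i) e q := by
  induction l with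
  | nil => rfl
  | cons s l ih =>
    change Mop s (Ml l (fun e q => ∑ i ∈ t, Ψ i e q))
      = fun e q => ∑ i ∈ t, Mop s (Ml l (Ψ i)) e q
    rw [ih, Mop_sum]

lemma Ml_Nrm_le (l : List (Fin d)) (e : Fin m → Cube d) (q : Cube d → ℝ) :
    Ml l Nrm e q ≤ Nrm e q := by
  induction l generalizing e q with
  | nil => exact le_refl _
  | cons s l ih =>
    refine (Mop_mono s (Φ := Ml l Nrm) (Ψ := Nrm) ih e q).trans ?_
    rw [Mop_Nrm]
    have := Gam_nonneg s e q
    linarith

/-! ### relabelling the sites -/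

/-- relabelling of the sites by `θ` -/
def Tw (θ : Perm (Cube d)) (Ψ : (Fin m → Cube d) → (Cube d → ℝ) → ℝ) :
    (Fin m → Cube d) → (Cube d → ℝ) → ℝ :=
  fun e q => Ψ (⇑θ ∘ e) (q ∘ ⇑θ⁻¹)

lemma Tw_mul (θ η : Perm (Cube d)) (Ψ : (Fin m → Cube d) → (Cube d → ℝ) → ℝ) :
    Tw θ (Tw η Ψ) = Tw (η * θ) Ψ := by
  funext e q
  unfold Tw
  rw [mul_inv_rev]
  rfl

lemma Tw_one (Ψ : (Fin m → Cube d) → (Cube d → ℝ) → ℝ) : Tw 1 Ψ = Ψ := rfl

lemma Mop_Tw_mem {s : Fin d} {θ : Perm (Cube d)} (hθ : θ ∈ GF s)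
    (Ψ : (Fin m → Cube d) → (Cube d → ℝ) → ℝ) : Mop s (Tw θ Ψ) = Mop s Ψ := by
  funext e q
  rw [Mop_apply, Mop_apply]
  refine congrArg (· / ((GF s).card : ℝ)) ?_
  refine Finset.sum_bij' (fun g _ => θ * g) (fun g _ => θ⁻¹ * g) ?_ ?_ ?_ ?_ ?_
  · intro g hg; exact mul_mem_GF hθ hg
  · intro g hg; exact mul_mem_GF (inv_mem_GF hθ) hg
  · intro g _; simp
  · intro g _; simp
  · intro g hg
    have h2 : (Astep s e g q) ∘ ⇑θ⁻¹ = Astep s e (θ * g) q := by
      funext y
      rw [Function.comp_apply]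
      have h3 : Occ s e (θ⁻¹ y) ↔ Occ s e y := Occ_GF (inv_mem_GF hθ) e y
      by_cases h : Occ s e y
      · rw [Astep_occ s e g q (h3.mpr h), Astep_occ s e _ q h, mul_inv_rev]
        rfl
      · rw [Astep_free s e g q (fun h' => h (h3.mp h')), Astep_free s e _ q h]
        rcases mem_GF.mp (inv_mem_GF hθ) y with h4 | h4
        · rw [h4]
        · rw [h4, single_add_single, add_comm]
    unfold Tw
    rw [h2]
    rfl

lemma inv_flip {s : Fin d} {θ : Perm (Cube d)}
    (hθ : ∀ x, θ (x + Pi.single s 1) = θ x + Pi.single s 1) (y : Cube d) :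
    θ⁻¹ (y + Pi.single s 1) = θ⁻¹ y + Pi.single s 1 := by
  have h := hθ (θ⁻¹ y)
  rw [show θ (θ⁻¹ y) = y from Equiv.apply_symm_apply θ y] at h
  rw [← h]
  exact Equiv.symm_apply_apply θ _

lemma Mop_Tw_comm {s : Fin d} {θ : Perm (Cube d)}
    (hθ : ∀ x, θ (x + Pi.single s 1) = θ x + Pi.single s 1)
    (Ψ : (Fin m → Cube d) → (Cube d → ℝ) → ℝ) : Mop s (Tw θ Ψ) = Tw θ (Mop s Ψ) := by
  have hθ' : ∀ y, θ⁻¹ (y + Pi.single s 1) = θ⁻¹ y + Pi.single s 1 := inv_flip hθ
  have e1 : ∀ x, θ⁻¹ (θ x) = x := fun x => Equiv.symm_apply_apply θ x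
  have e2 : ∀ x, θ (θ⁻¹ x) = x := fun x => Equiv.apply_symm_apply θ x
  funext e q
  change _ = Mop s Ψ (⇑θ ∘ e) (q ∘ ⇑θ⁻¹)
  rw [Mop_apply, Mop_apply]
  refine congrArg (· / ((GF s).card : ℝ)) ?_
  refine Finset.sum_bij' (fun g _ => θ * g * θ⁻¹) (fun g _ => θ⁻¹ * g * θ) ?_ ?_ ?_ ?_ ?_
  · intro g hg
    rw [mem_GF]
    intro x
    rw [Perm.mul_apply, Perm.mul_apply]
    rcases mem_GF.mp hg (θ⁻¹ x) with h | h
    · left; rw [h, e2]
    · right; rw [h, hθ, e2]
  · intro g hg
    rw [mem_GF]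
    intro x
    rw [Perm.mul_apply, Perm.mul_apply]
    rcases mem_GF.mp hg (θ x) with h | h
    · left; rw [h, e1]
    · right; rw [h, hθ', e1]
  · intro g _; simp [mul_assoc]
  · intro g _; simp [mul_assoc]
  · intro g hg
    have h2 : (Astep s e g q) ∘ ⇑θ⁻¹ = Astep s (⇑θ ∘ e) (θ * g * θ⁻¹) (q ∘ ⇑θ⁻¹) := by
      funext y
      rw [Function.comp_apply]
      have h3 : Occ s e (θ⁻¹ y) ↔ Occ s (⇑θ ∘ e) y := by
        unfold Occ
        rw [← hθ']
        simp only [Function.comp_apply]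
        have h5 : ∀ i z, e i = θ⁻¹ z ↔ θ (e i) = z := by
          intro i z
          constructor
          · intro h; rw [h, e2]
          · intro h; rw [← h, e1]
        simp only [h5]
      by_cases h : Occ s (⇑θ ∘ e) y
      · rw [Astep_occ s e g q (h3.mpr h), Astep_occ s _ _ _ h, Function.comp_apply,
          mul_inv_rev, mul_inv_rev, inv_inv, Perm.mul_apply, Perm.mul_apply, e1]
      · rw [Astep_free s e g q (fun h' => h (h3.mp h')), Astep_free s _ _ _ h,
          Function.comp_apply, Function.comp_apply, hθ']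
    unfold Tw
    rw [h2]
    have h6 : (⇑(θ * g * θ⁻¹) ∘ (⇑θ ∘ e)) = ⇑θ ∘ (⇑g ∘ e) := by
      funext i
      simp only [Function.comp_apply, Perm.mul_apply, e1]
    rw [h6]

lemma Ml_Tw_comm {θ : Perm (Cube d)} (l : List (Fin d))
    (hθ : ∀ s ∈ l, ∀ x, θ (x + Pi.single s 1) = θ x + Pi.single s 1)
    (Ψ : (Fin m → Cube d) → (Cube d → ℝ) → ℝ) : Ml l (Tw θ Ψ) = Tw θ (Ml l Ψ) := by
  induction l with
  | nil => rfl
  | cons s l ih =>
    change Mop s (Ml l (Tw θ Ψ)) = Tw θ (Mop s (Ml l Ψ))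
    rw [ih (fun t ht => hθ t (List.mem_cons_of_mem _ ht)),
      Mop_Tw_comm (hθ s List.mem_cons_self)]

/-- if `θ` belongs to the group of one of the directions of the list and commutes with all of
them, it is absorbed -/
lemma Ml_Tw_absorb {θ : Perm (Cube d)} (l : List (Fin d))
    (hθ : ∀ s ∈ l, ∀ x, θ (x + Pi.single s 1) = θ x + Pi.single s 1)
    (hm : ∃ s ∈ l, θ ∈ GF s)
    (Ψ : (Fin m → Cube d) → (Cube d → ℝ) → ℝ) : Ml l (Tw θ Ψ) = Ml l Ψ := by
  induction l with
  | nil => obtain ⟨s, hs, _⟩ := hm; exact absurd hs List.not_mem_nil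
  | cons s l ih =>
    change Mop s (Ml l (Tw θ Ψ)) = Mop s (Ml l Ψ)
    have h1 : ∀ t ∈ l, ∀ x, θ (x + Pi.single t 1) = θ x + Pi.single t 1 :=
      fun t ht => hθ t (List.mem_cons_of_mem _ ht)
    by_cases h : ∃ t ∈ l, θ ∈ GF t
    · rw [ih h1 h]
    · have h2 : θ ∈ GF s := by
        obtain ⟨t, ht, ht'⟩ := hm
        rcases List.mem_cons.mp ht with h3 | h3
        · rw [← h3]; exact ht'
        · exact absurd ⟨t, h3, ht'⟩ h
      rw [Ml_Tw_comm l h1, Mop_Tw_mem h2]

end decay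

section shear

variable {m : ℕ}

lemma cube_add_self (u : Cube d) : u + u = 0 :=
  funext fun i => CharTwo.add_self_eq_zero (u i)

lemma zmod2 (a : ZMod 2) : a = 0 ∨ a = 1 := by
  revert a; decide

/-- the map `x ↦ x + (x s) v'`, where `v'` is `v` with its coordinate `s` erased -/
def shearF (s : Fin d) (v x : Cube d) : Cube d :=
  if x s = 0 then x else x + Function.update v s 0

lemma shearF_coord (s : Fin d) (v x : Cube d) : shearF s v x s = x s := by
  unfold shearF
  split_ifs with h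
  · rfl
  · rw [Pi.add_apply, Function.update_self, add_zero]

lemma shearF_zero {s : Fin d} {x : Cube d} (v : Cube d) (h : x s = 0) : shearF s v x = x :=
  if_pos h

lemma shearF_one {s : Fin d} {x : Cube d} (v : Cube d) (h : ¬ x s = 0) :
    shearF s v x = x + Function.update v s 0 := if_neg h

lemma shearF_invol (s : Fin d) (v : Cube d) : Function.Involutive (shearF s v) := by
  intro x
  by_cases h : x s = 0
  · rw [shearF_zero v h, shearF_zero v h]
  · have h' : ¬ (x + Function.update v s 0) s = 0 := by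
      rw [Pi.add_apply, Function.update_self, add_zero]; exact h
    rw [shearF_one v h, shearF_one v h', add_assoc, cube_add_self, add_zero]

/-- the shear as a permutation -/
def shear (s : Fin d) (v : Cube d) : Perm (Cube d) := (shearF_invol s v).toPerm

lemma shear_apply (s : Fin d) (v x : Cube d) : shear s v x = shearF s v x := rfl

lemma shear_inv_apply (s : Fin d) (v x : Cube d) : (shear s v)⁻¹ x = shearF s v x := rfl

lemma shear_of_update (s : Fin d) (v : Cube d) (h : Function.update v s 0 = 0) :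
    shear s v = 1 := by
  ext1 x
  rw [shear_apply, Perm.one_apply]
  by_cases hx : x s = 0
  · rw [shearF_zero v hx]
  · rw [shearF_one v hx, h, add_zero]

lemma shear_add (s : Fin d) (v w : Cube d) : shear s (v + w) = shear s v * shear s w := by
  ext1 x
  rw [Perm.mul_apply, shear_apply, shear_apply, shear_apply]
  by_cases hx : x s = 0
  · rw [shearF_zero _ hx, shearF_zero _ hx, shearF_zero _ hx]
  · have h' : ¬ (x + Function.update w s 0) s = 0 := by
      rw [Pi.add_apply, Function.update_self, add_zero]; exact hx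
    rw [shearF_one _ hx, shearF_one _ hx, shearF_one _ h']
    have h2 : Function.update (v + w) s 0 = Function.update w s 0 + Function.update v s 0 := by
      funext i
      by_cases hi : i = s
      · subst hi
        simp
      · simp only [Function.update_of_ne hi, Pi.add_apply]
        exact add_comm _ _
    rw [h2, add_assoc]

lemma shear_comm {s t : Fin d} (hts : t ≠ s) (v x : Cube d) :
    shear s v (x + Pi.single t 1) = shear s v x + Pi.single t 1 := by
  have h1 : (x + Pi.single t 1 : Cube d) s = x s := by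
    rw [Pi.add_apply, Pi.single_eq_of_ne (Ne.symm hts), add_zero]
  rw [shear_apply, shear_apply]
  by_cases hx : x s = 0
  · rw [shearF_zero v hx, shearF_zero v (by rw [h1]; exact hx)]
  · rw [shearF_one v hx, shearF_one v (by rw [h1]; exact hx), add_right_comm]

lemma shear_mem_GF {s t : Fin d} (hts : t ≠ s) : shear s (Pi.single t 1) ∈ GF t := by
  rw [mem_GF]
  intro x
  rw [shear_apply]
  by_cases hx : x s = 0
  · left; rw [shearF_zero _ hx]
  · right
    rw [shearF_one _ hx]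
    have h2 : Function.update (Pi.single t 1 : Cube d) s 0 = Pi.single t 1 := by
      have h3 : (Pi.single t 1 : Cube d) s = 0 := by
        rw [Pi.single_eq_of_ne (Ne.symm hts)]
      rw [← h3, Function.update_eq_self]
    rw [h2]

/-- the shears are absorbed by a list containing all directions other than `s` -/
lemma Ml_shear (s : Fin d) (l : List (Fin d)) (h1 : ∀ t ∈ l, t ≠ s)
    (h2 : ∀ t, t ≠ s → t ∈ l) (v : Cube d)
    (Ψ : (Fin m → Cube d) → (Cube d → ℝ) → ℝ) : Ml l (Tw (shear s v) Ψ) = Ml l Ψ := by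
  have key : ∀ v : Cube d, ∀ Ψ : (Fin m → Cube d) → (Cube d → ℝ) → ℝ,
      Ml l (Tw (shear s v) Ψ) = Ml l Ψ := by
    intro v
    rw [← Finset.univ_sum_single v]
    refine Finset.sum_induction (fun t => (Pi.single t (v t) : Cube d))
      (fun v => ∀ Ψ : (Fin m → Cube d) → (Cube d → ℝ) → ℝ,
        Ml l (Tw (shear s v) Ψ) = Ml l Ψ) ?_ ?_ ?_
    · intro a b ha hb Ψ
      rw [shear_add, ← Tw_mul, hb, ha]
    · intro Ψ
      rw [shear_of_update s 0 (by funext i; by_cases hi : i = s <;> simp [hi]), Tw_one]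
    · intro t _ Ψ
      rcases zmod2 (v t) with hv | hv
      · rw [hv, Pi.single_zero, shear_of_update s 0
          (by funext i; by_cases hi : i = s <;> simp [hi]), Tw_one]
      · rw [hv]
        by_cases hts : t = s
        · rw [hts, shear_of_update s (Pi.single s 1)
            (by funext i; by_cases hi : i = s <;> simp [hi]), Tw_one]
        · exact Ml_Tw_absorb l (fun t' ht' x => shear_comm (h1 t' ht') _ x)
            ⟨t, h2 t hts, shear_mem_GF hts⟩ Ψ
  exact key v Ψ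

/-- the half cube -/
def H0 (s : Fin d) : Finset (Cube d) := univ.filter fun v => v s = 0

lemma mem_H0 {s : Fin d} {v : Cube d} : v ∈ H0 s ↔ v s = 0 := by simp [H0]

lemma flip_coord (s : Fin d) (y : Cube d) : (y + Pi.single s 1 : Cube d) s = y s + 1 := by
  rw [Pi.add_apply, Pi.single_eq_same]

lemma split_half (s : Fin d) (f : Cube d → ℝ) :
    ∑ y, f y = ∑ y ∈ H0 s, f y + ∑ y ∈ H0 s, f (y + Pi.single s 1) := by
  unfold H0
  rw [Finset.sum_filter, Finset.sum_filter]
  have h1 : ∑ y : Cube d, (if y s = 0 then 0 else f y)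
      = ∑ y : Cube d, (if y s = 0 then f (y + Pi.single s 1) else 0) := by
    rw [← sum_flipE s (fun y => if y s = 0 then 0 else f y)]
    refine Finset.sum_congr rfl fun y _ => ?_
    rw [flip_coord]
    rcases zmod2 (y s) with h | h
    · rw [h, if_neg (by decide), if_pos rfl]
    · rw [h, if_pos (by decide), if_neg (by decide)]
  rw [← h1, ← Finset.sum_add_distrib]
  refine Finset.sum_congr rfl fun y _ => ?_
  by_cases h : y s = 0
  · rw [if_pos h, if_pos h, add_zero]
  · rw [if_neg h, if_neg h, zero_add]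

lemma two_card_H0 (s : Fin d) : 2 * ((H0 s).card : ℝ) = 2 ^ d := by
  have h := split_half s (fun _ => (1 : ℝ))
  simp only [Finset.sum_const, nsmul_eq_mul, mul_one, Finset.card_univ] at h
  have h2 : (Fintype.card (Cube d) : ℝ) = 2 ^ d := by
    rw [Fintype.card_fun, ZMod.card, Fintype.card_fin]
    norm_cast
  rw [h2] at h
  linarith

/-- indicator of the free sites -/
def fr (e : Fin m → Cube d) (y : Cube d) : ℝ := if ∃ i, e i = y then 0 else 1

lemma fr_mul_q {e : Fin m → Cube d} {q : Cube d → ℝ} (hq : ∀ i, q (e i) = 0) (y : Cube d) :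
    fr e y * q y = q y := by
  unfold fr
  split_ifs with h
  · obtain ⟨i, hi⟩ := h
    rw [← hi, hq i, mul_zero]
  · rw [one_mul]

lemma sum_fr_le (e : Fin m → Cube d) : ∑ y, (1 - fr e y) ≤ (m : ℝ) := by
  have h1 : ∀ y : Cube d, 1 - fr e y ≤ ∑ i, (if e i = y then (1 : ℝ) else 0) := by
    intro y
    have h0 : ∀ i ∈ (univ : Finset (Fin m)), (0 : ℝ) ≤ (if e i = y then (1 : ℝ) else 0) := by
      intro i _
      split_ifs <;> norm_num
    unfold fr
    split_ifs with h
    · obtain ⟨i, hi⟩ := h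
      have h2 := Finset.single_le_sum h0 (Finset.mem_univ i)
      rw [if_pos hi] at h2
      linarith
    · have h2 := Finset.sum_nonneg h0
      linarith
  refine (Finset.sum_le_sum fun y _ => h1 y).trans ?_
  rw [Finset.sum_comm]
  have h3 : ∀ i : Fin m, ∑ y, (if e i = y then (1 : ℝ) else 0) = 1 := by
    intro i
    rw [Finset.sum_ite_eq]
    simp
  rw [Finset.sum_congr rfl (fun i _ => h3 i)]
  simp

lemma fr_le_one (e : Fin m → Cube d) (y : Cube d) : fr e y ≤ 1 := by
  unfold fr; split_ifs <;> norm_num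

lemma half_fr (s : Fin d) (e : Fin m → Cube d) :
    ((H0 s).card : ℝ) - m ≤ ∑ y ∈ H0 s, fr e y ∧
    ((H0 s).card : ℝ) - m ≤ ∑ y ∈ H0 s, fr e (y + Pi.single s 1) := by
  have h0 := sum_fr_le e
  rw [split_half s] at h0
  have ha : 0 ≤ ∑ y ∈ H0 s, (1 - fr e y) :=
    Finset.sum_nonneg fun y _ => by have := fr_le_one e y; linarith
  have hb : 0 ≤ ∑ y ∈ H0 s, (1 - fr e (y + Pi.single s 1)) :=
    Finset.sum_nonneg fun y _ => by have := fr_le_one e (y + Pi.single s 1); linarith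
  rw [Finset.sum_sub_distrib, Finset.sum_const, nsmul_eq_mul, mul_one] at h0 ha hb
  rw [Finset.sum_sub_distrib, Finset.sum_const, nsmul_eq_mul, mul_one] at h0
  constructor <;> linarith

/-- pair energy -/
def KE (e : Fin m → Cube d) (q : Cube d → ℝ) (a b : Cube d) : ℝ :=
  fr e a * fr e b * (q a - q b) ^ 2

lemma KE_symm (e : Fin m → Cube d) (q : Cube d → ℝ) (a b : Cube d) :
    KE e q a b = KE e q b a := by
  unfold KE; ring

lemma Tw_Gam (s : Fin d) (θ : Perm (Cube d)) (e : Fin m → Cube d) (q : Cube d → ℝ) :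
    Tw θ (Gam s) e q = ∑ y, KE e q (θ⁻¹ y) (θ⁻¹ (y + Pi.single s 1)) / 4 := by
  unfold Tw Gam
  refine Finset.sum_congr rfl fun y _ => ?_
  have h5 : ∀ z, (∃ i, e i = θ⁻¹ z) ↔ (∃ i, (⇑θ ∘ e) i = z) := by
    intro z
    constructor
    · rintro ⟨i, hi⟩
      refine ⟨i, ?_⟩
      rw [Function.comp_apply, hi]
      exact Equiv.apply_symm_apply θ z
    · rintro ⟨i, hi⟩
      refine ⟨i, ?_⟩
      rw [← hi, Function.comp_apply]
      exact (Equiv.symm_apply_apply θ (e i)).symm
  unfold KE fr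
  rw [Function.comp_apply, Function.comp_apply]
  by_cases ha : ∃ i, (⇑θ ∘ e) i = y
  · have hO : Occ s (⇑θ ∘ e) y := Or.inl ha
    rw [if_pos hO, if_pos ((h5 y).mpr ha)]
    ring
  · by_cases hb : ∃ i, (⇑θ ∘ e) i = y + Pi.single s 1
    · have hO : Occ s (⇑θ ∘ e) y := Or.inr hb
      rw [if_pos hO, if_pos ((h5 _).mpr hb)]
      ring
    · have hO : ¬ Occ s (⇑θ ∘ e) y := fun h => h.elim ha hb
      rw [if_neg hO, if_neg (fun h => ha ((h5 y).mp h)), if_neg (fun h => hb ((h5 _).mp h))]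
      ring

lemma Tw_shear_Gam (s : Fin d) {v : Cube d} (hv : v s = 0) (e : Fin m → Cube d)
    (q : Cube d → ℝ) :
    Tw (shear s v) (Gam s) e q
      = (1 / 2) * ∑ y ∈ H0 s, KE e q y (y + v + Pi.single s 1) := by
  rw [Tw_Gam, split_half s, ← Finset.sum_add_distrib, Finset.mul_sum]
  refine Finset.sum_congr rfl fun y hy => ?_
  have hy0 : y s = 0 := mem_H0.mp hy
  have hup : Function.update v s 0 = v := by
    rw [← hv, Function.update_eq_self]
  have h1 : ¬ (y + Pi.single s 1 : Cube d) s = 0 := by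
    rw [flip_coord, hy0]; decide
  simp only [shear_inv_apply]
  rw [single_add_single, shearF_zero v hy0, shearF_one v h1, hup,
    KE_symm e q (y + Pi.single s 1 + v) y, add_right_comm]
  ring

lemma sum_Tw_Gam (s : Fin d) (e : Fin m → Cube d) (q : Cube d → ℝ) :
    ∑ v ∈ H0 s, Tw (shear s v) (Gam s) e q
      = (1 / 2) * ∑ y ∈ H0 s, ∑ z ∈ H0 s, KE e q y (z + Pi.single s 1) := by
  rw [Finset.sum_congr rfl (fun v hv => Tw_shear_Gam s (mem_H0.mp hv) e q), ← Finset.mul_sum,
    Finset.sum_comm]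
  congr 1
  refine Finset.sum_congr rfl fun y hy => ?_
  have hy0 : y s = 0 := mem_H0.mp hy
  refine Finset.sum_bij' (fun v _ => y + v) (fun z _ => y + z) ?_ ?_ ?_ ?_ ?_
  · intro v hv
    rw [mem_H0, Pi.add_apply, hy0, mem_H0.mp hv, add_zero]
  · intro v hv
    rw [mem_H0, Pi.add_apply, hy0, mem_H0.mp hv, add_zero]
  · intro v _
    rw [← add_assoc, cube_add_self, zero_add]
  · intro v _
    rw [← add_assoc, cube_add_self, zero_add]
  · intro v _
    rfl

lemma avg_Gam (s : Fin d) (hm : 4 * m ≤ 2 ^ d) (e : Fin m → Cube d) (q : Cube d → ℝ)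
    (hv : Val e q) :
    ((H0 s).card : ℝ) * (1 / 4 * Nrm e q) ≤ ∑ v ∈ H0 s, Tw (shear s v) (Gam s) e q := by
  rw [sum_Tw_Gam]
  obtain ⟨hq, hs⟩ := hv
  have h1 : ∀ y z : Cube d, KE e q y (z + Pi.single s 1)
      = q y ^ 2 * fr e (z + Pi.single s 1) - 2 * (q y * q (z + Pi.single s 1))
        + fr e y * q (z + Pi.single s 1) ^ 2 := by
    intro y z
    have ha := fr_mul_q hq y
    have hb := fr_mul_q hq (z + Pi.single s 1)
    unfold KE
    have e1 : fr e y * fr e (z + Pi.single s 1) * (q y - q (z + Pi.single s 1)) ^ 2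
        = (fr e y * q y) * q y * fr e (z + Pi.single s 1)
          - 2 * ((fr e y * q y) * (fr e (z + Pi.single s 1) * q (z + Pi.single s 1)))
          + fr e y * ((fr e (z + Pi.single s 1) * q (z + Pi.single s 1))
            * q (z + Pi.single s 1)) := by ring
    rw [e1, ha, hb]
    ring
  have h2 : ∑ y ∈ H0 s, ∑ z ∈ H0 s, KE e q y (z + Pi.single s 1)
      = (∑ y ∈ H0 s, q y ^ 2) * (∑ z ∈ H0 s, fr e (z + Pi.single s 1))
        - 2 * ((∑ y ∈ H0 s, q y) * (∑ z ∈ H0 s, q (z + Pi.single s 1)))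
        + (∑ y ∈ H0 s, fr e y) * (∑ z ∈ H0 s, q (z + Pi.single s 1) ^ 2) := by
    simp only [h1]
    simp only [Finset.sum_add_distrib, Finset.sum_sub_distrib, ← Finset.mul_sum,
      ← Finset.sum_mul]
  rw [h2]
  have h3 : Nrm e q = ∑ y ∈ H0 s, q y ^ 2 + ∑ z ∈ H0 s, q (z + Pi.single s 1) ^ 2 :=
    split_half s (fun x => q x ^ 2)
  have h4 : ∑ y ∈ H0 s, q y + ∑ z ∈ H0 s, q (z + Pi.single s 1) = 0 := by
    rw [← split_half s]; exact hs
  obtain ⟨h5, h6⟩ := half_fr s e
  have h7 := two_card_H0 s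
  have hm' : (4 : ℝ) * m ≤ 2 ^ d := by exact_mod_cast hm
  have h8 : (0 : ℝ) ≤ ∑ y ∈ H0 s, q y ^ 2 := Finset.sum_nonneg fun y _ => sq_nonneg _
  have h9 : (0 : ℝ) ≤ ∑ z ∈ H0 s, q (z + Pi.single s 1) ^ 2 :=
    Finset.sum_nonneg fun y _ => sq_nonneg _
  rw [h3]
  set c : ℝ := ((H0 s).card : ℝ)
  set S0 := ∑ y ∈ H0 s, q y ^ 2
  set S1 := ∑ z ∈ H0 s, q (z + Pi.single s 1) ^ 2
  set P0 := ∑ y ∈ H0 s, q y
  set P1 := ∑ z ∈ H0 s, q (z + Pi.single s 1)
  set F0 := ∑ y ∈ H0 s, fr e y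
  set F1 := ∑ z ∈ H0 s, fr e (z + Pi.single s 1)
  have h10 : P1 = - P0 := by linarith
  have h11 : c / 2 ≤ F0 := by linarith
  have h12 : c / 2 ≤ F1 := by linarith
  rw [h10]
  nlinarith [mul_le_mul_of_nonneg_left h12 h8, mul_le_mul_of_nonneg_right h11 h9, sq_nonneg P0]

/-- the key step -/
lemma Ml_key (s : Fin d) (l : List (Fin d)) (h1 : ∀ t ∈ l, t ≠ s)
    (h2 : ∀ t, t ≠ s → t ∈ l) (hm : 4 * m ≤ 2 ^ d) (e : Fin m → Cube d) (q : Cube d → ℝ)
    (hv : Val e q) : Ml l (Mop s Nrm) e q ≤ 3 / 4 * Ml l Nrm e q := by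
  have hc : (0 : ℝ) < ((H0 s).card : ℝ) := by
    have := two_card_H0 s
    have h : (0 : ℝ) < 2 ^ d := by positivity
    linarith
  have e1 : ((H0 s).card : ℝ) * Ml l (Gam s) e q
      = Ml l (fun e q => ∑ v ∈ H0 s, Tw (shear s v) (Gam s) e q) e q := by
    rw [Ml_sum]
    simp only [Ml_shear s l h1 h2]
    rw [Finset.sum_const, nsmul_eq_mul]
  have e2 : Ml l (fun e q => ((H0 s).card : ℝ) * (1 / 4 * Nrm e q)) e q
      ≤ Ml l (fun e q => ∑ v ∈ H0 s, Tw (shear s v) (Gam s) e q) e q :=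
    Ml_mono_val l (fun e q hv => avg_Gam s hm e q hv) e q hv
  rw [← e1, Ml_const_mul l ((H0 s).card : ℝ) (fun e q => 1 / 4 * Nrm e q),
    Ml_const_mul l (1 / 4) Nrm] at e2
  have e3 := le_of_mul_le_mul_left e2 hc
  rw [Mop_Nrm, Ml_sub]
  have e3' : 1 / 4 * Ml l Nrm e q ≤ Ml l (Gam s) e q := e3
  change Ml l Nrm e q - Ml l (Gam s) e q ≤ _
  linarith

end shear

section final

variable {m : ℕ}

/-- the last `d - 1` directions before time `a + (d - 1)` -/
def lastDirs (d a : ℕ) [NeZero d] : List (Fin d) :=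
  ((List.range (d - 1)).map (a + ·)).map (Fin.ofNat d)

lemma dirs_split [NeZero d] (a : ℕ) : dirs d (a + (d - 1)) = dirs d a ++ lastDirs d a := by
  unfold dirs lastDirs
  rw [List.range_add, List.map_append]

lemma lastDirs_ne [NeZero d] (a : ℕ) (t : Fin d) (ht : t ∈ lastDirs d a) :
    t ≠ Fin.ofNat d (a + (d - 1)) := by
  have hd : 0 < d := Nat.pos_of_ne_zero (NeZero.ne d)
  unfold lastDirs at ht
  rw [List.map_map, List.mem_map] at ht
  obtain ⟨j, hj, rfl⟩ := ht
  rw [List.mem_range] at hj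
  intro h
  have h1 := congrArg Fin.val h
  rw [Function.comp_apply, Fin.val_ofNat, Fin.val_ofNat] at h1
  have h2 : (a + j) ≡ (a + (d - 1)) [MOD d] := h1
  have h3 : j ≡ d - 1 [MOD d] := Nat.ModEq.add_left_cancel' a h2
  have h4 : j % d = (d - 1) % d := h3
  rw [Nat.mod_eq_of_lt (by omega), Nat.mod_eq_of_lt (by omega)] at h4
  omega

lemma mem_lastDirs [NeZero d] (a : ℕ) (t : Fin d) (ht : t ≠ Fin.ofNat d (a + (d - 1))) :
    t ∈ lastDirs d a := by
  have hd : 0 < d := Nat.pos_of_ne_zero (NeZero.ne d)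
  have hmod : a % d < d := Nat.mod_lt _ hd
  have h1 : (a + (t.val + (d - a % d)) % d) % d = t.val := by
    rw [Nat.add_mod_mod]
    have h2 : a + (t.val + (d - a % d)) = t.val + d * (a / d + 1) := by
      have h3 := Nat.div_add_mod a d
      have h4 : d * (a / d + 1) = d * (a / d) + d := by ring
      omega
    rw [h2, Nat.add_mul_mod_self_left, Nat.mod_eq_of_lt t.isLt]
  unfold lastDirs
  rw [List.map_map, List.mem_map]
  refine ⟨(t.val + (d - a % d)) % d, ?_, ?_⟩
  · rw [List.mem_range]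
    have h5 : (t.val + (d - a % d)) % d < d := Nat.mod_lt _ hd
    by_contra hcon
    have h6 : (t.val + (d - a % d)) % d = d - 1 := by omega
    rw [h6] at h1
    apply ht
    apply Fin.ext
    rw [Fin.val_ofNat]
    exact h1.symm
  · apply Fin.ext
    rw [Function.comp_apply, Fin.val_ofNat]
    exact h1

end final

/-- L² decay: every step after the first `d - 1` costs a factor `3/4` -/
theorem Ml_decay {m : ℕ} [NeZero d] (T : ℕ) (hT : d ≤ T + 1) (hm : 4 * m ≤ 2 ^ d)
    (e : Fin m → Cube d) (q : Cube d → ℝ) (hq : ∀ i, q (e i) = 0) (hs : ∑ x, q x = 0) :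
    Ml (dirs d T) (fun _ q => ∑ x, q x ^ 2) e q ≤ (3 / 4) ^ (T + 1 - d) * ∑ x, q x ^ 2 := by
  have hd : 0 < d := Nat.pos_of_ne_zero (NeZero.ne d)
  have key : ∀ k T : ℕ, T + 1 = d + k →
      Ml (dirs d T) Nrm e q ≤ (3 / 4) ^ k * Nrm e q := by
    intro k
    induction k with
    | zero =>
      intro T _
      rw [pow_zero, one_mul]
      exact Ml_Nrm_le _ e q
    | succ k ih =>
      intro T hT
      obtain ⟨T', rfl⟩ : ∃ T', T = T' + 1 := ⟨T - 1, by omega⟩
      have hT' : T' = k + (d - 1) := by omega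
      have h1 : Ml (dirs d (T' + 1)) Nrm e q
          = Ml (dirs d k) (Ml (lastDirs d k) (Mop (Fin.ofNat d T') Nrm)) e q := by
        rw [dirs_succ, Ml_append, ← Ml_append (dirs d k), ← dirs_split, ← hT']
        rfl
      have h2 : Ml (dirs d T') Nrm e q = Ml (dirs d k) (Ml (lastDirs d k) Nrm) e q := by
        rw [← Ml_append, ← dirs_split, ← hT']
      have h3 : Ml (dirs d k) (Ml (lastDirs d k) (Mop (Fin.ofNat d T') Nrm)) e q
          ≤ Ml (dirs d k) (fun e q => 3 / 4 * Ml (lastDirs d k) Nrm e q) e q := by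
        refine Ml_mono_val (dirs d k) ?_ e q ⟨hq, hs⟩
        intro e' q' hv
        rw [hT']
        exact Ml_key _ _ (lastDirs_ne k) (mem_lastDirs k) hm e' q' hv
      rw [Ml_const_mul (dirs d k) (3 / 4) (Ml (lastDirs d k) Nrm)] at h3
      have h4 := ih T' (by omega)
      rw [h1]
      refine h3.trans ?_
      change 3 / 4 * Ml (dirs d k) (Ml (lastDirs d k) Nrm) e q ≤ _
      rw [← h2, pow_succ]
      linarith
  exact key (T + 1 - d) T (by omega)

end

end Vale.Agent.P162
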