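import Vale.Agent.P162.Proc

/-! # L² decay of the averaging process with only `F` unrevealed cards -/

namespace Vale.Agent.P162

open Finset Equiv

noncomputable section

variable {d : ℕ}

/-- number of free sites in the half cube `x s = 0` -/
def frH {m : ℕ} (s : Fin d) (e : Fin m → Cube d) : ℕ :=
  (univ.filter fun x : Cube d => x s = 0 ∧ ∀ i, e i ≠ x).card

/-- the average of a product over pairs -/
lemma prod_avg (s : Fin d) (φ : Cube d → ℝ) (P : Finset (Cube d)) (hP : P ⊆ H0 s) :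
    ∑ g ∈ GF s, ∏ x ∈ P, φ (g⁻¹ x)
      = ((GF s).card : ℝ) * ∏ x ∈ P, ((φ x + φ (x + Pi.single s 1)) / 2) := by
  induction P using Finset.induction_on with
  | empty => simp
  | insert a P ha ih =>
    have hP' : P ⊆ H0 s := fun x hx => hP (Finset.mem_insert_of_mem hx)
    have ha0 : a s = 0 := mem_H0.mp (hP (Finset.mem_insert_self a P))
    rw [Finset.prod_insert ha]
    simp only [Finset.prod_insert ha]
    have h1 : ∑ g ∈ GF s, φ (g⁻¹ a) * ∏ x ∈ P, φ (g⁻¹ x)
        = ∑ g ∈ GF s, φ ((g * swap a (a + Pi.single s 1))⁻¹ a) * ∏ x ∈ P, φ (g⁻¹ x) := by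
      refine Finset.sum_bij' (fun g _ => g * swap a (a + Pi.single s 1))
        (fun g _ => g * swap a (a + Pi.single s 1)) ?_ ?_ ?_ ?_ ?_
      · intro g hg; exact mul_mem_GF hg (swap_mem_GF s a)
      · intro g hg; exact mul_mem_GF hg (swap_mem_GF s a)
      · intro g _; simp [mul_assoc]
      · intro g _; simp [mul_assoc]
      · intro g hg
        rw [mul_assoc, swap_mul_self, mul_one]
        congr 1
        refine Finset.prod_congr rfl fun x hx => ?_
        have hx0 : x s = 0 := mem_H0.mp (hP' hx)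
        have hxa : x ≠ a := by rintro rfl; exact ha hx
        rw [mul_inv_rev, swap_inv, Perm.mul_apply]
        have hfl : ∀ y : Cube d, (y + Pi.single s 1 : Cube d) s = y s + 1 := flip_coord s
        rw [swap_apply_of_ne_of_ne]
        · rcases mem_GF.mp (inv_mem_GF hg) x with h | h
          · rw [h]; exact hxa
          · rw [h]
            intro h2
            have h3 := congrFun h2 s
            rw [hfl, hx0, ha0] at h3
            exact absurd h3 (by decide)
        · rcases mem_GF.mp (inv_mem_GF hg) x with h | h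
          · rw [h]
            intro h2
            have h3 := congrFun h2 s
            rw [hfl, hx0, ha0] at h3
            exact absurd h3 (by decide)
          · rw [h]
            intro h2
            exact hxa (add_right_cancel h2)
    have h2 : ∑ g ∈ GF s, φ (g⁻¹ a) * ∏ x ∈ P, φ (g⁻¹ x)
        = (φ a + φ (a + Pi.single s 1)) / 2 * ∑ g ∈ GF s, ∏ x ∈ P, φ (g⁻¹ x) := by
      have h3 : ∑ g ∈ GF s, φ (g⁻¹ a) * ∏ x ∈ P, φ (g⁻¹ x)
          + ∑ g ∈ GF s, φ ((g * swap a (a + Pi.single s 1))⁻¹ a) * ∏ x ∈ P, φ (g⁻¹ x)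
          = (φ a + φ (a + Pi.single s 1)) * ∑ g ∈ GF s, ∏ x ∈ P, φ (g⁻¹ x) := by
        rw [← Finset.sum_add_distrib, Finset.mul_sum]
        refine Finset.sum_congr rfl fun g hg => ?_
        rw [← add_mul, pair_sum hg φ a]
      rw [← h1] at h3
      linarith
    rw [h2, ih hP']
    ring

/-- `z` is free of the revealed cards -/
def Fre {m : ℕ} (e : Fin m → Cube d) (z : Cube d) : Prop := ∀ i, e i ≠ z

instance {m : ℕ} (e : Fin m → Cube d) : DecidablePred (Fre e) := fun z => by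
  unfold Fre; infer_instance

lemma frH_eq {m : ℕ} (s : Fin d) (e : Fin m → Cube d) :
    frH s e = ((H0 s).filter (Fre e)).card := by
  unfold frH
  congr 1
  ext x
  rw [Finset.mem_filter, Finset.mem_filter, mem_H0]
  constructor
  · rintro ⟨_, h1, h2⟩
    exact ⟨h1, h2⟩
  · rintro ⟨h1, h2⟩
    exact ⟨Finset.mem_univ x, h1, h2⟩

lemma Fre_smul {m : ℕ} (e : Fin m → Cube d) (g : Perm (Cube d)) (z : Cube d) :
    Fre (g • e) z ↔ Fre e (g⁻¹ z) := by
  unfold Fre
  refine forall_congr' fun i => ?_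
  have h1 : (g • e) i = g (e i) := rfl
  rw [h1, not_iff_not]
  constructor
  · rintro rfl
    exact (Equiv.symm_apply_apply g (e i)).symm
  · intro h
    rw [h]
    exact Equiv.apply_symm_apply g z

lemma pow_frH {m : ℕ} (s : Fin d) (e : Fin m → Cube d) (g : Perm (Cube d)) (w : ℝ) :
    w ^ frH s (g • e) = ∏ x ∈ H0 s, (if Fre e (g⁻¹ x) then w else 1) := by
  rw [frH_eq, ← Finset.prod_const, Finset.prod_filter]
  refine Finset.prod_congr rfl fun x _ => ?_
  by_cases h : Fre e (g⁻¹ x)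
  · rw [if_pos h, if_pos ((Fre_smul e g x).mpr h)]
  · rw [if_neg h, if_neg (fun h' => h ((Fre_smul e g x).mp h'))]

lemma prod_split_half (s : Fin d) (f : Cube d → ℝ) :
    ∏ y, f y = ∏ y ∈ H0 s, (f y * f (y + Pi.single s 1)) := by
  rw [Finset.prod_mul_distrib]
  unfold H0
  rw [Finset.prod_filter, Finset.prod_filter]
  have h1 : ∏ y : Cube d, (if y s = 0 then 1 else f y)
      = ∏ y : Cube d, (if y s = 0 then f (y + Pi.single s 1) else 1) := by
    rw [← Equiv.prod_comp (Equiv.addRight (Pi.single s 1 : Cube d))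
      (fun y => if y s = 0 then 1 else f y)]
    refine Finset.prod_congr rfl fun y _ => ?_
    change (if (y + Pi.single s 1 : Cube d) s = 0 then 1 else f (y + Pi.single s 1)) = _
    rw [flip_coord]
    rcases zmod2 (y s) with h | h
    · rw [h, if_neg (by decide), if_pos rfl]
    · rw [h, if_pos (by decide), if_neg (by decide)]
  rw [← h1, ← Finset.prod_mul_distrib]
  refine Finset.prod_congr rfl fun y _ => ?_
  by_cases h : y s = 0
  · rw [if_pos h, if_pos h, mul_one]
  · rw [if_neg h, if_neg h, one_mul]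

lemma card_Fre {m : ℕ} (e : Fin m → Cube d) :
    2 ^ d ≤ m + (univ.filter (Fre e)).card := by
  have h1 : (univ : Finset (Cube d)) ⊆ (univ.image e) ∪ univ.filter (Fre e) := by
    intro z _
    rw [Finset.mem_union]
    by_cases h : Fre e z
    · right
      rw [Finset.mem_filter]
      exact ⟨Finset.mem_univ z, h⟩
    · left
      unfold Fre at h
      push Not at h
      obtain ⟨i, hi⟩ := h
      rw [Finset.mem_image]
      exact ⟨i, Finset.mem_univ i, hi⟩
  have h2 := Finset.card_le_card h1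
  have h3 : (univ : Finset (Cube d)).card = 2 ^ d := by
    rw [Finset.card_univ, Fintype.card_fun, ZMod.card, Fintype.card_fin]
  have h4 : (univ.image e).card ≤ m := by
    refine Finset.card_image_le.trans ?_
    rw [Finset.card_univ, Fintype.card_fin]
  have h5 := Finset.card_union_le (univ.image e) (univ.filter (Fre e))
  omega

/-- after a step in direction `s` the number of free sites of the half cube is at least an
eighth of the number `F` of free sites, with overwhelming probability -/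
theorem bin_tail {m : ℕ} (s : Fin d) (F : ℕ) (hF : m + F ≤ 2 ^ d) (e : Fin m → Cube d) :
    Kop s (fun e : Fin m → Cube d => if 8 * frH s e < F then (1 : ℝ) else 0) e ≤
      (3 / 4) ^ F := by
  have hG := GF_card_pos s
  -- the weights
  set w : ℝ := 5 / 6 with hw
  set w8 : ℝ := w ^ 8 with hw8
  set u : ℝ := (1 + w8) / 2 with hu
  have hw0 : (0 : ℝ) < w := by rw [hw]; norm_num
  have hw1 : w ≤ 1 := by rw [hw]; norm_num
  have hw80 : 0 < w8 := by rw [hw8]; positivity
  have hu0 : 0 < u := by rw [hu]; positivity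
  have hu1 : u ≤ 1 := by rw [hu, hw8, hw]; norm_num
  have huw : u ≤ 3 / 4 * w := by rw [hu, hw8, hw]; norm_num
  have hsq : w8 ≤ u ^ 2 := by
    have : 0 ≤ (1 - w8) ^ 2 := sq_nonneg _
    rw [hu]
    nlinarith
  have h1 : ∀ g : Perm (Cube d), (if 8 * frH s (g • e) < F then (1 : ℝ) else 0)
      ≤ (∏ x ∈ H0 s, (if Fre e (g⁻¹ x) then w8 else 1)) / w ^ F := by
    intro g
    rw [← pow_frH s e g w8, hw8, ← pow_mul]
    rw [le_div_iff₀ (pow_pos hw0 F)]
    split_ifs with h
    · rw [one_mul]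
      exact pow_le_pow_of_le_one hw0.le hw1 h.le
    · rw [zero_mul]
      positivity
  have h2 : ∑ g ∈ GF s, (if 8 * frH s (g • e) < F then (1 : ℝ) else 0)
      ≤ ((GF s).card : ℝ) * (∏ x ∈ H0 s, (((if Fre e x then w8 else 1)
        + (if Fre e (x + Pi.single s 1) then w8 else 1)) / 2)) / w ^ F := by
    refine (Finset.sum_le_sum fun g _ => h1 g).trans ?_
    rw [← Finset.sum_div, prod_avg s (fun x => if Fre e x then w8 else 1) (H0 s)
      (Finset.Subset.refl _)]
  have h3 : ∏ x ∈ H0 s, (((if Fre e x then w8 else 1)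
        + (if Fre e (x + Pi.single s 1) then w8 else 1)) / 2)
      ≤ ∏ x ∈ H0 s, ((if Fre e x then u else 1) * (if Fre e (x + Pi.single s 1) then u else 1))
      := by
    refine Finset.prod_le_prod ?_ ?_
    · intro x _
      split_ifs <;> positivity
    · intro x _
      split_ifs
      · nlinarith
      · rw [hu]; nlinarith
      · rw [hu]; nlinarith
      · norm_num
  have h4 : ∏ x ∈ H0 s, ((if Fre e x then u else 1)
      * (if Fre e (x + Pi.single s 1) then u else 1)) = u ^ (univ.filter (Fre e)).card := by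
    rw [← prod_split_half s (fun x => if Fre e x then u else 1), ← Finset.prod_filter,
      Finset.prod_const]
  have h5 : u ^ (univ.filter (Fre e)).card ≤ u ^ F := by
    apply pow_le_pow_of_le_one hu0.le hu1
    have := card_Fre e
    omega
  have h6 : ∏ x ∈ H0 s, (((if Fre e x then w8 else 1)
        + (if Fre e (x + Pi.single s 1) then w8 else 1)) / 2) ≤ (3 / 4) ^ F * w ^ F := by
    refine (h3.trans (h4.le.trans h5)).trans ?_
    rw [← mul_pow]
    exact pow_le_pow_left₀ hu0.le huw F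
  rw [Kop_apply, div_le_iff₀ hG]
  refine h2.trans ?_
  rw [div_le_iff₀ (pow_pos hw0 F)]
  calc ((GF s).card : ℝ) * (∏ x ∈ H0 s, (((if Fre e x then w8 else 1)
        + (if Fre e (x + Pi.single s 1) then w8 else 1)) / 2))
      ≤ ((GF s).card : ℝ) * ((3 / 4) ^ F * w ^ F) := mul_le_mul_of_nonneg_left h6 hG.le
    _ = (3 / 4) ^ F * ((GF s).card : ℝ) * w ^ F := by ring

/-- number of free sites in the half cube `x s = 1` -/
def frH' {m : ℕ} (s : Fin d) (e : Fin m → Cube d) : ℕ :=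
  ((H0 s).filter fun x => Fre e (x + Pi.single s 1)).card

/-- the flip in direction `s` -/
def flp (s : Fin d) : Perm (Cube d) := Equiv.addRight (Pi.single s 1 : Cube d)

lemma flp_apply (s : Fin d) (x : Cube d) : flp s x = x + Pi.single s 1 := rfl

lemma flp_mem (s : Fin d) : flp s ∈ GF s := mem_GF.mpr fun _ => Or.inr rfl

lemma flp_inv_apply (s : Fin d) (x : Cube d) : (flp s)⁻¹ x = x + Pi.single s 1 := by
  have h : (flp s)⁻¹ (flp s (x + Pi.single s 1)) = x + Pi.single s 1 :=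
    Equiv.symm_apply_apply (flp s) _
  rw [flp_apply, single_add_single] at h
  exact h

lemma frH'_eq {m : ℕ} (s : Fin d) (e : Fin m → Cube d) : frH' s e = frH s (flp s • e) := by
  rw [frH_eq]
  unfold frH'
  congr 1
  refine Finset.filter_congr fun x _ => ?_
  rw [Fre_smul, flp_inv_apply]

lemma Kop_flp {m : ℕ} (s : Fin d) (φ : (Fin m → Cube d) → ℝ) (e : Fin m → Cube d) :
    Kop s (fun e => φ (flp s • e)) e = Kop s φ e := by
  rw [Kop_apply, Kop_apply]
  refine congrArg (· / ((GF s).card : ℝ)) ?_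
  refine Finset.sum_bij' (fun g _ => flp s * g) (fun g _ => (flp s)⁻¹ * g) ?_ ?_ ?_ ?_ ?_
  · intro g hg; exact mul_mem_GF (flp_mem s) hg
  · intro g hg; exact mul_mem_GF (inv_mem_GF (flp_mem s)) hg
  · intro g _; simp
  · intro g _; simp
  · intro g _; rw [mul_smul]

/-- the half cubes contain too few free sites -/
def Bad {m : ℕ} (F : ℕ) (s : Fin d) (e : Fin m → Cube d) : ℝ :=
  if 8 * frH s e < F ∨ 8 * frH' s e < F then 1 else 0

lemma Bad_nonneg {m : ℕ} (F : ℕ) (s : Fin d) (e : Fin m → Cube d) : 0 ≤ Bad F s e := by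
  unfold Bad; split_ifs <;> norm_num

lemma Kop_Bad {m : ℕ} (s : Fin d) (F : ℕ) (hF : m + F ≤ 2 ^ d) (e : Fin m → Cube d) :
    Kop s (Bad F s) e ≤ 2 * (3 / 4) ^ F := by
  have h1 := bin_tail s F hF e
  have h2 : Kop s (fun e : Fin m → Cube d => if 8 * frH' s e < F then (1 : ℝ) else 0) e
      ≤ (3 / 4) ^ F := by
    have h3 : (fun e : Fin m → Cube d => if 8 * frH' s e < F then (1 : ℝ) else 0)
        = fun e => (fun e : Fin m → Cube d => if 8 * frH s e < F then (1 : ℝ) else 0)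
          (flp s • e) := by
      funext e
      simp only [frH'_eq]
    rw [h3, Kop_flp s (fun e : Fin m → Cube d => if 8 * frH s e < F then (1 : ℝ) else 0)]
    exact h1
  have h3 : Kop s (Bad F s) e ≤ Kop s (fun e : Fin m → Cube d =>
      (if 8 * frH s e < F then (1 : ℝ) else 0) + (if 8 * frH' s e < F then (1 : ℝ) else 0)) e := by
    refine Kop_mono s ?_ e
    intro e
    unfold Bad
    by_cases ha : 8 * frH s e < F
    · rw [if_pos (Or.inl ha), if_pos ha]
      split_ifs <;> norm_num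
    · by_cases hb : 8 * frH' s e < F
      · rw [if_pos (Or.inr hb), if_neg ha, if_pos hb]; norm_num
      · rw [if_neg (fun h => h.elim ha hb), if_neg ha, if_neg hb]; norm_num
  rw [Kop_add] at h3
  linarith

/-- `Bad` is not changed by the steps in the other directions -/
lemma frH_other {m : ℕ} {s t : Fin d} (hts : t ≠ s) {g : Perm (Cube d)} (hg : g ∈ GF t)
    (e : Fin m → Cube d) : frH s (g • e) = frH s e := by
  rw [frH_eq, frH_eq]
  have hc : ∀ h ∈ GF t, ∀ x : Cube d, (h x) s = x s := by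
    intro h hh x
    rcases mem_GF.mp hh x with h1 | h1
    · rw [h1]
    · rw [h1, Pi.add_apply, Pi.single_eq_of_ne (Ne.symm hts), add_zero]
  refine Finset.card_bij' (fun x _ => g⁻¹ x) (fun x _ => g x) ?_ ?_ ?_ ?_
  · intro x hx
    rw [Finset.mem_filter, mem_H0] at hx ⊢
    refine ⟨?_, (Fre_smul e g x).mp hx.2⟩
    rw [hc _ (inv_mem_GF hg)]
    exact hx.1
  · intro x hx
    rw [Finset.mem_filter, mem_H0] at hx ⊢
    refine ⟨?_, ?_⟩
    · rw [hc _ hg]
      exact hx.1
    · rw [Fre_smul, show g⁻¹ (g x) = x from Equiv.symm_apply_apply g x]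
      exact hx.2
  · intro x _
    exact Equiv.apply_symm_apply g x
  · intro x _
    exact Equiv.symm_apply_apply g x

lemma flp_comm {s t : Fin d} {g : Perm (Cube d)} (hg : g ∈ GF t) :
    flp s * g * (flp s)⁻¹ ∈ GF t := by
  rw [mem_GF] at *
  intro x
  rw [Perm.mul_apply, Perm.mul_apply, flp_inv_apply, flp_apply]
  rcases hg (x + Pi.single s 1) with h | h
  · left; rw [h, single_add_single]
  · right; rw [h, add_right_comm, single_add_single]

lemma frH'_other {m : ℕ} {s t : Fin d} (hts : t ≠ s) {g : Perm (Cube d)} (hg : g ∈ GF t)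
    (e : Fin m → Cube d) : frH' s (g • e) = frH' s e := by
  rw [frH'_eq, frH'_eq]
  have h1 : flp s • g • e = (flp s * g * (flp s)⁻¹) • flp s • e := by
    rw [← mul_smul, ← mul_smul]
    simp
  rw [h1]
  exact frH_other hts (flp_comm hg) _

lemma Kl_Bad_other {m : ℕ} (F : ℕ) (s : Fin d) (l : List (Fin d)) (hl : ∀ t ∈ l, t ≠ s) :
    Kl l (Bad F s : (Fin m → Cube d) → ℝ) = Bad F s := by
  induction l with
  | nil => rfl
  | cons t l ih =>
    rw [Kl_cons, ih (fun t' ht' => hl t' (List.mem_cons_of_mem _ ht'))]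
    funext e
    have ht : t ≠ s := hl t List.mem_cons_self
    rw [Kop_apply, Finset.sum_congr rfl (g := fun _ => Bad F s e), Finset.sum_const,
      nsmul_eq_mul, mul_comm, mul_div_assoc, div_self (GF_card_pos t).ne', mul_one]
    intro g hg
    unfold Bad
    rw [frH_other ht hg, frH'_other ht hg]

lemma Ml_Nrm_mul_le {m : ℕ} (l : List (Fin d)) (B : (Fin m → Cube d) → ℝ) (hB : ∀ e, 0 ≤ B e)
    (e : Fin m → Cube d) (q : Cube d → ℝ) :
    Ml l (fun e q => Nrm e q * B e) e q ≤ Nrm e q * Kl l B e := by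
  induction l generalizing e q with
  | nil => exact le_refl _
  | cons s l ih =>
    have h0 : ∀ e, 0 ≤ Kl l B e := by
      intro e
      have := Kl_mono l (φ := fun _ => (0 : ℝ)) (ψ := B) hB e
      rwa [Kl_const] at this
    change Mop s (Ml l (fun e q => Nrm e q * B e)) e q ≤ _
    refine (Mop_mono s ih e q).trans ?_
    rw [Mop_apply, Kl_cons, Kop_apply, ← mul_div_assoc]
    apply div_le_div_of_nonneg_right _ (GF_card_pos s).le
    rw [Finset.mul_sum]
    refine Finset.sum_le_sum fun g hg => ?_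
    rw [Nrm_Astep hg e (⇑g ∘ e) q]
    have h1 := Gam_nonneg s e q
    have h2 : Kl l B (⇑g ∘ e) = Kl l B (g • e) := rfl
    rw [h2]
    exact mul_le_mul_of_nonneg_right (by linarith) (h0 _)

lemma sum_fr_eq {m : ℕ} (s : Fin d) (e : Fin m → Cube d) :
    ∑ y ∈ H0 s, fr e y = (frH s e : ℝ) := by
  rw [frH_eq, Finset.card_filter]
  push_cast
  refine Finset.sum_congr rfl fun y _ => ?_
  unfold fr
  by_cases h : Fre e y
  · rw [if_pos h, if_neg]
    rintro ⟨i, hi⟩
    exact h i hi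
  · rw [if_neg h, if_pos]
    unfold Fre at h
    push Not at h
    exact h

lemma sum_fr_eq' {m : ℕ} (s : Fin d) (e : Fin m → Cube d) :
    ∑ y ∈ H0 s, fr e (y + Pi.single s 1) = (frH' s e : ℝ) := by
  unfold frH'
  rw [Finset.card_filter]
  push_cast
  refine Finset.sum_congr rfl fun y _ => ?_
  unfold fr
  by_cases h : Fre e (y + Pi.single s 1)
  · rw [if_pos h, if_neg]
    rintro ⟨i, hi⟩
    exact h i hi
  · rw [if_neg h, if_pos]
    unfold Fre at h
    push Not at h
    exact h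

lemma avg_Gam2 {m : ℕ} (s : Fin d) (F : ℕ) (e : Fin m → Cube d) (q : Cube d → ℝ)
    (hv : Val e q) :
    ((H0 s).card : ℝ) * ((F / (8 * 2 ^ d) : ℝ) * (Nrm e q * (1 - Bad F s e)))
      ≤ ∑ v ∈ H0 s, Tw (shear s v) (Gam s) e q := by
  have hpos : 0 ≤ ∑ v ∈ H0 s, Tw (shear s v) (Gam s) e q :=
    Finset.sum_nonneg fun v _ => Gam_nonneg _ _ _
  by_cases hb : 8 * frH s e < F ∨ 8 * frH' s e < F
  · have h1 : Bad F s e = 1 := if_pos hb
    rw [h1, sub_self, mul_zero, mul_zero, mul_zero]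
    exact hpos
  have h0 : Bad F s e = 0 := if_neg hb
  push Not at hb
  rw [h0, sub_zero, mul_one, sum_Tw_Gam]
  obtain ⟨hq, hs⟩ := hv
  have h1 : ∀ y z : Cube d, KE e q y (z + Pi.single s 1)
      = q y ^ 2 * fr e (z + Pi.single s 1) - 2 * (q y * q (z + Pi.single s 1))
        + fr e y * q (z + Pi.single s 1) ^ 2 := by
    intro y z
    have ha := fr_mul_q hq y
    have hb := fr_mul_q hq (z + Pi.single s 1)
    unfold KE
    have e1 : fr e y * fr e (z + Pi.single s 1) * (q y - q (z + Pi.single s 1)) ^ 2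
        = (fr e y * q y) * q y * fr e (z + Pi.single s 1)
          - 2 * ((fr e y * q y) * (fr e (z + Pi.single s 1) * q (z + Pi.single s 1)))
          + fr e y * ((fr e (z + Pi.single s 1) * q (z + Pi.single s 1))
            * q (z + Pi.single s 1)) := by ring
    rw [e1, ha, hb]
    ring
  have h2 : ∑ y ∈ H0 s, ∑ z ∈ H0 s, KE e q y (z + Pi.single s 1)
      = (∑ y ∈ H0 s, q y ^ 2) * (∑ z ∈ H0 s, fr e (z + Pi.single s 1))
        - 2 * ((∑ y ∈ H0 s, q y) * (∑ z ∈ H0 s, q (z + Pi.single s 1)))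
        + (∑ y ∈ H0 s, fr e y) * (∑ z ∈ H0 s, q (z + Pi.single s 1) ^ 2) := by
    simp only [h1]
    simp only [Finset.sum_add_distrib, Finset.sum_sub_distrib, ← Finset.mul_sum,
      ← Finset.sum_mul]
  rw [h2]
  have h3 : Nrm e q = ∑ y ∈ H0 s, q y ^ 2 + ∑ z ∈ H0 s, q (z + Pi.single s 1) ^ 2 :=
    split_half s (fun x => q x ^ 2)
  have h4 : ∑ y ∈ H0 s, q y + ∑ z ∈ H0 s, q (z + Pi.single s 1) = 0 := by
    rw [← split_half s]; exact hs
  have h7 := two_card_H0 s
  have h8 : (0 : ℝ) ≤ ∑ y ∈ H0 s, q y ^ 2 := Finset.sum_nonneg fun y _ => sq_nonneg _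
  have h9 : (0 : ℝ) ≤ ∑ z ∈ H0 s, q (z + Pi.single s 1) ^ 2 :=
    Finset.sum_nonneg fun y _ => sq_nonneg _
  have h2d : (0 : ℝ) < 2 ^ d := by positivity
  have hF0 : (F : ℝ) ≤ 8 * frH s e := by exact_mod_cast hb.1
  have hF1 : (F : ℝ) ≤ 8 * frH' s e := by exact_mod_cast hb.2
  rw [h3, sum_fr_eq, sum_fr_eq']
  set c : ℝ := ((H0 s).card : ℝ) with hc
  set S0 := ∑ y ∈ H0 s, q y ^ 2
  set S1 := ∑ z ∈ H0 s, q (z + Pi.single s 1) ^ 2
  set P0 := ∑ y ∈ H0 s, q y
  set P1 := ∑ z ∈ H0 s, q (z + Pi.single s 1)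
  have h10 : P1 = - P0 := by linarith
  have h11 : c * ((F / (8 * 2 ^ d) : ℝ) * (S0 + S1)) = F / 16 * (S0 + S1) := by
    rw [← h7]
    have hc0 : (0 : ℝ) < c := by linarith
    field_simp
    ring
  rw [h11, h10]
  nlinarith [mul_le_mul_of_nonneg_left hF1 h8, mul_le_mul_of_nonneg_right hF0 h9, sq_nonneg P0]

/-- the key step -/
lemma Ml_key2 {m : ℕ} (s : Fin d) (F : ℕ) (l : List (Fin d)) (h1 : ∀ t ∈ l, t ≠ s)
    (h2 : ∀ t, t ≠ s → t ∈ l) (e : Fin m → Cube d) (q : Cube d → ℝ)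
    (hv : Val e q) : Ml l (Mop s Nrm) e q ≤ (1 - F / (8 * 2 ^ d) : ℝ) * Ml l Nrm e q
      + (F / (8 * 2 ^ d) : ℝ) * Ml l (fun e q => Nrm e q * Bad F s e) e q := by
  have hc : (0 : ℝ) < ((H0 s).card : ℝ) := by
    have := two_card_H0 s
    have h : (0 : ℝ) < 2 ^ d := by positivity
    linarith
  have e1 : ((H0 s).card : ℝ) * Ml l (Gam s) e q
      = Ml l (fun e q => ∑ v ∈ H0 s, Tw (shear s v) (Gam s) e q) e q := by
    rw [Ml_sum]
    simp only [Ml_shear s l h1 h2]
    rw [Finset.sum_const, nsmul_eq_mul]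
  have e2 : Ml l (fun e q => ((H0 s).card : ℝ) *
      ((F / (8 * 2 ^ d) : ℝ) * (Nrm e q * (1 - Bad F s e)))) e q
      ≤ Ml l (fun e q => ∑ v ∈ H0 s, Tw (shear s v) (Gam s) e q) e q :=
    Ml_mono_val l (fun e q hv => avg_Gam2 s F e q hv) e q hv
  rw [← e1, Ml_const_mul l ((H0 s).card : ℝ)
      (fun e q => (F / (8 * 2 ^ d) : ℝ) * (Nrm e q * (1 - Bad F s e))),
    Ml_const_mul l (F / (8 * 2 ^ d) : ℝ) (fun e q => Nrm e q * (1 - Bad F s e))] at e2
  have e3 := le_of_mul_le_mul_left e2 hc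
  have e4 : (fun (e : Fin m → Cube d) (q : Cube d → ℝ) => Nrm e q * (1 - Bad F s e))
      = fun e q => Nrm e q - Nrm e q * Bad F s e := by
    funext e q; ring
  rw [e4, Ml_sub l Nrm (fun e q => Nrm e q * Bad F s e)] at e3
  rw [Mop_Nrm, Ml_sub]
  have e3' : (F / (8 * 2 ^ d) : ℝ) * (Ml l Nrm e q
    - Ml l (fun e q => Nrm e q * Bad F s e) e q) ≤ Ml l (Gam s) e q := e3
  change Ml l Nrm e q - Ml l (Gam s) e q ≤ _
  linarith

lemma Mop_add {m : ℕ} (s : Fin d) (Φ Ψ : (Fin m → Cube d) → (Cube d → ℝ) → ℝ) :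
    Mop s (fun e q => Φ e q + Ψ e q) = fun e q => Mop s Φ e q + Mop s Ψ e q := by
  funext e q
  rw [Mop_apply, Mop_apply, Mop_apply, Finset.sum_add_distrib, add_div]

lemma Ml_add {m : ℕ} (l : List (Fin d)) (Φ Ψ : (Fin m → Cube d) → (Cube d → ℝ) → ℝ) :
    Ml l (fun e q => Φ e q + Ψ e q) = fun e q => Ml l Φ e q + Ml l Ψ e q := by
  induction l with
  | nil => rfl
  | cons s l ih =>
    change Mop s (Ml l (fun e q => Φ e q + Ψ e q))
      = fun e q => Mop s (Ml l Φ) e q + Mop s (Ml l Ψ) e q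
    rw [ih, Mop_add]

theorem Ml_decay2 {m : ℕ} [NeZero d] (T : ℕ) (hT : d ≤ T) (F : ℕ) (hF : m + F ≤ 2 ^ d)
    (hF0 : 0 < F) (e : Fin m → Cube d) (q : Cube d → ℝ) (hq : ∀ i, q (e i) = 0)
    (hs : ∑ x, q x = 0) :
    Ml (dirs d T) (fun _ q => ∑ x, q x ^ 2) e q ≤
      ((1 - F / (8 * 2 ^ d)) ^ (T - d) + (16 * 2 ^ d / F) * (3 / 4) ^ F) * ∑ x, q x ^ 2 := by
  have hd : 0 < d := Nat.pos_of_ne_zero (NeZero.ne d)
  have h2d : (0 : ℝ) < 2 ^ d := by positivity
  have hFr : (0 : ℝ) < F := by exact_mod_cast hF0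
  have hF2 : (F : ℝ) ≤ 2 ^ d := by
    have : F ≤ 2 ^ d := by omega
    exact_mod_cast this
  set c : ℝ := F / (8 * 2 ^ d) with hc
  have hc0 : 0 ≤ c := by rw [hc]; positivity
  have hc1 : c ≤ 1 := by
    rw [hc, div_le_one (by positivity)]
    linarith
  have hN : 0 ≤ Nrm e q := Finset.sum_nonneg fun x _ => sq_nonneg _
  -- one step
  have step : ∀ t, d ≤ t → Ml (dirs d (t + 1)) Nrm e q
      ≤ (1 - c) * Ml (dirs d t) Nrm e q + c * (2 * (3 / 4) ^ F * Nrm e q) := by
    intro t ht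
    obtain ⟨k, rfl⟩ : ∃ k, t = (k + 1) + (d - 1) := ⟨t - d, by omega⟩
    set s : Fin d := Fin.ofNat d ((k + 1) + (d - 1)) with hs'
    have hsk : Fin.ofNat d k = s := by
      rw [hs']
      apply Fin.ext
      rw [Fin.val_ofNat, Fin.val_ofNat, show (k + 1) + (d - 1) = k + d by omega,
        Nat.add_mod_right]
    have h1 : Ml (dirs d ((k + 1) + (d - 1) + 1)) Nrm e q
        = Ml (dirs d (k + 1)) (Ml (lastDirs d (k + 1)) (Mop s Nrm)) e q := by
      rw [dirs_succ, Ml_append, ← Ml_append (dirs d (k + 1)), ← dirs_split]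
      rfl
    have h2 : ∀ Ψ : (Fin m → Cube d) → (Cube d → ℝ) → ℝ, Ml (dirs d ((k + 1) + (d - 1))) Ψ e q
        = Ml (dirs d (k + 1)) (Ml (lastDirs d (k + 1)) Ψ) e q := by
      intro Ψ
      rw [← Ml_append, ← dirs_split]
    have h3 : Ml (dirs d (k + 1)) (Ml (lastDirs d (k + 1)) (Mop s Nrm)) e q
        ≤ Ml (dirs d (k + 1)) (fun e q => (1 - c) * Ml (lastDirs d (k + 1)) Nrm e q
          + c * Ml (lastDirs d (k + 1)) (fun e q => Nrm e q * Bad F s e) e q) e q := by
      refine Ml_mono_val (dirs d (k + 1)) ?_ e q ⟨hq, hs⟩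
      intro e' q' hv
      exact Ml_key2 s F _ (lastDirs_ne (k + 1)) (mem_lastDirs (k + 1)) e' q' hv
    rw [Ml_add (dirs d (k + 1)) (fun e q => (1 - c) * Ml (lastDirs d (k + 1)) Nrm e q)
        (fun e q => c * Ml (lastDirs d (k + 1)) (fun e q => Nrm e q * Bad F s e) e q),
      Ml_const_mul (dirs d (k + 1)) (1 - c) (Ml (lastDirs d (k + 1)) Nrm),
      Ml_const_mul (dirs d (k + 1)) c
        (Ml (lastDirs d (k + 1)) (fun e q => Nrm e q * Bad F s e))] at h3
    have h4 : Ml (dirs d ((k + 1) + (d - 1) + 1)) Nrm e q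
        ≤ (1 - c) * Ml (dirs d ((k + 1) + (d - 1))) Nrm e q
          + c * Ml (dirs d ((k + 1) + (d - 1))) (fun e q => Nrm e q * Bad F s e) e q := by
      rw [h1, h2, h2]
      exact h3
    have h5 : Ml (dirs d ((k + 1) + (d - 1))) (fun e q => Nrm e q * Bad F s e) e q
        ≤ Nrm e q * Kl (dirs d ((k + 1) + (d - 1))) (Bad F s) e :=
      Ml_Nrm_mul_le _ _ (Bad_nonneg F s) e q
    have h6 : Kl (dirs d ((k + 1) + (d - 1))) (Bad F s : (Fin m → Cube d) → ℝ) e
        ≤ 2 * (3 / 4) ^ F := by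
      rw [dirs_split, Kl_append, Kl_Bad_other F s _ (lastDirs_ne (k + 1)), dirs_succ, Kl_append,
        Kl_cons, hsk]
      have h7 := Kl_mono (dirs d k) (φ := Kop s (Bad F s : (Fin m → Cube d) → ℝ))
        (ψ := fun _ => 2 * (3 / 4) ^ F) (fun e => Kop_Bad s F hF e) e
      rwa [Kl_const] at h7
    refine h4.trans ?_
    have h8 : c * Ml (dirs d ((k + 1) + (d - 1))) (fun e q => Nrm e q * Bad F s e) e q
        ≤ c * (2 * (3 / 4) ^ F * Nrm e q) := by
      apply mul_le_mul_of_nonneg_left _ hc0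
      refine h5.trans ?_
      rw [mul_comm]
      exact mul_le_mul_of_nonneg_right h6 hN
    linarith
  have key : ∀ k : ℕ, Ml (dirs d (d + k)) Nrm e q
      ≤ ((1 - c) ^ k + 2 * (3 / 4) ^ F) * Nrm e q := by
    intro k
    induction k with
    | zero =>
      have h1 := Ml_Nrm_le (dirs d (d + 0)) e q
      have h2 : 0 ≤ 2 * (3 / 4 : ℝ) ^ F * Nrm e q := by positivity
      rw [pow_zero]
      linarith
    | succ k ih =>
      have h1 := step (d + k) (by omega)
      have h2 : (1 - c) * Ml (dirs d (d + k)) Nrm e q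
          ≤ (1 - c) * (((1 - c) ^ k + 2 * (3 / 4) ^ F) * Nrm e q) :=
        mul_le_mul_of_nonneg_left ih (by linarith)
      rw [← add_assoc, pow_succ]
      refine h1.trans ((add_le_add_left h2 _).trans (le_of_eq ?_))
      ring
  have h1 := key (T - d)
  rw [show d + (T - d) = T by omega] at h1
  refine h1.trans ?_
  apply mul_le_mul_of_nonneg_right _ hN
  have h2 : (2 : ℝ) ≤ 16 * 2 ^ d / F := by
    rw [le_div_iff₀ hFr]
    linarith
  have h3 : (2 : ℝ) * (3 / 4) ^ F ≤ (16 * 2 ^ d / F) * (3 / 4) ^ F :=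
    mul_le_mul_of_nonneg_right h2 (by positivity)
  linarith

end

end Vale.Agent.P162
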