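import Mathlib

/-! # Numerics for the partial-permutation theorem -/

namespace Vale.Agent.P162

theorem set_numeric_ev (ε : ℝ) (hε : 0 < ε) (k : ℕ) :
    ∃ d₀ : ℕ, ∀ d : ℕ, d₀ ≤ d →
      (32 / ε) * Real.exp (-(ε * 2 ^ d / 8)) * (2 ^ d) ^ k ≤ 1 := by
  have h1 := Real.tendsto_pow_mul_exp_neg_atTop_nhds_zero k
  have h2 : Filter.Tendsto (fun d : ℕ => ε / 8 * (2 : ℝ) ^ d) Filter.atTop Filter.atTop :=
    (tendsto_pow_atTop_atTop_of_one_lt (by norm_num : (1 : ℝ) < 2)).const_mul_atTop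
      (by positivity)
  have h3 := h1.comp h2
  have hpos : 0 < ε / 32 * (ε / 8) ^ k := by positivity
  have h4 := (h3.eventually (gt_mem_nhds hpos)).exists_forall_of_atTop
  obtain ⟨d₀, hd₀⟩ := h4
  refine ⟨d₀, fun d hd => ?_⟩
  have h5 := hd₀ d hd
  simp only [Function.comp] at h5
  have e1 : (ε / 8 * (2 : ℝ) ^ d) ^ k = (ε / 8) ^ k * (2 ^ d) ^ k := by rw [mul_pow]
  have e2 : -(ε / 8 * (2 : ℝ) ^ d) = -(ε * 2 ^ d / 8) := by ring
  rw [e1, e2] at h5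
  have hk : 0 < (ε / 8) ^ k := by positivity
  have h6 : (2 ^ d) ^ k * Real.exp (-(ε * 2 ^ d / 8)) < ε / 32 := by
    have : (ε / 8) ^ k * ((2 ^ d) ^ k * Real.exp (-(ε * 2 ^ d / 8))) < (ε / 8) ^ k * (ε / 32) := by
      linarith
    exact lt_of_mul_lt_mul_left this hk.le
  have h7 : (32 / ε) * Real.exp (-(ε * 2 ^ d / 8)) * (2 ^ d) ^ k =
      (32 / ε) * ((2 ^ d) ^ k * Real.exp (-(ε * 2 ^ d / 8))) := by ring
  rw [h7]
  have h8 := mul_le_mul_of_nonneg_left h6.le (show 0 ≤ 32 / ε by positivity)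
  refine h8.trans (le_of_eq ?_)
  field_simp

theorem set_numeric (ε : ℝ) (hε : 0 < ε) (hε1 : ε ≤ 1) (A : ℕ) :
    ∃ C d₀ : ℕ, 0 < d₀ ∧ ∀ d : ℕ, d₀ ≤ d → ∀ t : ℕ, C * d ≤ t → ∀ s F : ℕ, s + F ≤ 2 ^ d →
      ε * 2 ^ d ≤ F + 1 → 0 < F →
      d ≤ t ∧ s * (Real.sqrt (2 ^ d) *
        Real.sqrt ((1 - F / (8 * 2 ^ d)) ^ (t - d) + (16 * 2 ^ d / F) * (3 / 4) ^ F)) / 2 ≤
          1 / (2 ^ d) ^ A := by
  obtain ⟨d₁, hd₁⟩ := set_numeric_ev ε hε (2 * A + 5)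
  obtain ⟨d₂, hd₂⟩ : ∃ d₂ : ℕ, 2 / ε ≤ (2 : ℝ) ^ d₂ := by
    obtain ⟨n, hn⟩ := pow_unbounded_of_one_lt (2 / ε) (by norm_num : (1 : ℝ) < 2)
    exact ⟨n, hn.le⟩
  set C : ℕ := ⌈16 * (2 * A + 5) / ε⌉₊ + 1 with hC
  have hCr : 16 * (2 * A + 5) / ε ≤ ((C - 1 : ℕ) : ℝ) := by
    rw [hC, Nat.add_sub_cancel]
    exact Nat.le_ceil _
  refine ⟨C, max (max d₁ d₂) 1, by positivity, ?_⟩
  intro d hd t ht s F hsF hF hF0
  have hdd1 : d₁ ≤ d := le_trans (le_trans (le_max_left _ _) (le_max_left _ _)) hd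
  have hdd2 : d₂ ≤ d := le_trans (le_trans (le_max_right _ _) (le_max_left _ _)) hd
  have hd1 : 1 ≤ d := le_trans (le_max_right _ _) hd
  have hC1 : 1 ≤ C := by omega
  have hdt : d ≤ t := le_trans (by nlinarith) ht
  refine ⟨hdt, ?_⟩
  set N : ℝ := 2 ^ d with hN
  have hN1 : 1 ≤ N := one_le_pow₀ (by norm_num)
  have hN2 : 2 ≤ N := by
    calc (2 : ℝ) = 2 ^ 1 := by norm_num
      _ ≤ 2 ^ d := pow_le_pow_right₀ (by norm_num) hd1
  have hNε : 2 ≤ ε * N := by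
    have : 2 / ε ≤ N := hd₂.trans (pow_le_pow_right₀ (by norm_num) hdd2)
    rw [div_le_iff₀ hε] at this
    linarith
  have hFN : (F : ℝ) ≤ N := by
    have : ((F : ℕ) : ℝ) ≤ ((2 ^ d : ℕ) : ℝ) := by exact_mod_cast (by omega : F ≤ 2 ^ d)
    push_cast at this
    exact this
  have hsN : (s : ℝ) ≤ N := by
    have : ((s : ℕ) : ℝ) ≤ ((2 ^ d : ℕ) : ℝ) := by exact_mod_cast (by omega : s ≤ 2 ^ d)
    push_cast at this
    exact this
  have hF2 : ε * N / 2 ≤ F := by linarith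
  have hFpos : (0 : ℝ) < F := by exact_mod_cast hF0
  have hNpos : 0 < N := by linarith
  -- first term
  have hx : ε / 16 ≤ F / (8 * N) := by
    rw [div_le_div_iff₀ (by norm_num) (by positivity)]
    linarith
  have hx1 : F / (8 * N) ≤ 1 := by
    rw [div_le_one (by positivity)]
    linarith
  have hexp1 : (1 - F / (8 * N)) ≤ Real.exp (-(ε / 16)) := by
    have := Real.add_one_le_exp (-(ε / 16))
    linarith
  have hb1 : (1 - F / (8 * N)) ^ (t - d) ≤ 1 / N ^ (2 * A + 5) := by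
    have h1 : (1 - F / (8 * N)) ^ (t - d) ≤ Real.exp (-(ε / 16)) ^ (t - d) :=
      pow_le_pow_left₀ (by linarith) hexp1 _
    refine h1.trans ?_
    rw [← Real.exp_nat_mul]
    have h2 : (((C - 1 : ℕ) : ℝ)) * d ≤ ((t - d : ℕ) : ℝ) := by
      have : (C - 1) * d ≤ t - d := by
        rw [Nat.sub_mul, one_mul]
        exact Nat.sub_le_sub_right ht d
      exact_mod_cast this
    have h3 : (2 * A + 5 : ℝ) * d ≤ ((t - d : ℕ) : ℝ) * (ε / 16) := by
      have h4 : (2 * A + 5 : ℝ) ≤ ((C - 1 : ℕ) : ℝ) * (ε / 16) := by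
        rw [div_le_iff₀ hε] at hCr
        linarith
      have h5 := mul_le_mul_of_nonneg_right h4 (show (0 : ℝ) ≤ d by positivity)
      have h6 := mul_le_mul_of_nonneg_right h2 (show (0 : ℝ) ≤ ε / 16 by positivity)
      linarith
    have h7 : ((t - d : ℕ) : ℝ) * -(ε / 16) ≤ -((2 * A + 5 : ℝ) * d) := by linarith
    refine (Real.exp_le_exp.2 h7).trans ?_
    rw [Real.exp_neg, one_div]
    apply inv_anti₀ (by positivity)
    have h8 : (2 : ℝ) ≤ Real.exp 1 := by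
      have := Real.add_one_le_exp (1 : ℝ)
      linarith
    have h9 : N ^ (2 * A + 5) = 2 ^ (d * (2 * A + 5)) := by rw [hN, ← pow_mul]
    have h10 : Real.exp ((2 * A + 5 : ℝ) * d) = Real.exp 1 ^ (d * (2 * A + 5)) := by
      rw [← Real.exp_nat_mul]
      congr 1
      push_cast
      ring
    rw [h9, h10]
    exact pow_le_pow_left₀ (by norm_num) h8 _
  -- second term
  have hb2 : (16 * N / F) * (3 / 4) ^ F ≤ 1 / N ^ (2 * A + 5) := by
    have h1 : ((3 : ℝ) / 4) ^ F ≤ Real.exp (-(ε * N / 8)) := by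
      have h2 : (3 / 4 : ℝ) ≤ Real.exp (-(1 / 4)) := by
        have := Real.add_one_le_exp (-(1 / 4) : ℝ)
        linarith
      refine (pow_le_pow_left₀ (by norm_num) h2 F).trans ?_
      rw [← Real.exp_nat_mul]
      apply Real.exp_le_exp.2
      linarith
    have h2 : 16 * N / F ≤ 32 / ε := by
      rw [div_le_div_iff₀ hFpos hε]
      linarith
    have h3 : (16 * N / F) * (3 / 4) ^ F ≤ (32 / ε) * Real.exp (-(ε * N / 8)) :=
      mul_le_mul h2 h1 (by positivity) (by positivity)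
    refine h3.trans ?_
    rw [le_div_iff₀ (by positivity)]
    exact hd₁ d hdd1
  have hb : (1 - F / (8 * N)) ^ (t - d) + (16 * N / F) * (3 / 4) ^ F ≤
      (1 / N ^ (A + 2)) ^ 2 := by
    have h1 : 1 / N ^ (2 * A + 5) + 1 / N ^ (2 * A + 5) ≤ (1 / N ^ (A + 2)) ^ 2 := by
      have e : (1 / N ^ (A + 2)) ^ 2 = N * (1 / N ^ (2 * A + 5)) := by
        have : N ^ (2 * A + 5) = N * (N ^ (A + 2)) ^ 2 := by ring
        rw [this]
        field_simp
      rw [e]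
      have : 0 ≤ 1 / N ^ (2 * A + 5) := by positivity
      nlinarith
    linarith
  have hsqrt : Real.sqrt ((1 - F / (8 * N)) ^ (t - d) + (16 * N / F) * (3 / 4) ^ F) ≤
      1 / N ^ (A + 2) :=
    (Real.sqrt_le_left (by positivity)).2 hb
  have hsqN : Real.sqrt N ≤ N := (Real.sqrt_le_left hNpos.le).2 (by nlinarith)
  calc s * (Real.sqrt N *
        Real.sqrt ((1 - F / (8 * N)) ^ (t - d) + (16 * N / F) * (3 / 4) ^ F)) / 2
      ≤ N * (N * (1 / N ^ (A + 2))) / 2 := by gcongr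
    _ = 1 / N ^ A / 2 := by
        rw [pow_add]
        field_simp
    _ ≤ 1 / N ^ A := by
        have : 0 ≤ 1 / N ^ A := by positivity
        linarith

end Vale.Agent.P162
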