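import Vale.Agent.P162.PartialDefs
import Vale.Agent.P162.ThmA2
import Vale.Agent.P162.Thorp

/-! # All but `F` cards: the deck-level bound -/

namespace Vale.Agent.P162

open Finset Equiv

noncomputable section

namespace SetTVAux

open ThorpAux

/-- the signed excess of the law of the positions of the cards in `S` -/
def exc (d t : ℕ) (S : Finset (Fin (2 * 2 ^ d))) (x : S → Fin (2 * 2 ^ d)) : ℝ :=
  ∑ g ∈ univ.filter (fun g : Perm (Fin (2 * 2 ^ d)) => ∀ i : S, g i = x i),
      (convPow (2 ^ d) t g - 1 / (Nat.factorial (2 * 2 ^ d) : ℝ))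

/-- its sign -/
def sg1 (d t : ℕ) (S : Finset (Fin (2 * 2 ^ d))) (x : S → Fin (2 * 2 ^ d)) : ℝ :=
  if 0 ≤ exc d t S x then 1 else -1

lemma abs_sg1 (d t : ℕ) (S : Finset (Fin (2 * 2 ^ d))) (x : S → Fin (2 * 2 ^ d)) :
    |sg1 d t S x| ≤ 1 := by
  rw [sg1]
  split_ifs <;> simp

lemma abs_exc (d t : ℕ) (S : Finset (Fin (2 * 2 ^ d))) (x : S → Fin (2 * 2 ^ d)) :
    |exc d t S x| = sg1 d t S x * exc d t S x := by
  rw [sg1]
  split_ifs with h
  · rw [one_mul, abs_of_nonneg h]
  · rw [abs_of_neg (not_le.mp h)]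
    ring

/-- the test function on tuples of sites -/
def tst (d t : ℕ) (S : Finset (Fin (2 * 2 ^ d))) (e : Fin S.card → Cube (d + 1)) : ℝ :=
  sg1 d t S (fun i => (enc d).symm (((rot d) ^ t) (e (S.equivFin i))))

/-- the sites of the cards in `S` -/
def js (d : ℕ) (S : Finset (Fin (2 * 2 ^ d))) (k : Fin S.card) : Cube (d + 1) :=
  enc d ((S.equivFin.symm k : S) : Fin (2 * 2 ^ d))

lemma js_inj (d : ℕ) (S : Finset (Fin (2 * 2 ^ d))) : Function.Injective (js d S) := by
  intro a b hab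
  have h1 := (enc d).injective hab
  exact S.equivFin.symm.injective (Subtype.ext h1)

lemma js_equivFin (d : ℕ) (S : Finset (Fin (2 * 2 ^ d))) (i : S) :
    js d S (S.equivFin i) = enc d i := by
  rw [js, symm_apply_apply]

lemma sum_exc (d t : ℕ) (S : Finset (Fin (2 * 2 ^ d))) :
    ∑ x : S → Fin (2 * 2 ^ d), |exc d t S x| =
      ∑ g : Perm (Fin (2 * 2 ^ d)),
        (convPow (2 ^ d) t g - 1 / (Nat.factorial (2 * 2 ^ d) : ℝ)) *
          sg1 d t S (fun i : S => g i) := by
  classical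
  have h1 : ∀ x : S → Fin (2 * 2 ^ d), |exc d t S x| =
      ∑ g : Perm (Fin (2 * 2 ^ d)), if (fun i : S => g i) = x then
        (convPow (2 ^ d) t g - 1 / (Nat.factorial (2 * 2 ^ d) : ℝ)) * sg1 d t S x else 0 := by
    intro x
    rw [abs_exc, ← Finset.sum_filter, exc, Finset.mul_sum]
    have h2 : (univ.filter (fun g : Perm (Fin (2 * 2 ^ d)) => ∀ i : S, g i = x i)) =
        univ.filter (fun g : Perm (Fin (2 * 2 ^ d)) => (fun i : S => g i) = x) := by
      apply Finset.filter_congr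
      intro g _
      exact funext_iff.symm
    rw [h2]
    apply Finset.sum_congr rfl
    intro g _
    ring
  rw [Finset.sum_congr rfl (fun x _ => h1 x), Finset.sum_comm]
  apply Finset.sum_congr rfl
  intro g _
  rw [Finset.sum_ite_eq, if_pos (mem_univ _)]

lemma sum_law (d t : ℕ) (S : Finset (Fin (2 * 2 ^ d))) :
    ∑ g : Perm (Fin (2 * 2 ^ d)), convPow (2 ^ d) t g * sg1 d t S (fun i : S => g i) =
      Kl (dirs (d + 1) t) (tst d t S) (js d S) := by
  have h := sum_convPow d t (fun σ => sg1 d t S (fun i : S => (enc d).symm (σ (enc d i))))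
  have h1 : ∀ g : Perm (Fin (2 * 2 ^ d)),
      sg1 d t S (fun i : S => (enc d).symm (((enc d).permCongrHom g) (enc d i))) =
      sg1 d t S (fun i : S => g i) := by
    intro g
    congr 1
    funext i
    change (enc d).symm (enc d (g ((enc d).symm (enc d i)))) = g i
    rw [symm_apply_apply, symm_apply_apply]
  simp only [h1] at h
  rw [h]
  have h2 := Kl_comp (Y := Perm (Cube (d + 1))) (Y' := Fin S.card → Cube (d + 1))
    (fun σ k => σ (js d S k)) (fun g σ => rfl) (dirs (d + 1) t) (tst d t S) 1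
  have h3 : (fun k => (1 : Perm (Cube (d + 1))) (js d S k)) = js d S := rfl
  rw [h3] at h2
  rw [← h2]
  congr 1
  funext σ
  rw [tst]
  congr 1
  funext i
  rw [js_equivFin]
  rfl

lemma sum_unif (d t : ℕ) (S : Finset (Fin (2 * 2 ^ d))) :
    ∑ g : Perm (Fin (2 * 2 ^ d)), 1 / (Nat.factorial (2 * 2 ^ d) : ℝ) *
        sg1 d t S (fun i : S => g i) =
      avgP (fun g : Perm (Cube (d + 1)) => tst d t S (g ∘ js d S)) := by
  have hc : (Fintype.card (Perm (Cube (d + 1))) : ℝ) = (Nat.factorial (2 * 2 ^ d) : ℝ) := by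
    rw [Fintype.card_perm, card_cube]
  rw [← Finset.mul_sum, avgP, hc, div_mul_eq_mul_div, one_mul]
  congr 1
  rw [← Equiv.sum_comp ((enc d).permCongrHom.toEquiv.trans (Equiv.mulLeft ((rot d) ^ t)⁻¹))]
  apply Finset.sum_congr rfl
  intro g _
  rw [tst]
  congr 1
  funext i
  have h4 : (((enc d).permCongrHom.toEquiv.trans (Equiv.mulLeft ((rot d) ^ t)⁻¹)) g ∘ js d S)
      (S.equivFin i) = ((rot d) ^ t).symm (enc d (g i)) := by
    rw [Function.comp_apply, js_equivFin]
    change ((rot d) ^ t)⁻¹ (enc d (g ((enc d).symm (enc d i)))) = _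
    rw [symm_apply_apply]
    rfl
  rw [h4, apply_symm_apply, symm_apply_apply]

end SetTVAux

open SetTVAux in
theorem setTV_le (d t F : ℕ) (ht : d + 1 ≤ t) (hF0 : 0 < F) (S : Finset (Fin (2 * 2 ^ d)))
    (hS : S.card + F ≤ 2 ^ (d + 1)) :
    setTV (2 ^ d) t S ≤ S.card * (Real.sqrt (2 ^ (d + 1)) *
        Real.sqrt ((1 - F / (8 * 2 ^ (d + 1))) ^ (t - (d + 1)) +
          (16 * 2 ^ (d + 1) / F) * (3 / 4) ^ F)) / 2 := by
  have h1 : setTV (2 ^ d) t S = (1 / 2) * ∑ x : S → Fin (2 * 2 ^ d), |exc d t S x| := rfl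
  have h2 : ∑ x : S → Fin (2 * 2 ^ d), |exc d t S x| =
      Kl (dirs (d + 1) t) (tst d t S) (js d S) -
        avgP (fun g : Perm (Cube (d + 1)) => tst d t S (g ∘ js d S)) := by
    rw [sum_exc, ← sum_law, ← sum_unif, ← Finset.sum_sub_distrib]
    apply Finset.sum_congr rfl
    intro g _
    ring
  have h3 := thmA2 (d := d + 1) t ht S.card F hS hF0 (tst d t S) (fun e => abs_sg1 d t S _)
    (js d S) (js d S) (js_inj d S) (js_inj d S)
  have h4 := (le_abs_self _).trans h3
  rw [h1, h2]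
  linarith

end

end Vale.Agent.P162
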