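import Mathlib

/-! # The Thorp shuffle of a deck of `2 * h` cards -/

namespace Vale.Agent.P162

open Finset Equiv

noncomputable section

/-- The new position of the card at position `i` (positions `0, …, 2h - 1`) when the coins are
`c`: for `k < h` the cards at positions `k` and `h + k` go to the positions `2k` and `2k + 1`,
in this order if `c k` is `false` and in the other order if `c k` is `true`. -/
def thorpPos (h : ℕ) (c : ℕ → Bool) (i : ℕ) : ℕ :=
  if i < h then 2 * i + (if c i then 1 else 0)
  else 2 * (i - h) + (if c (i - h) then 0 else 1)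

/-- the law `q` of one Thorp shuffle: the fraction of the coin sequences producing `g` -/
def thorpLaw (h : ℕ) (g : Perm (Fin (2 * h))) : ℝ :=
  ((univ.filter fun c : Fin h → Bool =>
    ∀ i, (g i : ℕ) = thorpPos h (fun k => if hk : k < h then c ⟨k, hk⟩ else false) i).card : ℝ)
    / 2 ^ h

/-- the `t`-fold convolution power of the law of one shuffle -/
def convPow (h : ℕ) : ℕ → Perm (Fin (2 * h)) → ℝ
  | 0, g => if g = 1 then 1 else 0
  | t + 1, g => ∑ k, thorpLaw h k * convPow h t (k⁻¹ * g)

/-- total variation distance from uniform after `t` shuffles -/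
def tvDist (h t : ℕ) : ℝ :=
  (1 / 2) * ∑ g : Perm (Fin (2 * h)), |convPow h t g - 1 / (Nat.factorial (2 * h) : ℝ)|

/-- the mixing time of the Thorp shuffle of `2 * h` cards -/
def tmix (h : ℕ) : ℕ := sInf {t | tvDist h t ≤ 1 / 4}

end

end Vale.Agent.P162
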